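import Crest.Agent.R78.AmpB

/-! # Row 78: amplification API -/

set_option autoImplicit false
set_option linter.unusedSectionVars false

namespace Crest.Agent.R78

open scoped InnerProductSpace ComplexOrder BigOperators Topology
open Filter
open Crest.Agent.R124 (Op cm)
open Crest.OpAlg (LineCalculus)

universe u

variable {H : Type u} [NormedAddCommGroup H] [InnerProductSpace ℂ H] [CompleteSpace H]

variable {ι : Type}

/-! ## finite matrices -/

section mat
variable [Fintype ι] [DecidableEq ι]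

lemma ofMat_apply (x : Matrix ι ι (Op H)) (f : Amp ι H) (i : ι) :
    ofMat x f i = ∑ j, x i j (f j) := by
  have h : ∀ k, (∑ j, (inj k ∘L (x k j ∘L prj j) : Op (Amp ι H))) f =
      inj k (∑ j, x k j (f j)) := fun k => by
    rw [sum_apply, map_sum]
    rfl
  unfold ofMat
  rw [sum_apply, ← prj_apply, map_sum, Finset.sum_eq_single i]
  · rw [h, prj_apply, inj_apply_self]
  · intro k _ hk
    rw [h, prj_apply, inj_apply_ne (Ne.symm hk)]
  · intro h; exact absurd (Finset.mem_univ i) h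

lemma ent_ofMat (x : Matrix ι ι (Op H)) (i j : ι) : ent (ofMat x) i j = x i j := by
  ext1 ξ
  rw [ent_apply, ofMat_apply, Finset.sum_eq_single j]
  · rw [inj_apply_self]
  · intro k _ hk
    rw [inj_apply_ne hk, map_zero]
  · intro h; exact absurd (Finset.mem_univ j) h

lemma ofMat_ent (T : Op (Amp ι H)) : ofMat (Matrix.of fun i j => ent T i j) = T := by
  exact ext_ent fun i j => by rw [ent_ofMat, Matrix.of_apply]

lemma ofMat_injective : Function.Injective (ofMat : Matrix ι ι (Op H) → Op (Amp ι H)) := by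
  intro x y h
  ext1 i j
  rw [← ent_ofMat x, ← ent_ofMat y, h]

lemma ofMat_mul (x y : Matrix ι ι (Op H)) : ofMat (x * y) = ofMat x * ofMat y := by
  ext1 f
  refine lp.ext (funext fun i => ?_)
  rw [mul_apply_eq_comp, ofMat_apply, ofMat_apply]
  simp only [ofMat_apply, Matrix.mul_apply, sum_apply, map_sum, mul_apply_eq_comp]
  exact Finset.sum_comm

lemma ofMat_add (x y : Matrix ι ι (Op H)) : ofMat (x + y) = ofMat x + ofMat y := by
  exact ext_ent fun i j => by rw [ent_add, ent_ofMat, ent_ofMat, ent_ofMat, Matrix.add_apply]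

lemma ofMat_sub (x y : Matrix ι ι (Op H)) : ofMat (x - y) = ofMat x - ofMat y := by
  exact ext_ent fun i j => by rw [ent_sub, ent_ofMat, ent_ofMat, ent_ofMat, Matrix.sub_apply]

lemma ofMat_smul (c : ℂ) (x : Matrix ι ι (Op H)) : ofMat (c • x) = c • ofMat x := by
  exact ext_ent fun i j => by rw [ent_smul, ent_ofMat, ent_ofMat, Matrix.smul_apply]

lemma ofMat_one : ofMat (1 : Matrix ι ι (Op H)) = 1 := by
  ext1 f
  refine lp.ext (funext fun i => ?_)
  rw [ofMat_apply, Finset.sum_eq_single i]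
  · rw [Matrix.one_apply_eq]; rfl
  · intro k _ hk
    rw [Matrix.one_apply_ne (Ne.symm hk)]; rfl
  · intro h; exact absurd (Finset.mem_univ i) h

lemma ofMat_star (x : Matrix ι ι (Op H)) : ofMat (star x) = star (ofMat x) := by
  exact ext_ent fun i j => by rw [ent_star, ent_ofMat, ent_ofMat, Matrix.star_apply]

lemma norm_sq_eq_sum (f : Amp ι H) : ‖f‖ ^ 2 = ∑ i, ‖f i‖ ^ 2 := by
  exact (hasSum_norm_sq f).unique (hasSum_fintype _)

lemma matB_iff {x : Matrix ι ι (Op H)} {r : ℝ} (hr : 0 ≤ r) : MatB x r ↔ ‖ofMat x‖ ≤ r := by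
  constructor
  · intro h
    refine ContinuousLinearMap.opNorm_le_bound _ hr fun f => ?_
    refine (sq_le_sq₀ (norm_nonneg _) (by positivity)).1 ?_
    rw [mul_pow, norm_sq_eq_sum, norm_sq_eq_sum]
    simpa only [ofMat_apply] using h (fun j => f j)
  · intro h α
    let f : Amp ι H := ⟨α, Memℓp.all α⟩
    have h1 : ‖ofMat x f‖ ≤ r * ‖f‖ := (ofMat x).le_of_opNorm_le h f
    have h2 := (sq_le_sq₀ (norm_nonneg _) (by positivity)).2 h1
    rw [mul_pow, norm_sq_eq_sum, norm_sq_eq_sum] at h2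
    simpa only [ofMat_apply] using h2

lemma MatB.star {x : Matrix ι ι (Op H)} {r : ℝ} (hr : 0 ≤ r) (h : MatB x r) :
    MatB (star x) r := by
  rw [matB_iff hr] at h ⊢
  rwa [ofMat_star, norm_star]

lemma MatB.col {x : Matrix ι ι (Op H)} {r : ℝ} (h : MatB x r) (j : ι) (ζ : H) :
    ∑ i, ‖x i j ζ‖ ^ 2 ≤ r ^ 2 * ‖ζ‖ ^ 2 := by
  have h1 := h (Pi.single j ζ)
  have h2 : ∀ i, ∑ k, x i k ((Pi.single j ζ : ι → H) k) = x i j ζ := fun i => by
    rw [Finset.sum_eq_single j]
    · rw [Pi.single_eq_same]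
    · intro k _ hk
      rw [Pi.single_eq_of_ne hk, map_zero]
    · intro h; exact absurd (Finset.mem_univ j) h
  have h3 : ∑ k, ‖(Pi.single j ζ : ι → H) k‖ ^ 2 = ‖ζ‖ ^ 2 := by
    rw [Finset.sum_eq_single j]
    · rw [Pi.single_eq_same]
    · intro k _ hk
      rw [Pi.single_eq_of_ne hk]; simp
    · intro h; exact absurd (Finset.mem_univ j) h
  simpa only [h2, h3] using h1

lemma MatB.row {x : Matrix ι ι (Op H)} {r : ℝ} (hr : 0 ≤ r) (h : MatB x r) (i : ι) (ζ : H) :
    ∑ j, ‖Star.star (x i j) ζ‖ ^ 2 ≤ r ^ 2 * ‖ζ‖ ^ 2 := by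
  exact (h.star hr).col i ζ

lemma matB_unitary {x : Matrix ι ι (Op H)} (hx : x ∈ unitary (Matrix ι ι (Op H))) : MatB x 1 := by
  rw [matB_iff zero_le_one]
  have h : ofMat x ∈ unitary (Op (Amp ι H)) := by
    constructor
    · rw [← ofMat_star, ← ofMat_mul, hx.1, ofMat_one]
    · rw [← ofMat_star, ← ofMat_mul, hx.2, ofMat_one]
  rcases subsingleton_or_nontrivial (Op (Amp ι H)) with h' | h'
  · rw [Subsingleton.elim (ofMat x) 0]; simp
  · exact (CStarRing.norm_of_mem_unitary h).le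

end mat

theorem mat_approx : ∃ C : ℝ, 1 ≤ C ∧ ∀ (H : Type u) [NormedAddCommGroup H] [InnerProductSpace ℂ H] [CompleteSpace H] (M N : VN H) (δ : ℝ), 0 ≤ δ → CL M N δ →
    ∀ (D : Type) [Fintype D] [DecidableEq D] (A : Matrix D D (Op H)), (∀ i j, A i j ∈ M) →
    MatB A 1 → ∃ A' : Matrix D D (Op H), (∀ i j, A' i j ∈ N) ∧ MatB (A - A') (C * δ) := by
  obtain ⟨C, hC, h⟩ := cl_ampB.{u}
  refine ⟨C, hC, ?_⟩
  intro H _ _ _ M N δ hδ hcl D _ _ A hA hA1
  have hC0 : 0 ≤ C * δ := by positivity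
  rcases isEmpty_or_nonempty D with hD | hD
  · exact ⟨A, fun i => isEmptyElim i, fun α => by simp⟩
  obtain ⟨y, hy, hy2⟩ := (h H D M N δ hδ hcl).1 (ofMat A)
    (mem_ampB.2 fun i j => by rw [ent_ofMat]; exact hA i j)
  refine ⟨Matrix.of fun i j => ent y i j, fun i j => mem_ampB.1 hy i j, ?_⟩
  rw [matB_iff hC0, ofMat_sub, ofMat_ent]
  rw [matB_iff zero_le_one] at hA1
  exact hy2.trans (mul_le_of_le_one_right hC0 hA1)

end Crest.Agent.R78
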