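import Crest.Agent.R78.Dist

/-! # Row 78: amplification API -/

set_option autoImplicit false
set_option linter.unusedSectionVars false

namespace Crest.Agent.R78

open scoped InnerProductSpace ComplexOrder BigOperators Topology
open Filter
open Crest.Agent.R124 (Op cm)
open Crest.OpAlg (LineCalculus)

universe u

variable {H : Type u} [NormedAddCommGroup H] [InnerProductSpace ℂ H] [CompleteSpace H]

variable {ι : Type}

lemma prj_apply (i : ι) (f : Amp ι H) : prj i f = f i := rfl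

lemma dg_apply (x : Op H) (f : Amp ι H) (i : ι) : dg ι x f i = x (f i) := rfl

lemma dgf_apply {x : ι → Op H} {K : ℝ} (h : ∀ i, ‖x i‖ ≤ K) (f : Amp ι H) (i : ι) :
    dgf x f i = x i (f i) := by
  have h' : ∃ K : ℝ, 0 ≤ K ∧ ∀ i, ‖x i‖ ≤ K := ⟨K, (norm_nonneg _).trans (h i), h⟩
  unfold dgf
  rw [dif_pos h']
  rfl

lemma hasSum_norm_sq (f : Amp ι H) : HasSum (fun i => ‖f i‖ ^ 2) (‖f‖ ^ 2) := by
  simpa using lp.hasSum_norm (p := 2) (by norm_num) f

lemma dg_mul (x y : Op H) : dg ι (x * y) = dg ι x * dg ι y := by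
  ext1 f; exact lp.ext (funext fun i => rfl)

lemma dg_add (x y : Op H) : dg ι (x + y) = dg ι x + dg ι y := by
  ext1 f; exact lp.ext (funext fun i => rfl)

lemma dg_sub (x y : Op H) : dg ι (x - y) = dg ι x - dg ι y := by
  ext1 f; exact lp.ext (funext fun i => rfl)

lemma dg_neg (x : Op H) : dg ι (-x) = -dg ι x := by
  ext1 f; exact lp.ext (funext fun i => rfl)

lemma dg_smul (c : ℂ) (x : Op H) : dg ι (c • x) = c • dg ι x := by
  ext1 f; exact lp.ext (funext fun i => rfl)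

lemma dg_one : dg ι (1 : Op H) = 1 := by
  ext1 f; exact lp.ext (funext fun i => rfl)

lemma dg_star (x : Op H) : dg ι (star x) = star (dg ι x) := by
  rw [ContinuousLinearMap.star_eq_adjoint (dg ι x), ContinuousLinearMap.eq_adjoint_iff]
  intro f g
  rw [lp.inner_eq_tsum, lp.inner_eq_tsum]
  refine tsum_congr fun i => ?_
  rw [dg_apply, dg_apply, ContinuousLinearMap.star_eq_adjoint,
    ContinuousLinearMap.adjoint_inner_left]

lemma norm_dg_le (x : Op H) : ‖dg ι x‖ ≤ ‖x‖ := by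
  exact lp.norm_mapCLM_le _ _ _ _

lemma norm_dg [Nonempty ι] (x : Op H) : ‖dg ι x‖ = ‖x‖ := by
  classical
  refine le_antisymm (norm_dg_le x) (ContinuousLinearMap.opNorm_le_bound _ (norm_nonneg _) ?_)
  intro ξ
  obtain ⟨i⟩ := ‹Nonempty ι›
  have h1 : ‖(lp.single 2 i ξ : Amp ι H)‖ = ‖ξ‖ :=
    lp.norm_single (E := fun _ : ι => H) (p := 2) (by norm_num) i ξ
  have h2 : dg ι x (lp.single 2 i ξ) i = x ξ := by
    rw [dg_apply, lp.single_apply_self]
  rw [← h2, ← h1]
  exact (lp.norm_apply_le_norm (by norm_num) _ i).trans ((dg ι x).le_opNorm _)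

lemma dg_unitary {x : Op H} (hx : x ∈ unitary (Op H)) : dg ι x ∈ unitary (Op (Amp ι H)) := by
  constructor
  · rw [← dg_star, ← dg_mul, hx.1, dg_one]
  · rw [← dg_star, ← dg_mul, hx.2, dg_one]

lemma dgf_const (x : Op H) : dgf (fun _ : ι => x) = dg ι x := by
  ext1 f
  exact lp.ext (funext fun i => dgf_apply (fun _ => le_rfl) f i)

lemma norm_dgf_le {x : ι → Op H} {K : ℝ} (hK : 0 ≤ K) (h : ∀ i, ‖x i‖ ≤ K) : ‖dgf x‖ ≤ K := by
  have : dgf x = lp.mapCLM 2 x hK h := by
    ext1 f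
    exact lp.ext (funext fun i => dgf_apply h f i)
  rw [this]
  exact lp.norm_mapCLM_le _ _ _ _

lemma dgf_mul {x y : ι → Op H} {K K' : ℝ} (h : ∀ i, ‖x i‖ ≤ K) (h' : ∀ i, ‖y i‖ ≤ K') :
    dgf (fun i => x i * y i) = dgf x * dgf y := by
  ext1 f
  refine lp.ext (funext fun i => ?_)
  have h2 : ∀ i, ‖x i * y i‖ ≤ K * K' := fun i =>
    (norm_mul_le _ _).trans (mul_le_mul (h i) (h' i) (norm_nonneg _) ((norm_nonneg _).trans (h i)))
  rw [dgf_apply h2, mul_apply_eq_comp, mul_apply_eq_comp, dgf_apply h, dgf_apply h']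

lemma dgf_star {x : ι → Op H} {K : ℝ} (h : ∀ i, ‖x i‖ ≤ K) :
    dgf (fun i => star (x i)) = star (dgf x) := by
  rw [ContinuousLinearMap.star_eq_adjoint (dgf x), ContinuousLinearMap.eq_adjoint_iff]
  intro f g
  rw [lp.inner_eq_tsum, lp.inner_eq_tsum]
  refine tsum_congr fun i => ?_
  have h2 : ∀ i, ‖star (x i)‖ ≤ K := fun i => by rw [norm_star]; exact h i
  rw [dgf_apply h2, dgf_apply h, ContinuousLinearMap.star_eq_adjoint,
    ContinuousLinearMap.adjoint_inner_left]

lemma dgf_unitary {x : ι → Op H} (h : ∀ i, x i ∈ unitary (Op H)) :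
    dgf x ∈ unitary (Op (Amp ι H)) := by
  have h1 : ∀ i, ‖x i‖ ≤ 1 := fun i => by
    rcases subsingleton_or_nontrivial H with h' | h'
    · rw [Subsingleton.elim (x i) 0]; simp
    · exact (CStarRing.norm_of_mem_unitary (h i)).le
  have h2 : ∀ i, ‖star (x i)‖ ≤ 1 := fun i => by rw [norm_star]; exact h1 i
  constructor
  · rw [← dgf_star h1, ← dgf_mul h2 h1]
    simp only [(h _).1]
    rw [dgf_const, dg_one]
  · rw [← dgf_star h1, ← dgf_mul h1 h2]
    simp only [(h _).2]
    rw [dgf_const, dg_one]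

/-- dominated convergence -/
lemma tendsto_dgf {α : Type*} {l : Filter α} {x : α → ι → Op H} (h : ∀ a i, ‖x a i‖ ≤ 1)
    (hx : ∀ i ξ, Tendsto (fun a => x a i ξ) l (𝓝 ξ)) (f : Amp ι H) :
    Tendsto (fun a => dgf (x a) f) l (𝓝 f) := by
  rw [tendsto_iff_norm_sub_tendsto_zero]
  have h1 : ∀ a, ‖dgf (x a) f - f‖ ^ 2 = ∑' i, ‖x a i (f i) - f i‖ ^ 2 := fun a => by
    rw [← (hasSum_norm_sq _).tsum_eq]
    refine tsum_congr fun i => ?_
    rw [lp.coeFn_sub, Pi.sub_apply, dgf_apply (h a)]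
  have h2 : Tendsto (fun a => ∑' i, ‖x a i (f i) - f i‖ ^ 2) l (𝓝 (∑' _ : ι, (0 : ℝ))) := by
    refine tendsto_tsum_of_dominated_convergence (bound := fun i => 4 * ‖f i‖ ^ 2)
      ((hasSum_norm_sq f).summable.mul_left 4) (fun i => ?_) (Eventually.of_forall fun a i => ?_)
    · have := (tendsto_iff_norm_sub_tendsto_zero.1 (hx i (f i))).pow 2
      simpa using this
    · rw [Real.norm_of_nonneg (by positivity)]
      have h3 : ‖x a i (f i)‖ ≤ ‖f i‖ := by
        simpa using (x a i).le_of_opNorm_le (h a i) (f i)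
      have h4 : ‖x a i (f i) - f i‖ ≤ 2 * ‖f i‖ := by
        have := norm_sub_le (x a i (f i)) (f i)
        linarith
      calc ‖x a i (f i) - f i‖ ^ 2 ≤ (2 * ‖f i‖) ^ 2 := by gcongr
        _ = 4 * ‖f i‖ ^ 2 := by ring
  rw [tsum_zero] at h2
  have h3 := h2.sqrt
  simp only [← h1, Real.sqrt_sq (norm_nonneg _), Real.sqrt_zero] at h3
  exact h3

lemma separable_amp [Countable ι] [TopologicalSpace.SeparableSpace H] :
    TopologicalSpace.SeparableSpace (Amp ι H) := by
  classical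
  rw [← TopologicalSpace.isSeparable_univ_iff]
  have h1 : TopologicalSpace.IsSeparable (⋃ n : ι, Set.range (inj (H := H) n)) :=
    .iUnion fun n => TopologicalSpace.isSeparable_range (map_continuous _)
  refine (h1.span (R := ℂ)).closure.mono fun f _ => ?_
  refine mem_closure_of_tendsto (lp.hasSum_single (by norm_num) f) (.of_forall fun s => ?_)
  exact Submodule.sum_mem _ fun n _ =>
    Submodule.subset_span (Set.mem_iUnion.2 ⟨n, f n, rfl⟩)

lemma ampB_commutant (M : VN H) : (ampB ι M).commutant = dgA ι M.commutant := by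
  unfold dgA
  rw [VonNeumannAlgebra.commutant_commutant]

lemma dgA_commutant (M : VN H) : (dgA ι M).commutant = ampB ι M.commutant := by
  unfold dgA
  rw [VonNeumannAlgebra.commutant_commutant]

lemma dg_mem_dgA {M : VN H} {x : Op H} (hx : x ∈ M) : dg ι x ∈ dgA ι M := by
  unfold dgA ampB
  refine subset_cmt_commutant _ ⟨x, ?_, rfl⟩
  rw [VonNeumannAlgebra.commutant_commutant]
  exact hx

lemma dg_mem_ampB {M : VN H} {x : Op H} (hx : x ∈ M) : dg ι x ∈ ampB ι M := by
  refine mem_cmt.2 ?_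
  rintro _ ⟨y, hy, rfl⟩
  constructor
  · rw [← dg_mul, ← dg_mul, (commute_of_mem hx hy).eq]
  · rw [← dg_star, ← dg_mul, ← dg_mul, (commute_of_mem hx (star_mem hy)).eq]

namespace AmpA

lemma memℓp_comp (e : ι ≃ ι) (f : Amp ι H) : Memℓp (fun k => f (e k)) 2 := by
  refine memℓp_gen ?_
  have := (e.summable_iff (f := fun i => ‖f i‖ ^ 2)).2 (hasSum_norm_sq f).summable
  simpa [Function.comp_def] using this

/-- reindexing -/
noncomputable def reix (e : ι ≃ ι) : Amp ι H →ₗᵢ[ℂ] Amp ι H where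
  toFun f := ⟨fun k => f (e k), memℓp_comp e f⟩
  map_add' f g := lp.ext (funext fun _ => rfl)
  map_smul' c f := lp.ext (funext fun _ => rfl)
  norm_map' f := by
    refine (sq_eq_sq₀ (norm_nonneg _) (norm_nonneg _)).1 ?_
    exact (hasSum_norm_sq _).unique
      ((e.hasSum_iff (f := fun i => ‖f i‖ ^ 2)).2 (hasSum_norm_sq f))

lemma reix_apply (e : ι ≃ ι) (f : Amp ι H) (k : ι) : reix e f k = f (e k) := rfl

end AmpA

theorem exists_shift (H : Type u) [NormedAddCommGroup H] [InnerProductSpace ℂ H] [CompleteSpace H] : ∃ s : Op (Amp ℤ H), IsShift s := by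
  let e : ℤ ≃ ℤ := Equiv.subRight 1
  have hsurj : Function.Surjective (AmpA.reix (H := H) e) := fun g =>
    ⟨AmpA.reix e.symm g, lp.ext (funext fun k => by
      rw [AmpA.reix_apply, AmpA.reix_apply, Equiv.symm_apply_apply])⟩
  let u := LinearIsometryEquiv.ofSurjective _ hsurj
  exact ⟨(Unitary.linearIsometryEquiv.symm u : unitary (Op (Amp ℤ H))),
    (Unitary.linearIsometryEquiv.symm u).2, fun f k => rfl⟩

end Crest.Agent.R78
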