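import Crest.Agent.R78.AmpA

/-! # Row 78: amplification API -/

set_option autoImplicit false
set_option linter.unusedSectionVars false

namespace Crest.Agent.R78

open scoped InnerProductSpace ComplexOrder BigOperators Topology
open Filter
open Crest.Agent.R124 (Op cm)
open Crest.OpAlg (LineCalculus)

universe u

variable {H : Type u} [NormedAddCommGroup H] [InnerProductSpace ℂ H] [CompleteSpace H]

variable {ι : Type}

section dec
variable [DecidableEq ι]

lemma inj_apply (i : ι) (ξ : H) (j : ι) : (inj i ξ : Amp ι H) j = if j = i then ξ else 0 := by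
  change (lp.single 2 i ξ : Amp ι H) j = _
  rw [lp.single_apply]
  split_ifs with h
  · subst h; simp
  · simp [Pi.single_eq_of_ne h]

lemma inj_apply_self (i : ι) (ξ : H) : (inj i ξ : Amp ι H) i = ξ := by
  simp [inj_apply]

lemma inj_apply_ne {i j : ι} (h : j ≠ i) (ξ : H) : (inj i ξ : Amp ι H) j = 0 := by
  simp [inj_apply, h]

lemma inner_inj_left (i : ι) (ξ : H) (f : Amp ι H) : ⟪inj i ξ, f⟫_ℂ = ⟪ξ, f i⟫_ℂ := by
  exact lp.inner_single_left (𝕜 := ℂ) (G := fun _ : ι => H) i ξ f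

lemma adjoint_inj (i : ι) :
    ContinuousLinearMap.adjoint (inj i : H →L[ℂ] Amp ι H) = prj i := by
  exact ((ContinuousLinearMap.eq_adjoint_iff _ _).2 fun f ξ => by
    rw [← inner_conj_symm, ← inner_conj_symm f, inner_inj_left]; rfl).symm

lemma adjoint_prj (i : ι) :
    ContinuousLinearMap.adjoint (prj i : Amp ι H →L[ℂ] H) = inj i := by
  rw [← adjoint_inj, ContinuousLinearMap.adjoint_adjoint]

lemma iso_inj (i : ι) : Iso (inj i : H →L[ℂ] Amp ι H) := by
  exact fun ξ => lp.norm_single (E := fun _ : ι => H) (p := 2) (by norm_num) i ξ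

lemma hasSum_inj (f : Amp ι H) : HasSum (fun i => (inj i (f i) : Amp ι H)) f := by
  exact lp.hasSum_single (by norm_num) f

lemma dg_inj (x : Op H) (i : ι) (ξ : H) : dg ι x (inj i ξ) = inj i (x ξ) := by
  refine lp.ext (funext fun j => ?_)
  rw [dg_apply, inj_apply, inj_apply]
  split_ifs <;> simp

lemma dgf_inj {x : ι → Op H} {K : ℝ} (h : ∀ i, ‖x i‖ ≤ K) (i : ι) (ξ : H) :
    dgf x (inj i ξ) = inj i (x i ξ) := by
  refine lp.ext (funext fun j => ?_)
  rw [dgf_apply h, inj_apply, inj_apply]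
  split_ifs with hj
  · rw [hj]
  · simp

lemma itw_inj (i : ι) (x : Op H) : Itw (inj i : H →L[ℂ] Amp ι H) x (dg ι x) := by
  exact ⟨dg_inj x i, fun k => by rw [← dg_star]; exact dg_inj _ i k⟩

lemma ent_apply (T : Op (Amp ι H)) (i j : ι) (ξ : H) : ent T i j ξ = T (inj j ξ) i := rfl

lemma cmp_inj (T : Op (Amp ι H)) (i : ι) : cmp (inj i : H →L[ℂ] Amp ι H) T = ent T i i := by
  rw [cmp, adjoint_inj]; rfl

lemma ent_star (T : Op (Amp ι H)) (i j : ι) : ent (star T) i j = star (ent T j i) := by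
  ext1 ξ
  refine ext_inner_left ℂ fun η => ?_
  rw [ent_apply, ← inner_inj_left, R124.inner_star_right, R124.inner_star_right, ent_apply,
    ← inner_conj_symm, inner_inj_left, inner_conj_symm]

lemma ent_add (T T' : Op (Amp ι H)) (i j : ι) : ent (T + T') i j = ent T i j + ent T' i j := by
  ext1 ξ; rfl

lemma ent_sub (T T' : Op (Amp ι H)) (i j : ι) : ent (T - T') i j = ent T i j - ent T' i j := by
  ext1 ξ; rfl

lemma ent_smul (c : ℂ) (T : Op (Amp ι H)) (i j : ι) : ent (c • T) i j = c • ent T i j := by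
  ext1 ξ; rfl

lemma norm_ent_le (T : Op (Amp ι H)) (i j : ι) : ‖ent T i j‖ ≤ ‖T‖ := by
  refine ContinuousLinearMap.opNorm_le_bound _ (norm_nonneg _) fun ξ => ?_
  rw [ent_apply, ← iso_inj j ξ]
  exact (lp.norm_apply_le_norm (by norm_num) _ i).trans (T.le_opNorm _)

lemma ent_dgf_mul {x : ι → Op H} {K : ℝ} (h : ∀ i, ‖x i‖ ≤ K) (T : Op (Amp ι H)) (i j : ι) :
    ent (dgf x * T) i j = x i * ent T i j := by
  ext1 ξ
  exact dgf_apply h _ _

lemma ent_mul_dgf {x : ι → Op H} {K : ℝ} (h : ∀ i, ‖x i‖ ≤ K) (T : Op (Amp ι H)) (i j : ι) :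
    ent (T * dgf x) i j = ent T i j * x j := by
  ext1 ξ
  rw [ent_apply, mul_apply_eq_comp, dgf_inj h]; rfl

lemma ent_dg_mul (x : Op H) (T : Op (Amp ι H)) (i j : ι) :
    ent (dg ι x * T) i j = x * ent T i j := by
  ext1 ξ; rfl

lemma ent_mul_dg (x : Op H) (T : Op (Amp ι H)) (i j : ι) :
    ent (T * dg ι x) i j = ent T i j * x := by
  ext1 ξ
  rw [ent_apply, mul_apply_eq_comp, dg_inj]; rfl

lemma ext_ent {T T' : Op (Amp ι H)} (h : ∀ i j, ent T i j = ent T' i j) : T = T' := by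
  refine lp.ext_continuousLinearMap (by norm_num) fun j => ContinuousLinearMap.ext fun ξ => ?_
  exact lp.ext (funext fun i => congrArg (fun a : Op H => a ξ) (h i j))

/-- the matrix unit `x ⊗ e_{ij}` -/
lemma ent_unit (x : Op H) (i j k l : ι) :
    ent ((inj i ∘L (x ∘L prj j) : Amp ι H →L[ℂ] Amp ι H)) k l =
      if k = i ∧ l = j then x else 0 := by
  ext1 ξ
  change (inj i (x ((inj l ξ : Amp ι H) j)) : Amp ι H) k = _
  rw [inj_apply, inj_apply]
  by_cases h1 : k = i <;> by_cases h2 : l = j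
  · simp [h1, h2]
  · simp [h1, h2, Ne.symm h2]
  · simp [h1]
  · simp [h1]

theorem mem_ampB {M : VN H} {T : Op (Amp ι H)} : T ∈ ampB ι M ↔ ∀ i j, ent T i j ∈ M := by
  rw [ampB, mem_cmt]
  constructor
  · intro h i j
    refine mem_of_commute fun y hy => ?_
    have := congrArg (fun S => ent S i j) (h _ ⟨y, hy, rfl⟩).1
    simp only [ent_dg_mul, ent_mul_dg] at this
    exact this.symm
  · rintro h _ ⟨y, hy, rfl⟩
    rw [← dg_star]
    constructor <;> refine ext_ent fun i j => ?_ <;> rw [ent_dg_mul, ent_mul_dg]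
    · exact (commute_of_mem (h i j) hy).eq.symm
    · exact (commute_of_mem (h i j) (star_mem hy)).eq.symm

theorem mem_dgA [Nonempty ι] {M : VN H} {T : Op (Amp ι H)} :
    T ∈ dgA ι M ↔ ∃ x ∈ M, T = dg ι x := by
  refine ⟨fun h => ?_, by rintro ⟨x, hx, rfl⟩; exact dg_mem_dgA hx⟩
  obtain ⟨i₀⟩ := ‹Nonempty ι›
  have hu : ∀ i j k : ι, ent T k i = if k = i then ent T j j else 0 := fun i j k => by
    have hm : (inj i ∘L ((1 : Op H) ∘L prj j) : Amp ι H →L[ℂ] Amp ι H) ∈ ampB ι M.commutant :=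
      mem_ampB.2 fun k l => by
        rw [ent_unit]
        split_ifs
        exacts [one_mem _, zero_mem _]
    have hc := (commute_of_mem hm h).eq
    ext1 ξ
    have h1 : (inj i (T (inj j ξ) j) : Amp ι H) k = T (inj i ((inj j ξ : Amp ι H) j)) k :=
      congrArg (fun S : Op (Amp ι H) => S (inj j ξ) k) hc
    rw [inj_apply_self, inj_apply] at h1
    rw [ent_apply, ← h1]
    split_ifs <;> rfl
  have hT : T = dg ι (ent T i₀ i₀) := ext_ent fun k i => by
    rw [hu i i₀ k]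
    ext1 ξ
    rw [ent_apply (dg ι _), dg_inj, inj_apply]
    split_ifs <;> rfl
  refine ⟨ent T i₀ i₀, mem_of_commute fun y hy => ?_, hT⟩
  have := congrArg (fun S => ent S i₀ i₀) (commute_of_mem (dg_mem_ampB (ι := ι) hy) h).eq
  simp only [ent_dg_mul, ent_mul_dg] at this
  exact this.symm

theorem cl_dgA [Nonempty ι] {M N : VN H} {δ : ℝ} (h : CL M N δ) : CL (dgA ι M) (dgA ι N) δ := by
  have key : ∀ {M N : VN H}, Near (M : Set (Op H)) (N : Set (Op H)) δ →
      Near (dgA ι M : Set (Op (Amp ι H))) (dgA ι N : Set (Op (Amp ι H))) δ := by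
    intro M N h T hT
    obtain ⟨x, hx, rfl⟩ := mem_dgA.1 hT
    obtain ⟨y, hy, hxy⟩ := h x hx
    exact ⟨dg ι y, dg_mem_dgA hy, by rwa [← dg_sub, norm_dg, norm_dg]⟩
  exact ⟨key h.1, key h.2⟩

end dec

theorem cl_ampB : ∃ C : ℝ, 1 ≤ C ∧ ∀ (H : Type u) [NormedAddCommGroup H] [InnerProductSpace ℂ H] [CompleteSpace H] (ι : Type) [DecidableEq ι] [Nonempty ι]
    (M N : VN H) (δ : ℝ), 0 ≤ δ → CL M N δ → CL (ampB ι M) (ampB ι N) (C * δ) := by
  obtain ⟨C, hC, h⟩ := cl_comm.{u}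
  refine ⟨C * C, one_le_mul_of_one_le_of_one_le hC hC, fun H _ _ _ ι _ _ M N δ hδ hMN => ?_⟩
  have h1 := h (Amp ι H) _ _ _ (by positivity) (cl_dgA (ι := ι) (h H M N δ hδ hMN))
  rwa [dgA_commutant, dgA_commutant, VonNeumannAlgebra.commutant_commutant,
    VonNeumannAlgebra.commutant_commutant, ← mul_assoc] at h1

end Crest.Agent.R78
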