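import Crest.Agent.R78.CfcB

/-! # Row 78: functional calculus lemmas -/

set_option autoImplicit false

namespace Crest.Agent.R78

open scoped InnerProductSpace ComplexOrder BigOperators Topology
open Filter
open Crest.Agent.R124 (Op cm)
open Crest.OpAlg (LineCalculus)

universe u

variable {H : Type u} [NormedAddCommGroup H] [InnerProductSpace ℂ H] [CompleteSpace H]

namespace Cfc

lemma re_star (z : Op H) (ξ : H) : (⟪ξ, star z ξ⟫_ℂ).re = (⟪ξ, z ξ⟫_ℂ).re := by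
  rw [R124.inner_star_right, ← inner_conj_symm, Complex.conj_re]

/-- polar decomposition of an invertible element of `M` -/
lemma polar {M : VN H} {m : Op H} (hm : m ∈ M) (hu : IsUnit m) :
    ∃ v a : Op H, UIn M v ∧ a ∈ M ∧ 0 ≤ a ∧ m = v * a := by
  have h0 : 0 ≤ star m * m := star_mul_self_nonneg m
  obtain ⟨a, ha0, haa, hac⟩ : ∃ a : Op H, 0 ≤ a ∧ a * a = star m * m ∧
      ∀ y, Commute (star m * m) y → Commute a y :=
    ⟨CFC.sqrt (star m * m), CFC.sqrt_nonneg _, CFC.sqrt_mul_sqrt_self _ h0,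
      fun y hy => hy.cfcₙ_nnreal _⟩
  have haM : a ∈ M := mem_of_commute fun y hy =>
    hac y (commute_of_mem (mul_mem (star_mem hm) hm) hy)
  have hau : IsUnit a := by
    have : IsUnit (a * a) := haa ▸ hu.star.mul hu
    exact ((Commute.refl a).isUnit_mul_iff.1 this).1
  obtain ⟨b, rfl⟩ := hau
  have hs : star (b : Op H) = b := ha0.isSelfAdjoint
  have hs' : star ((b⁻¹ : (Op H)ˣ) : Op H) = (b⁻¹ : (Op H)ˣ) := by
    have : star ((b⁻¹ : (Op H)ˣ) : Op H) * b = 1 := by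
      rw [← hs, ← star_mul, Units.mul_inv, star_one]
    exact (Units.eq_inv_of_mul_eq_one_right this)
  have hbM : ((b⁻¹ : (Op H)ˣ) : Op H) ∈ M := mem_of_commute fun y hy =>
    (commute_of_mem haM hy).units_inv_left
  have h1 : star (m * (b⁻¹ : (Op H)ˣ)) * (m * (b⁻¹ : (Op H)ˣ)) = 1 := by
    rw [star_mul, hs', mul_assoc, ← mul_assoc (star m), ← haa, mul_assoc, Units.mul_inv, mul_one,
      Units.inv_mul]
  refine ⟨m * (b⁻¹ : (Op H)ˣ), b, ⟨mul_mem hm hbM, ?_⟩, haM, ha0, by simp⟩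
  obtain ⟨c, hc⟩ := hu.mul (b⁻¹).isUnit
  rw [← hc] at h1 ⊢
  refine Unitary.mem_iff.2 ⟨h1, ?_⟩
  rw [Units.eq_inv_of_mul_eq_one_right h1, Units.mul_inv]

omit [CompleteSpace H] in
lemma norm_sub_one_le {P : Op H} (hP : 0 ≤ P) : ‖P - 1‖ ≤ ‖P * P - 1‖ := by
  refine ContinuousLinearMap.opNorm_le_bound _ (norm_nonneg _) fun ξ => ?_
  have e : (P * P - 1) ξ = P ((P - 1) ξ) + (P - 1) ξ := by
    have : P * P - 1 = P * (P - 1) + (P - 1) := by noncomm_ring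
    rw [this, add_apply, mul_apply_eq_comp]
  refine le_trans ?_ ((P * P - 1).le_opNorm ξ)
  rw [e]
  generalize (P - 1) ξ = η
  have h1 := ((ContinuousLinearMap.nonneg_iff_isPositive P).1 hP).re_inner_nonneg_left η
  refine (pow_le_pow_iff_left₀ (norm_nonneg _) (norm_nonneg _) two_ne_zero).1 ?_
  rw [norm_add_sq (𝕜 := ℂ)]
  nlinarith [sq_nonneg ‖P η‖]

end Cfc

/-- use `R121.exists_spec` in the von Neumann algebra `cmt (M ∪ M')` for `Re z` and `t < θ` -/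
theorem central_lower {M : VN H} {Ω : H} (hsep : ∀ x ∈ M, x Ω = 0 → x = 0) {z : Op H}
    (hz : z ∈ M) (hz' : z ∈ M.commutant) {θ : ℝ}
    (h : ∀ c, ZP M c → θ * ‖c Ω‖ ^ 2 ≤ (⟪c Ω, z (c Ω)⟫_ℂ).re) (ξ : H) :
    θ * ‖ξ‖ ^ 2 ≤ (⟪ξ, z ξ⟫_ℂ).re := by
  let Z : VN H := cmt ((M : Set (Op H)) ∪ (M.commutant : Set (Op H)))
  have hZ : ∀ x, x ∈ Z ↔ x ∈ M ∧ x ∈ M.commutant := fun x => by
    rw [mem_cmt]
    constructor
    · exact fun hx => ⟨mem_of_commute fun y hy => (hx y (Or.inr hy)).1.symm,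
        mem_commutant_of fun y hy => (hx y (Or.inl hy)).1⟩
    · rintro ⟨h1, h2⟩ s (hs | hs)
      · exact ⟨(commute_of_mem hs h2).eq, (commute_of_mem (star_mem hs) h2).eq⟩
      · exact ⟨(commute_of_mem h1 hs).eq.symm, (commute_of_mem h1 (star_mem hs)).eq.symm⟩
  have hzZ : z ∈ Z := (hZ z).2 ⟨hz, hz'⟩
  let d : R121.Alg Z := ⟨z + star z, add_mem hzZ (star_mem hzZ)⟩
  have hd : IsSelfAdjoint d := Subtype.ext (IsSelfAdjoint.add_star_self z)
  have hre : ∀ ζ, (⟪ζ, (d : Op H) ζ⟫_ℂ).re = 2 * (⟪ζ, z ζ⟫_ℂ).re := fun ζ => by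
    change (⟪ζ, z ζ + star z ζ⟫_ℂ).re = _
    rw [inner_add_right, Complex.add_re, Cfc.re_star, two_mul]
  have key : ∀ t < θ, t * ‖ξ‖ ^ 2 ≤ (⟪ξ, z ξ⟫_ℂ).re := fun t ht => by
    obtain ⟨q, hq, -, h1, h0, -⟩ := R121.exists_spec hd (2 * t)
    have hq' : IsStarProjection (q : Op H) := R121.proj_coe.2 hq
    have hc : (1 - (q : Op H)) ∈ Z := sub_mem (one_mem _) q.2
    have a1 := h _ ⟨((hZ _).1 hc).1, ((hZ _).1 hc).2, hq'.one_sub⟩
    have a2 := h0 ((1 - (q : Op H)) Ω) (by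
      rw [← mul_apply_eq_comp, hq'.mul_one_sub_self, zero_apply])
    rw [hre] at a2
    have a3 : (1 - (q : Op H)) Ω = 0 := by
      rw [← norm_eq_zero, ← sq_eq_zero_iff]
      nlinarith [sq_nonneg ‖(1 - (q : Op H)) Ω‖]
    have a4 := hsep _ ((hZ _).1 hc).1 a3
    have a5 := h1 ξ (by rw [← sub_eq_zero.1 a4, one_apply_eq_self])
    rw [hre] at a5
    linarith
  have t1 : Tendsto (fun t : ℝ => t * ‖ξ‖ ^ 2) (𝓝[<] θ) (𝓝 (θ * ‖ξ‖ ^ 2)) :=
    ((continuous_id.mul continuous_const).tendsto θ).mono_left nhdsWithin_le_nhds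
  exact le_of_tendsto t1 (eventually_nhdsWithin_of_forall key)

/-- `m, m', z` and their adjoints are bounded below, hence invertible; `m = v |m|`,
`m' = v' |m'|`, `z = ζ |z|` (`ζ` a central unitary); `(|m| |m'|)² = (w m' m)⋆ (w m' m)` is close
to `|z|²`, so `|m| |m'|` is close to `|z|` (`sq_lip`) and `w v' v` is close to `ζ`. -/
theorem gap_alg : ∃ C η₀ : ℝ, 0 < C ∧ 0 < η₀ ∧
    ∀ (H : Type u) [NormedAddCommGroup H] [InnerProductSpace ℂ H] [CompleteSpace H] (M : VN H) (w m m' z : Op H) (η : ℝ), w ∈ unitary (Op H) → m ∈ M →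
      m' ∈ M.commutant → z ∈ M → z ∈ M.commutant → ‖m‖ ≤ 2 → ‖m'‖ ≤ 2 → ‖z‖ ≤ 1 →
      (∀ ξ, 1 / 2 * ‖ξ‖ ^ 2 ≤ (⟪ξ, z ξ⟫_ℂ).re) → 0 ≤ η → η ≤ η₀ → ‖w * m' * m - z‖ ≤ η →
      NearG M w 1 (C * η) := by
  refine ⟨8, 1 / 4, by norm_num, by norm_num, ?_⟩
  intro H _ _ _ M w m m' z η hw hm hm' hz hz' _ _ _ hzl hη hη₀ hd
  have hzu : IsUnit z := by
    refine ContinuousLinearMap.isUnit_of_forall_le_norm_inner_map z (c := 1 / 2) (by norm_num)
      fun ξ => ?_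
    rw [norm_inner_symm]
    refine le_trans ?_ ((hzl ξ).trans (Complex.re_le_norm _))
    push_cast
    linarith
  obtain ⟨b, rfl⟩ := hzu
  have hbn : ‖((b⁻¹ : (Op H)ˣ) : Op H)‖ ≤ 2 := by
    refine ContinuousLinearMap.opNorm_le_bound _ zero_le_two fun ξ => ?_
    have h1 := (hzl (((b⁻¹ : (Op H)ˣ) : Op H) ξ)).trans
      ((Complex.re_le_norm _).trans (norm_inner_le_norm _ _))
    rw [← mul_apply_eq_comp, Units.mul_inv, one_apply_eq_self] at h1
    rcases (norm_nonneg (((b⁻¹ : (Op H)ˣ) : Op H) ξ)).eq_or_lt with h0 | h0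
    · rw [← h0]; positivity
    · nlinarith
  have hbM : ((b⁻¹ : (Op H)ˣ) : Op H) ∈ M := mem_of_commute fun y hy =>
    (commute_of_mem hz hy).units_inv_left
  obtain ⟨m₁, hm₁, hd₁⟩ : ∃ m₁ ∈ M, ‖w * (m' * m₁) - 1‖ ≤ 2 * η := by
    refine ⟨m * (b⁻¹ : (Op H)ˣ), mul_mem hm hbM, ?_⟩
    have e : w * (m' * (m * (b⁻¹ : (Op H)ˣ))) - 1 = (w * m' * m - b) * (b⁻¹ : (Op H)ˣ) := by
      rw [sub_mul, Units.mul_inv]; simp only [mul_assoc]
    rw [e]
    refine (norm_mul_le _ _).trans ?_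
    nlinarith [norm_nonneg (w * m' * m - b), norm_nonneg ((b⁻¹ : (Op H)ˣ) : Op H)]
  have hww := Unitary.mem_iff.1 hw
  have hxu : IsUnit (m' * m₁) := by
    have h1 : IsUnit (w * (m' * m₁)) := by
      have := (Units.oneSub (1 - w * (m' * m₁)) (by rw [norm_sub_rev]; linarith)).isUnit
      simpa using this
    have h2 := (show IsUnit (star w) from ⟨⟨star w, w, hww.1, hww.2⟩, rfl⟩).mul h1
    rwa [← mul_assoc, hww.1, one_mul] at h2
  obtain ⟨hu', hu⟩ := (commute_of_mem hm₁ hm').symm.isUnit_mul_iff.1 hxu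
  obtain ⟨v, a, hv, ha, ha0, rfl⟩ := Cfc.polar hm₁ hu
  obtain ⟨v', a', hv', ha', ha0', rfl⟩ := Cfc.polar hm' hu'
  have hP : 0 ≤ a' * a := (commute_of_mem ha ha').symm.mul_nonneg ha0' ha0
  have e : w * (v' * a' * (v * a)) = (w * v' * v) * (a' * a) := by
    have := (commute_of_mem hv.1 ha').eq
    simp only [mul_assoc]
    rw [← mul_assoc a', ← this, mul_assoc]
  rw [e] at hd₁
  have hU : w * v' * v ∈ unitary (Op H) := mul_mem (mul_mem hw hv'.2) hv.2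
  generalize a' * a = P at hP hd₁
  have hPs : star P = P := hP.isSelfAdjoint
  have b1 : ‖P - 1‖ ≤ 6 * η := by
    refine (Cfc.norm_sub_one_le hP).trans ?_
    have e1 : P * P = star (w * v' * v * P) * (w * v' * v * P) := by
      rw [star_mul, hPs, mul_assoc, ← mul_assoc (star _), (Unitary.mem_iff.1 hU).1, one_mul]
    rw [e1]
    generalize w * v' * v * P = x at hd₁
    have e2 : star x * x - 1 = star (x - 1) * (x - 1) + star (x - 1) + (x - 1) := by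
      rw [star_sub, star_one]; noncomm_ring
    rw [e2]
    refine (norm_add₃_le).trans ?_
    rw [CStarRing.norm_star_mul_self, norm_star]
    nlinarith [norm_nonneg (x - 1)]
  refine ⟨star v, star v', hv.star, hv'.star, ?_⟩
  have e3 : w - star v * star v' * 1 = (w * v' * v - 1) * star (v' * v) := by
    have := (Unitary.mem_iff.1 (mul_mem hv'.2 hv.2)).2
    rw [sub_mul, mul_assoc w, mul_assoc w, this, star_mul, mul_one, one_mul, mul_one]
  rw [e3, CStarRing.norm_mul_mem_unitary _ (Unitary.star_mem (mul_mem hv'.2 hv.2))]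
  have e4 : w * v' * v - 1 = (w * v' * v * P - 1) - w * v' * v * (P - 1) := by noncomm_ring
  rw [e4]
  refine (norm_sub_le _ _).trans ?_
  rw [CStarRing.norm_mem_unitary_mul _ hU]
  linarith

end Crest.Agent.R78
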