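import Crest.Agent.R78.Lin
import Crest.Agent.R78.Cfc
import Crest.Agent.R121.Min
import Crest.Agent.R121.QF

/-! # Row 78: consequences of rows 124 and 121 -/

set_option autoImplicit false

namespace Crest.Agent.R78

open scoped InnerProductSpace ComplexOrder BigOperators Topology
open Filter
open Crest.Agent.R124 (Op cm)
open Crest.OpAlg (LineCalculus)

universe u

variable {H : Type u} [NormedAddCommGroup H] [InnerProductSpace ℂ H] [CompleteSpace H]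

namespace Dist

lemma norm_cm_le (T d : Op H) : ‖cm T d‖ ≤ 2 * ‖T‖ * ‖d‖ := by
  have h1 := norm_mul_le T d
  have h2 := norm_mul_le d T
  have h3 := norm_sub_le (T * d) (d * T)
  rw [cm]
  linarith

lemma cm_le {T p x : Op H} {δ c : ℝ} (h : Commute x T) (hx : ‖p - x‖ ≤ δ * c) :
    ‖cm T p‖ ≤ 2 * ‖T‖ * δ * c := by
  have e : cm T p = cm T (p - x) := by
    rw [cm, cm, mul_sub, sub_mul, h.eq]
    abel
  rw [e, mul_assoc _ δ]
  refine (norm_cm_le _ _).trans ?_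
  gcongr

/-- the compression to a reducing subspace as a ⋆-homomorphism -/
noncomputable def cmpHom {K : Type u} [NormedAddCommGroup K] [InnerProductSpace ℂ K]
    [CompleteSpace K] {V : K →L[ℂ] H} (hV : Iso V) (B : StarSubalgebra ℂ (Op H))
    (hB : ∀ b ∈ B, Itw V (cmp V b) b) : B →⋆ₐ[ℂ] Op K where
  toFun b := cmp V b
  map_one' := hV.cmp_one
  map_mul' a b := (hB b b.2).cmp_mul a
  map_zero' := by
    have := cmp_smul V 0 (0 : Op H)
    simpa using this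
  map_add' a b := cmp_add V a b
  commutes' c := by
    rw [Algebra.algebraMap_eq_smul_one, Algebra.algebraMap_eq_smul_one]
    change cmp V (c • (1 : Op H)) = _
    rw [cmp_smul, hV.cmp_one]
  map_star' a := cmp_star V a

lemma res_near : ∃ C : ℝ, 1 ≤ C ∧ ∀ (H : Type u) [NormedAddCommGroup H] [InnerProductSpace ℂ H]
    [CompleteSpace H] (K : Type u) [NormedAddCommGroup K] [InnerProductSpace ℂ K] [CompleteSpace K]
    (V : K →L[ℂ] H) (A B : StarSubalgebra ℂ (Op H)) (δ : ℝ), Iso V →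
    IsClosed (B : Set (Op H)) → 0 ≤ δ → Near (B : Set (Op H)) (A : Set (Op H)) δ →
    (∀ b ∈ B, Itw V (cmp V b) b) →
    Near (cmt (cmp V '' (A : Set (Op H))) : Set (Op K)) (cmt (cmp V '' (B : Set (Op H))))
      (C * δ) := by
  obtain ⟨C, hC, h⟩ := R124.distStmt.{u, u}
  refine ⟨2 * C + 1, by linarith, fun H _ _ _ K _ _ _ V A B δ hV hB hδ hn hI T hT => ?_⟩
  let _ : CStarAlgebra B := StarSubalgebra.cstarAlgebra B
  obtain ⟨T₀, h1, h2⟩ := h B K (cmpHom hV B hI) T (2 * ‖T‖ * δ) (by positivity) fun b => by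
    obtain ⟨a, ha, hd⟩ := hn b b.2
    refine cm_le (x := cmp V a) (mem_cmt.1 hT _ ⟨a, ha, rfl⟩).1 ?_
    change ‖cmp V b - cmp V a‖ ≤ _
    rw [← cmp_sub]
    exact (hV.norm_cmp_le _).trans hd
  refine ⟨T₀, mem_cmt.2 ?_, h2.trans ?_⟩
  · rintro _ ⟨b, hb, rfl⟩
    refine ⟨(h1 ⟨b, hb⟩).symm.eq, ?_⟩
    rw [← cmp_star]
    exact (h1 ⟨star b, star_mem hb⟩).symm.eq
  · have := mul_nonneg hδ (norm_nonneg T)
    nlinarith

lemma cb_cm {N : VN H} (a : R121.Alg N) {b : Op H} (hb : b ∈ N.commutant) :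
    R121.CB (fun y : R121.Alg N => a * y - y * a) (2 * ‖(a : Op H) - b‖) := by
  refine ⟨⟨fun x y => by rw [mul_add, add_mul]; abel, fun c x => ?_⟩, by positivity, ?_⟩
  · rw [mul_smul_comm, smul_mul_assoc, smul_sub]
  intro I J _ _ x r hr hx α
  obtain ⟨d, hd⟩ : ∃ d : Op H, d = (a : Op H) - b := ⟨_, rfl⟩
  rw [← hd]
  have e : ∀ i, ∑ j, ((a * x i j - x i j * a : R121.Alg N) : Op H) (α j) =
      d (∑ j, (x i j : Op H) (α j)) - ∑ j, (x i j : Op H) (d (α j)) := by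
    intro i
    rw [map_sum, ← Finset.sum_sub_distrib]
    refine Finset.sum_congr rfl fun j _ => ?_
    have hc : (x i j : Op H) (b (α j)) = b ((x i j : Op H) (α j)) :=
      DFunLike.congr_fun (commute_of_mem (R121.coe_mem (x i j)) hb).eq (α j)
    rw [R121.sub_app, R121.mul_app, R121.mul_app, hd, _root_.sub_apply, _root_.sub_apply, map_sub,
      hc]
    abel
  have h1 := hx α
  have h2 := hx fun j => d (α j)
  have h3 : ∑ j, ‖d (α j)‖ ^ 2 ≤ ‖d‖ ^ 2 * ∑ j, ‖α j‖ ^ 2 := by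
    rw [Finset.mul_sum]
    refine Finset.sum_le_sum fun j _ => ?_
    rw [← mul_pow]
    gcongr
    exact d.le_opNorm _
  have h4 : ∀ i, ‖∑ j, ((a * x i j - x i j * a : R121.Alg N) : Op H) (α j)‖ ^ 2 ≤
      2 * ‖d‖ ^ 2 * ‖∑ j, (x i j : Op H) (α j)‖ ^ 2 + 2 * ‖∑ j, (x i j : Op H) (d (α j))‖ ^ 2 := by
    intro i
    rw [e]
    have h5 := norm_sub_le (d (∑ j, (x i j : Op H) (α j))) (∑ j, (x i j : Op H) (d (α j)))
    have h6 := d.le_opNorm (∑ j, (x i j : Op H) (α j))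
    have h7 : ‖d (∑ j, (x i j : Op H) (α j)) - ∑ j, (x i j : Op H) (d (α j))‖ ^ 2 ≤
        (‖d‖ * ‖∑ j, (x i j : Op H) (α j)‖ + ‖∑ j, (x i j : Op H) (d (α j))‖) ^ 2 := by
      gcongr
      linarith
    nlinarith [sq_nonneg (‖d‖ * ‖∑ j, (x i j : Op H) (α j)‖ - ‖∑ j, (x i j : Op H) (d (α j))‖)]
  refine (Finset.sum_le_sum fun i _ => h4 i).trans ?_
  rw [Finset.sum_add_distrib, ← Finset.mul_sum, ← Finset.mul_sum]
  have h8 := mul_le_mul_of_nonneg_left h1 (sq_nonneg ‖d‖)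
  have h9 := mul_le_mul_of_nonneg_left h3 (sq_nonneg r)
  nlinarith

end Dist

/-- `R124.distStmt` for the inclusion of `P` -/
theorem near_of_cm : ∃ C : ℝ, 1 ≤ C ∧ ∀ (H : Type u) [NormedAddCommGroup H] [InnerProductSpace ℂ H] [CompleteSpace H] (P : VN H) (T : Op H) (g : ℝ), 0 ≤ g →
    (∀ p ∈ P, ‖cm T p‖ ≤ g * ‖p‖) → ∃ y ∈ P.commutant, ‖T - y‖ ≤ C * g := by
  obtain ⟨C, hC, h⟩ := R124.distStmt.{u, u}
  refine ⟨C + 1, by linarith, fun H _ _ _ P T g hg hT => ?_⟩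
  obtain ⟨T₀, h1, h2⟩ := h (R121.Alg P) H P.toStarSubalgebra.subtype T g hg fun a => hT a a.2
  refine ⟨T₀, mem_commutant_of fun x hx => (h1 ⟨x, hx⟩).symm, h2.trans ?_⟩
  nlinarith

theorem cl_comm : ∃ C : ℝ, 1 ≤ C ∧ ∀ (H : Type u) [NormedAddCommGroup H] [InnerProductSpace ℂ H] [CompleteSpace H] (M N : VN H) (δ : ℝ), 0 ≤ δ → CL M N δ →
    CL M.commutant N.commutant (C * δ) := by
  obtain ⟨C, hC, h⟩ := near_of_cm.{u}
  refine ⟨2 * C, by linarith, fun H _ _ _ M N δ hδ hcl => ?_⟩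
  have aux : ∀ M N : VN H, Near (N : Set (Op H)) (M : Set (Op H)) δ →
      Near (M.commutant : Set (Op H)) (N.commutant : Set (Op H)) (2 * C * δ) := by
    intro M N hn T hT
    obtain ⟨y, hy, hd⟩ := h H N T (2 * ‖T‖ * δ) (by positivity) fun p hp => by
      obtain ⟨x, hx, hd⟩ := hn p hp
      exact Dist.cm_le (commute_of_mem hx hT) hd
    exact ⟨y, hy, hd.trans (le_of_eq (by ring))⟩
  exact ⟨aux M N hcl.2, aux N M hcl.1⟩

/-- `R124.distStmt` for the ⋆-homomorphisms `b ↦ cmp V b` on `B` and `a ↦ cmp V a` on `A` -/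
theorem res_cl : ∃ C : ℝ, 1 ≤ C ∧ ∀ (H : Type u) [NormedAddCommGroup H] [InnerProductSpace ℂ H] [CompleteSpace H]
    (K : Type u) [NormedAddCommGroup K] [InnerProductSpace ℂ K] [CompleteSpace K]
    (V : K →L[ℂ] H) (A B : StarSubalgebra ℂ (Op H)) (δ : ℝ), Iso V →
    IsClosed (A : Set (Op H)) → IsClosed (B : Set (Op H)) → 0 ≤ δ →
    Near (A : Set (Op H)) (B : Set (Op H)) δ → Near (B : Set (Op H)) (A : Set (Op H)) δ →
    (∀ a ∈ A, Itw V (cmp V a) a) → (∀ b ∈ B, Itw V (cmp V b) b) →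
    CL (cmt (cmp V '' (A : Set (Op H)))) (cmt (cmp V '' (B : Set (Op H)))) (C * δ) := by
  obtain ⟨C, hC, h⟩ := Dist.res_near.{u}
  exact ⟨C, hC, fun H _ _ _ K _ _ _ V A B δ hV hA hB hδ h1 h2 hIA hIB =>
    ⟨h H K V A B δ hV hB hδ h2 hIB, h H K V B A δ hV hA hδ h1 hIA⟩⟩

/-- apply the mean `ρ` of `R121.minStmt_of R121.qStmt` to the completely bounded map
`T y = a y - y a = [a - b, y]`; `y₀ = ρ T` has `[a, x] = [y₀, x]` on `N`; `z = a - y₀` -/
theorem near_central {N : VN H} {a b : Op H} (ha : a ∈ N) (hb : b ∈ N.commutant) :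
    ∃ z ∈ N, z ∈ N.commutant ∧ ‖a - z‖ ≤ 2 * ‖a - b‖ := by
  obtain ⟨ρ, hρ⟩ := R121.minStmt_of R121.qStmt H N
  obtain ⟨a', rfl⟩ : ∃ a' : R121.Alg N, (a' : Op H) = a := ⟨⟨a, ha⟩, rfl⟩
  have hT := Dist.cb_cm a' hb
  obtain ⟨y₀, hy₀⟩ : ∃ y₀, y₀ = ρ fun y => a' * y - y * a' := ⟨_, rfl⟩
  have key : ∀ x : R121.Alg N, y₀ * x = (a' * x - x * a') + x * y₀ := by
    intro x
    have h1 := hρ.right x _ _ hT
    have h2 := hρ.add _ _ _ _ (R121.CB.mul (a' * x - x * a')) (hT.left x)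
    rw [hρ.mul, one_mul, hρ.left x _ _ hT] at h2
    rw [hy₀, ← h1, ← h2]
    congr 1
    funext y
    noncomm_ring
  refine ⟨((a' - y₀ : R121.Alg N) : Op H), R121.coe_mem _, mem_commutant_of fun x hx => ?_, ?_⟩
  · have : (⟨x, hx⟩ : R121.Alg N) * (a' - y₀) = (a' - y₀) * ⟨x, hx⟩ := by
      rw [mul_sub, sub_mul, key]
      abel
    exact congrArg Subtype.val this
  · have : (a' : Op H) - ((a' - y₀ : R121.Alg N) : Op H) = y₀ := by
      change (a' : Op H) - ((a' : Op H) - (y₀ : Op H)) = y₀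
      abel
    rw [this, R121.norm_coe, hy₀]
    exact hρ.norm _ _ hT

/-- `a` is near `b⋆`, hence near a central unitary `ζ`; `a' = a ζ⋆`, `b' = ζ b` -/
theorem split_near_one {N : VN H} {a b : Op H} (ha : UIn N a) (hb : UIn N.commutant b) {η : ℝ}
    (h : ‖a * b - 1‖ ≤ η) (hη : η ≤ 1 / 16) :
    ∃ a' b', UIn N a' ∧ UIn N.commutant b' ∧ a' * b' = a * b ∧ ‖a' - 1‖ ≤ 17 * η ∧
      ‖b' - 1‖ ≤ 17 * η := by
  have h0 : 0 ≤ η := (norm_nonneg _).trans h
  have hb1 := hb.norm_le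
  have hab : ‖a - star b‖ ≤ η := by
    have e : a - star b = (a * b - 1) * star b := by
      rw [sub_mul, mul_assoc, Unitary.mul_star_self_of_mem hb.2, mul_one, one_mul]
    rw [e]
    refine (norm_mul_le _ _).trans ?_
    rw [norm_star]
    nlinarith [norm_nonneg b]
  obtain ⟨z, hz, hz', hd⟩ := near_central ha.1 hb.star.1
  obtain ⟨v, hv, hav, hN, -⟩ := exists_unitary_near (y := z) ha.2 (ε := 2 * η) (by linarith)
    (by linarith)
  have hvN : UIn N v := ⟨hN N hz, hv⟩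
  have hvN' : UIn N.commutant v := ⟨hN _ hz', hv⟩
  have hv1 := hvN.norm_le
  refine ⟨a * star v, v * b, ha.mul hvN.star, hvN'.mul hb, ?_, ?_, ?_⟩
  · rw [mul_assoc, ← mul_assoc (star v), Unitary.star_mul_self_of_mem hv, one_mul]
  · have e : a * star v - 1 = (a - v) * star v := by
      rw [sub_mul, Unitary.mul_star_self_of_mem hv]
    rw [e]
    refine (norm_mul_le _ _).trans ?_
    rw [norm_star]
    nlinarith [norm_nonneg v, norm_nonneg (a - v)]
  · have e : v * b - 1 = (a * b - 1) - (a - v) * b := by noncomm_ring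
    rw [e]
    refine (norm_sub_le _ _).trans ?_
    have := norm_mul_le (a - v) b
    nlinarith [norm_nonneg b, norm_nonneg (a - v)]

end Crest.Agent.R78
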