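import Crest.Agent.R78.T1
import Crest.Agent.R78.Dist

/-! # Row 78: good approximants -/

set_option autoImplicit false

namespace Crest.Agent.R78

open scoped InnerProductSpace ComplexOrder BigOperators Topology
open Filter
open Crest.Agent.R124 (Op cm)
open Crest.OpAlg (LineCalculus)

universe u

variable {H : Type u} [NormedAddCommGroup H] [InnerProductSpace ℂ H] [CompleteSpace H]

namespace ApxAux

variable {M N : VN H} {Ω : H} {J : H ≃ₗᵢ⋆[ℂ] H} {γ : ℝ}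

lemma app_le (a : Op H) (ξ : H) {c d : ℝ} (ha : ‖a‖ ≤ c) (hξ : ‖ξ‖ ≤ d) : ‖a ξ‖ ≤ c * d :=
  (a.le_opNorm ξ).trans (mul_le_mul ha hξ (norm_nonneg _) ((norm_nonneg _).trans ha))

lemma star_cm (x p : Op H) : star (cm x p) = -cm (star x) (star p) := by
  simp only [cm, star_sub, star_mul, neg_sub]

lemma gam_star (hG : Gam M N.commutant Ω γ) {x p : Op H} (hx : x ∈ M) (hp : p ∈ N.commutant) :
    ‖star (cm x p) Ω‖ ≤ γ * ‖x‖ * ‖p‖ := by
  rw [star_cm, ContinuousLinearMap.neg_apply, norm_neg]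
  simpa only [norm_star] using hG _ (star_mem hx) _ (star_mem hp)

/-- (e) -/
lemma sm_cm (hγ : 0 ≤ γ) (hG : Gam M N.commutant Ω γ) {x p : Op H} (hx : x ∈ M)
    (hp : p ∈ N.commutant) : Sm M Ω (cm x p) (2 * γ * ‖x‖ * ‖p‖) := by
  intro x' hx'
  have e : cm x p (x' Ω) = cm (x * x') p Ω - x (cm x' p Ω) := by
    have : cm x p * x' = cm (x * x') p - x * cm x' p := by simp only [cm]; noncomm_ring
    exact congrArg (fun A : Op H => A Ω) this
  rw [e]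
  have h1 := hG _ (mul_mem hx hx') _ hp
  have h2 := app_le x _ le_rfl (hG _ hx' _ hp)
  have h3 : γ * ‖x * x'‖ * ‖p‖ ≤ γ * (‖x‖ * ‖x'‖) * ‖p‖ := by gcongr; exact norm_mul_le _ _
  calc _ ≤ ‖cm (x * x') p Ω‖ + ‖x (cm x' p Ω)‖ := norm_sub_le _ _
    _ ≤ γ * (‖x‖ * ‖x'‖) * ‖p‖ + ‖x‖ * (γ * ‖x'‖ * ‖p‖) := add_le_add (h1.trans h3) h2
    _ = _ := by ring

lemma cm_sub_of {x p y : Op H} (h : Commute x y) : cm x (p - y) = cm x p := by
  simp only [cm, mul_sub, sub_mul, h.eq]; abel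

lemma sub_cm_of {a n p : Op H} (h : Commute n p) : cm (a - n) p = cm a p := by
  simp only [cm, mul_sub, sub_mul, h.eq]; abel

lemma cm_swap (x p : Op H) : cm p x = -cm x p := by simp only [cm, neg_sub]

lemma sm_of_vac (hG : Gam M N.commutant Ω γ) {p y : Op H} (hp : p ∈ N.commutant)
    (hy : y ∈ M.commutant) {c : ℝ} (h : ‖(p - y) Ω‖ ≤ c) : Sm M Ω (p - y) (c + γ * ‖p‖) := by
  intro x hx
  have e : (p - y) (x Ω) = x ((p - y) Ω) - cm x p Ω := by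
    have : (p - y) * x = x * (p - y) - cm x p := by
      rw [← cm_sub_of (p := p) (commute_of_mem hx hy)]; simp only [cm]; abel
    exact congrArg (fun A : Op H => A Ω) this
  rw [e]
  calc _ ≤ ‖x ((p - y) Ω)‖ + ‖cm x p Ω‖ := norm_sub_le _ _
    _ ≤ ‖x‖ * c + γ * ‖x‖ * ‖p‖ := add_le_add (app_le x _ le_rfl h) (hG _ hx _ hp)
    _ = _ := by ring

/-- (a) -/
lemma toM (hJ : TrJ M Ω J) (hγ : 0 ≤ γ) (hG : Gam M N.commutant Ω γ) {ε : ℝ} (hε : 0 ≤ ε)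
    (hn : Near (N.commutant : Set (Op H)) (M.commutant : Set (Op H)) ε) {p : Op H}
    (hp : p ∈ N.commutant) : ∃ y ∈ M.commutant, ‖p - y‖ ≤ 3 * ε * ‖p‖ ∧
      ‖(p - y) Ω‖ ≤ 8 * γ * ‖p‖ ∧ ‖star (p - y) Ω‖ ≤ 8 * γ * ‖p‖ := by
  obtain ⟨y₀, hy₀, hr₀⟩ := hn p hp
  obtain ⟨d, hd, hdn, hdΩ⟩ := trunc M Ω ((p - y₀) Ω) (l := ε * ‖p‖) (γ := γ * ‖p‖)
    (by positivity) (by positivity) (fun x hx => by
      have e : x ((p - y₀) Ω) = (p - y₀) (x Ω) + cm x p Ω := by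
        have : x * (p - y₀) = (p - y₀) * x + cm x p := by
          rw [← cm_sub_of (p := p) (commute_of_mem hx hy₀)]; simp only [cm]; abel
        exact congrArg (fun A : Op H => A Ω) this
      rw [e]
      calc _ ≤ ‖(p - y₀) (x Ω)‖ + ‖cm x p Ω‖ := norm_add_le _ _
        _ ≤ ε * ‖p‖ * ‖x Ω‖ + γ * ‖x‖ * ‖p‖ := add_le_add (app_le _ _ hr₀ le_rfl) (hG _ hx _ hp)
        _ = _ := by ring)
  have hy : y₀ + d ∈ M.commutant := add_mem hy₀ hd
  have h1 : ‖(p - (y₀ + d)) Ω‖ ≤ 4 * (γ * ‖p‖) := by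
    rw [← sub_sub]; exact hdΩ
  have hcm : ∀ x ∈ M, cm (p - (y₀ + d)) x = -cm x p := fun x hx => by
    rw [cm_swap, cm_sub_of (commute_of_mem hx hy)]
  have h2 := adj hJ.tr (r := p - (y₀ + d)) (g := γ * ‖p‖) (by positivity)
    (fun x hx => by
      rw [hcm x hx, ContinuousLinearMap.neg_apply, norm_neg]
      exact (hG _ hx _ hp).trans_eq (by ring))
    (fun x hx => by
      rw [hcm x hx, star_neg, ContinuousLinearMap.neg_apply, norm_neg]
      exact (gam_star hG hx hp).trans_eq (by ring))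
  have h0 : 0 ≤ γ * ‖p‖ := by positivity
  refine ⟨y₀ + d, hy, ?_, by linarith, by linarith⟩
  rw [← sub_sub]
  calc _ ≤ ‖p - y₀‖ + ‖d‖ := norm_sub_le _ _
    _ ≤ _ := by linarith

/-- (b) -/
lemma toP (hJ : TrJ M Ω J) (hγ : 0 < γ) (hG : Gam M N.commutant Ω γ) {ε : ℝ} (hε : 0 ≤ ε)
    (hε' : ε ≤ 1 / 14) (hcl : CL M.commutant N.commutant ε) {y : Op H} (hy : y ∈ M.commutant) :
    ∃ p ∈ N.commutant, ‖y - p‖ ≤ 12 * ε * ‖y‖ ∧
      ‖(y - p) Ω‖ ≤ 33 * γ * ‖y‖ ∧ ‖star (y - p) Ω‖ ≤ 33 * γ * ‖y‖ := by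
  have key : ∀ k : ℕ, ∀ y ∈ M.commutant, ∃ p ∈ N.commutant, ‖y - p‖ ≤ 12 * ε * ‖y‖ ∧
      ‖(y - p) Ω‖ ≤ (32 * γ + ε * ‖Ω‖ * (1 / 2) ^ k) * ‖y‖ ∧
      ‖star (y - p) Ω‖ ≤ (32 * γ + ε * ‖Ω‖ * (1 / 2) ^ k) * ‖y‖ := by
    intro k
    induction k with
    | zero =>
      intro y hy
      obtain ⟨p, hp, h⟩ := hcl.1 y hy
      have h0 : 0 ≤ ε * ‖y‖ := by positivity
      have h1 : 0 ≤ γ * ‖y‖ := by positivity
      refine ⟨p, hp, by linarith, ?_, ?_⟩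
      · have := app_le _ Ω h le_rfl
        nlinarith
      · have := app_le (star (y - p)) Ω ((norm_star _).trans_le h) le_rfl
        nlinarith
    | succ k ih =>
      intro y hy
      obtain ⟨p₀, hp₀, h₀⟩ := hcl.1 y hy
      have hy0 := norm_nonneg y
      have hεy : ε * ‖y‖ ≤ 1 / 14 * ‖y‖ := by gcongr
      have hp₀n : ‖p₀‖ ≤ 2 * ‖y‖ := by
        have := norm_sub_le y (y - p₀)
        rw [sub_sub_cancel] at this
        linarith
      obtain ⟨y₁, hy₁, h₁, h₂, h₃⟩ := toM hJ hγ.le hG hε hcl.2 hp₀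
      have h₁' : ‖p₀ - y₁‖ ≤ 6 * (ε * ‖y‖) := by
        have : 3 * ε * ‖p₀‖ ≤ 3 * ε * (2 * ‖y‖) := by gcongr
        linarith
      have hγp : 8 * γ * ‖p₀‖ ≤ 16 * γ * ‖y‖ := by
        have : 8 * γ * ‖p₀‖ ≤ 8 * γ * (2 * ‖y‖) := by gcongr
        linarith
      have hyy : ‖y - y₁‖ ≤ 1 / 2 * ‖y‖ := by
        have := norm_add_le (y - p₀) (p₀ - y₁)
        rw [sub_add_sub_cancel] at this
        linarith
      obtain ⟨p₁, hp₁, g₁, g₂, g₃⟩ := ih (y - y₁) (sub_mem hy hy₁)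
      have e : y - (p₀ + p₁) = (y - y₁ - p₁) - (p₀ - y₁) := by abel
      have ht : (32 * γ + ε * ‖Ω‖ * (1 / 2) ^ k) * ‖y - y₁‖ + 16 * γ * ‖y‖ ≤
          (32 * γ + ε * ‖Ω‖ * (1 / 2) ^ (k + 1)) * ‖y‖ := by
        calc _ ≤ (32 * γ + ε * ‖Ω‖ * (1 / 2) ^ k) * (1 / 2 * ‖y‖) + 16 * γ * ‖y‖ := by gcongr
          _ = _ := by ring
      refine ⟨p₀ + p₁, add_mem hp₀ hp₁, ?_, ?_, ?_⟩
      · rw [e]
        have : 12 * ε * ‖y - y₁‖ ≤ 12 * ε * (1 / 2 * ‖y‖) := by gcongr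
        have h5 := norm_sub_le (y - y₁ - p₁) (p₀ - y₁)
        linarith
      · rw [e, ContinuousLinearMap.sub_apply]
        have h5 := norm_sub_le ((y - y₁ - p₁) Ω) ((p₀ - y₁) Ω)
        linarith
      · rw [e, star_sub, ContinuousLinearMap.sub_apply]
        have h5 := norm_sub_le (star (y - y₁ - p₁) Ω) (star (p₀ - y₁) Ω)
        linarith
  obtain ⟨k, hk⟩ : ∃ k : ℕ, ε * ‖Ω‖ * (1 / 2) ^ k ≤ γ := by
    have h1 : Tendsto (fun k : ℕ => ε * ‖Ω‖ * (1 / 2 : ℝ) ^ k) atTop (𝓝 (ε * ‖Ω‖ * 0)) :=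
      (tendsto_pow_atTop_nhds_zero_of_lt_one (by norm_num) (by norm_num)).const_mul _
    rw [mul_zero] at h1
    exact (h1.eventually (ge_mem_nhds hγ)).exists
  obtain ⟨p, hp, h₁, h₂, h₃⟩ := key k y hy
  have : (32 * γ + ε * ‖Ω‖ * (1 / 2) ^ k) * ‖y‖ ≤ 33 * γ * ‖y‖ := by
    gcongr; linarith
  exact ⟨p, hp, h₁, h₂.trans this, h₃.trans this⟩

/-- (c) -/
lemma toN (hJ : TrJ M Ω J) (hγ : 0 < γ) (hG : Gam M N.commutant Ω γ) {δ ε : ℝ} (hδ : 0 ≤ δ)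
    (hδ' : δ ≤ 1 / 3) (hε : 0 ≤ ε) (hε' : ε ≤ 1 / 96) (hn : Near (M : Set (Op H)) (N : Set (Op H)) δ)
    (hcl : CL M.commutant N.commutant ε) {a : Op H} (ha : a ∈ M) :
    ∃ n ∈ N, Sm2 M Ω (a - n) (3 * δ * ‖a‖) (364 * γ * ‖a‖) := by
  obtain ⟨n₀, hn₀, hr₀⟩ := hn a ha
  obtain ⟨d, hd, hdn, hdΩ⟩ := trunc N.commutant Ω ((a - n₀) Ω) (l := δ * ‖a‖) (γ := γ * ‖a‖)
    (by positivity) (by positivity) (fun p hp => by
      have e : p ((a - n₀) Ω) = (a - n₀) (p Ω) - cm a p Ω := by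
        have : p * (a - n₀) = (a - n₀) * p - cm a p := by
          rw [← sub_cm_of (a := a) (commute_of_mem hn₀ hp)]; simp only [cm]; abel
        exact congrArg (fun A : Op H => A Ω) this
      rw [e]
      exact (norm_sub_le _ _).trans (add_le_add (app_le _ _ hr₀ le_rfl) (hG _ ha _ hp)))
  rw [VonNeumannAlgebra.commutant_commutant] at hd
  have hn : n₀ + d ∈ N := add_mem hn₀ hd
  obtain ⟨r, hr⟩ : ∃ r, r = a - (n₀ + d) := ⟨_, rfl⟩
  have h0 : 0 ≤ γ * ‖a‖ := by positivity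
  have hrΩ : ‖r Ω‖ ≤ 4 * (γ * ‖a‖) := by
    rw [hr, ← sub_sub]; exact hdΩ
  have hrn : ‖r‖ ≤ 3 * δ * ‖a‖ := by
    rw [hr, ← sub_sub]
    calc _ ≤ ‖a - n₀‖ + ‖d‖ := norm_sub_le _ _
      _ ≤ _ := by linarith
  have hrn' : ‖r‖ ≤ ‖a‖ := hrn.trans (by nlinarith [norm_nonneg a])
  obtain ⟨g, hg⟩ : ∃ g, g = 35 * (γ * ‖a‖) + 1 / 8 * (‖r Ω‖ + ‖star r Ω‖) := ⟨_, rfl⟩
  have hg0 : 0 ≤ g := by rw [hg]; positivity
  have hcm : ∀ y ∈ M.commutant, ‖cm r y Ω‖ ≤ g * ‖y‖ ∧ ‖star (cm r y) Ω‖ ≤ g * ‖y‖ := by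
    intro y hy
    obtain ⟨p, hp, h₁, h₂, h₃⟩ := toP hJ hγ hG hε (by linarith) hcl hy
    have hy0 := norm_nonneg y
    have h₁' : ‖y - p‖ ≤ 1 / 8 * ‖y‖ := h₁.trans (by nlinarith)
    have hpn : ‖p‖ ≤ 2 * ‖y‖ := by
      have := norm_sub_le y (y - p)
      rw [sub_sub_cancel] at this
      linarith
    have e : cm r y = cm a p + (r * (y - p) - (y - p) * r) := by
      rw [← sub_cm_of (a := a) (commute_of_mem hn hp), ← hr]; simp only [cm]; noncomm_ring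
    have hγp : γ * ‖a‖ * ‖p‖ ≤ γ * ‖a‖ * (2 * ‖y‖) := by gcongr
    have a1 : 0 ≤ ‖r Ω‖ * ‖y‖ := by positivity
    have a2 : 0 ≤ ‖star r Ω‖ * ‖y‖ := by positivity
    constructor
    · have e' : cm r y Ω = cm a p Ω + (r ((y - p) Ω) - (y - p) (r Ω)) := by rw [e]; rfl
      have b1 := hG _ ha _ hp
      have b2 := app_le r _ hrn' h₂
      have b3 := app_le (y - p) (r Ω) h₁' le_rfl
      have b4 := norm_add_le (cm a p Ω) (r ((y - p) Ω) - (y - p) (r Ω))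
      have b5 := norm_sub_le (r ((y - p) Ω)) ((y - p) (r Ω))
      rw [e', hg]; nlinarith
    · have e' : star (cm r y) Ω =
          star (cm a p) Ω + (star (y - p) (star r Ω) - star r (star (y - p) Ω)) := by
        rw [e, star_add, star_sub (r * (y - p)), star_mul, star_mul]; rfl
      have b1 := gam_star hG ha hp
      have b2 := app_le (star r) _ ((norm_star r).trans_le hrn') h₃
      have b3 := app_le (star (y - p)) (star r Ω) ((norm_star _).trans_le h₁') le_rfl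
      have b4 := norm_add_le (star (cm a p) Ω)
        (star (y - p) (star r Ω) - star r (star (y - p) Ω))
      have b5 := norm_sub_le (star (y - p) (star r Ω)) (star r (star (y - p) Ω))
      rw [e', hg]; nlinarith
  have hadj := adj hJ.swap.tr hg0 (fun y hy => (hcm y hy).1) (fun y hy => (hcm y hy).2)
  have hsΩ : ‖star r Ω‖ ≤ 292 * (γ * ‖a‖) := by rw [hg] at hadj; linarith
  have hgle : g ≤ 72 * (γ * ‖a‖) := by rw [hg]; linarith
  have hsm : ∀ s : Op H, ‖s Ω‖ ≤ 292 * (γ * ‖a‖) → (∀ y ∈ M.commutant, ‖cm s y Ω‖ ≤ g * ‖y‖) →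
      Sm M Ω s (364 * γ * ‖a‖) := by
    intro s h1 h2 x hx
    have hy : jop J (star x) ∈ M.commutant := hJ.mem _ (star_mem hx)
    have hyn : ‖jop J (star x)‖ ≤ ‖x‖ := (norm_jop_le J _).trans_eq (norm_star x)
    have hyΩ : jop J (star x) Ω = x Ω := by rw [hJ.jop_vac (star_mem hx), star_star]
    have e : s (x Ω) = jop J (star x) (s Ω) + cm s (jop J (star x)) Ω := by
      have : s * jop J (star x) = jop J (star x) * s + cm s (jop J (star x)) := by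
        simp only [cm]; abel
      rw [← hyΩ]
      exact congrArg (fun A : Op H => A Ω) this
    have b1 := app_le _ _ hyn h1
    have b2 : ‖cm s (jop J (star x)) Ω‖ ≤ 72 * (γ * ‖a‖) * ‖x‖ :=
      (h2 _ hy).trans (by gcongr)
    have b3 := norm_add_le (jop J (star x) (s Ω)) (cm s (jop J (star x)) Ω)
    rw [e]; nlinarith
  refine ⟨n₀ + d, hn, ?_⟩
  rw [← hr]
  refine ⟨hrn, hsm r (by linarith) fun y hy => (hcm y hy).1, hsm _ hsΩ fun y hy => ?_⟩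
  have := (hcm _ (star_mem hy)).2
  rwa [star_cm, star_star, ContinuousLinearMap.neg_apply, norm_neg, norm_star] at this

/-- (d) -/
lemma unit (hJ : TrJ M Ω J) {u w : Op H} (hu : u ∈ unitary (Op H))
    (huM : u ∈ M ∨ u ∈ M.commutant) {L : VN H} (hw : w ∈ L) {d g : ℝ} (hd : d ≤ 1 / 6)
    (hg : 0 ≤ g) (h : Sm2 M Ω (w - u) d g) : ∃ v, UIn L v ∧ Sm2 M Ω (v - u) (13 * d) (13 * g) := by
  obtain ⟨k, hk⟩ : ∃ k, k = w - u := ⟨_, rfl⟩
  rw [← hk] at h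
  have hw' : w = u + k := by rw [hk]; abel
  have hd0 : 0 ≤ d := (norm_nonneg _).trans h.1
  have hun : ‖u‖ ≤ 1 := by
    rcases huM with h' | h'
    · exact UIn.norm_le ⟨h', hu⟩
    · exact UIn.norm_le ⟨h', hu⟩
  have hun' : ‖star u‖ ≤ 1 := (norm_star u).trans_le hun
  have huM' : star u ∈ M ∨ star u ∈ M.commutant := huM.imp star_mem star_mem
  have hwn : ‖w‖ ≤ 2 := by
    rw [hw']
    have := norm_add_le u k
    linarith [h.1]
  have e1 : star w * w - 1 = star u * k + star k * u + star k * k := by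
    rw [hw', star_add, add_mul, mul_add, mul_add, Unitary.star_mul_self_of_mem hu]; abel
  have e2 : w * star w - 1 = u * star k + k * star u + k * star k := by
    rw [hw', star_add, add_mul, mul_add, mul_add, Unitary.mul_star_self_of_mem hu]; abel
  have hs : Sm2 M Ω (star w * w - 1) (3 * d) (3 * g) := by
    rw [e1]
    refine (((h.left hJ hg huM').add (h.star.right hJ hg huM)).add (h.star.mul h hg hg)).mono ?_ ?_
    · nlinarith [mul_le_mul_of_nonneg_right hun hd0, mul_le_mul_of_nonneg_right hun' hd0]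
    · nlinarith [mul_le_mul_of_nonneg_right hun hg, mul_le_mul_of_nonneg_right hun' hg]
  have hn2 : ‖w * star w - 1‖ ≤ 1 / 2 := by
    rw [e2]
    have hk1 : ‖k‖ ≤ d := h.1
    have hk2 : ‖star k‖ ≤ d := (norm_star k).trans_le hk1
    have b1 : ‖u * star k‖ ≤ 1 * d := (norm_mul_le _ _).trans (by gcongr)
    have b2 : ‖k * star u‖ ≤ d * 1 := (norm_mul_le _ _).trans (by gcongr)
    have b3 : ‖k * star k‖ ≤ d * d := (norm_mul_le _ _).trans (by gcongr)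
    have b4 := norm_add₃_le (a := u * star k) (b := k * star u) (c := k * star k)
    nlinarith
  obtain ⟨r, f, hr, hv, hf, hrf, hc⟩ := exists_polar_near (y := w) (hs.1.trans (by linarith)) hn2
  have hrL : r ∈ L := mem_of_commute fun t ht =>
    (hc t (commute_of_mem (mul_mem (star_mem hw) hw) ht).symm).symm
  have e3 : w * r - w = w * f * (star w * w - 1) := by rw [mul_assoc, ← hrf, mul_sub, mul_one]
  have e4 : star (w * r - w) = f * ((star w * w - 1) * star u + (star w * w - 1) * star k) := by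
    rw [← mul_add, ← star_add, ← hw', ← mul_assoc, ← hrf, star_sub, star_mul, hr.star_eq, sub_mul,
      one_mul]
  have hwf : ‖w * f‖ ≤ 4 := (norm_mul_le _ _).trans (by nlinarith [norm_nonneg w, norm_nonneg f])
  have h2 : Sm2 M Ω (w * r - w) (12 * d) (12 * g) := by
    refine ⟨?_, ?_, ?_⟩
    · rw [e3]
      calc _ ≤ ‖w * f‖ * ‖star w * w - 1‖ := norm_mul_le _ _
        _ ≤ 4 * (3 * d) := by gcongr; exact hs.1
        _ = _ := by ring
    · rw [e3]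
      exact (hs.2.1.left _).mono (by nlinarith)
    · rw [e4]
      refine (((hs.right hJ (by positivity) huM').2.1.add (h.2.2.left _)).left f).mono ?_
      have b1 : ‖star u‖ * (3 * g) + ‖star w * w - 1‖ * g ≤ 1 * (3 * g) + 1 * g := by
        gcongr; linarith [hs.1]
      calc _ ≤ 2 * (1 * (3 * g) + 1 * g) := by gcongr
        _ ≤ _ := by linarith
  refine ⟨w * r, ⟨mul_mem hw hrL, hv⟩, ?_⟩
  have e5 : w * r - u = (w * r - w) + k := by rw [hk]; abel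
  rw [e5]
  exact (h2.add h).mono (by linarith) (by linarith)

end ApxAux

/-- `P = N'`.  (a) `P → M'`: `r₀ = p - y₀` small in norm, `trunc` with `Q = M`, `a = r₀ Ω`, then
`adj`; `r x Ω = x r Ω - [x, p] Ω`.
(b) `M' → P` (any `y`): let `S t` say that every `y ∈ M'` has `p ∈ P` with `‖y - p‖ ≤ C₂ δ ‖y‖` and
`‖(y - p) Ω‖ + ‖(y - p)⋆ Ω‖ ≤ t ‖y‖`.  `S t₀` is trivial and `S t → S (C₃ γ + t / 2)`: take `p₀` near
`y`, `y₁ ∈ M'` from (a) for `p₀`, and `p₁` from `S t` for `y - y₁`; use `p₀ + p₁`.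
(c) `M → N`: `trunc` with `Q = P`; `adj` with `Q = M'`: for `y = p + ρ`,
`[r, y] = [a, p] + [r, ρ]`, absorb `C δ ‖r⋆ Ω‖`; `r x Ω = r y Ω`, `y = J x⋆ J`.
(d) unitary versions: `exists_polar_near`, `v - n = n f (n⋆n - 1)`.
(e) `[x, p] x' = [x x', p] - x [x', p]`, `[x, p]⋆ = -[x⋆, p⋆]`. -/
theorem exists_apx : ∃ C δ₀ : ℝ, 1 ≤ C ∧ 0 < δ₀ ∧ ∀ (H : Type u) [NormedAddCommGroup H] [InnerProductSpace ℂ H] [CompleteSpace H] (M N : VN H) (Ω : H)
    (J : H ≃ₗᵢ⋆[ℂ] H) (δ γ : ℝ), TrJ M Ω J → 0 < δ → δ ≤ δ₀ → 0 < γ → CL M N δ →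
    Gam M N.commutant Ω γ → Apx M N Ω (C * δ) (C * γ) := by
  obtain ⟨C₁, hC₁, h₁⟩ := cl_comm.{u}
  have hC₁' : 0 < C₁ := by linarith
  refine ⟨156 * C₁ + 4732, 1 / 96 / C₁, by linarith, by positivity, ?_⟩
  intro H _ _ _ M N Ω J δ γ hJ hδ hδ₀ hγ hcl hG
  rw [le_div_iff₀ hC₁', mul_comm] at hδ₀
  have hcl' := h₁ H M N δ hδ.le hcl
  have hδ₁ : δ ≤ C₁ * δ := by nlinarith
  have hε : 0 ≤ C₁ * δ := by positivity
  have hCγ : 0 ≤ C₁ * γ := by positivity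
  refine ⟨fun p hp => ?_, fun b hb => ?_, fun a ha => ?_, fun x hx p hp => ?_⟩
  · obtain ⟨y, hy, g₁, g₂, g₃⟩ := ApxAux.toM hJ hγ.le hG hε hcl'.2 hp
    have hp0 := norm_nonneg p
    refine ⟨y, hy, g₁.trans (by gcongr ?_ * _; nlinarith),
      (ApxAux.sm_of_vac hG hp hy g₂).mono (by nlinarith [mul_nonneg hγ.le hp0]), ?_⟩
    rw [star_sub] at g₃ ⊢
    refine (ApxAux.sm_of_vac hG (star_mem hp) (star_mem hy) g₃).mono ?_
    rw [norm_star]; nlinarith [mul_nonneg hγ.le hp0]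
  · obtain ⟨p, hp, g₁, g₂, g₃⟩ := ApxAux.toP hJ hγ hG hε (by linarith) hcl' hb.1
    have hb1 := hb.norm_le
    have g₁' : ‖b - p‖ ≤ 12 * (C₁ * δ) := g₁.trans (by nlinarith)
    have hγb : 33 * γ * ‖b‖ ≤ 33 * γ := by nlinarith
    have hpn : γ * ‖p‖ ≤ γ * 2 := by
      have := norm_sub_le b (b - p)
      rw [sub_sub_cancel] at this
      gcongr; linarith
    have hs : Sm2 M Ω (p - b) (12 * (C₁ * δ)) (35 * γ) := by
      refine ⟨by rw [norm_sub_rev]; exact g₁', ?_, ?_⟩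
      · refine (ApxAux.sm_of_vac hG hp hb.1 (c := 33 * γ) ?_).mono (by linarith)
        rw [← neg_sub, ContinuousLinearMap.neg_apply, norm_neg]; linarith
      · rw [star_sub]
        refine (ApxAux.sm_of_vac hG (star_mem hp) (star_mem hb.1) (c := 33 * γ) ?_).mono
          (by rw [norm_star]; linarith)
        rw [← star_sub, ← neg_sub, star_neg, ContinuousLinearMap.neg_apply, norm_neg]; linarith
    obtain ⟨q, hq, hs'⟩ := ApxAux.unit hJ hb.2 (Or.inr hb.1) hp (by linarith) (by positivity) hs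
    exact ⟨q, hq, hs'.mono (by nlinarith) (by nlinarith)⟩
  · obtain ⟨n, hn, hs⟩ := ApxAux.toN hJ hγ hG hδ.le (by linarith) hε hδ₀ hcl.1 hcl' ha.1
    have ha1 := ha.norm_le
    have hs₁ : Sm2 M Ω (n - a) (3 * δ) (364 * γ) := by
      rw [← neg_sub]
      exact hs.neg.mono (by nlinarith) (by nlinarith)
    obtain ⟨v, hv, hs'⟩ := ApxAux.unit hJ ha.2 (Or.inl ha.1) hn (by linarith) (by positivity) hs₁
    refine ⟨v, hv, ?_⟩
    rw [← neg_sub]
    exact hs'.neg.mono (by nlinarith) (by nlinarith)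
  · have hle : 2 * γ * ‖x‖ * ‖p‖ ≤ (156 * C₁ + 4732) * γ * ‖x‖ * ‖p‖ := by
      gcongr; linarith
    refine ⟨?_, (ApxAux.sm_cm hγ.le hG hx hp).mono hle, ?_⟩
    · obtain ⟨n, hn, h⟩ := hcl.1 x hx
      rw [← ApxAux.sub_cm_of (a := x) (commute_of_mem hn hp)]
      calc ‖cm (x - n) p‖ ≤ ‖(x - n) * p‖ + ‖p * (x - n)‖ := norm_sub_le _ _
        _ ≤ ‖x - n‖ * ‖p‖ + ‖p‖ * ‖x - n‖ := add_le_add (norm_mul_le _ _) (norm_mul_le _ _)
        _ ≤ δ * ‖x‖ * ‖p‖ + ‖p‖ * (δ * ‖x‖) := by gcongr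
        _ = 2 * δ * ‖x‖ * ‖p‖ := by ring
        _ ≤ _ := by gcongr; linarith
    · rw [ApxAux.star_cm]
      refine (ApxAux.sm_cm hγ.le hG (star_mem hx) (star_mem hp)).neg.mono ?_
      rwa [norm_star, norm_star]

end Crest.Agent.R78
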