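import Crest.Agent.R78.BasicB

/-! # Row 78: basic API (commutants, conjugates, closeness, weak limits, `jop`) -/

set_option autoImplicit false

namespace Crest.Agent.R78

open scoped InnerProductSpace ComplexOrder BigOperators Topology
open Filter
open Crest.Agent.R124 (Op cm)
open Crest.OpAlg (LineCalculus)

universe u

variable {H : Type u} [NormedAddCommGroup H] [InnerProductSpace ℂ H] [CompleteSpace H]

/-! ## `jop` -/

section jop
variable {J : H ≃ₗᵢ⋆[ℂ] H}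

lemma jop_apply (J : H ≃ₗᵢ⋆[ℂ] H) (x : Op H) (ξ : H) : jop J x ξ = J (x (J ξ)) := rfl

lemma inner_J (J : H ≃ₗᵢ⋆[ℂ] H) (ξ η : H) : ⟪J ξ, J η⟫_ℂ = ⟪η, ξ⟫_ℂ := by
  have hre : ∀ a b : H, (⟪J a, J b⟫_ℂ).re = (⟪a, b⟫_ℂ).re := fun a b => by
    have h1 := @re_inner_eq_norm_add_mul_self_sub_norm_sub_mul_self_div_four ℂ H _ _ _ (J a) (J b)
    have h2 := @re_inner_eq_norm_add_mul_self_sub_norm_sub_mul_self_div_four ℂ H _ _ _ a b
    rw [← map_add, ← map_sub, J.norm_map, J.norm_map] at h1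
    exact h1.trans h2.symm
  apply Complex.ext
  · rw [hre, ← inner_conj_symm, Complex.conj_re]
  · have h := hre (Complex.I • ξ) η
    rw [LinearIsometryEquiv.map_smulₛₗ, inner_smul_left, inner_smul_left] at h
    rw [← inner_conj_symm η ξ, Complex.conj_im]
    simp at h
    linarith

lemma norm_jop_le (J : H ≃ₗᵢ⋆[ℂ] H) (x : Op H) : ‖jop J x‖ ≤ ‖x‖ := by
  exact LinearMap.mkContinuous_norm_le _ (norm_nonneg x) _

lemma jop_add (J : H ≃ₗᵢ⋆[ℂ] H) (x y : Op H) : jop J (x + y) = jop J x + jop J y := by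
  ext ξ; simp [jop_apply]

lemma jop_sub (J : H ≃ₗᵢ⋆[ℂ] H) (x y : Op H) : jop J (x - y) = jop J x - jop J y := by
  ext ξ; simp [jop_apply]

lemma jop_neg (J : H ≃ₗᵢ⋆[ℂ] H) (x : Op H) : jop J (-x) = -jop J x := by
  ext ξ; simp [jop_apply]

lemma jop_zero (J : H ≃ₗᵢ⋆[ℂ] H) : jop J 0 = 0 := by
  ext ξ; simp [jop_apply]

lemma jop_smul (J : H ≃ₗᵢ⋆[ℂ] H) (c : ℂ) (x : Op H) :
    jop J (c • x) = (starRingEnd ℂ c) • jop J x := by
  ext ξ; simp [jop_apply, LinearIsometryEquiv.map_smulₛₗ]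

lemma jop_sum (J : H ≃ₗᵢ⋆[ℂ] H) {α : Type*} (s : Finset α) (x : α → Op H) :
    jop J (∑ i ∈ s, x i) = ∑ i ∈ s, jop J (x i) := by
  ext ξ; simp [jop_apply, map_sum]

lemma jop_one (hJ : ∀ ξ, J (J ξ) = ξ) : jop J 1 = 1 := by
  ext ξ; simp [jop_apply, hJ]

lemma jop_mul (hJ : ∀ ξ, J (J ξ) = ξ) (x y : Op H) : jop J (x * y) = jop J x * jop J y := by
  ext ξ; simp [jop_apply, hJ]

lemma jop_star (hJ : ∀ ξ, J (J ξ) = ξ) (x : Op H) : jop J (star x) = star (jop J x) := by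
  rw [ContinuousLinearMap.star_eq_adjoint, ContinuousLinearMap.star_eq_adjoint,
    ContinuousLinearMap.eq_adjoint_iff]
  intro ξ η
  rw [jop_apply, jop_apply]
  conv_lhs => rw [← hJ η]
  conv_rhs => rw [← hJ ξ]
  rw [inner_J, inner_J, ContinuousLinearMap.adjoint_inner_right]

lemma jop_jop (hJ : ∀ ξ, J (J ξ) = ξ) (x : Op H) : jop J (jop J x) = x := by
  ext ξ; simp [jop_apply, hJ]

lemma jop_unitary (hJ : ∀ ξ, J (J ξ) = ξ) {x : Op H} (hx : x ∈ unitary (Op H)) :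
    jop J x ∈ unitary (Op H) := by
  rw [Unitary.mem_iff] at hx ⊢
  rw [← jop_star hJ, ← jop_mul hJ, ← jop_mul hJ, hx.1, hx.2, jop_one hJ]
  exact ⟨rfl, rfl⟩

end jop

/-! ## unitary representations -/

lemma URep.zero {G : Type*} [AddCommGroup G] {U : G → Op H} (h : URep U) : U 0 = 1 := by
  have h1 := h.add 0 0
  rw [add_zero] at h1
  have h2 := (Unitary.mem_iff.1 (h.unit 0)).1
  calc U 0 = star (U 0) * U 0 * U 0 := by rw [h2, one_mul]
    _ = star (U 0) * U 0 := by rw [mul_assoc, ← h1]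
    _ = 1 := h2

lemma URep.neg {G : Type*} [AddCommGroup G] {U : G → Op H} (h : URep U) (g : G) :
    U (-g) = star (U g) := by
  have h1 := h.add g (-g)
  rw [add_neg_cancel, h.zero] at h1
  have h2 := (Unitary.mem_iff.1 (h.unit g)).1
  calc U (-g) = star (U g) * U g * U (-g) := by rw [h2, one_mul]
    _ = star (U g) := by rw [mul_assoc, ← h1, mul_one]

lemma URep.commute {G : Type*} [AddCommGroup G] {U : G → Op H} (h : URep U) (g g' : G) :
    Commute (U g) (U g') := by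
  change U g * U g' = U g' * U g
  rw [← h.add, ← h.add, add_comm]

end Crest.Agent.R78
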