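import Crest.Agent.R78.Defs

/-! # Row 78: basic API (commutants, conjugates, closeness, weak limits, `jop`) -/

set_option autoImplicit false

namespace Crest.Agent.R78

open scoped InnerProductSpace ComplexOrder BigOperators Topology
open Filter
open Crest.Agent.R124 (Op cm)
open Crest.OpAlg (LineCalculus)

universe u

variable {H : Type u} [NormedAddCommGroup H] [InnerProductSpace ℂ H] [CompleteSpace H]

/-! ## commutants and conjugates -/

lemma mem_cmt {S : Set (Op H)} {x : Op H} :
    x ∈ cmt S ↔ ∀ s ∈ S, s * x = x * s ∧ star s * x = x * star s := by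
  exact StarSubalgebra.mem_centralizer_iff ℂ

lemma subset_cmt_commutant (S : Set (Op H)) {s : Op H} (hs : s ∈ S) : s ∈ (cmt S).commutant := by
  exact VonNeumannAlgebra.mem_commutant_iff.2 fun g hg => ((mem_cmt.1 hg) s hs).1.symm

lemma commute_of_mem {M : VN H} {x y : Op H} (hx : x ∈ M) (hy : y ∈ M.commutant) :
    Commute x y := by
  exact VonNeumannAlgebra.mem_commutant_iff.1 hy x hx

lemma mem_of_commute {M : VN H} {x : Op H} (h : ∀ y ∈ M.commutant, Commute x y) : x ∈ M := by
  rw [← VonNeumannAlgebra.commutant_commutant M]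
  exact VonNeumannAlgebra.mem_commutant_iff.2 fun y hy => (h y hy).symm.eq

lemma mem_commutant_of {M : VN H} {y : Op H} (h : ∀ x ∈ M, Commute x y) : y ∈ M.commutant := by
  exact VonNeumannAlgebra.mem_commutant_iff.2 fun x hx => (h x hx).eq

lemma smul_mem_vn {M : VN H} (c : ℂ) {x : Op H} (hx : x ∈ M) : c • x ∈ M := by
  exact M.toStarSubalgebra.smul_mem hx c

lemma isClosed_vn (M : VN H) : IsClosed (M : Set (Op H)) := by
  rw [← VonNeumannAlgebra.centralizer_centralizer M]
  exact Set.isClosed_centralizer _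

lemma convex_vn (M : VN H) : Convex ℝ (M : Set (Op H)) := by
  intro x hx y hy a b _ _ _
  have h1 : ((a : ℂ) • x + (b : ℂ) • y) ∈ M := add_mem (smul_mem_vn _ hx) (smul_mem_vn _ hy)
  simp only [Complex.coe_smul] at h1
  exact h1

lemma mem_cj {u y : Op H} (hu : u ∈ unitary (Op H)) {M : VN H} :
    y ∈ cj u M ↔ star u * y * u ∈ M := by
  have h1 : ∀ a : Op H, star u * (u * a) = a := fun a => by
    rw [← mul_assoc, (Unitary.mem_iff.1 hu).1, one_mul]
  have h2 : ∀ a : Op H, u * (star u * a) = a := fun a => by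
    rw [← mul_assoc, (Unitary.mem_iff.1 hu).2, one_mul]
  have h3 := (Unitary.mem_iff.1 hu).1
  have h4 := (Unitary.mem_iff.1 hu).2
  constructor
  · intro hy
    refine mem_of_commute fun p hp => ?_
    have := congrArg (fun a => star u * a * u) ((mem_cmt.1 hy) _ ⟨p, hp, rfl⟩).1
    simp only [mul_assoc, h1, h3, mul_one] at this
    change _ = _
    simp only [mul_assoc, this]
  · intro hy
    have key : ∀ p ∈ M.commutant, u * p * star u * y = y * (u * p * star u) := fun p hp => by
      have := congrArg (fun a => u * a * star u) (commute_of_mem hy hp).eq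
      simp only [mul_assoc, h2, h4, mul_one] at this
      simp only [mul_assoc, this]
    refine mem_cmt.2 ?_
    rintro _ ⟨p, hp, rfl⟩
    refine ⟨key p hp, ?_⟩
    have := key _ (star_mem hp)
    simpa only [star_mul, star_star, mul_assoc] using this

lemma conj_mem_cj {u x : Op H} (hu : u ∈ unitary (Op H)) {M : VN H} (hx : x ∈ M) :
    u * x * star u ∈ cj u M := by
  rw [mem_cj hu]
  have h3 := (Unitary.mem_iff.1 hu).1
  have e : star u * (u * x * star u) * u = (star u * u) * x * (star u * u) := by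
    simp only [mul_assoc]
  rwa [e, h3, one_mul, mul_one]

lemma cj_commutant {u : Op H} (hu : u ∈ unitary (Op H)) (M : VN H) :
    (cj u M).commutant = cj u M.commutant := by
  have h1 : ∀ a : Op H, star u * (u * a) = a := fun a => by
    rw [← mul_assoc, (Unitary.mem_iff.1 hu).1, one_mul]
  have h2 : ∀ a : Op H, u * (star u * a) = a := fun a => by
    rw [← mul_assoc, (Unitary.mem_iff.1 hu).2, one_mul]
  have h3 := (Unitary.mem_iff.1 hu).1
  have h4 := (Unitary.mem_iff.1 hu).2
  ext y
  rw [mem_cj hu]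
  constructor
  · intro hy
    refine mem_commutant_of fun x hx => ?_
    have := congrArg (fun a => star u * a * u) (commute_of_mem (conj_mem_cj hu hx) hy).eq
    simp only [mul_assoc, h1, h3, mul_one] at this
    change _ = _
    simp only [mul_assoc, this]
  · intro hy
    refine mem_commutant_of fun x hx => ?_
    have := congrArg (fun a => u * a * star u) (commute_of_mem ((mem_cj hu).1 hx) hy).eq
    simp only [mul_assoc, h2, h4, mul_one] at this
    exact this

lemma cj_one (M : VN H) : cj 1 M = M := by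
  ext y
  rw [mem_cj (one_mem _), star_one, one_mul, mul_one]

lemma cj_mul {u v : Op H} (hu : u ∈ unitary (Op H)) (hv : v ∈ unitary (Op H)) (M : VN H) :
    cj u (cj v M) = cj (u * v) M := by
  ext y
  rw [mem_cj hu, mem_cj hv, mem_cj (mul_mem hu hv), star_mul]
  simp only [mul_assoc]

lemma cj_of_nml {u : Op H} (hu : u ∈ unitary (Op H)) {M : VN H} (h : Nml u M) : cj u M = M := by
  ext y
  rw [mem_cj hu]
  refine ⟨fun hy => ?_, fun hy => (h y hy).2⟩
  have := (h _ hy).1
  have e : u * (star u * y * u) * star u = (u * star u) * y * (u * star u) := by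
    simp only [mul_assoc]
  rwa [e, (Unitary.mem_iff.1 hu).2, one_mul, mul_one] at this

lemma Nml.commutant {u : Op H} (hu : u ∈ unitary (Op H)) {M : VN H} (h : Nml u M) :
    Nml u M.commutant := by
  intro y hy
  have e : cj u M.commutant = M.commutant := by rw [← cj_commutant hu, cj_of_nml hu h]
  refine ⟨?_, ?_⟩
  · rw [← e]; exact conj_mem_cj hu hy
  · rw [← mem_cj hu, e]; exact hy

lemma Nml.mul {u v : Op H} {M : VN H} (h : Nml u M) (h' : Nml v M) : Nml (u * v) M := by
  intro y hy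
  refine ⟨?_, ?_⟩
  · simpa only [star_mul, mul_assoc] using (h _ (h' y hy).1).1
  · simpa only [star_mul, mul_assoc] using (h' _ (h y hy).2).2

lemma Nml.star {u : Op H} {M : VN H} (h : Nml u M) : Nml (star u) M := by
  intro y hy
  rw [star_star]
  exact (h y hy).symm

lemma UIn.nml {M : VN H} {a : Op H} (h : UIn M a) : Nml a M := by
  intro y hy
  exact ⟨mul_mem (mul_mem h.1 hy) (star_mem h.1), mul_mem (mul_mem (star_mem h.1) hy) h.1⟩

lemma UIn.nml' {M : VN H} {a : Op H} (h : UIn M.commutant a) : Nml a M := by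
  intro y hy
  have hc := (commute_of_mem hy h.1).eq
  refine ⟨?_, ?_⟩
  · rwa [← hc, mul_assoc, (Unitary.mem_iff.1 h.2).2, mul_one]
  · rwa [mul_assoc, hc, ← mul_assoc, (Unitary.mem_iff.1 h.2).1, one_mul]

lemma nml_cj {u w : Op H} (hu : u ∈ unitary (Op H)) {N : VN H} (h : Nml (star u * w * u) N) :
    Nml w (cj u N) := by
  have h2 : ∀ a : Op H, u * (star u * a) = a := fun a => by
    rw [← mul_assoc, (Unitary.mem_iff.1 hu).2, one_mul]
  intro y hy
  rw [mem_cj hu] at hy
  rw [mem_cj hu, mem_cj hu]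
  refine ⟨?_, ?_⟩
  · simpa only [star_mul, star_star, mul_assoc, h2] using (h _ hy).1
  · simpa only [star_mul, star_star, mul_assoc, h2] using (h _ hy).2

lemma UIn.one (M : VN H) : UIn M 1 := by
  exact ⟨one_mem M, one_mem _⟩

lemma UIn.mul {M : VN H} {a b : Op H} (ha : UIn M a) (hb : UIn M b) : UIn M (a * b) := by
  exact ⟨mul_mem ha.1 hb.1, mul_mem ha.2 hb.2⟩

lemma UIn.star {M : VN H} {a : Op H} (ha : UIn M a) : UIn M (star a) := by
  exact ⟨star_mem ha.1, Unitary.star_mem ha.2⟩

lemma UIn.norm_le {M : VN H} {a : Op H} (ha : UIn M a) : ‖a‖ ≤ 1 := by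
  exact ContinuousLinearMap.opNorm_le_bound _ zero_le_one fun ξ => by
    rw [R124.norm_unitary_apply ha.2, one_mul]

lemma Cyc.mono {A B : Set (Op H)} {Ω : H} (h : Cyc A Ω) (hAB : A ⊆ B) : Cyc B Ω := by
  exact Dense.mono (Set.image_mono hAB) h

/-- cyclic for the commutant implies separating -/
lemma Cyc.sep {M : VN H} {Ω : H} (h : Cyc (M.commutant : Set (Op H)) Ω) :
    ∀ x ∈ M, x Ω = 0 → x = 0 := by
  intro x hx h0
  ext1 ξ
  refine congrFun (Continuous.ext_on h x.continuous (0 : Op H).continuous ?_) ξ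
  rintro _ ⟨y, hy, rfl⟩
  change (x * y) Ω = 0
  rw [(commute_of_mem hx hy).eq]
  change y (x Ω) = 0
  rw [h0, map_zero]

/-- separating implies cyclic for the commutant (the projection onto `[M' Ω]` lies in `M`) -/
lemma cyc_commutant {M : VN H} {Ω : H} (h : ∀ x ∈ M, x Ω = 0 → x = 0) :
    Cyc (M.commutant : Set (Op H)) Ω := by
  let K₀ : Submodule ℂ H :=
    { carrier := (fun x : Op H => x Ω) '' (M.commutant : Set (Op H))
      add_mem' := by
        rintro _ _ ⟨x, hx, rfl⟩ ⟨y, hy, rfl⟩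
        exact ⟨x + y, add_mem hx hy, rfl⟩
      zero_mem' := ⟨0, zero_mem M.commutant, rfl⟩
      smul_mem' := by
        rintro c _ ⟨x, hx, rfl⟩
        exact ⟨c • x, smul_mem_vn c hx, rfl⟩ }
  let K : Submodule ℂ H := K₀.topologicalClosure
  haveI : CompleteSpace K := K₀.isClosed_topologicalClosure.completeSpace_coe
  have hP : K.starProjection ∈ M := by
    refine (VonNeumannAlgebra.IsStarProjection.mem_iff isStarProjection_starProjection M).2
      fun y hy => ?_
    rw [Submodule.range_starProjection, Module.End.mem_invtSubmodule_iff_forall_mem_of_mem]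
    intro ξ hξ
    refine map_mem_closure y.continuous hξ ?_
    rintro _ ⟨x, hx, rfl⟩
    exact ⟨y * x, mul_mem hy hx, rfl⟩
  have hΩ : Ω ∈ K := subset_closure ⟨1, one_mem M.commutant, rfl⟩
  have h1 := h (1 - K.starProjection) (sub_mem (one_mem M) hP) (by
    change Ω - K.starProjection Ω = 0
    rw [Submodule.starProjection_eq_self_iff.2 hΩ, sub_self])
  intro ξ
  have h2 : ξ - K.starProjection ξ = 0 := congrArg (fun T : Op H => T ξ) h1
  rw [sub_eq_zero.1 h2]
  exact K.starProjection_apply_mem ξ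

/-! ## closeness -/

lemma Near.mono {A B : Set (Op H)} {δ δ' : ℝ} (h : Near A B δ) (hδ : δ ≤ δ') : Near A B δ' := by
  intro x hx
  obtain ⟨y, hy, h1⟩ := h x hx
  exact ⟨y, hy, h1.trans (mul_le_mul_of_nonneg_right hδ (norm_nonneg _))⟩

lemma Near.trans {A B C : Set (Op H)} {δ δ' : ℝ} (h : Near A B δ) (h' : Near B C δ')
    (hδ' : 0 ≤ δ') : Near A C (δ + δ' + δ * δ') := by
  intro x hx
  obtain ⟨y, hy, h1⟩ := h x hx
  obtain ⟨z, hz, h2⟩ := h' y hy
  refine ⟨z, hz, ?_⟩
  have h3 := norm_sub_norm_le y x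
  rw [norm_sub_rev] at h3
  have h4 : δ' * ‖y‖ ≤ δ' * (‖x‖ + δ * ‖x‖) := mul_le_mul_of_nonneg_left (by linarith) hδ'
  have h5 := norm_sub_le_norm_sub_add_norm_sub x y z
  linarith

lemma CL.symm {M N : VN H} {δ : ℝ} (h : CL M N δ) : CL N M δ := by
  exact ⟨h.2, h.1⟩

lemma CL.mono {M N : VN H} {δ δ' : ℝ} (h : CL M N δ) (hδ : δ ≤ δ') : CL M N δ' := by
  exact ⟨h.1.mono hδ, h.2.mono hδ⟩

lemma CL.trans {M N L : VN H} {δ δ' : ℝ} (h : CL M N δ) (h' : CL N L δ') (hδ : 0 ≤ δ)
    (hδ' : 0 ≤ δ') : CL M L (δ + δ' + δ * δ') := by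
  exact ⟨h.1.trans h'.1 hδ', (h'.2.trans h.2 hδ).mono (le_of_eq (by ring))⟩

lemma cl_cj {u : Op H} (hu : u ∈ unitary (Op H)) (M : VN H) : CL M (cj u M) (2 * ‖u - 1‖) := by
  have hn : ∀ v : Op H, v ∈ unitary (Op H) → ‖v‖ ≤ 1 := fun v hv =>
    ContinuousLinearMap.opNorm_le_bound _ zero_le_one fun ξ => by
      rw [R124.norm_unitary_apply hv, one_mul]
  have key : ∀ v : Op H, v ∈ unitary (Op H) → ∀ x : Op H,
      ‖x - v * x * star v‖ ≤ 2 * ‖v - 1‖ * ‖x‖ := fun v hv x => by
    have e : x - v * x * star v = -((v - 1) * x * star v) - x * star (v - 1) := by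
      rw [star_sub, star_one]; noncomm_ring
    rw [e]
    refine (norm_sub_le _ _).trans ?_
    have h1 : ‖(v - 1) * x * star v‖ ≤ ‖v - 1‖ * ‖x‖ * 1 :=
      (norm_mul_le _ _).trans (mul_le_mul (norm_mul_le _ _) (hn _ (Unitary.star_mem hv))
        (norm_nonneg _) (by positivity))
    have h2 := norm_mul_le x (star (v - 1))
    rw [norm_star] at h2
    rw [norm_neg]
    linarith
  refine ⟨fun x hx => ⟨_, conj_mem_cj hu hx, key u hu x⟩, fun y hy => ⟨_, (mem_cj hu).1 hy, ?_⟩⟩
  have := key _ (Unitary.star_mem hu) y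
  rwa [star_star, ← star_one (Op H), ← star_sub, norm_star] at this

lemma CL.cj {u : Op H} (hu : u ∈ unitary (Op H)) {M N : VN H} {δ : ℝ} (h : CL M N δ) :
    CL (cj u M) (cj u N) δ := by
  have key : ∀ M N : VN H, Near (M : Set (Op H)) (N : Set (Op H)) δ →
      Near (R78.cj u M : Set (Op H)) (R78.cj u N : Set (Op H)) δ := fun M N h x hx => by
    obtain ⟨y, hy, h1⟩ := h _ ((mem_cj hu).1 hx)
    refine ⟨_, conj_mem_cj hu hy, ?_⟩
    have e : x - u * y * star u = u * (star u * x * u - y) * star u := by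
      have : u * (star u * x * u) * star u = (u * star u) * x * (u * star u) := by
        simp only [mul_assoc]
      rw [mul_sub, sub_mul, this, (Unitary.mem_iff.1 hu).2, one_mul, mul_one]
    rw [CStarRing.norm_mul_mem_unitary _ hu,
      CStarRing.norm_mem_unitary_mul _ (Unitary.star_mem hu)] at h1
    rwa [e, CStarRing.norm_mul_mem_unitary _ (Unitary.star_mem hu),
      CStarRing.norm_mem_unitary_mul _ hu]
  exact ⟨key M N h.1, key N M h.2⟩

/-- Let `t` be the infimum of the `t'` with `Near N M t'`.  For `y ∈ N` take `x ∈ M` near `y`,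
`n ∈ N` near `x`, and approximate `y - n ∈ N`: `Near N M t' → Near N M (t' * 9 / 16 + 5 η / 4)`;
iterate. -/
lemma near_rev {M N : VN H} {η δ : ℝ} (h : Near (M : Set (Op H)) (N : Set (Op H)) η)
    (h' : Near (N : Set (Op H)) (M : Set (Op H)) δ) (hη : 0 < η) (hη' : η ≤ 1 / 4)
    (hδ : δ ≤ 1 / 4) : Near (N : Set (Op H)) (M : Set (Op H)) (4 * η) := by
  have key : ∀ k : ℕ, Near (N : Set (Op H)) (M : Set (Op H)) ((9 / 16) ^ k / 4 + 20 * η / 7) := by
    intro k
    induction k with
    | zero => exact h'.mono (by rw [pow_zero]; linarith)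
    | succ k ih =>
      intro y hy
      obtain ⟨x, hx, h1⟩ := h'.mono hδ y hy
      obtain ⟨n, hn, h2⟩ := h x hx
      obtain ⟨x', hx', h3⟩ := ih (y - n) (sub_mem hy hn)
      refine ⟨x + x', add_mem hx hx', ?_⟩
      have hy0 := norm_nonneg y
      have h4 := norm_sub_norm_le x y
      rw [norm_sub_rev] at h4
      have h5 : η * ‖x‖ ≤ η * (5 / 4 * ‖y‖) := mul_le_mul_of_nonneg_left (by linarith) hη.le
      have h6 : η * ‖y‖ ≤ 1 / 4 * ‖y‖ := mul_le_mul_of_nonneg_right hη' hy0
      have h7 := norm_sub_le_norm_sub_add_norm_sub y x n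
      have h8 : ((9 / 16 : ℝ) ^ k / 4 + 20 * η / 7) * ‖y - n‖ ≤
          ((9 / 16 : ℝ) ^ k / 4 + 20 * η / 7) * (9 / 16 * ‖y‖) :=
        mul_le_mul_of_nonneg_left (by linarith) (by positivity)
      have e : y - (x + x') = (y - n - x') - (x - n) := by abel
      have h9 := norm_sub_le (y - n - x') (x - n)
      rw [e, pow_succ]
      linarith
  obtain ⟨k, hk⟩ := exists_pow_lt_of_lt_one hη (by norm_num : (9 / 16 : ℝ) < 1)
  exact (key k).mono (by linarith)

end Crest.Agent.R78
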