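import Crest.Agent.R78.BasicA

/-! # Row 78: basic API (commutants, conjugates, closeness, weak limits, `jop`) -/

set_option autoImplicit false
set_option linter.unusedSectionVars false

namespace Crest.Agent.R78

open scoped InnerProductSpace ComplexOrder BigOperators Topology
open Filter
open Crest.Agent.R124 (Op cm)
open Crest.OpAlg (LineCalculus)

universe u

variable {H : Type u} [NormedAddCommGroup H] [InnerProductSpace ℂ H] [CompleteSpace H]

/-! ## weak limits -/

section wl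
variable {I : Type*} {l : Filter I} {T T' : I → Op H} {a a' : Op H}

lemma exists_wl (𝒰 : Ultrafilter I) (T : I → Op H) {R : ℝ} (hR : 0 ≤ R)
    (h : ∀ᶠ i in (𝒰 : Filter I), ‖T i‖ ≤ R) : ∃ T₀ : Op H, ‖T₀‖ ≤ R ∧ WL 𝒰 T T₀ :=
  R124.exists_wlim 𝒰 T hR h

lemma WL.unique [l.NeBot] (h : WL l T a) (h' : WL l T a') : a = a' := by
  ext ξ
  exact ext_inner_left ℂ fun η => tendsto_nhds_unique (h ξ η) (h' ξ η)

lemma WL.const (l : Filter I) (a : Op H) : WL l (fun _ => a) a := by
  exact fun _ _ => tendsto_const_nhds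

lemma WL.congr' (h : WL l T a) (h' : T =ᶠ[l] T') : WL l T' a := by
  exact fun ξ η => (h ξ η).congr' (h'.mono fun i hi => by simp only [hi])

lemma WL.add (h : WL l T a) (h' : WL l T' a') : WL l (fun i => T i + T' i) (a + a') := by
  intro ξ η
  simp only [_root_.add_apply, inner_add_right]
  exact (h ξ η).add (h' ξ η)

lemma WL.sub (h : WL l T a) (h' : WL l T' a') : WL l (fun i => T i - T' i) (a - a') := by
  intro ξ η
  simp only [_root_.sub_apply, inner_sub_right]
  exact (h ξ η).sub (h' ξ η)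

lemma WL.smul (h : WL l T a) (c : ℂ) : WL l (fun i => c • T i) (c • a) := by
  intro ξ η
  simp only [_root_.smul_apply, inner_smul_right]
  exact (h ξ η).const_mul c

lemma WL.mul_left (h : WL l T a) (c : Op H) : WL l (fun i => c * T i) (c * a) := by
  intro ξ η
  have := h ξ (ContinuousLinearMap.adjoint c η)
  simp only [ContinuousLinearMap.adjoint_inner_left] at this
  exact this

lemma WL.mul_right (h : WL l T a) (c : Op H) : WL l (fun i => T i * c) (a * c) := by
  exact fun ξ η => h (c ξ) η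

lemma WL.star (h : WL l T a) : WL l (fun i => star (T i)) (star a) := by
  intro ξ η
  have := (Complex.continuous_conj.tendsto _).comp (h η ξ)
  simp only [ContinuousLinearMap.star_eq_adjoint, ContinuousLinearMap.adjoint_inner_right]
  simpa only [Function.comp_def, inner_conj_symm] using this

lemma WL.sum {α : Type*} (s : Finset α) {T : α → I → Op H} {a : α → Op H}
    (h : ∀ x ∈ s, WL l (T x) (a x)) : WL l (fun i => ∑ x ∈ s, T x i) (∑ x ∈ s, a x) := by
  intro ξ η
  simp only [_root_.sum_apply, inner_sum]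
  exact tendsto_finsetSum s fun x hx => h x hx ξ η

lemma WL.of_tendsto (h : Tendsto T l (𝓝 a)) : WL l T a := by
  intro ξ η
  have hc : Continuous fun S : Op H => ⟪η, S ξ⟫_ℂ := by fun_prop
  exact (hc.tendsto a).comp h

lemma WClosed.mem {C : Set (Op H)} (hC : WClosed C) [l.NeBot] (h : WL l T a)
    (hT : ∀ᶠ i in l, T i ∈ C) : a ∈ C := by
  exact hC (l.map T) a (fun ξ η => h ξ η) hT

lemma WL.app_le [l.NeBot] (h : WL l T a) {ξ ζ : H} {c : ℝ} (hT : ∀ᶠ i in l, ‖T i ξ - ζ‖ ≤ c) :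
    ‖a ξ - ζ‖ ≤ c := by
  have hc : 0 ≤ c := by
    obtain ⟨i, hi⟩ := hT.exists
    exact (norm_nonneg _).trans hi
  set w := a ξ - ζ with hw
  have h1 : Tendsto (fun i => ‖⟪w, T i ξ⟫_ℂ - ⟪w, ζ⟫_ℂ‖) l (𝓝 ‖⟪w, a ξ⟫_ℂ - ⟪w, ζ⟫_ℂ‖) :=
    ((h ξ w).sub_const _).norm
  have h2 : ‖⟪w, a ξ⟫_ℂ - ⟪w, ζ⟫_ℂ‖ ≤ ‖w‖ * c := by
    refine le_of_tendsto h1 (hT.mono fun i hi => ?_)
    rw [← inner_sub_right]
    exact (norm_inner_le_norm _ _).trans (mul_le_mul_of_nonneg_left hi (norm_nonneg _))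
  rw [← inner_sub_right, ← hw, inner_self_eq_norm_sq_to_K] at h2
  simp only [norm_pow, norm_algebraMap', norm_norm] at h2
  rcases (norm_nonneg w).eq_or_lt with h0 | h0
  · rw [← h0]
    exact hc
  · nlinarith

lemma WL.norm_sub_le [l.NeBot] (h : WL l T a) {b : Op H} {c : ℝ}
    (hT : ∀ᶠ i in l, ‖T i - b‖ ≤ c) : ‖a - b‖ ≤ c := by
  have hc : 0 ≤ c := by
    obtain ⟨i, hi⟩ := hT.exists
    exact (norm_nonneg _).trans hi
  refine ContinuousLinearMap.opNorm_le_bound _ hc fun ξ => ?_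
  refine h.app_le (ξ := ξ) (ζ := b ξ) (hT.mono fun i hi => ?_)
  exact ((T i - b).le_opNorm ξ).trans (mul_le_mul_of_nonneg_right hi (norm_nonneg _))

lemma WL.norm_le [l.NeBot] (h : WL l T a) {c : ℝ} (hT : ∀ᶠ i in l, ‖T i‖ ≤ c) : ‖a‖ ≤ c := by
  simpa only [sub_zero] using h.norm_sub_le (b := 0) (c := c) (by simpa only [sub_zero] using hT)

lemma WL.mem [l.NeBot] (h : WL l T a) {M : VN H} (hT : ∀ᶠ i in l, T i ∈ M) : a ∈ M := by
  refine mem_of_commute fun y hy => ?_
  exact ((h.mul_right y).congr' (hT.mono fun i hi => (commute_of_mem hi hy).eq)).unique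
    (h.mul_left y)

end wl

lemma wclosed_vn (M : VN H) : WClosed (M : Set (Op H)) := by
  exact fun l _ T₀ h hT => h.mem hT

lemma wclosed_ball (b : Op H) (c : ℝ) : WClosed {T : Op H | ‖T - b‖ ≤ c} := by
  exact fun l _ T₀ h hT => h.norm_sub_le hT

lemma wclosed_app (ξ ζ : H) (c : ℝ) : WClosed {T : Op H | ‖T ξ - ζ‖ ≤ c} := by
  exact fun l _ T₀ h hT => h.app_le hT

lemma wclosed_star_app (ξ ζ : H) (c : ℝ) : WClosed {T : Op H | ‖star T ξ - ζ‖ ≤ c} := by
  exact fun l _ T₀ h hT => h.star.app_le hT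

lemma wclosed_eq (a b c : Op H) : WClosed {T : Op H | a * T * b = c} := by
  exact fun l _ T₀ h hT => (((h.mul_left a).mul_right b).congr' hT).unique (WL.const l c)

lemma wclosed_commute (a : Op H) : WClosed {T : Op H | Commute T a} := by
  exact fun l _ T₀ h hT =>
    ((h.mul_right a).congr' (hT.mono fun i hi => Commute.eq hi)).unique (h.mul_left a)

lemma WClosed.inter {C C' : Set (Op H)} (h : WClosed C) (h' : WClosed C') : WClosed (C ∩ C') := by
  exact fun l _ T₀ h₀ hT => ⟨h l T₀ h₀ (hT.mono fun _ hi => hi.1),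
    h' l T₀ h₀ (hT.mono fun _ hi => hi.2)⟩

lemma wclosed_iInter {κ : Sort*} {C : κ → Set (Op H)} (h : ∀ k, WClosed (C k)) :
    WClosed (⋂ k, C k) := by
  exact fun l _ T₀ h₀ hT => Set.mem_iInter.2 fun k =>
    h k l T₀ h₀ (hT.mono fun _ hi => Set.mem_iInter.1 hi k)

lemma convex_ball_op (b : Op H) (c : ℝ) : Convex ℝ {T : Op H | ‖T - b‖ ≤ c} := by
  simpa only [Metric.closedBall, dist_eq_norm] using convex_closedBall b c

lemma convex_app (ξ ζ : H) (c : ℝ) : Convex ℝ {T : Op H | ‖T ξ - ζ‖ ≤ c} := by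
  have hl : IsLinearMap ℝ fun T : Op H => T ξ := ⟨fun _ _ => rfl, fun _ _ => rfl⟩
  have := (convex_closedBall ζ c).is_linear_preimage hl
  simp only [Metric.closedBall, dist_eq_norm] at this
  exact this

lemma convex_star_app (ξ ζ : H) (c : ℝ) : Convex ℝ {T : Op H | ‖star T ξ - ζ‖ ≤ c} := by
  have hl : IsLinearMap ℝ fun T : Op H => star T ξ :=
    ⟨fun _ _ => by rw [star_add]; rfl, fun _ _ => by rw [star_smul]; rfl⟩
  have := (convex_closedBall ζ c).is_linear_preimage hl
  simp only [Metric.closedBall, dist_eq_norm] at this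
  exact this

lemma convex_eq (a b c : Op H) : Convex ℝ {T : Op H | a * T * b = c} := by
  have hl : IsLinearMap ℝ fun T : Op H => a * T * b :=
    ⟨fun _ _ => by rw [mul_add, add_mul], fun _ _ => by rw [mul_smul_comm, smul_mul_assoc]⟩
  exact (convex_singleton c).is_linear_preimage hl

lemma convex_commute (a : Op H) : Convex ℝ {T : Op H | Commute T a} := by
  intro x hx y hy s t _ _ _
  exact (Commute.smul_left hx s).add_left (Commute.smul_left hy t)

end Crest.Agent.R78
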