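import Crest.Agent.R78.Basic

/-! # Row 78: consequences of modular data -/

set_option autoImplicit false

namespace Crest.Agent.R78

open scoped InnerProductSpace ComplexOrder BigOperators Topology
open Filter
open Crest.Agent.R124 (Op cm)
open Crest.OpAlg (LineCalculus)

universe u

variable {H : Type u} [NormedAddCommGroup H] [InnerProductSpace ℂ H] [CompleteSpace H]

namespace MDL

open Crest.OpAlg.LineCalculus MeasureTheory

local notation "BC" => BoundedContinuousFunction ℝ ℂ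

/-- a bounded continuous function from a bound -/
noncomputable def mk (f : ℝ → ℂ) (hf : Continuous f) (C : ℝ) (h : ∀ v, ‖f v‖ ≤ C) : BC :=
  BoundedContinuousFunction.ofNormedAddCommGroup f hf C h

@[simp] lemma mk_apply (f : ℝ → ℂ) (hf : Continuous f) (C : ℝ) (h : ∀ v, ‖f v‖ ≤ C) (v : ℝ) :
    mk f hf C h v = f v := rfl

lemma norm_sq_eq (D : LineCalculus H) (f : BC) (ξ : H) :
    ‖D.apply f ξ‖ ^ 2 = (⟪ξ, D.apply (star f * f) ξ⟫_ℂ).re := by
  rw [R84.apply_mul_apply, map_star, R124.inner_star_right, ← inner_self_eq_norm_sq (𝕜 := ℂ)]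
  rfl

lemma re_inner_nonneg (D : LineCalculus H) (φ : BC) (h : ∀ v, 0 ≤ (φ v).re) (ξ : H) :
    0 ≤ (⟪ξ, D.apply φ ξ⟫_ℂ).re := by
  let g : BC := mk (fun v => (√((φ v).re) : ℝ)) (by fun_prop) √‖φ‖ fun v => by
    rw [Complex.norm_real, Real.norm_of_nonneg (Real.sqrt_nonneg _)]
    exact Real.sqrt_le_sqrt ((Complex.re_le_norm _).trans (φ.norm_coe_le_norm v))
  have e : φ + star φ = star g * g + star g * g := by
    ext v
    simp only [BoundedContinuousFunction.coe_add, Pi.add_apply, BoundedContinuousFunction.coe_mul,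
      Pi.mul_apply, BoundedContinuousFunction.star_apply, g, mk_apply, Complex.star_def,
      Complex.conj_ofReal, Complex.add_conj]
    rw [← Complex.ofReal_mul, Real.mul_self_sqrt (h v)]
    push_cast; ring
  have h1 := congrArg (fun f : BC => (⟪ξ, D.apply f ξ⟫_ℂ).re) e
  simp only [map_add, add_apply, inner_add_right, Complex.add_re, ← norm_sq_eq] at h1
  have h2 : (⟪ξ, D.apply (star φ) ξ⟫_ℂ).re = (⟪ξ, D.apply φ ξ⟫_ℂ).re := by
    rw [map_star, R124.inner_star_right, ← inner_conj_symm, Complex.conj_re]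
  nlinarith [sq_nonneg ‖D.apply g ξ‖]

/-- the function `e^{i t (u - s)} - 1` -/
noncomputable def EE (s t : ℝ) : BC := Complex.exp (-(Complex.I * (t * s : ℝ))) • character t - 1

lemma EE_apply (s t u : ℝ) : EE s t u = Complex.exp (Complex.I * (t * (u - s) : ℝ)) - 1 := by
  simp only [EE, BoundedContinuousFunction.coe_sub, BoundedContinuousFunction.coe_smul,
    Pi.sub_apply, R84.character_apply, smul_eq_mul, BoundedContinuousFunction.coe_one,
    Pi.one_apply]
  rw [← Complex.exp_add]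
  congr 2
  push_cast; ring

lemma apply_EE (D : LineCalculus H) (s t : ℝ) (ξ : H) :
    D.apply (EE s t) ξ = Complex.exp (-(Complex.I * (t * s : ℝ))) • D.wave t ξ - ξ := by
  rw [EE, map_sub, map_smul, map_one]; rfl

/-- `1 / (1 + e^{u - s})` -/
noncomputable def kk (s : ℝ) : BC :=
  mk (fun u => ((1 + Real.exp (u - s))⁻¹ : ℝ))
    (Complex.continuous_ofReal.comp (Continuous.inv₀ (by fun_prop) fun u => by positivity)) 1
    fun u => by
      rw [Complex.norm_real, Real.norm_of_nonneg (by positivity)]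
      exact inv_le_one_of_one_le₀ (by linarith [Real.exp_pos (u - s)])

lemma exp_eq_sq (v : ℝ) : Real.exp v = Real.exp (v / 2) ^ 2 := by
  rw [sq, ← Real.exp_add]; congr 1; ring

/-- `e^{(u - s)/2} / (1 + e^{u - s})` -/
noncomputable def ff (s : ℝ) : BC :=
  mk (fun u => (Real.exp ((u - s) / 2) * (1 + Real.exp (u - s))⁻¹ : ℝ))
    (Complex.continuous_ofReal.comp (Continuous.mul (by fun_prop)
      (Continuous.inv₀ (by fun_prop) fun u => by positivity))) 1
    fun u => by
      rw [Complex.norm_real, Real.norm_of_nonneg (by positivity), ← div_eq_mul_inv,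
        div_le_one (by positivity), exp_eq_sq (u - s)]
      nlinarith [sq_nonneg (Real.exp ((u - s) / 2) - 1)]

lemma norm_mk (f : ℝ → ℂ) (hf : Continuous f) (h : ∀ v, ‖f v‖ ≤ 1) : ‖mk f hf 1 h‖ ≤ 1 :=
  (BoundedContinuousFunction.norm_le zero_le_one).2 h

lemma norm_kk (s : ℝ) : ‖kk s‖ ≤ 1 := norm_mk _ _ _

lemma norm_ff (s : ℝ) : ‖ff s‖ ≤ 1 := norm_mk _ _ _

lemma norm_apply_le_one (D : LineCalculus H) {f : BC} (hf : ‖f‖ ≤ 1) (ξ : H) :
    ‖D.apply f ξ‖ ≤ ‖ξ‖ :=
  (R84.norm_apply_apply_le D f ξ).trans (by nlinarith [norm_nonneg ξ])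

lemma half_kk {D : LineCalculus H} {x y : H} (h : D.HalfExp x y) (s : ℝ) :
    D.apply (kk s) y = ((Real.exp (s / 2) : ℝ) : ℂ) • D.apply (ff s) x := by
  rw [h (kk s) (((Real.exp (s / 2) : ℝ) : ℂ) • ff s) fun u => ?_, map_smul]
  · rfl
  · have : Real.exp (u / 2) = Real.exp (s / 2) * Real.exp ((u - s) / 2) := by
      rw [← Real.exp_add]; congr 1; ring
    simp only [BoundedContinuousFunction.coe_smul, smul_eq_mul, kk, ff, mk_apply, this]
    push_cast; ring

lemma half_ff {D : LineCalculus H} {x y : H} (h : D.HalfExp x y) (s : ℝ) :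
    ((Real.exp (-(s / 2)) : ℝ) : ℂ) • D.apply (ff s) y = x - D.apply (kk s) x := by
  have := h (((Real.exp (-(s / 2)) : ℝ) : ℂ) • ff s) (1 - kk s) fun u => ?_
  · rwa [map_smul, map_sub, map_one] at this
  · have h1 : Real.exp (-(s / 2)) * Real.exp ((u - s) / 2) * Real.exp (u / 2) = Real.exp (u - s) := by
      rw [← Real.exp_add, ← Real.exp_add]; congr 1; ring
    have h2 : 1 - (1 + Real.exp (u - s))⁻¹ = Real.exp (-(s / 2)) *
        (Real.exp ((u - s) / 2) * (1 + Real.exp (u - s))⁻¹) * Real.exp (u / 2) := by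
      have : 0 < 1 + Real.exp (u - s) := by positivity
      calc _ = Real.exp (u - s) * (1 + Real.exp (u - s))⁻¹ := by field_simp; ring
        _ = _ := by rw [← h1]; ring
    simp only [BoundedContinuousFunction.coe_smul, smul_eq_mul, kk, ff, mk_apply,
      BoundedContinuousFunction.coe_sub, BoundedContinuousFunction.coe_one, Pi.sub_apply,
      Pi.one_apply]
    exact_mod_cast h2

lemma norm_exp_sub_one_le (r : ℝ) : ‖Complex.exp (Complex.I * r) - 1‖ ≤ 2 :=
  (norm_sub_le _ _).trans (by rw [Complex.norm_exp]; simp; norm_num)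

lemma tanh_lower (v : ℝ) : |v| ≤ (2 + |v|) * |1 - 2 * (1 + Real.exp v)⁻¹| := by
  have hp : 0 < 1 + Real.exp v := by positivity
  have e : 1 - 2 * (1 + Real.exp v)⁻¹ = (Real.exp v - 1) / (1 + Real.exp v) := by field_simp; ring
  rw [e, abs_div, abs_of_pos hp, ← mul_div_assoc, le_div_iff₀ hp]
  rcases le_total 0 v with hv | hv
  · have h1 := Real.add_one_le_exp v
    rw [abs_of_nonneg hv, abs_of_nonneg (by linarith)]
    nlinarith
  · have h1 := Real.add_one_le_exp (-v)
    have h2 : Real.exp v * Real.exp (-v) = 1 := by rw [← Real.exp_add]; simp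
    have h3 : Real.exp v ≤ 1 := Real.exp_le_one_iff.2 hv
    have h4 := Real.exp_pos v
    rw [abs_of_nonpos hv, abs_of_nonpos (by linarith)]
    nlinarith [mul_le_mul_of_nonneg_left h1 h4.le]

lemma norm_EE_le (s t u : ℝ) : ‖EE s t u‖ ≤ 2 * (1 + |t|) * ‖(1 - (2 : ℂ) • kk s) u‖ := by
  have e : (1 - (2 : ℂ) • kk s) u = ((1 - 2 * (1 + Real.exp (u - s))⁻¹ : ℝ) : ℂ) := by
    simp [kk]
  rw [e, EE_apply, Complex.norm_real, Real.norm_eq_abs]
  have h1 := norm_exp_sub_one_le (t * (u - s))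
  have h2 := Real.norm_exp_I_mul_ofReal_sub_one_le (x := t * (u - s))
  rw [Real.norm_eq_abs, abs_mul] at h2
  have h3 := tanh_lower (u - s)
  generalize ‖Complex.exp (Complex.I * (t * (u - s) : ℝ)) - 1‖ = a at h1 h2 ⊢
  generalize |1 - 2 * (1 + Real.exp (u - s))⁻¹| = b at h3 ⊢
  have h4 := abs_nonneg t
  have h5 := abs_nonneg (u - s)
  generalize |t| = c at *
  generalize |u - s| = d at *
  have h6 : (2 + d) * a ≤ (2 + d) * (2 * (1 + c) * b) := by
    calc (2 + d) * a = 2 * a + d * a := by ring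
      _ ≤ 2 * (c * d) + d * 2 := by gcongr
      _ = 2 * (1 + c) * d := by ring
      _ ≤ 2 * (1 + c) * ((2 + d) * b) := by gcongr
      _ = _ := by ring
  exact le_of_mul_le_mul_left h6 (by linarith)

lemma cos_integral (v : ℝ) : min 1 (v ^ 2) ≤ 24 * (1 - ∫ t in (0 : ℝ)..1, Real.cos (t * v)) := by
  have hpi := Real.pi_gt_three
  have hpi' := Real.pi_le_four
  rcases le_total |v| Real.pi with hv | hv
  · have h1 : ∫ t in (0 : ℝ)..1, Real.cos (t * v) ≤ ∫ t in (0 : ℝ)..1, (1 - v ^ 2 / 8 * t ^ 2) := by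
      refine intervalIntegral.integral_mono_on zero_le_one
        (Continuous.intervalIntegrable (by fun_prop) _ _)
        (Continuous.intervalIntegrable (by fun_prop) _ _) fun t ht => ?_
      have h2 : |t * v| ≤ Real.pi := by
        rw [abs_mul, abs_of_nonneg ht.1]
        nlinarith [abs_nonneg v, ht.1, ht.2]
      refine (Real.cos_le_one_sub_mul_cos_sq h2).trans ?_
      have h3 : 1 / 8 ≤ 2 / Real.pi ^ 2 := by
        rw [div_le_div_iff₀ (by norm_num) (by positivity)]; nlinarith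
      nlinarith [mul_le_mul_of_nonneg_right h3 (sq_nonneg (t * v))]
    rw [intervalIntegral.integral_sub (by simp) (Continuous.intervalIntegrable (by fun_prop) _ _),
      intervalIntegral.integral_const_mul, integral_pow] at h1
    simp only [intervalIntegral.integral_const, sub_zero, smul_eq_mul, mul_one] at h1
    refine (min_le_right _ _).trans ?_
    norm_num at h1
    linarith
  · have hv0 : v ≠ 0 := by rintro rfl; simp at hv; linarith
    rw [intervalIntegral.integral_comp_mul_right _ hv0, integral_cos]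
    refine (min_le_left _ _).trans ?_
    have h1 : v⁻¹ * Real.sin v ≤ 1 / 3 := by
      refine (le_abs_self _).trans ?_
      rw [abs_mul, abs_inv]
      have h2 : |v|⁻¹ ≤ 1 / 3 := by rw [one_div]; exact inv_anti₀ (by norm_num) (by linarith)
      nlinarith [Real.abs_sin_le_one v, abs_nonneg (Real.sin v), inv_nonneg.2 (abs_nonneg v)]
    simp only [zero_mul, one_mul, Real.sin_zero, sub_zero, smul_eq_mul]
    linarith

/-- the mean square increment controls functions that vanish at `s` -/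
lemma norm_sq_le_integral (D : LineCalculus H) (s : ℝ) (φ : BC)
    (hφ : ∀ u, ‖φ u‖ ^ 2 ≤ min 1 ((u - s) ^ 2)) (ξ : H) :
    ‖D.apply φ ξ‖ ^ 2 ≤ 12 * ∫ t in (0 : ℝ)..1,
      ‖Complex.exp (-(Complex.I * (t * s : ℝ))) • D.wave t ξ - ξ‖ ^ 2 := by
  set k : ℝ → ℂ := (Set.Ioc (0 : ℝ) 1).indicator fun t => Complex.exp (-(Complex.I * (t * s : ℝ)))
    with hk
  have hki : Integrable k := by
    rw [hk, integrable_indicator_iff measurableSet_Ioc]
    exact (Continuous.integrableOn_Icc (by fun_prop)).mono_set Set.Ioc_subset_Icc_self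
  have hm : ∀ u, ∫ t, k t * character t u =
      ∫ t in (0 : ℝ)..1, Complex.exp (Complex.I * (t * (u - s) : ℝ)) := fun u => by
    rw [intervalIntegral.integral_of_le zero_le_one, ← integral_indicator measurableSet_Ioc]
    congr 1; ext t
    by_cases ht : t ∈ Set.Ioc (0 : ℝ) 1
    · simp only [hk, Set.indicator_of_mem ht, R84.character_apply]
      rw [← Complex.exp_add]; congr 1; push_cast; ring
    · simp [hk, Set.indicator_of_notMem ht]
  let m : BC := mk (fun u => ∫ t in (0 : ℝ)..1, Complex.exp (Complex.I * (t * (u - s) : ℝ)))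
    (intervalIntegral.continuous_parametric_intervalIntegral_of_continuous' (by fun_prop) 0 1) 1
    fun u => (intervalIntegral.norm_integral_le_of_norm_le_const (C := 1) fun t _ => by
      rw [Complex.norm_exp]; simp).trans (by simp)
  have h1 := R84.apply_eq_integral D k hki id continuous_id m (fun u => (hm u).symm) ξ
  have hc : Continuous fun t : ℝ => Complex.exp (-(Complex.I * (t * s : ℝ))) • D.wave t ξ :=
    Continuous.smul (by fun_prop) (R84.continuous_wave D ξ)
  have h2 : D.apply m ξ =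
      ∫ t in (0 : ℝ)..1, Complex.exp (-(Complex.I * (t * s : ℝ))) • D.wave t ξ := by
    rw [h1, intervalIntegral.integral_of_le zero_le_one, ← integral_indicator measurableSet_Ioc]
    congr 1; ext t
    by_cases ht : t ∈ Set.Ioc (0 : ℝ) 1
    · simp only [hk, Set.indicator_of_mem ht, id]
    · simp [hk, Set.indicator_of_notMem ht]
  have h3 : ∫ t in (0 : ℝ)..1, ‖Complex.exp (-(Complex.I * (t * s : ℝ))) • D.wave t ξ - ξ‖ ^ 2 =
      2 * ‖ξ‖ ^ 2 - 2 * (⟪ξ, D.apply m ξ⟫_ℂ).re := by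
    have e : ∀ t : ℝ, ‖Complex.exp (-(Complex.I * (t * s : ℝ))) • D.wave t ξ - ξ‖ ^ 2 =
        2 * ‖ξ‖ ^ 2 - 2 * (Complex.reCLM.comp ((innerSL ℂ ξ).restrictScalars ℝ))
          (Complex.exp (-(Complex.I * (t * s : ℝ))) • D.wave t ξ) := fun t => by
      rw [norm_sub_rev, @norm_sub_sq ℂ, norm_smul, R84.norm_wave_apply, Complex.norm_exp]
      simp
      ring
    simp only [e]
    rw [intervalIntegral.integral_sub intervalIntegrable_const
      (Continuous.intervalIntegrable (by fun_prop) _ _),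
      intervalIntegral.integral_const_mul, intervalIntegral.integral_const_mul,
      ContinuousLinearMap.intervalIntegral_comp_comm _
        (hc.intervalIntegrable _ _), ← h2]
    simp
  have h4 := re_inner_nonneg D (((24 : ℝ) : ℂ) • (1 - m) - star φ * φ) (fun u => by
    have e : (m u).re = ∫ t in (0 : ℝ)..1, Real.cos (t * (u - s)) := by
      have := Complex.reCLM.intervalIntegral_comp_comm (μ := volume) (a := 0) (b := 1)
        (f := fun t : ℝ => Complex.exp (Complex.I * (t * (u - s) : ℝ)))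
        (Continuous.intervalIntegrable (by fun_prop) _ _)
      simp only [Complex.reCLM_apply] at this
      rw [show m u = ∫ t in (0 : ℝ)..1, Complex.exp (Complex.I * (t * (u - s) : ℝ)) from rfl,
        ← this]
      congr 1; ext t
      rw [mul_comm, Complex.exp_ofReal_mul_I_re]
    simp only [BoundedContinuousFunction.coe_sub, BoundedContinuousFunction.coe_smul,
      BoundedContinuousFunction.coe_mul, Pi.sub_apply, Pi.mul_apply,
      BoundedContinuousFunction.star_apply, Complex.star_def, Complex.conj_mul', smul_eq_mul,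
      ← Complex.ofReal_pow, Complex.sub_re, Complex.re_ofReal_mul, Complex.ofReal_re, e,
      BoundedContinuousFunction.coe_one, Pi.one_apply, Complex.one_re]
    linarith [hφ u, cos_integral (u - s)]) ξ
  rw [map_sub, map_smul, map_sub, map_one, sub_apply, smul_apply, inner_sub_right,
    inner_smul_right, Complex.sub_re, Complex.re_ofReal_mul, ← norm_sq_eq, sub_apply,
    inner_sub_right, Complex.sub_re, one_apply_eq_self] at h4
  have h5 : (⟪ξ, ξ⟫_ℂ).re = ‖ξ‖ ^ 2 := inner_self_eq_norm_sq (𝕜 := ℂ) ξ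
  rw [h3]
  linarith

lemma psi_le (v : ℝ) : ((1 - Real.exp (v / 2)) * (1 + Real.exp v)⁻¹) ^ 2 ≤ min 1 (v ^ 2) := by
  have hp : 0 < 1 + Real.exp v := by positivity
  have h0 := Real.exp_pos (v / 2)
  have key : ∀ c : ℝ, |1 - Real.exp (v / 2)| ≤ c * (1 + Real.exp v) →
      ((1 - Real.exp (v / 2)) * (1 + Real.exp v)⁻¹) ^ 2 ≤ c ^ 2 := fun c hc => by
    rw [← div_eq_mul_inv, ← sq_abs, abs_div, abs_of_pos hp]
    gcongr
    rwa [div_le_iff₀ hp]
  refine le_min ?_ ?_
  · simpa using key 1 (by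
      rw [exp_eq_sq v, abs_le]
      constructor <;> nlinarith [sq_nonneg (Real.exp (v / 2) - 1)])
  · rw [← sq_abs v]
    refine key _ ?_
    have h1 := Real.add_one_le_exp (v / 2)
    have h2 := Real.add_one_le_exp (-(v / 2))
    have h3 : Real.exp (v / 2) * Real.exp (-(v / 2)) = 1 := by rw [← Real.exp_add]; simp
    have h4 := mul_le_mul_of_nonneg_left h2 h0.le
    rw [exp_eq_sq v]
    rcases le_total 0 v with hv | hv
    · rw [abs_of_nonpos (by linarith), abs_of_nonneg hv]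
      nlinarith [mul_nonneg hv (sq_nonneg (Real.exp (v / 2) - 1)), mul_nonneg hv h0.le]
    · have h5 : Real.exp (v / 2) ≤ 1 := Real.exp_le_one_iff.2 (by linarith)
      rw [abs_of_nonneg (by linarith), abs_of_nonpos hv]
      nlinarith [mul_nonneg (neg_nonneg.2 hv) (sq_nonneg (Real.exp (v / 2)))]

lemma norm_kk_sub_ff (s u : ℝ) : ‖(kk s - ff s) u‖ ^ 2 ≤ min 1 ((u - s) ^ 2) := by
  have e : (kk s - ff s) u =
      (((1 - Real.exp ((u - s) / 2)) * (1 + Real.exp (u - s))⁻¹ : ℝ) : ℂ) := by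
    simp [kk, ff]; ring
  rw [e, Complex.norm_real, Real.norm_eq_abs, sq_abs]
  exact psi_le _

lemma norm_ff_sub (s u : ℝ) : ‖(ff s - (1 - kk s)) u‖ ^ 2 ≤ min 1 ((u - s) ^ 2) := by
  have e : (ff s - (1 - kk s)) u = ((Real.exp ((u - s) / 2) * (1 + Real.exp (u - s))⁻¹ -
      (1 - (1 + Real.exp (u - s))⁻¹) : ℝ) : ℂ) := by
    simp [kk, ff]
  rw [e, Complex.norm_real, Real.norm_eq_abs, sq_abs]
  have h := psi_le (-(u - s))
  rw [neg_sq] at h
  refine le_of_eq_of_le ?_ h
  generalize u - s = v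
  rw [neg_div, Real.exp_neg, Real.exp_neg, exp_eq_sq v]
  have h0 := Real.exp_pos (v / 2)
  field_simp
  ring

/-- evaluation at a point -/
noncomputable def evalHom (u : ℝ) : BC →+* ℂ where
  toFun f := f u
  map_one' := rfl
  map_mul' _ _ := rfl
  map_zero' := rfl
  map_add' _ _ := rfl

lemma exp_apply (a : BC) (u : ℝ) : NormedSpace.exp a u = Complex.exp (a u) := by
  rw [Complex.exp_eq_exp_ℂ]
  exact NormedSpace.map_exp (evalHom u) (BoundedContinuousFunction.evalCLM ℂ u : BC →L[ℂ] ℂ).continuous a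

end MDL

theorem MD.urep (S : MD H) : URep S.D.wave :=
  ⟨fun t => by
    rw [Unitary.mem_iff, R84.star_wave]
    exact ⟨R84.wave_neg_mul _ _, R84.wave_mul_neg _ _⟩, R84.wave_add S.D⟩

theorem MD.continuous_wave (S : MD H) (ξ : H) : Continuous fun t : ℝ => S.D.wave t ξ :=
  R84.continuous_wave S.D ξ

theorem MD.nml (S : MD H) (t : ℝ) : Nml (S.D.wave t) S.M := fun y hy => by
  rw [R84.star_wave]
  exact ⟨S.flow_mem t y hy, by simpa using S.flow_mem (-t) y hy⟩

theorem MD.cyc' (S : MD H) : Cyc (S.M.commutant : Set (Op H)) S.Ω :=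
  cyc_commutant S.sep

/-- apply `half` to `star (jop J y) ∈ M` -/
theorem MD.half' (S : MD H) {y : Op H} (hy : y ∈ S.M.commutant) :
    S.D.HalfExp (S.J (star y S.Ω)) (y S.Ω) := by
  have := S.half _ (star_mem (S.J_mem' y hy))
  rwa [star_star, ← jop_star S.J_J, jop_apply, jop_apply, S.J_Ω, S.J_J] at this

/-- `|f| ≤ c |g|` pointwise implies `‖f(D) ξ‖ ≤ c ‖g(D) ξ‖` -/
theorem norm_apply_le_of_le (D : LineCalculus H) {f g : BoundedContinuousFunction ℝ ℂ} {c : ℝ}
    (hc : 0 ≤ c) (h : ∀ v, ‖f v‖ ≤ c * ‖g v‖) (ξ : H) : ‖D.apply f ξ‖ ≤ c * ‖D.apply g ξ‖ := by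
  have h1 := MDL.re_inner_nonneg D (((c ^ 2 : ℝ) : ℂ) • (star g * g) - star f * f) (fun v => by
    simp only [BoundedContinuousFunction.coe_sub, BoundedContinuousFunction.coe_smul,
      BoundedContinuousFunction.coe_mul, Pi.sub_apply, Pi.mul_apply,
      BoundedContinuousFunction.star_apply, Complex.star_def, Complex.conj_mul', smul_eq_mul,
      ← Complex.ofReal_pow, ← Complex.ofReal_mul, ← Complex.ofReal_sub, Complex.ofReal_re]
    rw [sub_nonneg, ← mul_pow]
    gcongr
    exact h v) ξ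
  rw [map_sub, map_smul, sub_apply, smul_apply, inner_sub_right, inner_smul_right, Complex.sub_re,
    Complex.re_ofReal_mul, ← MDL.norm_sq_eq, ← MDL.norm_sq_eq, sub_nonneg, ← mul_pow] at h1
  exact (pow_le_pow_iff_left₀ (norm_nonneg _) (by positivity) two_ne_zero).1 h1

/-- For `f` of compact support `f(D) F z` and `exp (i z A) f(D) x Ω` (`A = (v χ(v))(D)`) are entire
and agree on `ℝ`; at `z = -i/2`: `f(D) F(-i/2) = (f e^{v/2})(D) x Ω = f(D) J x⋆ Ω`. -/
theorem MD.an (S : MD H) {x : Op H} (hx : x ∈ S.M) {F : ℂ → H} (hF : Differentiable ℂ F)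
    (h : ∀ t : ℝ, F t = S.D.wave t (x S.Ω)) : ‖F (-(Complex.I / 2))‖ = ‖star x S.Ω‖ := by
  rw [← S.J.norm_map (star x S.Ω)]
  congr 1
  rw [← sub_eq_zero]
  refine R84.eq_zero_of_cc S.D _ fun f hf => ?_
  obtain ⟨R, hR⟩ := hf.isCompact.isBounded.exists_norm_le
  let a : BoundedContinuousFunction ℝ ℂ :=
    MDL.mk (fun u => Complex.I * (max (-|R|) (min u |R|) : ℝ)) (by fun_prop) |R| fun u => by
      rw [norm_mul, Complex.norm_I, one_mul, Complex.norm_real, Real.norm_eq_abs, abs_le]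
      exact ⟨le_max_left _ _, max_le (by linarith [abs_nonneg R]) (min_le_right _ _)⟩
  have ha : ∀ (z : ℂ) (u : ℝ), (f * NormedSpace.exp (z • a)) u =
      f u * Complex.exp (z * (Complex.I * u)) := fun z u => by
    rw [BoundedContinuousFunction.coe_mul, Pi.mul_apply, MDL.exp_apply]
    by_cases hu : f u = 0
    · simp [hu]
    · have h1 := abs_le.1 ((hR u (subset_tsupport _ hu)).trans (le_abs_self R))
      have h2 : max (-|R|) (min u |R|) = u := by rw [min_eq_left h1.2, max_eq_right h1.1]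
      simp [a, h2]
  have hd1 : Differentiable ℂ fun z => S.D.apply f (F z) := (S.D.apply f).differentiable.comp hF
  have hd2 : Differentiable ℂ fun z : ℂ =>
      R84.applyAt S.D (x S.Ω) (f * NormedSpace.exp (z • a)) :=
    (R84.applyAt S.D (x S.Ω)).differentiable.comp
      ((differentiable_const f).mul (differentiable_exp_smul_const ℂ a))
  have heq := AnalyticOnNhd.eq_of_frequently_eq (z₀ := 0)
    (hd1.differentiableOn.analyticOnNhd isOpen_univ)
    (hd2.differentiableOn.analyticOnNhd isOpen_univ) (by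
      have h1 : Tendsto (fun t : ℝ => (t : ℂ)) (𝓝[≠] 0) (𝓝[≠] 0) :=
        tendsto_nhdsWithin_of_tendsto_nhds_of_eventually_within _
          ((Complex.continuous_ofReal.tendsto' 0 0 (by simp)).mono_left nhdsWithin_le_nhds)
          (eventually_nhdsWithin_of_forall fun t ht => by simpa using ht)
      refine h1.frequently (Frequently.of_forall fun t => ?_)
      rw [h, R84.applyAt_apply, LineCalculus.wave, ← R84.apply_mul_apply]
      congr 2
      ext u
      rw [ha, BoundedContinuousFunction.coe_mul, Pi.mul_apply, R84.character_apply]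
      congr 2
      push_cast; ring)
  have h1 := congrFun heq (-(Complex.I / 2))
  rw [map_sub, h1, R84.applyAt_apply, sub_eq_zero]
  refine (S.half x hx f _ fun u => ?_).symm
  rw [ha, Complex.ofReal_exp]
  congr 2
  push_cast
  linear_combination (-(u : ℂ) / 2) * Complex.I_mul_I

/-- With `v = D - s`, `ξ = x Ω`, `ζ = J x⋆ Ω`, `ψ v = (1 - e^{v/2}) / (1 + e^v)`,
`ψ' v = ψ v e^{v/2}`: `ξ - e^{-s/2} ζ = ψ(v) ξ + e^{-s/2} ψ'(v) ζ` (split `1 = k + (1 - k)`,
`k = 1 / (1 + e^v)`, use `half`), and `|ψ|², |ψ'|² ≤ min 1 v² ≤ C ∫₀¹ |e^{i t v} - 1|² dt`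
(`R84.apply_eq_integral`). -/
theorem md_J : ∃ C : ℝ, 0 ≤ C ∧ ∀ (H : Type u) [NormedAddCommGroup H] [InnerProductSpace ℂ H] [CompleteSpace H] (S : MD H), ∀ x ∈ S.M, ∀ s : ℝ,
    ‖x S.Ω - ((Real.exp (-(s / 2)) : ℝ) : ℂ) • S.J (star x S.Ω)‖ ^ 2 ≤
      C * ∫ t in (0 : ℝ)..1,
        (‖Complex.exp (-(Complex.I * (t * s : ℝ))) • S.D.wave t (x S.Ω) - x S.Ω‖ ^ 2 +
          Real.exp (-s) *
            ‖Complex.exp (Complex.I * (t * s : ℝ)) • S.D.wave t (star x S.Ω) - star x S.Ω‖ ^ 2) := by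
  refine ⟨24, by norm_num, fun H _ _ _ S x hx s => ?_⟩
  have h1 := MDL.half_kk (S.half x hx) s
  have h2 := MDL.half_ff (S.half x hx) s
  have h3 := MDL.norm_sq_le_integral S.D s _ (MDL.norm_kk_sub_ff s) (x S.Ω)
  have h4 := MDL.norm_sq_le_integral S.D s _ (MDL.norm_ff_sub s) (S.J (star x S.Ω))
  have h5 : ∀ t : ℝ, ‖Complex.exp (-(Complex.I * (t * s : ℝ))) • S.D.wave t (S.J (star x S.Ω)) -
      S.J (star x S.Ω)‖ =
      ‖Complex.exp (Complex.I * (t * s : ℝ)) • S.D.wave t (star x S.Ω) - star x S.Ω‖ := fun t => by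
    rw [← S.J.norm_map (_ - _), map_sub, LinearIsometryEquiv.map_smulₛₗ, S.J_wave,
      ← Complex.exp_conj]
    simp [S.J_J]
  simp only [h5] at h4
  have hc : ∀ (c : ℝ → ℂ) (ξ : H), Continuous c →
      Continuous fun t : ℝ => ‖c t • S.D.wave t ξ - ξ‖ ^ 2 := fun c ξ hc =>
    ((hc.smul (S.continuous_wave ξ)).sub continuous_const).norm.pow 2
  rw [intervalIntegral.integral_add ((hc _ _ (by fun_prop)).intervalIntegrable _ _)
    (((hc _ _ (by fun_prop)).intervalIntegrable _ _).const_mul _),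
    intervalIntegral.integral_const_mul]
  have he : ((Real.exp (-(s / 2)) : ℝ) : ℂ) * ((Real.exp (s / 2) : ℝ) : ℂ) = 1 := by
    rw [← Complex.ofReal_mul, ← Real.exp_add]; simp
  have e : x S.Ω - ((Real.exp (-(s / 2)) : ℝ) : ℂ) • S.J (star x S.Ω) =
      S.D.apply (MDL.kk s - MDL.ff s) (x S.Ω) + ((Real.exp (-(s / 2)) : ℝ) : ℂ) •
        S.D.apply (MDL.ff s - (1 - MDL.kk s)) (S.J (star x S.Ω)) := by
    simp only [map_sub, map_one, sub_apply, one_apply_eq_self, smul_sub, h2, h1, smul_smul, he, one_smul]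
    abel
  have he2 : Real.exp (-(s / 2)) ^ 2 = Real.exp (-s) := by rw [MDL.exp_eq_sq (-s), neg_div]
  rw [e]
  have h6 := norm_add_le (S.D.apply (MDL.kk s - MDL.ff s) (x S.Ω))
    (((Real.exp (-(s / 2)) : ℝ) : ℂ) • S.D.apply (MDL.ff s - (1 - MDL.kk s)) (S.J (star x S.Ω)))
  rw [norm_smul, Complex.norm_real, Real.norm_of_nonneg (Real.exp_pos _).le] at h6
  have h7 := mul_le_mul_of_nonneg_left h4 (Real.exp_pos (-s)).le
  rw [← he2] at h7 ⊢
  refine (pow_le_pow_left₀ (norm_nonneg _) h6 2).trans ?_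
  nlinarith [sq_nonneg (‖S.D.apply (MDL.kk s - MDL.ff s) (x S.Ω)‖ - Real.exp (-(s / 2)) *
    ‖S.D.apply (MDL.ff s - (1 - MDL.kk s)) (S.J (star x S.Ω))‖)]

/-- With `v = D - s`, `ξ = x Ω`, `ξ' = y Ω`, `α = ξ - ξ'`,
`α' = e^{-s/2} J x⋆ Ω - e^{s/2} J y⋆ Ω`: `tanh (v/2) ξ = f₁(v) α' - k(v) α` with
`f₁ = e^{v/2} / (1 + e^v)`, `k = 1 / (1 + e^v)` (`half`, `half'`), and
`|e^{i t v} - 1| ≤ C (1 + |t|) |tanh (v/2)|`. -/
theorem md_I : ∃ C : ℝ, 0 ≤ C ∧ ∀ (H : Type u) [NormedAddCommGroup H] [InnerProductSpace ℂ H] [CompleteSpace H] (S : MD H), ∀ x ∈ S.M, ∀ y ∈ S.M.commutant, ∀ s t : ℝ,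
    ‖Complex.exp (-(Complex.I * (t * s : ℝ))) • S.D.wave t (x S.Ω) - x S.Ω‖ ≤
      C * (1 + |t|) * (‖x S.Ω - y S.Ω‖ + ‖((Real.exp (-(s / 2)) : ℝ) : ℂ) • star x S.Ω -
        ((Real.exp (s / 2) : ℝ) : ℂ) • star y S.Ω‖) := by
  refine ⟨2, by norm_num, fun H _ _ _ S x hx y hy s t => ?_⟩
  rw [← MDL.apply_EE]
  refine (norm_apply_le_of_le S.D (by positivity) (MDL.norm_EE_le s t) _).trans ?_
  gcongr
  have h1 := MDL.half_ff (S.half x hx) s
  have h2 := MDL.half_kk (S.half' hy) s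
  have e : S.D.apply (1 - (2 : ℂ) • MDL.kk s) (x S.Ω) =
      S.D.apply (MDL.ff s) (S.J (((Real.exp (-(s / 2)) : ℝ) : ℂ) • star x S.Ω -
        ((Real.exp (s / 2) : ℝ) : ℂ) • star y S.Ω)) - S.D.apply (MDL.kk s) (x S.Ω - y S.Ω) := by
    simp only [map_sub, map_smul, map_one, LinearIsometryEquiv.map_smulₛₗ, Complex.conj_ofReal, h1,
      ← h2, sub_apply, one_apply_eq_self, two_smul, map_add, add_apply]
    abel
  rw [e, add_comm]
  refine (norm_sub_le _ _).trans (add_le_add ?_ (MDL.norm_apply_le_one _ (MDL.norm_kk s) _))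
  exact (MDL.norm_apply_le_one _ (MDL.norm_ff s) _).trans (S.J.norm_map _).le

/-- `md_I` with `x = y = c`, `s = 0` -/
theorem MD.wave_central (S : MD H) {c : Op H} (hc : c ∈ S.M) (hc' : c ∈ S.M.commutant) (t : ℝ) :
    S.D.wave t (c S.Ω) = c S.Ω := by
  obtain ⟨C, -, hC⟩ := md_I.{u}
  have := hC H S c hc c hc' 0 t
  simpa [sub_eq_zero] using this

/-- `md_J` with `x = c`, `s = 0` -/
theorem MD.J_central (S : MD H) {c : Op H} (hc : ZP S.M c) : S.J (c S.Ω) = c S.Ω := by
  obtain ⟨C, -, hC⟩ := md_J.{u}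
  have := hC H S c hc.1 0
  rw [hc.2.2.isSelfAdjoint.star_eq] at this
  simp only [S.wave_central hc.1 hc.2.1] at this
  symm
  simpa [sub_eq_zero] using this

end Crest.Agent.R78
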