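import Crest.Agent.R78.TPA

/-! # Row 78: thermal pairs: API -/

set_option autoImplicit false

namespace Crest.Agent.R78

open scoped InnerProductSpace ComplexOrder BigOperators Topology
open Filter
open Crest.Agent.R124 (Op cm)
open Crest.OpAlg (LineCalculus)

universe u

variable {H : Type u} [NormedAddCommGroup H] [InnerProductSpace ℂ H] [CompleteSpace H]

namespace TPx

/-- `ℓ²` size of a double family -/
noncomputable def l2 {I K : Type} [Fintype I] [Fintype K] (f : I → K → H) : ℝ :=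
  √(∑ i, ∑ j, ‖f i j‖ ^ 2)

section
variable {I K : Type} [Fintype I] [Fintype K]

/-- the family as a vector -/
noncomputable def vec (f : I → K → H) : PiLp 2 (fun _ : I × K => H) :=
  WithLp.toLp 2 fun p => f p.1 p.2

omit [CompleteSpace H] [InnerProductSpace ℂ H] in
lemma norm_vec (f : I → K → H) : ‖vec f‖ = l2 f := by
  rw [PiLp.norm_eq_of_L2, l2, Fintype.sum_prod_type]; rfl

omit [CompleteSpace H] in
lemma inner_vec (f g : I → K → H) : ⟪vec f, vec g⟫_ℂ = ∑ i, ∑ j, ⟪f i j, g i j⟫_ℂ := by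
  rw [PiLp.inner_apply, Fintype.sum_prod_type]; rfl

omit [CompleteSpace H] [InnerProductSpace ℂ H] in
lemma l2_nonneg (f : I → K → H) : 0 ≤ l2 f := Real.sqrt_nonneg _

omit [CompleteSpace H] [InnerProductSpace ℂ H] in
lemma l2_sq (f : I → K → H) : l2 f ^ 2 = ∑ i, ∑ j, ‖f i j‖ ^ 2 :=
  Real.sq_sqrt (by positivity)

omit [CompleteSpace H] [InnerProductSpace ℂ H] in
lemma l2_add (f g : I → K → H) : l2 (fun i j => f i j + g i j) ≤ l2 f + l2 g := by
  rw [← norm_vec, ← norm_vec, ← norm_vec]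
  exact norm_add_le (vec f) (vec g)

omit [CompleteSpace H] in
lemma l2_inner (f g : I → K → H) : ‖∑ i, ∑ j, ⟪f i j, g i j⟫_ℂ‖ ≤ l2 f * l2 g := by
  rw [← inner_vec, ← norm_vec, ← norm_vec]
  exact norm_inner_le_norm _ _

omit [CompleteSpace H] in
lemma l2_sub_sq (f g : I → K → H) : l2 (fun i j => f i j - g i j) ^ 2 =
    l2 f ^ 2 + l2 g ^ 2 - 2 * (∑ i, ∑ j, ⟪g i j, f i j⟫_ℂ).re := by
  rw [← inner_vec, ← norm_vec, ← norm_vec, ← norm_vec]
  have : vec (fun i j => f i j - g i j) = vec f - vec g := rfl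
  rw [this, norm_sub_rev, @norm_sub_sq ℂ]
  simp only [RCLike.re_to_complex]
  ring

omit [CompleteSpace H] in
lemma l2_map (y : Op H) (f : I → K → H) : l2 (fun i j => y (f i j)) ≤ ‖y‖ * l2 f := by
  refine abs_le_of_sq_le_sq' ?_ (mul_nonneg (norm_nonneg _) (l2_nonneg _)) |>.2
  rw [mul_pow, l2_sq, l2_sq, Finset.mul_sum]
  refine Finset.sum_le_sum fun i _ => ?_
  rw [Finset.mul_sum]
  refine Finset.sum_le_sum fun j _ => ?_
  rw [← mul_pow]
  gcongr
  exact y.le_opNorm _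

omit [CompleteSpace H] [InnerProductSpace ℂ H] in
lemma l2_eq {f : I → K → H} {c : ℝ} (hc : 0 ≤ c) (h : ∑ i, ∑ j, ‖f i j‖ ^ 2 = c ^ 2) :
    l2 f = c := by
  rw [l2, h, Real.sqrt_sq hc]

end

omit [CompleteSpace H] in
lemma norm_sqrt_smul {a : ℝ} (ha : 0 ≤ a) (ξ : H) :
    ‖((√a : ℝ) : ℂ) • ξ‖ ^ 2 = a * ‖ξ‖ ^ 2 := by
  rw [norm_smul, mul_pow, Complex.norm_real, Real.norm_eq_abs, sq_abs, Real.sq_sqrt ha]

omit [CompleteSpace H] in
lemma inner_sqrt_smul {a b : ℝ} (ha : 0 ≤ a) (ξ η : H) :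
    ⟪((√a : ℝ) : ℂ) • ξ, ((√b : ℝ) : ℂ) • η⟫_ℂ = ((√(a * b) : ℝ) : ℂ) * ⟪ξ, η⟫_ℂ := by
  rw [inner_smul_left, inner_smul_right, Complex.conj_ofReal, Real.sqrt_mul ha]
  push_cast; ring

lemma inner_star (a : Op H) (ξ η : H) : ⟪ξ, star a η⟫_ℂ = ⟪a ξ, η⟫_ℂ := by
  rw [ContinuousLinearMap.star_eq_adjoint, ContinuousLinearMap.adjoint_inner_right]

lemma inner_star' (a : Op H) (ξ η : H) : ⟪star a ξ, η⟫_ℂ = ⟪ξ, a η⟫_ℂ := by
  rw [ContinuousLinearMap.star_eq_adjoint, ContinuousLinearMap.adjoint_inner_left]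

variable {M : VN H}

/-- the vector `√λ A ζ` -/
noncomputable def va (t : TP M) (ζ : H) (i j : t.D) : H := ((√(t.lam j) : ℝ) : ℂ) • t.A i j ζ

/-- the vector `√λ B ζ` -/
noncomputable def vb (t : TP M) (ζ : H) (i j : t.D) : H := ((√(t.lam i) : ℝ) : ℂ) • t.B j i ζ

lemma dfc_eq (t : TP M) (ζ : H) : t.dfc ζ = l2 fun i j => va t ζ i j - vb t ζ i j := rfl

lemma l2_va (t : TP M) (ζ : H) : l2 (va t ζ) = ‖ζ‖ := by
  refine l2_eq (norm_nonneg _) ?_
  simp only [va, norm_sqrt_smul (t.pos _).le]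
  exact col_sum t.sum t.A_unit ζ

lemma l2_vb (t : TP M) (ζ : H) : l2 (vb t ζ) = ‖ζ‖ := by
  refine l2_eq (norm_nonneg _) ?_
  simp only [vb, norm_sqrt_smul (t.pos _).le]
  rw [Finset.sum_comm]
  exact col_sum t.sum t.B_unit ζ

lemma inner_Θ (t : TP M) (η ζ : H) :
    ⟪η, t.Θ ζ⟫_ℂ = ∑ i, ∑ j, ⟪vb t η i j, va t ζ i j⟫_ℂ := by
  simp only [TP.Θ, va, vb, inner_sqrt_smul (t.pos _).le, ContinuousLinearMap.sum_apply, inner_sum,
    ContinuousLinearMap.smul_apply, inner_smul_right, ContinuousLinearMap.mul_apply, inner_star]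

lemma inner_Φ (t : TP M) (g : Op H) (η ζ : H) :
    ⟪η, t.Φ g ζ⟫_ℂ = ∑ i, ∑ j, ⟪va t η i j, g (va t ζ i j)⟫_ℂ := by
  simp only [TP.Φ, inner_chan, va, map_smul, inner_sqrt_smul (t.pos _).le,
    Real.sqrt_mul_self (t.pos _).le]

lemma inner_Ψ (t : TP M) (g : Op H) (η ζ : H) :
    ⟪η, t.Ψ g ζ⟫_ℂ = ∑ i, ∑ j, ⟪vb t η i j, g (vb t ζ i j)⟫_ℂ := by
  rw [Finset.sum_comm]
  simp only [TP.Ψ, inner_chan, vb, map_smul, inner_sqrt_smul (t.pos _).le,
    Real.sqrt_mul_self (t.pos _).le]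

lemma re_sum_star_mul {I K : Type} [Fintype I] [Fintype K] (y : Op H) (f : I → K → H) :
    √(∑ i, ∑ j, ⟪f i j, (star y * y) (f i j)⟫_ℂ).re = l2 fun i j => y (f i j) := by
  rw [l2]
  congr 1
  simp only [ContinuousLinearMap.mul_apply, inner_star, Complex.re_sum, inner_self_eq_norm_sq_to_K]
  refine Finset.sum_congr rfl fun i _ => Finset.sum_congr rfl fun j _ => ?_
  norm_cast

lemma kron_unitary {R : Type*} [Ring R] [StarRing R] {D D₁ D₂ : Type} [Fintype D] [Fintype D₁]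
    [Fintype D₂] [DecidableEq D] [DecidableEq D₁] [DecidableEq D₂] (e : D ≃ D₁ × D₂)
    {X : Matrix D₁ D₁ R} {Y : Matrix D₂ D₂ R} (hX : X ∈ unitary (Matrix D₁ D₁ R))
    (hY : Y ∈ unitary (Matrix D₂ D₂ R)) :
    (Matrix.of fun p q : D => X (e p).1 (e q).1 * Y (e p).2 (e q).2) ∈ unitary (Matrix D D R) := by
  have hX1 : ∀ j j', ∑ i, star (X i j) * X i j' = if j = j' then 1 else 0 := fun j j' => by
    have := congrFun (congrFun hX.1 j) j'
    simpa only [Matrix.mul_apply, Matrix.star_apply, Matrix.one_apply] using this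
  have hY1 : ∀ j j', ∑ i, star (Y i j) * Y i j' = if j = j' then 1 else 0 := fun j j' => by
    have := congrFun (congrFun hY.1 j) j'
    simpa only [Matrix.mul_apply, Matrix.star_apply, Matrix.one_apply] using this
  have hX2 : ∀ i i', ∑ j, X i j * star (X i' j) = if i = i' then 1 else 0 := fun i i' => by
    have := congrFun (congrFun hX.2 i) i'
    simpa only [Matrix.mul_apply, Matrix.star_apply, Matrix.one_apply] using this
  have hY2 : ∀ i i', ∑ j, Y i j * star (Y i' j) = if i = i' then 1 else 0 := fun i i' => by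
    have := congrFun (congrFun hY.2 i) i'
    simpa only [Matrix.mul_apply, Matrix.star_apply, Matrix.one_apply] using this
  have hite : ∀ p q : D, (if p = q then (1 : R) else 0) =
      if (e p).1 = (e q).1 then (if (e p).2 = (e q).2 then 1 else 0) else 0 := by
    intro p q
    by_cases h : p = q
    · simp [h]
    · have : ¬ ((e p).1 = (e q).1 ∧ (e p).2 = (e q).2) := fun h' =>
        h (e.injective (Prod.ext h'.1 h'.2))
      rw [if_neg h]
      split_ifs with h1 h2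
      · exact absurd ⟨h1, h2⟩ this
      · rfl
      · rfl
  constructor
  · ext p q
    simp only [Matrix.mul_apply, Matrix.star_apply, Matrix.one_apply, Matrix.of_apply]
    rw [hite, ← e.symm.sum_comp, Fintype.sum_prod_type_right]
    simp only [Equiv.apply_symm_apply, star_mul]
    have : ∀ k, ∑ i, star (Y k (e p).2) * star (X i (e p).1) * (X i (e q).1 * Y k (e q).2) =
        star (Y k (e p).2) * (∑ i, star (X i (e p).1) * X i (e q).1) * Y k (e q).2 := by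
      intro k
      rw [Finset.mul_sum, Finset.sum_mul]
      exact Finset.sum_congr rfl fun i _ => by simp only [mul_assoc]
    simp only [this, hX1]
    split_ifs with h1 h2
    · simp only [mul_one, hY1, if_pos h2]
    · simp only [mul_one, hY1, if_neg h2]
    · simp
  · ext p q
    simp only [Matrix.mul_apply, Matrix.star_apply, Matrix.one_apply, Matrix.of_apply]
    rw [hite, ← e.symm.sum_comp, Fintype.sum_prod_type]
    simp only [Equiv.apply_symm_apply, star_mul]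
    have : ∀ j, ∑ l, X (e p).1 j * Y (e p).2 l * (star (Y (e q).2 l) * star (X (e q).1 j)) =
        X (e p).1 j * (∑ l, Y (e p).2 l * star (Y (e q).2 l)) * star (X (e q).1 j) := by
      intro k
      rw [Finset.mul_sum, Finset.sum_mul]
      exact Finset.sum_congr rfl fun i _ => by simp only [mul_assoc]
    simp only [this, hY2]
    by_cases h2 : (e p).2 = (e q).2
    · simp only [if_pos h2, mul_one, hX2]
    · simp [h2]

lemma sum_sigma_diag {ι : Type} [Fintype ι] [DecidableEq ι] {D : ι → Type} [∀ i, Fintype (D i)]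
    {β : Type*} [AddCommMonoid β] (G : (Σ i, D i) → (Σ i, D i) → β)
    (hG : ∀ i j a b, i ≠ j → G ⟨i, a⟩ ⟨j, b⟩ = 0) :
    ∑ p, ∑ q, G p q = ∑ i, ∑ a, ∑ b, G ⟨i, a⟩ ⟨i, b⟩ := by
  rw [Fintype.sum_sigma]
  refine Finset.sum_congr rfl fun i _ => Finset.sum_congr rfl fun a _ => ?_
  rw [Fintype.sum_sigma, Finset.sum_eq_single i]
  · intro j _ hj
    exact Finset.sum_eq_zero fun b _ => hG i j a b (Ne.symm hj)
  · simp

lemma blk_unitary {R : Type*} [Ring R] [StarRing R] {ι : Type} [Fintype ι] [DecidableEq ι]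
    {D : ι → Type} [∀ i, Fintype (D i)] [∀ i, DecidableEq (D i)] {X : ∀ i, Matrix (D i) (D i) R}
    (hX : ∀ i, X i ∈ unitary (Matrix (D i) (D i) R)) :
    Matrix.blockDiagonal' X ∈ unitary (Matrix (Σ i, D i) (Σ i, D i) R) := by
  constructor
  · rw [Matrix.star_eq_conjTranspose, Matrix.blockDiagonal'_conjTranspose,
      ← Matrix.blockDiagonal'_mul, ← Matrix.blockDiagonal'_one]
    congr 1
    funext i
    exact (hX i).1
  · rw [Matrix.star_eq_conjTranspose, Matrix.blockDiagonal'_conjTranspose,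
      ← Matrix.blockDiagonal'_mul, ← Matrix.blockDiagonal'_one]
    congr 1
    funext i
    exact (hX i).2

lemma pow_ineq {Θ : Op H} (hΘ : IsSelfAdjoint Θ) (h1 : ‖Θ‖ ≤ 1) (k : ℕ) (ζ : H) :
    ‖ζ‖ ^ 2 - (⟪ζ, (Θ ^ k) ζ⟫_ℂ).re ≤ k * (‖ζ‖ ^ 2 - (⟪ζ, Θ ζ⟫_ℂ).re) := by
  have hle : ∀ a : Op H, IsSelfAdjoint a → ‖a‖ ≤ 1 → 0 ≤ 1 - a := by
    intro a ha h
    rw [sub_nonneg]
    refine ha.le_algebraMap_norm_self.trans ?_
    rw [← map_one (algebraMap ℝ (Op H))]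
    exact algebraMap_mono _ h
  have hpow : ∀ k : ℕ, ‖Θ ^ k‖ ≤ 1 := by
    intro k
    induction k with
    | zero => rw [pow_zero]; exact ContinuousLinearMap.norm_id_le
    | succ k ih =>
      rw [pow_succ]
      exact (norm_mul_le _ _).trans (mul_le_one₀ ih (norm_nonneg _) h1)
  induction k with
  | zero => simp [inner_self_eq_norm_sq_to_K]; norm_cast
  | succ k ih =>
    have hp : 0 ≤ (1 - Θ ^ k) * (1 - Θ) :=
      Commute.mul_nonneg (hle _ (hΘ.pow k) (hpow k)) (hle _ hΘ h1)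
        ((Commute.one_left _).sub_left ((Commute.one_right _).sub_right (Commute.pow_self Θ k)))
    have h2 := ((ContinuousLinearMap.nonneg_iff_isPositive _).mp hp).re_inner_nonneg_right ζ
    have e : (1 - Θ ^ k) * (1 - Θ) = 1 - Θ ^ k - Θ + Θ ^ (k + 1) := by
      rw [pow_succ]; noncomm_ring
    rw [e] at h2
    simp only [ContinuousLinearMap.add_apply, ContinuousLinearMap.sub_apply,
      ContinuousLinearMap.one_apply, inner_add_right, inner_sub_right, map_add, map_sub,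
      RCLike.re_to_complex] at h2
    have h3 : (⟪ζ, ζ⟫_ℂ).re = ‖ζ‖ ^ 2 := by
      rw [inner_self_eq_norm_sq_to_K]; norm_cast
    rw [h3] at h2
    rw [Nat.cast_succ]
    linarith

end TPx

open TPx

namespace TP
variable {M : VN H}

lemma norm_Φ_le (t : TP M) (g : Op H) : ‖t.Φ g‖ ≤ ‖g‖ := by
  exact norm_chan_le (fun i => (t.pos i).le) t.sum t.A_unit g

lemma norm_Ψ_le (t : TP M) (g : Op H) : ‖t.Ψ g‖ ≤ ‖g‖ := by
  exact norm_chan_le (fun i => (t.pos i).le) t.sum t.B_unit g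

lemma norm_Θ_le (t : TP M) : ‖t.Θ‖ ≤ 1 := by
  refine ContinuousLinearMap.opNorm_le_bound _ zero_le_one fun ζ => ?_
  have h := l2_inner (vb t (t.Θ ζ)) (va t ζ)
  rw [← inner_Θ, l2_va, l2_vb, inner_self_eq_norm_sq_to_K, norm_pow, RCLike.norm_ofReal,
    abs_norm, sq] at h
  rw [one_mul]
  rcases (norm_nonneg (t.Θ ζ)).eq_or_lt with h0 | h0
  · rw [← h0]; exact norm_nonneg _
  · exact le_of_mul_le_mul_left h h0

lemma Φ_one (t : TP M) : t.Φ 1 = 1 := by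
  exact chan_one t.sum t.A_unit

lemma Ψ_one (t : TP M) : t.Ψ 1 = 1 := by
  exact chan_one t.sum t.B_unit

lemma Φ_cm (t : TP M) {y : Op H} (hy : y ∈ M.commutant) (g : Op H) :
    t.Φ (cm g y) = cm (t.Φ g) y := by
  simp only [Φ, cm]
  rw [chan_sub, chan_mul_right fun i j => (commute_of_mem (t.A_mem i j) hy).symm,
    chan_mul_left fun i j => (commute_of_mem (star_mem (t.A_mem i j)) hy).symm]

lemma Ψ_cm (t : TP M) {x : Op H} (hx : x ∈ M) (g : Op H) : t.Ψ (cm g x) = cm (t.Ψ g) x := by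
  simp only [Ψ, cm]
  rw [chan_sub, chan_mul_right fun i j => commute_of_mem hx (t.B_mem i j),
    chan_mul_left fun i j => commute_of_mem hx (star_mem (t.B_mem i j))]

lemma Φ_Ψ (t t' : TP M) (g : Op H) : t.Φ (t'.Ψ g) = t'.Ψ (t.Φ g) := by
  simp only [Φ, Ψ]
  rw [show chan t'.lam t'.B g = ∑ i, ∑ j, (t'.lam j : ℂ) • (star (t'.B i j) * g * t'.B i j) from
    rfl, chan_sum]
  refine Finset.sum_congr rfl fun i _ => ?_
  rw [chan_sum]
  refine Finset.sum_congr rfl fun j _ => ?_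
  rw [chan_smul, chan_mul_right fun a b => (commute_of_mem (t.A_mem a b) (t'.B_mem i j)).symm,
    chan_mul_left fun a b =>
      (commute_of_mem (star_mem (t.A_mem a b)) (star_mem (t'.B_mem i j))).symm]

lemma dfc_nonneg (t : TP M) (ζ : H) : 0 ≤ t.dfc ζ := Real.sqrt_nonneg _

lemma dfc_sq (t : TP M) (ζ : H) : t.dfc ζ ^ 2 = 2 * ‖ζ‖ ^ 2 - 2 * (⟪ζ, t.Θ ζ⟫_ℂ).re := by
  rw [dfc_eq, l2_sub_sq, l2_va, l2_vb, inner_Θ]; ring

/-- the defect of the adjoints is the same -/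
lemma dfc_sq_star (t : TP M) (ζ : H) : t.dfc ζ ^ 2 = ∑ i, ∑ j,
    ‖((√(t.lam i) : ℝ) : ℂ) • star (t.A i j) ζ - ((√(t.lam j) : ℝ) : ℂ) • star (t.B j i) ζ‖ ^ 2 := by
  rw [dfc_sq, ← l2_sq]
  have h := l2_sub_sq (fun i j => ((√(t.lam j) : ℝ) : ℂ) • star (t.B j i) ζ)
    (fun i j => ((√(t.lam i) : ℝ) : ℂ) • star (t.A i j) ζ)
  have h1 : l2 (fun i j => ((√(t.lam j) : ℝ) : ℂ) • star (t.B j i) ζ) = ‖ζ‖ := by
    refine l2_eq (norm_nonneg _) ?_
    simp only [norm_sqrt_smul (t.pos _).le]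
    rw [Finset.sum_comm]
    exact row_sum t.sum t.B_unit ζ
  have h2 : l2 (fun i j => ((√(t.lam i) : ℝ) : ℂ) • star (t.A i j) ζ) = ‖ζ‖ := by
    refine l2_eq (norm_nonneg _) ?_
    simp only [norm_sqrt_smul (t.pos _).le]
    exact row_sum t.sum t.A_unit ζ
  have h3 : ∑ i, ∑ j, ⟪((√(t.lam i) : ℝ) : ℂ) • star (t.A i j) ζ,
      ((√(t.lam j) : ℝ) : ℂ) • star (t.B j i) ζ⟫_ℂ = ⟪ζ, t.Θ ζ⟫_ℂ := by
    simp only [TP.Θ, inner_sqrt_smul (t.pos _).le, ContinuousLinearMap.sum_apply, inner_sum,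
      ContinuousLinearMap.smul_apply, inner_smul_right, inner_star']
    refine Finset.sum_congr rfl fun i _ => Finset.sum_congr rfl fun j _ => ?_
    rw [← (commute_of_mem (t.A_mem i j) (star_mem (t.B_mem j i))).eq]
    rfl
  rw [h1, h2, h3] at h
  rw [l2_sq] at h ⊢
  simp only [norm_sub_rev (((√(t.lam _) : ℝ) : ℂ) • star (t.A _ _) ζ)]
  rw [h]; ring

lemma pair_sqrt (t : TP M) (y : Op H) (ζ : H) :
    √(⟪ζ, t.Ψ (star y * y) ζ⟫_ℂ).re ≤ √(⟪ζ, t.Φ (star y * y) ζ⟫_ℂ).re + ‖y‖ * t.dfc ζ := by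
  rw [inner_Φ, inner_Ψ, re_sum_star_mul, re_sum_star_mul]
  have h1 := l2_add (fun i j => y (va t ζ i j)) (fun i j => (-y) (va t ζ i j - vb t ζ i j))
  have h2 := l2_map (-y) (fun i j => va t ζ i j - vb t ζ i j)
  rw [norm_neg, ← dfc_eq] at h2
  have e : (fun i j => y (va t ζ i j) + (-y) (va t ζ i j - vb t ζ i j)) =
      fun i j => y (vb t ζ i j) := by
    funext i j; simp
  rw [e] at h1
  linarith

lemma pair_inner (t : TP M) (g : Op H) (ζ : H) :
    ‖⟪ζ, t.Φ g ζ⟫_ℂ - ⟪ζ, t.Ψ g ζ⟫_ℂ‖ ≤ 2 * ‖g‖ * ‖ζ‖ * t.dfc ζ := by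
  rw [inner_Φ, inner_Ψ]
  have e : ∑ i, ∑ j, ⟪va t ζ i j, g (va t ζ i j)⟫_ℂ - ∑ i, ∑ j, ⟪vb t ζ i j, g (vb t ζ i j)⟫_ℂ =
      ∑ i, ∑ j, ⟪va t ζ i j - vb t ζ i j, g (va t ζ i j)⟫_ℂ +
        ∑ i, ∑ j, ⟪vb t ζ i j, g (va t ζ i j - vb t ζ i j)⟫_ℂ := by
    simp only [inner_sub_left, map_sub, inner_sub_right, Finset.sum_sub_distrib]
    ring
  rw [e]
  have h1 := l2_inner (fun i j => va t ζ i j - vb t ζ i j) (fun i j => g (va t ζ i j))
  have h2 := l2_inner (vb t ζ) (fun i j => g (va t ζ i j - vb t ζ i j))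
  have h3 := l2_map g (va t ζ)
  have h4 := l2_map g (fun i j => va t ζ i j - vb t ζ i j)
  rw [← dfc_eq] at h1 h4
  rw [l2_va] at h3
  rw [l2_vb] at h2
  have h5 := mul_le_mul_of_nonneg_left h3 (t.dfc_nonneg ζ)
  have h6 := mul_le_mul_of_nonneg_left h4 (norm_nonneg ζ)
  refine (norm_add_le _ _).trans ?_
  linarith

/-- exchange the roles of `M` and `M'` -/
noncomputable def swap (t : TP M) : TP M.commutant where
  D := t.D
  lam := t.lam
  pos := t.pos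
  sum := t.sum
  A := t.B
  B := t.A
  A_mem := t.B_mem
  B_mem := fun i j => by rw [VonNeumannAlgebra.commutant_commutant]; exact t.A_mem i j
  A_unit := t.B_unit
  B_unit := t.A_unit

lemma swap_Φ (t : TP M) : t.swap.Φ = t.Ψ := rfl

lemma swap_Ψ (t : TP M) : t.swap.Ψ = t.Φ := rfl

lemma swap_Θ (t : TP M) : t.swap.Θ = star t.Θ := by
  show ∑ i, ∑ j, ((√(t.lam i * t.lam j) : ℝ) : ℂ) • (star (t.A j i) * t.B i j) = _
  rw [Finset.sum_comm]
  simp only [Θ, star_sum, star_smul, star_mul, star_star]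
  refine Finset.sum_congr rfl fun i _ => Finset.sum_congr rfl fun j _ => ?_
  rw [mul_comm (t.lam j), Complex.star_def, Complex.conj_ofReal]

lemma swap_dfc (t : TP M) (ζ : H) : t.swap.dfc ζ = t.dfc ζ := by
  show √(∑ i, ∑ j, ‖((√(t.lam j) : ℝ) : ℂ) • t.B i j ζ - ((√(t.lam i) : ℝ) : ℂ) • t.A j i ζ‖ ^ 2) = _
  rw [Finset.sum_comm]
  simp only [dfc, norm_sub_rev (((√(t.lam _) : ℝ) : ℂ) • t.B _ _ ζ)]

theorem exists_one {U W : Op H} (hU : UIn M U) (hW : UIn M.commutant W) :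
    ∃ t : TP M, (∀ g, t.Φ g = star U * g * U) ∧ (∀ g, t.Ψ g = star W * g * W) ∧
      t.Θ = star W * U ∧ (∀ ζ, t.dfc ζ ^ 2 = ‖U ζ - W ζ‖ ^ 2) ∧ Read t.lam t.A U 1 ∧
      Read t.lam t.B W 1 := by
  have hu : ∀ V : Op H, V ∈ unitary (Op H) →
      (Matrix.of fun _ _ : Unit => V) ∈ unitary (Matrix Unit Unit (Op H)) := by
    intro V hV
    constructor
    · ext1 i j; simpa [Matrix.mul_apply] using hV.1
    · ext1 i j; simpa [Matrix.mul_apply] using hV.2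
  let t : TP M :=
    { D := Unit
      lam := fun _ => 1
      pos := fun _ => one_pos
      sum := by simp
      A := Matrix.of fun _ _ => U
      B := Matrix.of fun _ _ => W
      A_mem := fun _ _ => hU.1
      B_mem := fun _ _ => hW.1
      A_unit := hu U hU.2
      B_unit := hu W hW.2 }
  refine ⟨t, fun g => ?_, fun g => ?_, ?_, fun ζ => ?_, fun g ζ => ?_, fun g ζ => ?_⟩
  · simp [t, Φ, chan]
  · simp [t, Ψ, chan]
  · simp [t, Θ]
  · simp [t, dfc]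
  · simp [t]
  · simp [t]

theorem exists_id (M : VN H) : ∃ t : TP M, (∀ g, t.Φ g = g) ∧ (∀ g, t.Ψ g = g) ∧ t.Θ = 1 ∧
    ∀ ζ, t.dfc ζ = 0 := by
  obtain ⟨t, h1, h2, h3, h4, -⟩ := exists_one (UIn.one M) (UIn.one M.commutant)
  refine ⟨t, fun g => by simp [h1], fun g => by simp [h2], by simp [h3], fun ζ => ?_⟩
  have := h4 ζ
  simpa using this

/-- `D = D₁ × D₂`, `A (i,k) (j,l) = A₂ k l * A₁ i j`, `B (j,l) (i,k) = B₁ j i * B₂ l k` -/
theorem exists_comp (t₁ t₂ : TP M) : ∃ t : TP M, (∀ g, t.Φ g = t₁.Φ (t₂.Φ g)) ∧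
    (∀ g, t.Ψ g = t₂.Ψ (t₁.Ψ g)) ∧ t.Θ = t₂.Θ * t₁.Θ ∧ ∀ ζ, t.dfc ζ ≤ t₁.dfc ζ + t₂.dfc ζ := by
  let t : TP M :=
    { D := t₁.D × t₂.D
      lam := fun p => t₁.lam p.1 * t₂.lam p.2
      pos := fun p => mul_pos (t₁.pos _) (t₂.pos _)
      sum := by rw [Fintype.sum_prod_type, ← Finset.sum_mul_sum, t₁.sum, t₂.sum, mul_one]
      A := Matrix.of fun p q => t₂.A p.2 q.2 * t₁.A p.1 q.1
      B := Matrix.of fun p q => t₁.B p.1 q.1 * t₂.B p.2 q.2
      A_mem := fun p q => mul_mem (t₂.A_mem _ _) (t₁.A_mem _ _)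
      B_mem := fun p q => mul_mem (t₁.B_mem _ _) (t₂.B_mem _ _)
      A_unit := kron_unitary (Equiv.prodComm _ _) t₂.A_unit t₁.A_unit
      B_unit := kron_unitary (Equiv.refl _) t₁.B_unit t₂.B_unit }
  refine ⟨t, fun g => ?_, fun g => ?_, ?_, fun ζ => ?_⟩
  · show ∑ p : t₁.D × t₂.D, ∑ q : t₁.D × t₂.D, ((t₁.lam q.1 * t₂.lam q.2 : ℝ) : ℂ) •
      (star (t₂.A p.2 q.2 * t₁.A p.1 q.1) * g * (t₂.A p.2 q.2 * t₁.A p.1 q.1)) = _
    simp only [Φ, chan, Fintype.sum_prod_type, Finset.mul_sum, Finset.sum_mul, Finset.smul_sum]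
    refine Finset.sum_congr rfl fun i _ => ?_
    rw [Finset.sum_comm]
    refine Finset.sum_congr rfl fun j _ => Finset.sum_congr rfl fun k _ =>
      Finset.sum_congr rfl fun l _ => ?_
    simp only [star_mul, mul_smul_comm, smul_mul_assoc, smul_smul, mul_assoc, Complex.ofReal_mul]
  · show ∑ p : t₁.D × t₂.D, ∑ q : t₁.D × t₂.D, ((t₁.lam q.1 * t₂.lam q.2 : ℝ) : ℂ) •
      (star (t₁.B p.1 q.1 * t₂.B p.2 q.2) * g * (t₁.B p.1 q.1 * t₂.B p.2 q.2)) = _
    simp only [Ψ, chan, Fintype.sum_prod_type_right, Finset.mul_sum, Finset.sum_mul,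
      Finset.smul_sum]
    refine Finset.sum_congr rfl fun i _ => ?_
    rw [Finset.sum_comm]
    refine Finset.sum_congr rfl fun j _ => Finset.sum_congr rfl fun k _ =>
      Finset.sum_congr rfl fun l _ => ?_
    simp only [star_mul, mul_smul_comm, smul_mul_assoc, smul_smul, mul_assoc, Complex.ofReal_mul,
      mul_comm ((t₁.lam _ : ℝ) : ℂ)]
  · show ∑ p : t₁.D × t₂.D, ∑ q : t₁.D × t₂.D,
      ((√(t₁.lam p.1 * t₂.lam p.2 * (t₁.lam q.1 * t₂.lam q.2)) : ℝ) : ℂ) •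
      (star (t₁.B q.1 p.1 * t₂.B q.2 p.2) * (t₂.A p.2 q.2 * t₁.A p.1 q.1)) = _
    simp only [Θ, Fintype.sum_prod_type, Finset.mul_sum, Finset.sum_mul]
    refine Finset.sum_congr rfl fun i _ => ?_
    rw [Finset.sum_comm]
    refine Finset.sum_congr rfl fun j _ => Finset.sum_congr rfl fun k _ =>
      Finset.sum_congr rfl fun l _ => ?_
    have h1 : √(t₁.lam i * t₂.lam k * (t₁.lam j * t₂.lam l)) =
        √(t₂.lam k * t₂.lam l) * √(t₁.lam i * t₁.lam j) := by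
      rw [← Real.sqrt_mul (mul_pos (t₂.pos _) (t₂.pos _)).le]; congr 1; ring
    have h2 := (commute_of_mem (t₂.A_mem k l) (star_mem (t₁.B_mem j i))).eq
    rw [h1, smul_mul_smul_comm, Complex.ofReal_mul, star_mul]
    congr 1
    calc star (t₂.B l k) * star (t₁.B j i) * (t₂.A k l * t₁.A i j)
        = star (t₂.B l k) * (star (t₁.B j i) * t₂.A k l) * t₁.A i j := by simp only [mul_assoc]
      _ = _ := by rw [← h2]; simp only [mul_assoc]
  · have h := l2_add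
      (fun p q : t₁.D × t₂.D => ((√(t₂.lam q.2) : ℝ) : ℂ) •
        t₂.A p.2 q.2 (va t₁ ζ p.1 q.1 - vb t₁ ζ p.1 q.1))
      (fun p q : t₁.D × t₂.D => ((√(t₁.lam p.1) : ℝ) : ℂ) •
        t₁.B q.1 p.1 (va t₂ ζ p.2 q.2 - vb t₂ ζ p.2 q.2))
    have h1 : l2 (fun p q : t₁.D × t₂.D => ((√(t₂.lam q.2) : ℝ) : ℂ) •
        t₂.A p.2 q.2 (va t₁ ζ p.1 q.1 - vb t₁ ζ p.1 q.1)) = t₁.dfc ζ := by
      refine l2_eq (t₁.dfc_nonneg ζ) ?_
      rw [dfc_eq, l2_sq]
      simp only [norm_sqrt_smul (t₂.pos _).le, Fintype.sum_prod_type]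
      refine Finset.sum_congr rfl fun i _ => ?_
      rw [Finset.sum_comm]
      exact Finset.sum_congr rfl fun j _ => col_sum t₂.sum t₂.A_unit _
    have h2 : l2 (fun p q : t₁.D × t₂.D => ((√(t₁.lam p.1) : ℝ) : ℂ) •
        t₁.B q.1 p.1 (va t₂ ζ p.2 q.2 - vb t₂ ζ p.2 q.2)) = t₂.dfc ζ := by
      refine l2_eq (t₂.dfc_nonneg ζ) ?_
      rw [dfc_eq, l2_sq]
      simp only [norm_sqrt_smul (t₁.pos _).le, Fintype.sum_prod_type_right]
      refine Finset.sum_congr rfl fun i _ => ?_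
      rw [Finset.sum_comm]
      refine Finset.sum_congr rfl fun j _ => ?_
      rw [Finset.sum_comm]
      exact col_sum t₁.sum t₁.B_unit _
    rw [h1, h2] at h
    refine le_trans (le_of_eq ?_) h
    rw [dfc_eq]
    congr 1
    funext p q
    show ((√(t₁.lam q.1 * t₂.lam q.2) : ℝ) : ℂ) • (t₂.A p.2 q.2 * t₁.A p.1 q.1) ζ -
      ((√(t₁.lam p.1 * t₂.lam p.2) : ℝ) : ℂ) • (t₁.B q.1 p.1 * t₂.B q.2 p.2) ζ = _
    have h3 : t₂.A p.2 q.2 (t₁.B q.1 p.1 ζ) = t₁.B q.1 p.1 (t₂.A p.2 q.2 ζ) :=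
      congrArg (fun T : Op H => T ζ) (commute_of_mem (t₂.A_mem p.2 q.2) (t₁.B_mem q.1 p.1)).eq
    simp only [va, vb, map_sub, map_smul, h3, Real.sqrt_mul (t₁.pos _).le, Complex.ofReal_mul,
      ContinuousLinearMap.mul_apply]
    module

/-- block diagonal matrices on `Σ i, (t i).D` (`Matrix.blockDiagonal'`) -/
theorem exists_mix {ι : Type} [Fintype ι] (w : ι → ℝ) (hw : ∀ i, 0 < w i) (hw1 : ∑ i, w i = 1)
    (t : ι → TP M) : ∃ t' : TP M, (∀ g, t'.Φ g = ∑ i, (w i : ℂ) • (t i).Φ g) ∧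
      (∀ g, t'.Ψ g = ∑ i, (w i : ℂ) • (t i).Ψ g) ∧ t'.Θ = ∑ i, (w i : ℂ) • (t i).Θ ∧
      (∀ ζ, t'.dfc ζ ^ 2 = ∑ i, w i * (t i).dfc ζ ^ 2) ∧
      (∀ g ζ, ∑ a, ∑ b, t'.lam b * ‖cm g (t'.A a b) ζ‖ ^ 2 =
        ∑ i, w i * ∑ a, ∑ b, (t i).lam b * ‖cm g ((t i).A a b) ζ‖ ^ 2) ∧
      (∀ g ζ, ∑ a, ∑ b, t'.lam b * ‖cm g (t'.B a b) ζ‖ ^ 2 =
        ∑ i, w i * ∑ a, ∑ b, (t i).lam b * ‖cm g ((t i).B a b) ζ‖ ^ 2) ∧
      (∀ i x K, 0 ≤ K → Read (t i).lam (t i).A x K → Read t'.lam t'.A x (K / w i)) ∧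
      (∀ i x K, 0 ≤ K → Read (t i).lam (t i).B x K → Read t'.lam t'.B x (K / w i)) := by
  classical
  let t' : TP M :=
    { D := Σ i, (t i).D
      lam := fun p => w p.1 * (t p.1).lam p.2
      pos := fun p => mul_pos (hw _) ((t _).pos _)
      sum := by
        rw [Fintype.sum_sigma]
        simp only [← Finset.mul_sum, TP.sum, mul_one, hw1]
      A := Matrix.blockDiagonal' fun i => (t i).A
      B := Matrix.blockDiagonal' fun i => (t i).B
      A_mem := by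
        rintro ⟨i, a⟩ ⟨j, b⟩
        by_cases h : i = j
        · subst h; rw [Matrix.blockDiagonal'_apply_eq]; exact (t i).A_mem a b
        · rw [Matrix.blockDiagonal'_apply_ne _ _ _ h]; exact zero_mem _
      B_mem := by
        rintro ⟨i, a⟩ ⟨j, b⟩
        by_cases h : i = j
        · subst h; rw [Matrix.blockDiagonal'_apply_eq]; exact (t i).B_mem a b
        · rw [Matrix.blockDiagonal'_apply_ne _ _ _ h]; exact zero_mem _
      A_unit := blk_unitary fun i => (t i).A_unit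
      B_unit := blk_unitary fun i => (t i).B_unit }
  have hch : ∀ (X : ∀ i, Matrix (t i).D (t i).D (Op H)) (g : Op H),
      chan (D := Σ i, (t i).D) (fun p => w p.1 * (t p.1).lam p.2) (Matrix.blockDiagonal' X) g =
        ∑ i, (w i : ℂ) • chan (t i).lam (X i) g := by
    intro X g
    rw [chan, sum_sigma_diag]
    · simp only [Matrix.blockDiagonal'_apply_eq, chan, Finset.smul_sum, smul_smul,
        Complex.ofReal_mul]
    · intro i j a b h
      simp [Matrix.blockDiagonal'_apply_ne _ _ _ h]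
  have hen : ∀ (X : ∀ i, Matrix (t i).D (t i).D (Op H)) (g : Op H) (ζ : H),
      ∑ a : Σ i, (t i).D, ∑ b : Σ i, (t i).D, w b.1 * (t b.1).lam b.2 *
        ‖cm g (Matrix.blockDiagonal' X a b) ζ‖ ^ 2 =
        ∑ i, w i * ∑ a, ∑ b, (t i).lam b * ‖cm g (X i a b) ζ‖ ^ 2 := by
    intro X g ζ
    rw [sum_sigma_diag]
    · simp only [Matrix.blockDiagonal'_apply_eq, Finset.mul_sum, mul_assoc]
    · intro i j a b h
      simp [Matrix.blockDiagonal'_apply_ne _ _ _ h, cm]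
  have hrd : ∀ (X : ∀ i, Matrix (t i).D (t i).D (Op H)) (i : ι) (x : Op H) (K : ℝ), 0 ≤ K →
      Read (t i).lam (X i) x K → Read (D := Σ i, (t i).D) (fun p => w p.1 * (t p.1).lam p.2)
        (Matrix.blockDiagonal' X) x (K / w i) := by
    intro X i x K hK h g ζ
    refine (h g ζ).trans ?_
    rw [hen]
    have h1 := Finset.single_le_sum
      (f := fun i => w i * ∑ a, ∑ b, (t i).lam b * ‖cm g (X i a b) ζ‖ ^ 2)
      (fun j _ => mul_nonneg (hw j).le (Finset.sum_nonneg fun a _ => Finset.sum_nonneg fun b _ =>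
        mul_nonneg ((t j).pos b).le (sq_nonneg _))) (Finset.mem_univ i)
    calc K * ∑ a, ∑ b, (t i).lam b * ‖cm g (X i a b) ζ‖ ^ 2
        = K / w i * (w i * ∑ a, ∑ b, (t i).lam b * ‖cm g (X i a b) ζ‖ ^ 2) := by
          have := (hw i).ne'
          field_simp
      _ ≤ _ := mul_le_mul_of_nonneg_left h1 (div_nonneg hK (hw i).le)
  refine ⟨t', hch _, hch _, ?_, fun ζ => ?_, hen _, hen _, hrd _, hrd _⟩
  · show ∑ p : Σ i, (t i).D, ∑ q : Σ i, (t i).D,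
      ((√(w p.1 * (t p.1).lam p.2 * (w q.1 * (t q.1).lam q.2)) : ℝ) : ℂ) •
        (star (Matrix.blockDiagonal' (fun i => (t i).B) q p) *
          Matrix.blockDiagonal' (fun i => (t i).A) p q) = _
    rw [sum_sigma_diag]
    · simp only [Matrix.blockDiagonal'_apply_eq, Θ, Finset.smul_sum, smul_smul]
      refine Finset.sum_congr rfl fun i _ => Finset.sum_congr rfl fun a _ =>
        Finset.sum_congr rfl fun b _ => ?_
      have : √(w i * (t i).lam a * (w i * (t i).lam b)) = w i * √((t i).lam a * (t i).lam b) := by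
        rw [show w i * (t i).lam a * (w i * (t i).lam b) = (w i * w i) * ((t i).lam a * (t i).lam b)
          by ring, Real.sqrt_mul (mul_self_nonneg _), Real.sqrt_mul_self (hw i).le]
      rw [this, Complex.ofReal_mul]
    · intro i j a b h
      simp [Matrix.blockDiagonal'_apply_ne _ _ _ h]
  · simp only [dfc_eq, l2_sq]
    show ∑ p : Σ i, (t i).D, ∑ q : Σ i, (t i).D,
      ‖((√(w q.1 * (t q.1).lam q.2) : ℝ) : ℂ) • Matrix.blockDiagonal' (fun i => (t i).A) p q ζ -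
        ((√(w p.1 * (t p.1).lam p.2) : ℝ) : ℂ) • Matrix.blockDiagonal' (fun i => (t i).B) q p ζ‖ ^ 2
        = _
    rw [sum_sigma_diag]
    · simp only [Matrix.blockDiagonal'_apply_eq, Finset.mul_sum]
      refine Finset.sum_congr rfl fun i _ => Finset.sum_congr rfl fun a _ =>
        Finset.sum_congr rfl fun b _ => ?_
      rw [← norm_sqrt_smul (hw i).le]
      simp only [va, vb, smul_sub, smul_smul, Real.sqrt_mul (hw i).le, Complex.ofReal_mul]
    · intro i j a b h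
      simp [Matrix.blockDiagonal'_apply_ne _ _ _ h, Matrix.blockDiagonal'_apply_ne _ _ _ h.symm]

/-- diagonal matrices: classical random unitaries -/
theorem exists_diag {ι : Type} [Fintype ι] (w : ι → ℝ) (hw : ∀ i, 0 < w i) (hw1 : ∑ i, w i = 1)
    (U W : ι → Op H) (hU : ∀ i, UIn M (U i)) (hW : ∀ i, UIn M.commutant (W i)) :
    ∃ t : TP M, (∀ g, t.Φ g = av w U g) ∧ (∀ g, t.Ψ g = av w W g) ∧
      t.Θ = ∑ i, (w i : ℂ) • (star (W i) * U i) ∧
      (∀ ζ, t.dfc ζ ^ 2 = ∑ i, w i * ‖U i ζ - W i ζ‖ ^ 2) ∧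
      (∀ i, Read t.lam t.A (U i) (1 / w i)) ∧ ∀ i, Read t.lam t.B (W i) (1 / w i) := by
  choose s h1 h2 h3 h4 h5 h6 using fun i => exists_one (hU i) (hW i)
  obtain ⟨t, k1, k2, k3, k4, -, -, k5, k6⟩ := exists_mix w hw hw1 s
  refine ⟨t, fun g => ?_, fun g => ?_, ?_, fun ζ => ?_, fun i => k5 i _ 1 zero_le_one (h5 i),
    fun i => k6 i _ 1 zero_le_one (h6 i)⟩
  · simp only [k1, h1, av]
  · simp only [k2, h2, av]
  · simp only [k3, h3]
  · simp only [k4, h4]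

/-- `Θ^k`; `Re ⟪ζ, (1 - Θ^k) ζ⟫ ≤ k Re ⟪ζ, (1 - Θ) ζ⟫` for a self-adjoint contraction `Θ` -/
theorem exists_pow (t : TP M) (hΘ : IsSelfAdjoint t.Θ) (k : ℕ) : ∃ t' : TP M,
    (∀ g, t'.Φ g = t.Φ^[k] g) ∧ (∀ g, t'.Ψ g = t.Ψ^[k] g) ∧ ∀ ζ, t'.dfc ζ ≤ √k * t.dfc ζ := by
  have key : ∃ t' : TP M, (∀ g, t'.Φ g = t.Φ^[k] g) ∧ (∀ g, t'.Ψ g = t.Ψ^[k] g) ∧
      t'.Θ = t.Θ ^ k := by
    induction k with
    | zero =>
      obtain ⟨s, h1, h2, h3, -⟩ := exists_id M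
      exact ⟨s, h1, h2, by rw [h3, pow_zero]⟩
    | succ k ih =>
      obtain ⟨s, h1, h2, h3⟩ := ih
      obtain ⟨r, k1, k2, k3, -⟩ := exists_comp t s
      refine ⟨r, fun g => ?_, fun g => ?_, ?_⟩
      · rw [k1, h1, Function.iterate_succ_apply']
      · rw [k2, h2, Function.iterate_succ_apply]
      · rw [k3, h3, pow_succ]
  obtain ⟨s, h1, h2, h3⟩ := key
  refine ⟨s, h1, h2, fun ζ => ?_⟩
  refine (abs_le_of_sq_le_sq' ?_ (mul_nonneg (Real.sqrt_nonneg _) (t.dfc_nonneg ζ))).2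
  rw [mul_pow, Real.sq_sqrt (Nat.cast_nonneg k), dfc_sq, dfc_sq, h3]
  have := pow_ineq hΘ t.norm_Θ_le k ζ
  linarith

theorem exists_ces (t : TP M) (hΘ : IsSelfAdjoint t.Θ) {n : ℕ} (hn : 1 ≤ n) : ∃ t' : TP M,
    (∀ g, t'.Φ g = ces t.Φ n g) ∧ (∀ g, t'.Ψ g = ces t.Ψ n g) ∧
      ∀ ζ, t'.dfc ζ ≤ √n * t.dfc ζ := by
  choose s h1 h2 h3 using fun k : Fin n => exists_pow t hΘ k
  have hn0 : (0 : ℝ) < n := by exact_mod_cast hn
  obtain ⟨r, k1, k2, -, k4, -⟩ := exists_mix (fun _ : Fin n => (n : ℝ)⁻¹) (fun _ => by positivity)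
    (by simp [hn0.ne']) s
  refine ⟨r, fun g => ?_, fun g => ?_, fun ζ => ?_⟩
  · simp only [k1, h1, ces, Finset.smul_sum]
    rw [Finset.sum_range]
    simp
  · simp only [k2, h2, ces, Finset.smul_sum]
    rw [Finset.sum_range]
    simp
  · refine (abs_le_of_sq_le_sq' ?_ (mul_nonneg (Real.sqrt_nonneg _) (t.dfc_nonneg ζ))).2
    rw [k4]
    have h4 : ∀ k : Fin n, (n : ℝ)⁻¹ * (s k).dfc ζ ^ 2 ≤ (n : ℝ)⁻¹ * (√n * t.dfc ζ) ^ 2 := by
      intro k
      have h5 : √((k : ℕ) : ℝ) ≤ √n := Real.sqrt_le_sqrt (by exact_mod_cast k.2.le)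
      have h6 := t.dfc_nonneg ζ
      gcongr
      · exact (s k).dfc_nonneg ζ
      · exact (h3 k ζ).trans (by gcongr)
    refine (Finset.sum_le_sum fun k _ => h4 k).trans (le_of_eq ?_)
    rw [Finset.sum_const, Finset.card_univ, Fintype.card_fin, nsmul_eq_mul]
    field_simp

end TP

end Crest.Agent.R78
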