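import Crest.Agent.R78.Amp
import Crest.Agent.R78.MDL
import Crest.Agent.R78.TP
import Crest.Agent.R78.Dist

/-! # Row 78: both modular groups almost fix paired columns -/

set_option autoImplicit false
set_option linter.unusedSectionVars false

namespace Crest.Agent.R78

open scoped InnerProductSpace ComplexOrder BigOperators Topology
open Filter
open Crest.Agent.R124 (Op cm)
open Crest.OpAlg (LineCalculus)

universe u

variable {H : Type u} [NormedAddCommGroup H] [InnerProductSpace ℂ H] [CompleteSpace H]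

namespace Inv

lemma exp_half_neg {a b : ℝ} (ha : 0 < a) (hb : 0 < b) :
    Real.exp (-(Real.log (b / a) / 2)) * √b = √a := by
  have h1 : Real.exp (-(Real.log (b / a) / 2)) ^ 2 * b = a := by
    rw [sq, ← Real.exp_add, show -(Real.log (b / a) / 2) + -(Real.log (b / a) / 2) =
      -Real.log (b / a) by ring, Real.exp_neg, Real.exp_log (div_pos hb ha)]
    field_simp
  rw [← h1, Real.sqrt_mul (sq_nonneg _), Real.sqrt_sq (Real.exp_pos _).le, h1]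

lemma exp_half {a b : ℝ} (ha : 0 < a) (hb : 0 < b) :
    Real.exp (Real.log (b / a) / 2) * √a = √b := by
  rw [← exp_half_neg ha hb, ← mul_assoc, ← Real.exp_add]
  simp

lemma norm_exp_I (x : ℝ) : ‖Complex.exp (Complex.I * x)‖ = 1 := by
  rw [Complex.norm_exp]; simp

lemma norm_sqrt_smul_sq {a : ℝ} (ha : 0 ≤ a) (ξ : H) :
    ‖((√a : ℝ) : ℂ) • ξ‖ ^ 2 = a * ‖ξ‖ ^ 2 := by
  rw [norm_smul, Complex.norm_real, Real.norm_of_nonneg (Real.sqrt_nonneg _), mul_pow,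
    Real.sq_sqrt ha]

lemma sq_three (α β γ : H) : ‖α + β + γ‖ ^ 2 ≤ 3 * (‖α‖ ^ 2 + ‖β‖ ^ 2 + ‖γ‖ ^ 2) := by
  have h := norm_add₃_le (a := α) (b := β) (c := γ)
  refine (pow_le_pow_left₀ (norm_nonneg _) h 2).trans ?_
  nlinarith [sq_nonneg (‖α‖ - ‖β‖), sq_nonneg (‖α‖ - ‖γ‖), sq_nonneg (‖β‖ - ‖γ‖)]

/-- perturbation of a defect -/
lemma defect_le {a b : ℝ} (ha : 0 ≤ a) (hb : 0 ≤ b) (x x' y y' : H) :
    ‖((√a : ℝ) : ℂ) • x' - ((√b : ℝ) : ℂ) • y'‖ ^ 2 ≤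
      3 * (‖((√a : ℝ) : ℂ) • x - ((√b : ℝ) : ℂ) • y‖ ^ 2 + a * ‖x - x'‖ ^ 2 + b * ‖y - y'‖ ^ 2) := by
  have e : ((√a : ℝ) : ℂ) • x' - ((√b : ℝ) : ℂ) • y' =
      (((√a : ℝ) : ℂ) • x - ((√b : ℝ) : ℂ) • y) + (-(((√a : ℝ) : ℂ) • (x - x'))) +
        ((√b : ℝ) : ℂ) • (y - y') := by
    simp only [smul_sub]; abel
  rw [e]
  refine (sq_three _ _ _).trans (le_of_eq ?_)
  rw [norm_neg, norm_sqrt_smul_sq ha, norm_sqrt_smul_sq hb]

/-- two isometric images that are both close to `ω ξ` -/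
lemma re_inner_ge (u v w : H) {n : ℝ} (hu : ‖u‖ = n) (hv : ‖v‖ = n) :
    n ^ 2 - (‖u - w‖ ^ 2 + ‖v - w‖ ^ 2) ≤ (⟪u, v⟫_ℂ).re := by
  have h1 : ‖u - v‖ ^ 2 = ‖u‖ ^ 2 - 2 * (⟪u, v⟫_ℂ).re + ‖v‖ ^ 2 := @norm_sub_sq ℂ _ _ _ _ u v
  have h2 : ‖u - v‖ ≤ ‖u - w‖ + ‖v - w‖ := by
    have := norm_sub_le (u - w) (v - w)
    rwa [sub_sub_sub_cancel_right] at this
  have h3 := pow_le_pow_left₀ (norm_nonneg _) h2 2
  rw [hu, hv] at h1
  nlinarith [sq_nonneg (‖u - w‖ - ‖v - w‖)]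

lemma re_inner_ge' (u v : H) {n : ℝ} (hu : ‖u‖ = n) (hv : ‖v‖ = n) :
    -n ^ 2 ≤ (⟪u, v⟫_ℂ).re := by
  have h1 := norm_inner_le_norm (𝕜 := ℂ) u v
  have h2 := (abs_le.1 (Complex.abs_re_le_norm ⟪u, v⟫_ℂ)).1
  rw [hu, hv] at h1
  nlinarith

lemma wave_pert (D : LineCalculus H) (t x : ℝ) (ξ ξ' : H) :
    ‖D.wave t ξ - Complex.exp (Complex.I * x) • ξ‖ ^ 2 ≤
      3 * (‖D.wave t ξ' - Complex.exp (Complex.I * x) • ξ'‖ ^ 2 + 2 * ‖ξ - ξ'‖ ^ 2) := by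
  have e : D.wave t ξ - Complex.exp (Complex.I * x) • ξ =
      (D.wave t ξ' - Complex.exp (Complex.I * x) • ξ') + D.wave t (ξ - ξ') +
        (-(Complex.exp (Complex.I * x) • (ξ - ξ'))) := by
    simp only [map_sub, smul_sub]; abel
  rw [e]
  refine (sq_three _ _ _).trans (le_of_eq ?_)
  rw [norm_neg, norm_smul, norm_exp_I, R84.norm_wave_apply]
  ring

section sums
variable {D : Type} [Fintype D] [DecidableEq D] {lam : D → ℝ} {x : Matrix D D (Op H)} {r : ℝ}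

lemma col_le (h0 : ∀ i, 0 ≤ lam i) (h1 : ∑ i, lam i = 1) (h : MatB x r) (ζ : H) :
    ∑ j, ∑ i, lam j * ‖x i j ζ‖ ^ 2 ≤ r ^ 2 * ‖ζ‖ ^ 2 := by
  calc _ ≤ ∑ j, lam j * (r ^ 2 * ‖ζ‖ ^ 2) := Finset.sum_le_sum fun j _ => by
        rw [← Finset.mul_sum]
        exact mul_le_mul_of_nonneg_left (h.col j ζ) (h0 j)
    _ = _ := by rw [← Finset.sum_mul, h1, one_mul]

lemma row_le (h0 : ∀ i, 0 ≤ lam i) (h1 : ∑ i, lam i = 1) (hr : 0 ≤ r) (h : MatB x r) (ζ : H) :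
    ∑ i, ∑ j, lam i * ‖star (x i j) ζ‖ ^ 2 ≤ r ^ 2 * ‖ζ‖ ^ 2 := by
  calc _ ≤ ∑ i, lam i * (r ^ 2 * ‖ζ‖ ^ 2) := Finset.sum_le_sum fun i _ => by
        rw [← Finset.mul_sum]
        exact mul_le_mul_of_nonneg_left (h.row hr i ζ) (h0 i)
    _ = _ := by rw [← Finset.sum_mul, h1, one_mul]

lemma sum3 (f g h : D → D → ℝ) : ∑ i, ∑ j, 3 * (f i j + g i j + h i j) =
    3 * (∑ i, ∑ j, f i j + ∑ i, ∑ j, g i j + ∑ i, ∑ j, h i j) := by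
  simp only [mul_add, Finset.sum_add_distrib, Finset.mul_sum]

lemma sum2 (a b : ℝ) (f g : D → D → ℝ) : ∑ i, ∑ j, (a * f i j + b * g i j) =
    a * ∑ i, ∑ j, f i j + b * ∑ i, ∑ j, g i j := by
  simp only [Finset.sum_add_distrib, Finset.mul_sum]

end sums

lemma arith1 {C κ e δ z X Y : ℝ} (hC : 0 ≤ C) (he : 0 ≤ e) (hδ : 0 ≤ δ) (hz : 0 ≤ z)
    (hs : e + δ ≤ 1) (hX : X ≤ C * (e ^ 2 * z + e ^ 2 * z))
    (hY : Y ≤ 3 * (C * (6 * (e ^ 2 + 2 * (κ * δ) ^ 2) * z)) + 6 * ((κ * δ) ^ 2 * z)) :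
    (1 - (20 * C + (36 * C + 6) * κ ^ 2 + 2) * (e + δ)) * z ≤ z - (X + Y) := by
  have m1 : e ^ 2 ≤ e + δ := by nlinarith
  have m2 : δ ^ 2 ≤ e + δ := by nlinarith
  have m4 := mul_le_mul_of_nonneg_left m1 (show 0 ≤ 20 * C * z by positivity)
  have m5 := mul_le_mul_of_nonneg_left m2 (show 0 ≤ (36 * C + 6) * κ ^ 2 * z by positivity)
  have m6 : 0 ≤ (e + δ) * z := by positivity
  linarith

lemma arith2 {K s z : ℝ} (hK : 0 ≤ K) (hs : 1 ≤ s) (hz : 0 ≤ z) : (1 - (K + 2) * s) * z ≤ -z := by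
  have m1 : 2 ≤ (K + 2) * s := by nlinarith
  nlinarith [mul_le_mul_of_nonneg_right m1 hz]

end Inv

/-- `md_I` for `x = √(lam j) A i j c`, `y = √(lam i) B j i c`, `s = log (lam j / lam i)` -/
theorem inv_one : ∃ C : ℝ, 0 ≤ C ∧ ∀ (H : Type u) [NormedAddCommGroup H] [InnerProductSpace ℂ H] [CompleteSpace H] (S : MD H) (D : Type) [Fintype D] (lam : D → ℝ)
    (A B : Matrix D D (Op H)) (c : Op H) (r : ℝ), (∀ i, 0 < lam i) → (∀ i j, A i j ∈ S.M) →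
    (∀ i j, B i j ∈ S.M.commutant) → c ∈ S.M → c ∈ S.M.commutant → IsStarProjection c → |r| ≤ 1 →
    ∑ i, ∑ j, lam j * ‖S.D.wave r (A i j (c S.Ω)) -
        Complex.exp (Complex.I * (r * Real.log (lam j / lam i) : ℝ)) • A i j (c S.Ω)‖ ^ 2 ≤
      C * (∑ i, ∑ j, ‖((√(lam j) : ℝ) : ℂ) • A i j (c S.Ω) -
          ((√(lam i) : ℝ) : ℂ) • B j i (c S.Ω)‖ ^ 2 +
        ∑ i, ∑ j, ‖((√(lam i) : ℝ) : ℂ) • star (A i j) (c S.Ω) -
          ((√(lam j) : ℝ) : ℂ) • star (B j i) (c S.Ω)‖ ^ 2) := by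
  obtain ⟨C, hC0, hC⟩ := md_I.{u}
  refine ⟨8 * C ^ 2, by positivity, fun H _ _ _ S D _ lam A B c r hlam hA hB hc hc' hcp hr => ?_⟩
  rw [← Finset.sum_add_distrib, Finset.mul_sum]
  refine Finset.sum_le_sum fun i _ => ?_
  rw [← Finset.sum_add_distrib, Finset.mul_sum]
  refine Finset.sum_le_sum fun j _ => ?_
  have hcs : star c = c := hcp.isSelfAdjoint.star_eq
  have h := hC H S (((√(lam j) : ℝ) : ℂ) • (A i j * c)) (smul_mem_vn _ (mul_mem (hA i j) hc))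
    (((√(lam i) : ℝ) : ℂ) • (B j i * c)) (smul_mem_vn _ (mul_mem (hB j i) hc'))
    (Real.log (lam j / lam i)) r
  have e1 : star (A i j * c) = star (A i j) * c := by
    rw [star_mul, hcs]; exact ((commute_of_mem (star_mem (hA i j)) hc').eq).symm
  have e2 : star (B j i * c) = star (B j i) * c := by
    rw [star_mul, hcs]; exact (commute_of_mem hc (star_mem (hB j i))).eq
  simp only [star_smul, e1, e2, Complex.star_def, Complex.conj_ofReal, smul_apply,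
    mul_apply_eq_comp, smul_smul, ← Complex.ofReal_mul, Inv.exp_half_neg (hlam i) (hlam j),
    Inv.exp_half (hlam i) (hlam j)] at h
  set ξ := A i j (c S.Ω) with hξ
  set s := Real.log (lam j / lam i) with hs
  have e3 : lam j * ‖S.D.wave r ξ - Complex.exp (Complex.I * (r * s : ℝ)) • ξ‖ ^ 2 =
      ‖Complex.exp (-(Complex.I * (r * s : ℝ))) • S.D.wave r (((√(lam j) : ℝ) : ℂ) • ξ) -
        ((√(lam j) : ℝ) : ℂ) • ξ‖ ^ 2 := by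
    have e4 : Complex.exp (-(Complex.I * (r * s : ℝ))) • S.D.wave r (((√(lam j) : ℝ) : ℂ) • ξ) -
        ((√(lam j) : ℝ) : ℂ) • ξ = ((√(lam j) : ℝ) : ℂ) •
          (Complex.exp (Complex.I * (-(r * s) : ℝ)) •
            (S.D.wave r ξ - Complex.exp (Complex.I * (r * s : ℝ)) • ξ)) := by
      rw [map_smul, smul_sub, smul_smul (Complex.exp _) (Complex.exp _), ← Complex.exp_add,
        Complex.ofReal_neg, mul_neg, neg_add_cancel, Complex.exp_zero, one_smul, smul_sub,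
        smul_comm]
    rw [e4, Inv.norm_sqrt_smul_sq (hlam j).le, norm_smul, Inv.norm_exp_I, one_mul]
  rw [e3]
  refine (pow_le_pow_left₀ (norm_nonneg _) h 2).trans ?_
  set a := ‖((√(lam j) : ℝ) : ℂ) • ξ - ((√(lam i) : ℝ) : ℂ) • B j i (c S.Ω)‖
  set b := ‖((√(lam i) : ℝ) : ℂ) • star (A i j) (c S.Ω) -
    ((√(lam j) : ℝ) : ℂ) • star (B j i) (c S.Ω)‖
  have h1 : (1 + |r|) ^ 2 ≤ 4 := by nlinarith [abs_nonneg r]
  have h2 : (a + b) ^ 2 ≤ 2 * (a ^ 2 + b ^ 2) := by nlinarith [sq_nonneg (a - b)]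
  calc (C * (1 + |r|) * (a + b)) ^ 2 = C ^ 2 * ((1 + |r|) ^ 2 * (a + b) ^ 2) := by ring
    _ ≤ C ^ 2 * (4 * (2 * (a ^ 2 + b ^ 2))) := by gcongr
    _ = _ := by ring

/-- `⟪ζ, Φ w ζ⟫ = ∑ lam j ⟪U_{-r} A i j ζ, V_{-r} A i j ζ⟫`; `inv_one` for `S` (`dfc_sq_star`), and
for `S'` with the approximants of `A`, `B` (`mat_approx`, `cl_comm`, `MatB.col`, `MatB.row`) -/
theorem inv_fix : ∃ C : ℝ, 0 ≤ C ∧ ∀ (H : Type u) [NormedAddCommGroup H] [InnerProductSpace ℂ H] [CompleteSpace H] (S S' : MD H) (δ : ℝ), S'.Ω = S.Ω → 0 ≤ δ →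
    CL S.M S'.M δ → (∀ c, ZP S.M c → c ∈ S'.M ∧ c ∈ S'.M.commutant) → ∀ r e : ℝ, |r| ≤ 1 →
    0 ≤ e → Fix S.M S.Ω (S.D.wave r * S'.D.wave (-r)) e (C * (e + δ)) := by
  obtain ⟨C₁, hC₁, h₁⟩ := inv_one.{u}
  obtain ⟨C₂, hC₂, h₂⟩ := mat_approx.{u}
  obtain ⟨C₃, hC₃, h₃⟩ := cl_comm.{u}
  set K : ℝ := 20 * C₁ + (36 * C₁ + 6) * (C₂ * C₃) ^ 2 with hK
  have hK0 : 0 ≤ K := by positivity
  refine ⟨K + 2, by positivity, fun H _ _ _ S S' δ hΩ hδ hcl hz r e hr he t ht c hc => ?_⟩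
  obtain ⟨hcN, hcN'⟩ := hz c hc
  set ζ := c S.Ω with hζ
  set ρ : ℝ := C₂ * C₃ * δ with hρ
  have hρ0 : 0 ≤ ρ := by positivity
  have h0 : ∀ i, 0 ≤ t.lam i := fun i => (t.pos i).le
  obtain ⟨A', hA', hAA⟩ := h₂ H S.M S'.M (C₃ * δ) (by positivity)
    (hcl.mono (by nlinarith)) t.D t.A t.A_mem (matB_unitary t.A_unit)
  obtain ⟨B', hB', hBB⟩ := h₂ H S.M.commutant S'.M.commutant (C₃ * δ) (by positivity)
    (h₃ H S.M S'.M δ hδ hcl) t.D t.B t.B_mem (matB_unitary t.B_unit)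
  rw [← mul_assoc, ← hρ] at hAA hBB
  have hr' : |-r| ≤ 1 := by rwa [abs_neg]
  have hd := ht c hc
  rw [← hζ] at hd
  have hd2 : t.dfc ζ ^ 2 ≤ e ^ 2 * ‖ζ‖ ^ 2 := by
    rw [← mul_pow]; exact pow_le_pow_left₀ (t.dfc_nonneg ζ) hd 2
  have hd3 : ∑ i, ∑ j, ‖((√(t.lam j) : ℝ) : ℂ) • t.A i j ζ -
      ((√(t.lam i) : ℝ) : ℂ) • t.B j i ζ‖ ^ 2 ≤ e ^ 2 * ‖ζ‖ ^ 2 := by
    rwa [TP.dfc, Real.sq_sqrt (by positivity)] at hd2
  have hd4 := hd2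
  rw [t.dfc_sq_star] at hd4
  have k1 := h₁ H S t.D t.lam t.A t.B c (-r) t.pos t.A_mem t.B_mem hc.1 hc.2.1 hc.2.2 hr'
  have k2 := h₁ H S' t.D t.lam A' B' c (-r) t.pos hA' hB' hcN hcN' hc.2.2 hr'
  rw [hΩ] at k2
  rw [← hζ] at k1 k2
  have c1 := Inv.col_le h0 t.sum hAA ζ
  have c2 := Inv.col_le h0 t.sum hBB ζ
  have c3 := Inv.row_le h0 t.sum hρ0 hAA ζ
  have c4 := Inv.row_le h0 t.sum hρ0 hBB ζ
  rw [Finset.sum_comm] at c1 c4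
  simp only [Matrix.sub_apply, star_sub, sub_apply] at c1 c2 c3 c4
  have d1 : ∑ i, ∑ j, ‖((√(t.lam j) : ℝ) : ℂ) • A' i j ζ -
      ((√(t.lam i) : ℝ) : ℂ) • B' j i ζ‖ ^ 2 ≤ 3 * (e ^ 2 + 2 * ρ ^ 2) * ‖ζ‖ ^ 2 := by
    refine (Finset.sum_le_sum fun i _ => Finset.sum_le_sum fun j _ =>
      Inv.defect_le (h0 j) (h0 i) (t.A i j ζ) (A' i j ζ) (t.B j i ζ) (B' j i ζ)).trans ?_
    rw [Inv.sum3]
    linarith
  have d2 : ∑ i, ∑ j, ‖((√(t.lam i) : ℝ) : ℂ) • star (A' i j) ζ -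
      ((√(t.lam j) : ℝ) : ℂ) • star (B' j i) ζ‖ ^ 2 ≤ 3 * (e ^ 2 + 2 * ρ ^ 2) * ‖ζ‖ ^ 2 := by
    refine (Finset.sum_le_sum fun i _ => Finset.sum_le_sum fun j _ =>
      Inv.defect_le (h0 i) (h0 j) (star (t.A i j) ζ) (star (A' i j) ζ) (star (t.B j i) ζ)
        (star (B' j i) ζ)).trans ?_
    rw [Inv.sum3]
    linarith
  have k3 : ∑ i, ∑ j, t.lam j * ‖S'.D.wave (-r) (t.A i j ζ) - Complex.exp (Complex.I *
      (-r * Real.log (t.lam j / t.lam i) : ℝ)) • t.A i j ζ‖ ^ 2 ≤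
      3 * (C₁ * (6 * (e ^ 2 + 2 * ρ ^ 2) * ‖ζ‖ ^ 2)) + 6 * (ρ ^ 2 * ‖ζ‖ ^ 2) := by
    calc _ ≤ ∑ i, ∑ j, (3 * (t.lam j * ‖S'.D.wave (-r) (A' i j ζ) - Complex.exp (Complex.I *
          (-r * Real.log (t.lam j / t.lam i) : ℝ)) • A' i j ζ‖ ^ 2) +
          6 * (t.lam j * ‖t.A i j ζ - A' i j ζ‖ ^ 2)) :=
          Finset.sum_le_sum fun i _ => Finset.sum_le_sum fun j _ => by
            have := mul_le_mul_of_nonneg_left (Inv.wave_pert S'.D (-r)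
              (-r * Real.log (t.lam j / t.lam i)) (t.A i j ζ) (A' i j ζ)) (h0 j)
            linarith
      _ ≤ _ := by
          rw [Inv.sum2]
          have := mul_le_mul_of_nonneg_left (add_le_add d1 d2) hC₁
          linarith
  have k4 := k1.trans (mul_le_mul_of_nonneg_left (add_le_add hd3 hd4) hC₁)
  have hcol := col_sum t.sum t.A_unit ζ
  have e0 : (⟪ζ, t.Φ (S.D.wave r * S'.D.wave (-r)) ζ⟫_ℂ).re = ∑ i, ∑ j, t.lam j *
      (⟪S.D.wave (-r) (t.A i j ζ), S'.D.wave (-r) (t.A i j ζ)⟫_ℂ).re := by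
    rw [TP.Φ, inner_chan, Complex.re_sum]
    refine Finset.sum_congr rfl fun i _ => ?_
    rw [Complex.re_sum]
    refine Finset.sum_congr rfl fun j _ => ?_
    rw [Complex.re_ofReal_mul, mul_apply_eq_comp, R84.inner_wave_right]
  rw [e0]
  have hz2 : 0 ≤ ‖ζ‖ ^ 2 := sq_nonneg _
  rcases le_total (e + δ) 1 with hs | hs
  · have l1 : ∑ i, ∑ j, (t.lam j * ‖t.A i j ζ‖ ^ 2 - (t.lam j * ‖S.D.wave (-r) (t.A i j ζ) -
        Complex.exp (Complex.I * (-r * Real.log (t.lam j / t.lam i) : ℝ)) • t.A i j ζ‖ ^ 2 +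
        t.lam j * ‖S'.D.wave (-r) (t.A i j ζ) - Complex.exp (Complex.I *
          (-r * Real.log (t.lam j / t.lam i) : ℝ)) • t.A i j ζ‖ ^ 2)) ≤ ∑ i, ∑ j, t.lam j *
        (⟪S.D.wave (-r) (t.A i j ζ), S'.D.wave (-r) (t.A i j ζ)⟫_ℂ).re :=
      Finset.sum_le_sum fun i _ => Finset.sum_le_sum fun j _ => by
        rw [← mul_add, ← mul_sub]
        exact mul_le_mul_of_nonneg_left (Inv.re_inner_ge _ _ _ (R84.norm_wave_apply _ _ _)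
          (R84.norm_wave_apply _ _ _)) (h0 j)
    simp only [Finset.sum_sub_distrib, Finset.sum_add_distrib] at l1
    refine le_trans ?_ l1
    rw [hcol]
    exact Inv.arith1 hC₁ he hδ hz2 hs k4 k3
  · have l1 : ∑ i, ∑ j, -(t.lam j * ‖t.A i j ζ‖ ^ 2) ≤ ∑ i, ∑ j, t.lam j *
        (⟪S.D.wave (-r) (t.A i j ζ), S'.D.wave (-r) (t.A i j ζ)⟫_ℂ).re :=
      Finset.sum_le_sum fun i _ => Finset.sum_le_sum fun j _ => by
        rw [← mul_neg]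
        exact mul_le_mul_of_nonneg_left (Inv.re_inner_ge' _ _ (R84.norm_wave_apply _ _ _)
          (R84.norm_wave_apply _ _ _)) (h0 j)
    simp only [Finset.sum_neg_distrib] at l1
    refine le_trans ?_ l1
    rw [hcol]
    exact Inv.arith2 hK0 hs hz2

end Crest.Agent.R78
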