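import Crest.Agent.R78.Gap
import Crest.Agent.R78.Inv

/-! # Row 78: the modular group of `M` is close to the normaliser of `N` -/

set_option autoImplicit false

namespace Crest.Agent.R78

open scoped InnerProductSpace ComplexOrder BigOperators Topology
open Filter
open Crest.Agent.R124 (Op cm)
open Crest.OpAlg (LineCalculus)

universe u

variable {H : Type u} [NormedAddCommGroup H] [InnerProductSpace ℂ H] [CompleteSpace H]

namespace Boot

lemma fix_mono {M : VN H} {Ω : H} {w : Op H} {e θ θ' : ℝ} (h : Fix M Ω w e θ) (hθ : θ ≤ θ') :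
    Fix M Ω w e θ' := by
  intro t ht c hc
  refine le_trans ?_ (h t ht c hc)
  gcongr

lemma uin_conj {M : VN H} {u a : Op H} (hu : u ∈ unitary (Op H)) (h : Nml u M) (ha : UIn M a) :
    UIn M (u * a * star u) :=
  ⟨(h a ha.1).1, mul_mem (mul_mem hu ha.2) (Unitary.star_mem hu)⟩

lemma norm_mul_sub {a b a' b' : Op H} (ha' : a' ∈ unitary (Op H)) (hb : b ∈ unitary (Op H)) :
    ‖a * b - a' * b'‖ ≤ ‖a - a'‖ + ‖b - b'‖ := by
  have e : a * b - a' * b' = (a - a') * b + a' * (b - b') := by noncomm_ring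
  rw [e]
  refine (norm_add_le _ _).trans ?_
  rw [CStarRing.norm_mul_mem_unitary _ hb, CStarRing.norm_mem_unitary_mul _ ha']

/-- products of elements near the gauge group -/
lemma nearG_mul {M : VN H} {w w' : Op H} {η η' : ℝ} (hw' : w' ∈ unitary (Op H))
    (h : NearG M w 1 η) (h' : NearG M w' 1 η') : NearG M (w * w') 1 (η + η') := by
  obtain ⟨n, p, hn, hp, h⟩ := h
  obtain ⟨n', p', hn', hp', h'⟩ := h'
  refine ⟨n * n', p * p', hn.mul hn', hp.mul hp', ?_⟩
  rw [mul_one] at h h' ⊢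
  have e : n * n' * (p * p') = n * p * (n' * p') := by
    have := (commute_of_mem hn'.1 hp.1).eq
    calc n * n' * (p * p') = n * (n' * p) * p' := by simp only [mul_assoc]
      _ = n * p * (n' * p') := by rw [this]; simp only [mul_assoc]
  rw [e]
  exact (norm_mul_sub (mul_mem hn.2 hp.2) hw').trans (add_le_add h h')

lemma nearG_conj {M : VN H} {w u : Op H} {η : ℝ} (hu : u ∈ unitary (Op H)) (hN : Nml u M)
    (h : NearG M w 1 η) : NearG M (u * w * star u) 1 η := by
  obtain ⟨n, p, hn, hp, h⟩ := h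
  refine ⟨u * n * star u, u * p * star u, uin_conj hu hN hn, uin_conj hu (hN.commutant hu) hp, ?_⟩
  rw [mul_one] at h ⊢
  have e : u * w * star u - u * n * star u * (u * p * star u) = u * (w - n * p) * star u := by
    have h1 : star u * u = 1 := Unitary.star_mul_self_of_mem hu
    calc u * w * star u - u * n * star u * (u * p * star u)
        = u * w * star u - u * n * (star u * u) * p * star u := by simp only [mul_assoc]
      _ = u * (w - n * p) * star u := by rw [h1]; noncomm_ring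
  rw [e, CStarRing.norm_mul_mem_unitary _ (Unitary.star_mem hu),
    CStarRing.norm_mem_unitary_mul _ hu]
  exact h

end Boot

/-- `w t = U t V (-t)`; `cj (w t)⋆ M = cj (V t) M` is `3δ`-close to `M`.  For `|t| ≤ 1`:
`inv_fix` and `gap`.  Doubling: `w (2t) = (U t w t U (-t)) w t` is within `2 C η` of
`v v' ∈ U(M) U(M')`; apply `gap` and `fix_of_near` to `(v v')⋆ w (2t)`.  Finally `Near.unitary`. -/
theorem boot : ∃ C δ₀ : ℝ, 0 < C ∧ 0 < δ₀ ∧ ∀ (H : Type u) [NormedAddCommGroup H] [InnerProductSpace ℂ H] [CompleteSpace H] [TopologicalSpace.SeparableSpace H]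
    (S S' : MD H) (δ : ℝ), S'.Ω = S.Ω → 0 < δ → δ ≤ δ₀ → CL S.M S'.M δ →
    (∀ c, ZP S.M c → c ∈ S'.M ∧ c ∈ S'.M.commutant) →
    ∀ t, NearG S'.M (S.D.wave t) (S'.D.wave t) (C * δ) := by
  obtain ⟨C₁, hC₁, h₁⟩ := cl_comm.{u}
  obtain ⟨Cg, η₀, hCg, hη₀, hg⟩ := gap.{u}
  obtain ⟨Ci, hCi, hi⟩ := inv_fix.{u}
  have hC₁' : 0 < C₁ := by linarith
  refine ⟨3 * Cg + 8 + 8 * C₁, min (1 / (8 * C₁)) (min (η₀ / 3) (min (1 / (8 * (Ci + 1)))
    (1 / (24 * Cg)))), by positivity, by positivity, ?_⟩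
  intro H _ _ _ _ S S' δ hΩ hδ hδ₀ hcl hz
  simp only [le_min_iff] at hδ₀
  obtain ⟨hδ1, hδ2, hδ3, hδ4⟩ := hδ₀
  rw [le_div_iff₀ (by positivity)] at hδ1 hδ2 hδ3 hδ4
  have hδ8 : δ ≤ 1 / 8 := by nlinarith
  have hU := S.urep
  have hV := S'.urep
  set w : ℝ → Op H := fun t => S.D.wave t * S'.D.wave (-t) with hw
  have hwu : ∀ t, w t ∈ unitary (Op H) := fun t => mul_mem (hU.unit t) (hV.unit (-t))
  have hcw : ∀ t, CL S.M (cj (star (w t)) S.M) (3 * δ) := by
    intro t
    have e : star (w t) = S'.D.wave t * S.D.wave (-t) := by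
      simp only [hw, star_mul]
      rw [← hV.neg, neg_neg, hU.neg]
    rw [e, ← cj_mul (hV.unit t) (hU.unit (-t)), cj_of_nml (hU.unit (-t)) (S.nml (-t))]
    have h1 := hcl.cj (hV.unit t)
    rw [cj_of_nml (hV.unit t) (S'.nml t)] at h1
    refine (hcl.trans h1.symm hδ.le hδ.le).mono ?_
    nlinarith
  set e : ℝ := min (1 / 16) (1 / (8 * (Ci + 1))) with he
  have he0 : 0 < e := by positivity
  have he1 : e ≤ 1 / 16 := min_le_left _ _
  have he2 : e * (8 * (Ci + 1)) ≤ 1 := by
    rw [← le_div_iff₀ (by positivity)]; exact min_le_right _ _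
  have key : ∀ k : ℕ, ∀ t : ℝ, |t| ≤ 2 ^ k → NearG S.M (w t) 1 (Cg * (3 * δ)) := by
    intro k
    induction k with
    | zero =>
      intro t ht
      refine hg H S (w t) (3 * δ) e (hwu t) (by positivity) (by linarith) (hcw t) he0 he1 ?_
      refine Boot.fix_mono (hi H S S' δ hΩ hδ.le hcl hz t e (by simpa using ht) he0.le) ?_
      nlinarith
    | succ k ih =>
      intro t ht
      have hs := ih (t / 2) (by rw [abs_div, abs_two, pow_succ] at *; linarith)
      have e1 : w t = (S.D.wave (t / 2) * w (t / 2) * star (S.D.wave (t / 2))) * w (t / 2) := by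
        have h1 : star (S.D.wave (t / 2)) * S.D.wave (t / 2) = 1 :=
          Unitary.star_mul_self_of_mem (hU.unit _)
        have h2 : S.D.wave t = S.D.wave (t / 2) * S.D.wave (t / 2) := by
          rw [← hU.add, add_halves]
        have h3 : S'.D.wave (-t) = S'.D.wave (-(t / 2)) * S'.D.wave (-(t / 2)) := by
          rw [← hV.add]; congr 1; ring
        calc w t = S.D.wave (t / 2) * (S.D.wave (t / 2) * S'.D.wave (-(t / 2))) *
              (star (S.D.wave (t / 2)) * S.D.wave (t / 2)) * S'.D.wave (-(t / 2)) := by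
              rw [h1, mul_one]; simp only [hw]; rw [h2, h3]; simp only [mul_assoc]
          _ = _ := by simp only [hw, mul_assoc]
      obtain ⟨v, v', hv, hv', hvv⟩ :=
        Boot.nearG_mul (hwu (t / 2)) (Boot.nearG_conj (hU.unit (t / 2)) (S.nml (t / 2)) hs) hs
      rw [← e1, mul_one] at hvv
      have hvu : v * v' ∈ unitary (Op H) := mul_mem hv.2 hv'.2
      have hw' : star (v * v') * w t ∈ unitary (Op H) := mul_mem (Unitary.star_mem hvu) (hwu t)
      have hn : ‖star (v * v') * w t - 1‖ ≤ 1 / 4 := by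
        have e2 : star (v * v') * w t - 1 = star (v * v') * (w t - v * v') := by
          rw [mul_sub, Unitary.star_mul_self_of_mem hvu]
        rw [e2, CStarRing.norm_mem_unitary_mul _ (Unitary.star_mem hvu)]
        linarith
      have hc' : CL S.M (cj (star (star (v * v') * w t)) S.M) (3 * δ) := by
        rw [star_mul, star_star, ← cj_mul (Unitary.star_mem (hwu t)) hvu,
          cj_of_nml hvu (hv.nml.mul hv'.nml')]
        exact hcw t
      have h3 := hg H S _ (3 * δ) e hw' (by positivity) (by linarith) hc' he0 he1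
        (fix_of_near _ hn e)
      have h4 : NearG S.M (v * v') 1 0 := ⟨v, v', hv, hv', by simp⟩
      have h5 := Boot.nearG_mul hw' h4 h3
      rwa [← mul_assoc, Unitary.mul_star_self_of_mem hvu, one_mul, zero_add] at h5
  intro t
  obtain ⟨k, hk⟩ := pow_unbounded_of_one_lt |t| (one_lt_two (α := ℝ))
  obtain ⟨n, p, hn, hp, h⟩ := key k t hk.le
  obtain ⟨n', hn', hnn⟩ := hcl.1.unitary hδ.le hδ8 hn
  obtain ⟨p', hp', hpp⟩ := (h₁ H _ _ δ hδ.le hcl).1.unitary (by positivity) (by nlinarith) hp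
  refine ⟨n', p', hn', hp', ?_⟩
  have e2 : S.D.wave t - n' * p' * S'.D.wave t = (w t - n' * p') * S'.D.wave t := by
    simp only [hw]
    rw [sub_mul, mul_assoc (S.D.wave t), ← hV.add, neg_add_cancel, hV.zero, mul_one]
  rw [e2, CStarRing.norm_mul_mem_unitary _ (hV.unit t)]
  rw [mul_one] at h
  have h6 := Boot.norm_mul_sub (a := n) (b' := p') hn'.2 hp.2
  calc ‖w t - n' * p'‖ ≤ ‖w t - n * p‖ + ‖n * p - n' * p'‖ := norm_sub_le_norm_sub_add_norm_sub _ _ _
    _ ≤ _ := by nlinarith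

end Crest.Agent.R78
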