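import Crest.Agent.R78.Basic
import Crest.Agent.R140.Amen

/-! # Row 78: invariant means on abelian groups -/

set_option autoImplicit false

namespace Crest.Agent.R78

open scoped InnerProductSpace ComplexOrder BigOperators Topology
open Filter
open Crest.Agent.R124 (Op cm)
open Crest.OpAlg (LineCalculus)

universe u

variable {H : Type u} [NormedAddCommGroup H] [InnerProductSpace ℂ H] [CompleteSpace H]

namespace Mean
open Finset

/-- Følner sets for finitely many translations in an abelian group. -/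
theorem abelian_folner {A : Type*} [AddCommGroup A] [DecidableEq A] (B : Finset A) (η : ℝ)
    (hη : 0 < η) :
    ∃ Y : Finset A, Y.Nonempty ∧ ∀ b ∈ B, ((Y.filter (fun y => y + b ∉ Y)).card : ℝ) ≤ η * Y.card := by
  classical
  -- `Y n` = combinations of elements of `B` with coefficients at most `n`
  let Y : ℕ → Finset A := fun n =>
    (Fintype.piFinset (fun _ : B => range (n + 1))).image (fun c : B → ℕ => ∑ b : B, c b • (b : A))
  have hcard : ∀ n, (Y n).card ≤ (n + 1) ^ B.card := by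
    intro n
    refine card_image_le.trans ?_
    rw [Fintype.card_piFinset]; simp
  have hne : ∀ n, (Y n).Nonempty := by
    intro n
    refine ⟨_, mem_image.2 ⟨fun _ => 0, by simp, rfl⟩⟩
  have hsub : ∀ n, Y n ⊆ Y (n + 1) := by
    intro n y hy
    obtain ⟨c, hc, rfl⟩ := mem_image.1 hy
    refine mem_image.2 ⟨c, ?_, rfl⟩
    rw [Fintype.mem_piFinset] at hc ⊢
    intro b; have := hc b; simp only [mem_range] at this ⊢; omega
  have hadd : ∀ n, ∀ b ∈ B, ∀ y ∈ Y n, y + b ∈ Y (n + 1) := by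
    intro n b hb y hy
    obtain ⟨c, hc, rfl⟩ := mem_image.1 hy
    refine mem_image.2 ⟨fun b' => c b' + if b' = ⟨b, hb⟩ then 1 else 0, ?_, ?_⟩
    · rw [Fintype.mem_piFinset] at hc ⊢
      intro b'; have := hc b'; simp only [mem_range] at this ⊢; split_ifs <;> omega
    · simp only [add_smul, sum_add_distrib, ite_smul, one_smul, zero_smul]
      simp
  have hex : ∃ n, ((Y (n + 1)).card : ℝ) ≤ (1 + η) * (Y n).card := by
    by_contra hcon
    push Not at hcon
    have hgrow : ∀ n, (1 + η) ^ n ≤ ((Y n).card : ℝ) := by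
      intro n
      induction n with
      | zero => simpa using (card_pos.2 (hne 0))
      | succ n ih =>
        have := hcon n
        rw [pow_succ]; nlinarith
    have hlim := tendsto_pow_const_div_const_pow_of_one_lt B.card (r := 1 + η) (by linarith)
    have hlim2 : Filter.Tendsto (fun n : ℕ => (((n + 1 : ℕ) : ℝ) ^ B.card / (1 + η) ^ (n + 1)))
        Filter.atTop (nhds 0) := hlim.comp (Filter.tendsto_add_atTop_nat 1)
    have hev := hlim2.eventually (gt_mem_nhds (show (0 : ℝ) < 1 / (1 + η) by positivity))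
    obtain ⟨n, hn⟩ := hev.exists
    have h1 : (1 + η) ^ n ≤ ((n + 1 : ℕ) : ℝ) ^ B.card := by
      refine (hgrow n).trans ?_
      exact_mod_cast hcard n
    have hpos : 0 < (1 + η) ^ n := by positivity
    rw [div_lt_div_iff₀ (by positivity) (by positivity), pow_succ] at hn
    nlinarith
  obtain ⟨n, hn⟩ := hex
  refine ⟨Y n, hne n, fun b hb => ?_⟩
  have h1 : ((Y n).filter (fun y => y + b ∉ Y n)).card ≤ (Y (n + 1) \ Y n).card := by
    apply card_le_card_of_injOn (fun y => y + b)
    · intro y hy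
      have hy' := mem_filter.1 (mem_coe.1 hy)
      exact mem_coe.2 (mem_sdiff.2 ⟨hadd n b hb y hy'.1, hy'.2⟩)
    · intro y _ y' _ h; exact add_right_cancel h
  have h2 : (Y (n + 1) \ Y n).card + (Y n).card = (Y (n + 1)).card :=
    card_sdiff_add_card_eq_card (hsub n)
  have h3 : (((Y n).filter (fun y => y + b ∉ Y n)).card : ℝ) + (Y n).card ≤ (Y (n + 1)).card := by
    exact_mod_cast (by omega)
  linarith

/-- the average over a finite set -/
noncomputable def avg {G : Type*} (Y : Finset G) (f : G → Op H) : Op H :=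
  ∑ g ∈ Y, ((Y.card : ℝ)⁻¹) • f g

lemma avg_mem {G : Type*} {Y : Finset G} (hY : Y.Nonempty) {f : G → Op H} {C : Set (Op H)}
    (hC : Convex ℝ C) (hf : ∀ g, f g ∈ C) : avg Y f ∈ C := by
  have hc : (0 : ℝ) < Y.card := by exact_mod_cast card_pos.2 hY
  refine hC.sum_mem (fun _ _ => by positivity) ?_ (fun g _ => hf g)
  rw [sum_const, nsmul_eq_mul]
  field_simp

lemma avg_norm_le {G : Type*} {Y : Finset G} (hY : Y.Nonempty) {f : G → Op H} {R : ℝ}
    (hf : ∀ g, ‖f g‖ ≤ R) : ‖avg Y f‖ ≤ R := by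
  have := avg_mem hY (f := f) (convex_closedBall (0 : Op H) R)
    (fun g => by simpa using hf g)
  simpa using this

lemma avg_shift {G : Type*} [AddCommGroup G] [DecidableEq G] {Y : Finset G} (hY : Y.Nonempty)
    {f : G → Op H} {R η : ℝ} (hf : ∀ g, ‖f g‖ ≤ R) {b : G}
    (hb : ((Y.filter (fun y => y + b ∉ Y)).card : ℝ) ≤ η * Y.card) :
    ‖avg Y (fun g => f (b + g)) - avg Y f‖ ≤ 2 * R * η := by
  have hc : (0 : ℝ) < Y.card := by exact_mod_cast card_pos.2 hY
  have hR : 0 ≤ R := (norm_nonneg _).trans (hf 0)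
  set Y' : Finset G := Y.image (fun g => b + g) with hY'
  have hinj : Set.InjOn (fun g => b + g) (Y : Set G) := fun x _ y _ h => add_left_cancel h
  have hcard : Y'.card = Y.card := card_image_of_injOn hinj
  have hsum : ∑ g ∈ Y, f (b + g) = ∑ g ∈ Y', f g := (sum_image hinj).symm
  have h1 : (Y' \ Y).card ≤ (Y.filter (fun y => y + b ∉ Y)).card := by
    have : Y' \ Y ⊆ (Y.filter (fun y => y + b ∉ Y)).image (fun g => b + g) := by
      intro z hz
      obtain ⟨hz1, hz2⟩ := mem_sdiff.1 hz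
      obtain ⟨y, hy, rfl⟩ := mem_image.1 hz1
      exact mem_image.2 ⟨y, mem_filter.2 ⟨hy, by rwa [add_comm]⟩, rfl⟩
    exact (card_le_card this).trans card_image_le
  have h2 : (Y \ Y').card = (Y' \ Y).card := card_sdiff_comm hcard.symm
  have hb1 : ((Y' \ Y).card : ℝ) ≤ η * Y.card := le_trans (by exact_mod_cast h1) hb
  have hb2 : ((Y \ Y').card : ℝ) ≤ η * Y.card := by rw [h2]; exact hb1
  have hs : ∀ s : Finset G, ‖∑ g ∈ s, f g‖ ≤ s.card * R := fun s =>
    (norm_sum_le _ _).trans (by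
      rw [← nsmul_eq_mul]; exact sum_le_card_nsmul _ _ _ (fun g _ => hf g))
  have h3 : ‖∑ g ∈ Y, f (b + g) - ∑ g ∈ Y, f g‖ ≤ 2 * R * η * Y.card := by
    rw [hsum, ← sum_sdiff_sub_sum_sdiff]
    refine (norm_sub_le _ _).trans ?_
    have := hs (Y' \ Y)
    have := hs (Y \ Y')
    nlinarith [mul_le_mul_of_nonneg_right hb1 hR, mul_le_mul_of_nonneg_right hb2 hR]
  unfold avg
  rw [← smul_sum, ← smul_sum, ← smul_sub, norm_smul, Real.norm_of_nonneg (by positivity),
    inv_mul_le_iff₀ hc]
  linarith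

lemma norm_unit_le {a : Op H} (ha : a ∈ unitary (Op H)) : ‖a‖ ≤ 1 := by
  rcases subsingleton_or_nontrivial (Op H) with h | h
  · rw [Subsingleton.elim a 0]; simp
  · exact (CStarRing.norm_of_mem_unitary ha).le

end Mean

/-- Følner sets (copy `R140.abelian_folner` for `G : Type*`), indexed by `Finset G × ℕ` with an
ultrafilter finer than `atTop`; `μ f` is the weak limit (`exists_wl`) of the averages. -/
theorem exists_mean (G : Type*) [AddCommGroup G] (H : Type u) [NormedAddCommGroup H] [InnerProductSpace ℂ H] [CompleteSpace H] :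
    ∃ μ : (G → Op H) → Op H, IsMean μ := by
  classical
  have hF : ∀ i : Finset G × ℕ, ∃ Y : Finset G, Y.Nonempty ∧ ∀ b ∈ i.1,
      ((Y.filter (fun y => y + b ∉ Y)).card : ℝ) ≤ (1 / ((i.2 : ℝ) + 1)) * Y.card :=
    fun i => Mean.abelian_folner i.1 _ (by positivity)
  choose Y hY hYb using hF
  let 𝒰 : Ultrafilter (Finset G × ℕ) := Ultrafilter.of atTop
  have h𝒰 : (𝒰 : Filter (Finset G × ℕ)) ≤ atTop := Ultrafilter.of_le _
  let μ : (G → Op H) → Op H := fun f =>
    if h : ∃ T₀, WL 𝒰 (fun i => Mean.avg (Y i) f) T₀ then h.choose else 0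
  have key : ∀ (f : G → Op H) (R : ℝ), (∀ g, ‖f g‖ ≤ R) →
      WL 𝒰 (fun i => Mean.avg (Y i) f) (μ f) := by
    intro f R hf
    have hR : 0 ≤ R := (norm_nonneg _).trans (hf 0)
    obtain ⟨T₀, -, hT⟩ := exists_wl 𝒰 (fun i => Mean.avg (Y i) f) hR
      (Eventually.of_forall fun i => Mean.avg_norm_le (hY i) hf)
    have h : ∃ T₀, WL 𝒰 (fun i => Mean.avg (Y i) f) T₀ := ⟨T₀, hT⟩
    have : μ f = h.choose := dif_pos h
    rw [this]; exact h.choose_spec
  refine ⟨μ, ⟨?_, ?_, ?_, ?_, ?_, ?_⟩⟩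
  · intro f R hf C hC hC' hfC
    exact hC'.mem (key f R hf) (Eventually.of_forall fun i => Mean.avg_mem (hY i) hC hfC)
  · intro f f' R R' hf hf'
    have h1 := key (fun g => f g + f' g) (R + R')
      (fun g => (norm_add_le _ _).trans (add_le_add (hf g) (hf' g)))
    have h2 := (key f R hf).add (key f' R' hf')
    refine h1.unique (h2.congr' (Eventually.of_forall fun i => ?_))
    simp only [Mean.avg, smul_add, Finset.sum_add_distrib]
  · intro f R hf a
    have h1 := key (fun g => a * f g) (‖a‖ * R)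
      (fun g => (norm_mul_le _ _).trans (mul_le_mul_of_nonneg_left (hf g) (norm_nonneg _)))
    have h2 := (key f R hf).mul_left a
    refine h1.unique (h2.congr' (Eventually.of_forall fun i => ?_))
    simp only [Mean.avg, Finset.mul_sum, mul_smul_comm]
  · intro f R hf a
    have h1 := key (fun g => f g * a) (R * ‖a‖)
      (fun g => (norm_mul_le _ _).trans (mul_le_mul_of_nonneg_right (hf g) (norm_nonneg _)))
    have h2 := (key f R hf).mul_right a
    refine h1.unique (h2.congr' (Eventually.of_forall fun i => ?_))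
    simp only [Mean.avg, Finset.sum_mul, smul_mul_assoc]
  · intro f R hf
    have h1 := key (fun g => star (f g)) R (fun g => by rw [norm_star]; exact hf g)
    have h2 := (key f R hf).star
    refine h1.unique (h2.congr' (Eventually.of_forall fun i => ?_))
    simp only [Mean.avg, star_sum, star_smul, star_trivial]
  · intro f R hf b
    have h1 := key (fun g => f (b + g)) R (fun g => hf _)
    have h0 : Tendsto (fun i => Mean.avg (Y i) (fun g => f (b + g)) - Mean.avg (Y i) f) 𝒰
        (𝓝 0) := by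
      refine Tendsto.mono_left ?_ h𝒰
      have hlim : Tendsto (fun i : Finset G × ℕ => 2 * R * (1 / ((i.2 : ℝ) + 1))) atTop (𝓝 0) := by
        have h2 : Tendsto (fun i : Finset G × ℕ => i.2) atTop atTop := by
          rw [← prod_atTop_atTop_eq]; exact tendsto_snd
        have := (tendsto_one_div_add_atTop_nhds_zero_nat (𝕜 := ℝ)).comp h2
        simpa using this.const_mul (2 * R)
      refine squeeze_zero_norm' ?_ hlim
      filter_upwards [eventually_ge_atTop (({b} : Finset G), 0)] with i hi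
      exact Mean.avg_shift (hY i) hf (hYb i b (hi.1 (Finset.mem_singleton_self b)))
    have h2 := (WL.of_tendsto h0).add (key f R hf)
    rw [zero_add] at h2
    refine h1.unique (h2.congr' (Eventually.of_forall fun i => ?_))
    simp only [sub_add_cancel]

section
variable {G : Type*} [AddCommGroup G] {μ : (G → Op H) → Op H}

lemma IsMean.norm_sub_le (hμ : IsMean μ) {f : G → Op H} {a : Op H} {r : ℝ}
    (h : ∀ g, ‖f g - a‖ ≤ r) : ‖μ f - a‖ ≤ r := by
  refine hμ.conv f (‖a‖ + r) (fun g => ?_) {T : Op H | ‖T - a‖ ≤ r} (convex_ball_op a r)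
    (wclosed_ball a r) h
  have := norm_add_le (f g - a) a
  rw [sub_add_cancel] at this
  linarith [h g]

lemma IsMean.norm_le (hμ : IsMean μ) {f : G → Op H} {r : ℝ} (h : ∀ g, ‖f g‖ ≤ r) :
    ‖μ f‖ ≤ r := by
  have := hμ.norm_sub_le (f := f) (a := 0) (r := r) (by simpa using h)
  simpa using this

lemma IsMean.const (hμ : IsMean μ) (a : Op H) : μ (fun _ => a) = a := by
  have := hμ.norm_sub_le (f := fun _ => a) (a := a) (r := 0) (by simp)
  simpa [sub_eq_zero] using this

lemma IsMean.sub (hμ : IsMean μ) {f f' : G → Op H} {R R' : ℝ} (h : ∀ g, ‖f g‖ ≤ R)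
    (h' : ∀ g, ‖f' g‖ ≤ R') : μ (fun g => f g - f' g) = μ f - μ f' := by
  have h0 : ∀ g, ‖f g - f' g‖ ≤ R + R' :=
    fun g => (_root_.norm_sub_le (f g) (f' g)).trans (add_le_add (h g) (h' g))
  have h1 := hμ.add (fun g => f g - f' g) f' (R + R') R' h0 h'
  simp only [sub_add_cancel] at h1
  rw [eq_sub_iff_add_eq, ← h1]

lemma IsMean.mem (hμ : IsMean μ) {f : G → Op H} {R : ℝ} (h : ∀ g, ‖f g‖ ≤ R) {N : VN H}
    (hN : ∀ g, f g ∈ N) : μ f ∈ N := by
  exact hμ.conv f R h (N : Set (Op H)) (convex_vn N) (wclosed_vn N) hN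

lemma IsMean.commute (hμ : IsMean μ) {f : G → Op H} {R : ℝ} (h : ∀ g, ‖f g‖ ≤ R) {t : Op H}
    (ht : ∀ g, Commute t (f g)) : Commute t (μ f) := by
  exact (hμ.conv f R h {T : Op H | Commute T t} (convex_commute t) (wclosed_commute t)
    (fun g => (ht g).symm)).symm

/-- averaging over a unitary representation -/
theorem exists_avg {D : G → Op H} (hD : URep D) (y : Op H) :
    ∃ y' : Op H, (∀ g, Commute y' (D g)) ∧ ∀ C : Set (Op H), Convex ℝ C → WClosed C →
      (∀ g, D g * y * star (D g) ∈ C) → y' ∈ C := by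
  obtain ⟨μ, hμ⟩ := exists_mean G H
  have hn : ∀ g, ‖D g‖ ≤ 1 := fun g => Mean.norm_unit_le (hD.unit g)
  have hb : ∀ g, ‖D g * y * star (D g)‖ ≤ ‖y‖ := by
    intro g
    have h1 := hn g
    have h2 : ‖star (D g)‖ ≤ 1 := by rw [norm_star]; exact h1
    calc ‖D g * y * star (D g)‖ ≤ ‖D g‖ * ‖y‖ * ‖star (D g)‖ :=
          (norm_mul_le _ _).trans (mul_le_mul_of_nonneg_right (norm_mul_le _ _) (norm_nonneg _))
      _ ≤ 1 * ‖y‖ * 1 := by gcongr
      _ = ‖y‖ := by ring
  refine ⟨μ (fun g => D g * y * star (D g)), fun g₀ => ?_,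
    fun C hC hC' h => hμ.conv _ _ hb C hC hC' h⟩
  have h1 := hμ.left _ _ hb (D g₀)
  have h2 := hμ.right (fun g => D (g₀ + g) * y * star (D (g₀ + g))) _ (fun g => hb _) (D g₀)
  have h3 := hμ.shift _ _ hb g₀
  have h4 : (fun g => D g₀ * (D g * y * star (D g))) =
      fun g => D (g₀ + g) * y * star (D (g₀ + g)) * D g₀ := by
    funext g
    have hu : star (D g₀) * D g₀ = 1 := (hD.unit g₀).1
    rw [hD.add, star_mul]
    simp only [mul_assoc, hu, mul_one]
  show _ * _ = _ * _
  rw [← h1, h4, h2, h3]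

/-- the projection onto the fixed vectors (`e = μ D` is an idempotent contraction) -/
theorem exists_fixproj {D : G → Op H} (hD : URep D) :
    ∃ e : Op H, IsStarProjection e ∧ (∀ g, D g * e = e) ∧ (∀ g, e * D g = e) ∧
      (∀ y : Op H, (∀ g, Commute y (D g)) → Commute y e) ∧
      ∀ (ζ : H) (c : ℝ), (∀ g, ‖D g ζ - ζ‖ ≤ c) → ‖e ζ - ζ‖ ≤ c := by
  obtain ⟨μ, hμ⟩ := exists_mean G H
  have hn : ∀ g, ‖D g‖ ≤ 1 := fun g => Mean.norm_unit_le (hD.unit g)
  have hl : ∀ g, D g * μ D = μ D := by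
    intro g₀
    rw [← hμ.left D 1 hn (D g₀), ← hμ.shift D 1 hn g₀]
    congr 1; funext g; rw [hD.add]
  have hr : ∀ g, μ D * D g = μ D := by
    intro g₀
    rw [← hμ.right D 1 hn (D g₀), ← hμ.shift D 1 hn g₀]
    congr 1; funext g; rw [hD.add, (hD.commute g g₀).eq]
  have hi : μ D * μ D = μ D := by
    rw [← hμ.left D 1 hn (μ D)]
    simp only [hr]
    exact hμ.const _
  have hsl : ∀ g, star (μ D) * D g = star (μ D) := by
    intro g
    have h := congrArg star (hl (-g))
    rwa [star_mul, hD.neg, star_star] at h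
  have hs1 : star (μ D) * μ D = star (μ D) := by
    rw [← hμ.left D 1 hn (star (μ D))]
    simp only [hsl]
    exact hμ.const _
  have hsa : star (μ D) = μ D := by
    have h := congrArg star hs1
    rw [star_mul, star_star] at h
    rw [← hs1, h]
  refine ⟨μ D, ⟨hi, hsa⟩, hl, hr, fun y hy => hμ.commute hn hy, fun ζ c hc => ?_⟩
  exact hμ.conv D 1 hn {T : Op H | ‖T ζ - ζ‖ ≤ c} (convex_app ζ ζ c) (wclosed_app ζ ζ c) hc

end

end Crest.Agent.R78
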