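import Crest.Agent.R78.Dist
import Crest.Agent.R78.Mean

/-! # Row 78: aligning the centres -/

set_option autoImplicit false

namespace Crest.Agent.R78

open scoped InnerProductSpace ComplexOrder BigOperators Topology
open Filter
open Crest.Agent.R124 (Op cm)
open Crest.OpAlg (LineCalculus)

universe u

variable {H : Type u} [NormedAddCommGroup H] [InnerProductSpace ℂ H] [CompleteSpace H]

namespace Centre

/-- symmetries -/
def Sy (s : Op H) : Prop := star s = s ∧ s * s = 1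

lemma Sy.unit {s : Op H} (h : Sy s) : s ∈ unitary (Op H) :=
  Unitary.mem_iff.2 ⟨by rw [h.1, h.2], by rw [h.1, h.2]⟩

lemma norm_unit_le {s : Op H} (h : s ∈ unitary (Op H)) : ‖s‖ ≤ 1 := by
  rcases subsingleton_or_nontrivial (Op H) with hs | hs
  · rw [Subsingleton.elim s 0, norm_zero]
    exact zero_le_one
  · exact (CStarRing.norm_of_mem_unitary h).le

lemma Sy.mul {s t : Op H} (hs : Sy s) (ht : Sy t) (hc : Commute s t) : Sy (s * t) := by
  refine ⟨by rw [star_mul, hs.1, ht.1, hc.eq], ?_⟩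
  calc s * t * (s * t) = s * (t * s) * t := by noncomm_ring
    _ = (s * s) * (t * t) := by rw [← hc.eq]; noncomm_ring
    _ = 1 := by rw [hs.2, ht.2, one_mul]

lemma near_sy {A B : VN H} {ε : ℝ} (h : Near (A : Set (Op H)) (B : Set (Op H)) ε) (h0 : 0 ≤ ε)
    (hε : ε ≤ 1 / 8) {s : Op H} (hA : s ∈ A) (hs : Sy s) :
    ∃ q, q ∈ B ∧ Sy q ∧ ‖s - q‖ ≤ 8 * ε := by
  obtain ⟨y, hy, hy'⟩ := h s hA
  have h1 : ‖s - y‖ ≤ ε := hy'.trans (mul_le_of_le_one_right h0 (norm_unit_le hs.unit))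
  have h2 : ‖s - star y‖ ≤ ε := by
    rw [← norm_star, star_sub, star_star, hs.1]
    exact h1
  have h3 : ‖s - (1 / 2 : ℂ) • (y + star y)‖ ≤ ε := by
    have : s - (1 / 2 : ℂ) • (y + star y) = (1 / 2 : ℂ) • ((s - y) + (s - star y)) := by
      module
    rw [this, norm_smul]
    have h4 := norm_add_le (s - y) (s - star y)
    have h5 : ‖(1 / 2 : ℂ)‖ = 1 / 2 := by simp
    rw [h5]
    linarith
  obtain ⟨v, hv, hv1, hv2, -, -, hv5⟩ := exists_unitary_near hs.unit hε h3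
  have hyB : y ∈ B := hy
  have hsa : star v = v := hv5 (by
    rw [IsSelfAdjoint, star_smul, star_add, star_star, add_comm]
    simp)
  refine ⟨v, hv2 B (smul_mem_vn _ (add_mem hyB (star_mem hyB))), ⟨hsa, ?_⟩, hv1⟩
  have := Unitary.star_mul_self_of_mem hv
  rwa [hsa] at this

/-- central symmetries -/
def CS (M : VN H) : Type u := {s : Op H // s ∈ M ∧ s ∈ M.commutant ∧ Sy s}

noncomputable instance instAdd (M : VN H) : Add (CS M) :=
  ⟨fun a b => ⟨a.1 * b.1, mul_mem a.2.1 b.2.1, mul_mem a.2.2.1 b.2.2.1,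
    a.2.2.2.mul b.2.2.2 (commute_of_mem a.2.1 b.2.2.1)⟩⟩

noncomputable instance instZero (M : VN H) : Zero (CS M) :=
  ⟨⟨1, one_mem _, one_mem _, star_one _, one_mul _⟩⟩

instance instNeg (M : VN H) : Neg (CS M) := ⟨fun a => a⟩

noncomputable instance instAddCommGroup (M : VN H) : AddCommGroup (CS M) where
  add_assoc a b c := Subtype.ext (mul_assoc _ _ _)
  zero_add a := Subtype.ext (one_mul _)
  add_zero a := Subtype.ext (mul_one _)
  nsmul := nsmulRec
  zsmul := zsmulRec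
  neg_add_cancel a := Subtype.ext a.2.2.2.2
  add_comm a b := Subtype.ext (commute_of_mem a.2.1 b.2.2.1).eq

lemma add_val {M : VN H} (a b : CS M) : (a + b).1 = a.1 * b.1 := rfl

end Centre

/-- `G` = the abelian group of symmetries `s = s⋆ = s⁻¹` in `M ∩ M'` (written additively).  There
are symmetries `q ∈ N`, `q' ∈ N'` near `s` (`exists_unitary_near` on self-adjoint approximants,
`cl_comm`); they commute, so `q = q' =: θ s` (`symm_eq_of_near`); `θ` is multiplicative by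
uniqueness; `y = μ (s θ s)`, `s' y = y θ s'`; `u` = polar part of `y`. -/
theorem centre : ∃ C δ₀ : ℝ, 0 < C ∧ 0 < δ₀ ∧ ∀ (H : Type u) [NormedAddCommGroup H] [InnerProductSpace ℂ H] [CompleteSpace H] (M N : VN H) (δ : ℝ), 0 ≤ δ → δ ≤ δ₀ →
    CL M N δ → ∃ u ∈ unitary (Op H), ‖u - 1‖ ≤ C * δ ∧
      (∀ c, ZP M c → c ∈ cj u N ∧ c ∈ (cj u N).commutant) ∧
      ∀ t : Op H, (t ∈ M ∨ t ∈ M.commutant) → (t ∈ N ∨ t ∈ N.commutant) → Commute t u := by
  obtain ⟨C₁, hC₁, hcomm⟩ := cl_comm.{u}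
  refine ⟨64 * C₁, 1 / (64 * C₁), by positivity, by positivity, ?_⟩
  intro H _ _ _ M N δ h0 hδ hCL
  set ε : ℝ := C₁ * δ with hε
  have hε0 : 0 ≤ ε := by positivity
  have hε1 : ε ≤ 1 / 64 := by
    rw [le_div_iff₀ (by positivity)] at hδ
    rw [hε]
    linarith
  have hδε : δ ≤ ε := le_mul_of_one_le_left h0 hC₁
  have hex : ∀ s : Centre.CS M, ∃ q : Centre.CS N, ‖s.1 - q.1‖ ≤ 8 * ε := by
    intro s
    obtain ⟨q, hq, hq1, hq2⟩ := Centre.near_sy (hCL.mono hδε).1 hε0 (by linarith) s.2.1 s.2.2.2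
    obtain ⟨q', hq', hq1', hq2'⟩ := Centre.near_sy (hcomm H M N δ h0 hCL).1 hε0 (by linarith)
      s.2.2.1 s.2.2.2
    have : q = q' := by
      refine symm_eq_of_near hq1.1 hq1.2 hq1'.1 hq1'.2 (commute_of_mem hq hq') ?_
      have h3 : q - q' = (s.1 - q') - (s.1 - q) := by abel
      rw [h3]
      have := norm_sub_le (s.1 - q') (s.1 - q)
      linarith
    exact ⟨⟨q, hq, this ▸ hq', hq1⟩, hq2⟩
  choose θ hθ using hex
  have n1 : ∀ s : Centre.CS M, ‖s.1‖ ≤ 1 := fun s => Centre.norm_unit_le s.2.2.2.unit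
  have n2 : ∀ s : Centre.CS N, ‖s.1‖ ≤ 1 := fun s => Centre.norm_unit_le s.2.2.2.unit
  have hmul : ∀ s t : Centre.CS M, (θ (s + t)).1 = (θ t).1 * (θ s).1 := by
    intro s t
    rw [← Centre.add_val]
    refine symm_eq_of_near (θ _).2.2.2.1 (θ _).2.2.2.2 (θ t + θ s).2.2.2.1 (θ t + θ s).2.2.2.2
      (commute_of_mem (θ _).2.1 (θ t + θ s).2.2.1) ?_
    have h1 := hθ (s + t)
    rw [add_comm (θ t), Centre.add_val]
    rw [Centre.add_val] at h1
    have h3 : (θ (s + t)).1 - (θ s).1 * (θ t).1 =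
        s.1 * (t.1 - (θ t).1) + (s.1 - (θ s).1) * (θ t).1 - (s.1 * t.1 - (θ (s + t)).1) := by
      noncomm_ring
    have h4 : ‖s.1 * (t.1 - (θ t).1)‖ ≤ 8 * ε :=
      (norm_mul_le _ _).trans ((mul_le_of_le_one_left (norm_nonneg _) (n1 s)).trans (hθ t))
    have h5 : ‖(s.1 - (θ s).1) * (θ t).1‖ ≤ 8 * ε :=
      (norm_mul_le _ _).trans ((mul_le_of_le_one_right (norm_nonneg _) (n2 _)).trans (hθ s))
    rw [h3]
    have h6 := norm_sub_le (s.1 * (t.1 - (θ t).1) + (s.1 - (θ s).1) * (θ t).1)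
      (s.1 * t.1 - (θ (s + t)).1)
    have h7 := norm_add_le (s.1 * (t.1 - (θ t).1)) ((s.1 - (θ s).1) * (θ t).1)
    linarith
  obtain ⟨μ, hμ⟩ := exists_mean (Centre.CS M) H
  set f : Centre.CS M → Op H := fun s => s.1 * (θ s).1 with hf
  have hfb : ∀ s, ‖f s‖ ≤ 1 := fun s =>
    (norm_mul_le _ _).trans ((mul_le_of_le_one_left (norm_nonneg _) (n1 s)).trans (n2 _))
  have hy1 : ‖1 - μ f‖ ≤ 8 * ε := by
    rw [norm_sub_rev]
    refine hμ.norm_sub_le fun s => ?_
    have : f s - 1 = s.1 * ((θ s).1 - s.1) := by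
      rw [mul_sub, s.2.2.2.2]
    rw [this]
    refine (norm_mul_le _ _).trans ((mul_le_of_le_one_left (norm_nonneg _) (n1 s)).trans ?_)
    rw [norm_sub_rev]
    exact hθ s
  have hint : ∀ s : Centre.CS M, s.1 * μ f = μ f * (θ s).1 := by
    intro s
    have h1 := hμ.shift f 1 hfb s
    have h2 : (fun g => f (s + g)) = fun g => (s.1 * f g) * (θ s).1 := by
      funext g
      simp only [hf, Centre.add_val, hmul, mul_assoc]
    have hfb' : ∀ g, ‖s.1 * f g‖ ≤ 1 := fun g =>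
      (norm_mul_le _ _).trans ((mul_le_of_le_one_left (norm_nonneg _) (n1 s)).trans (hfb _))
    rw [h2, hμ.right _ 1 hfb', hμ.left _ 1 hfb] at h1
    calc s.1 * μ f = s.1 * μ f * ((θ s).1 * (θ s).1) := by rw [(θ s).2.2.2.2, mul_one]
      _ = μ f * (θ s).1 := by rw [← mul_assoc, h1]
  obtain ⟨v, hv, hv1, -, hv3, hv4, -⟩ := exists_unitary_near (one_mem _) (by linarith) hy1
  refine ⟨v, hv, ?_, ?_, ?_⟩
  · rw [norm_sub_rev]
    rw [hε] at hv1
    linarith
  · intro c hc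
    have hcc : c * c = c := hc.2.2.isIdempotentElem.eq
    have hcs : star c = c := hc.2.2.isSelfAdjoint
    let s : Centre.CS M := ⟨c + c - 1, sub_mem (add_mem hc.1 hc.1) (one_mem _),
      sub_mem (add_mem hc.2.1 hc.2.1) (one_mem _), by rw [star_sub, star_add, hcs, star_one], by
        calc (c + c - 1) * (c + c - 1) = 4 * (c * c) - 4 * c + 1 := by noncomm_ring
          _ = 1 := by rw [hcc, sub_self, zero_add]⟩
    have h1 := hv3 _ s.2.2.2.unit _ (θ s).2.2.2.unit (hint s)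
    have h2 : star v * c * v = (1 / 2 : ℂ) • ((θ s).1 + 1) := by
      have h3 : star v * s.1 * v = (θ s).1 := by
        rw [mul_assoc, h1, ← mul_assoc, Unitary.star_mul_self_of_mem hv, one_mul]
      rw [← h3]
      show _ = (1 / 2 : ℂ) • (star v * (c + c - 1) * v + 1)
      rw [mul_sub, sub_mul, mul_one, Unitary.star_mul_self_of_mem hv, mul_add, add_mul]
      module
    rw [cj_commutant hv, mem_cj hv, mem_cj hv, h2]
    exact ⟨smul_mem_vn _ (add_mem (θ s).2.1 (one_mem _)),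
      smul_mem_vn _ (add_mem (θ s).2.2.1 (one_mem _))⟩
  · have key : ∀ t : Op H, (t ∈ M ∨ t ∈ M.commutant) → (t ∈ N ∨ t ∈ N.commutant) →
        Commute t (μ f) := by
      intro t h1 h2
      refine hμ.commute hfb fun s => Commute.mul_right ?_ ?_
      · rcases h1 with h1 | h1
        · exact commute_of_mem h1 s.2.2.1
        · exact (commute_of_mem s.2.1 h1).symm
      · rcases h2 with h2 | h2
        · exact commute_of_mem h2 (θ s).2.2.1
        · exact (commute_of_mem (θ s).2.1 h2).symm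
    intro t h1 h2
    refine hv4 t (key t h1 h2) ?_
    have := (key (star t) (h1.imp star_mem star_mem) (h2.imp star_mem star_mem)).star_star
    rwa [star_star] at this

end Crest.Agent.R78
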