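import Crest.Agent.R78.Basic
import Crest.Agent.R121.Basic

/-! # Row 78: functional calculus lemmas -/

set_option autoImplicit false

namespace Crest.Agent.R78

open scoped InnerProductSpace ComplexOrder BigOperators Topology
open Filter
open Crest.Agent.R124 (Op cm)
open Crest.OpAlg (LineCalculus)

universe u

variable {H : Type u} [NormedAddCommGroup H] [InnerProductSpace ℂ H] [CompleteSpace H]

/-- With `d = a - b`, `S = a + b ≥ 2 c`, `R = ‖S‖`: `d S + S d = 2 (a² - b²)` and
`d = ½ ((1 - S/R) d + d (1 - S/R)) + (S d + d S) / (2 R)`, `‖1 - S/R‖ ≤ 1 - 2c/R`. -/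
theorem sq_lip {a b : Op H} {c : ℝ} (hc : 0 < c) (ha : (c : ℂ) • (1 : Op H) ≤ a)
    (hb : (c : ℂ) • (1 : Op H) ≤ b) : ‖a - b‖ ≤ ‖a * a - b * b‖ / c := by
  have hc1 : (0 : Op H) ≤ (c : ℂ) • (1 : Op H) :=
    smul_nonneg (by exact_mod_cast hc.le) zero_le_one
  have hS : IsSelfAdjoint (a + b) := (IsSelfAdjoint.of_nonneg (hc1.trans ha)).add
    (IsSelfAdjoint.of_nonneg (hc1.trans hb))
  have alg : ∀ r : ℝ, algebraMap ℝ (Op H) r = (r : ℂ) • (1 : Op H) := fun r => by
    rw [Algebra.algebraMap_eq_smul_one, Complex.coe_smul]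
  set R : ℝ := ‖a + b‖ with hR
  have hR0 : 0 ≤ R := norm_nonneg _
  set T : Op H := ((R + 2 * c : ℝ) : ℂ) • (1 : Op H) - (a + b) with hT
  have hT0 : 0 ≤ T := by
    have h1 := hS.le_algebraMap_norm_self
    rw [alg] at h1
    have h2 : T = (((R : ℝ) : ℂ) • (1 : Op H) - (a + b)) + ((c : ℂ) • 1 + (c : ℂ) • 1) := by
      rw [hT]
      push_cast
      module
    rw [h2]
    exact add_nonneg (sub_nonneg.2 h1) (add_nonneg hc1 hc1)
  have hT1 : ‖T‖ ≤ R := by
    rw [CStarAlgebra.norm_le_iff_le_algebraMap T hR0 hT0, alg, ← sub_nonneg]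
    have h2 : ((R : ℝ) : ℂ) • (1 : Op H) - T = (a - (c : ℂ) • 1) + (b - (c : ℂ) • 1) := by
      rw [hT]
      push_cast
      module
    rw [h2]
    exact add_nonneg (sub_nonneg.2 ha) (sub_nonneg.2 hb)
  have key : ((2 * (R + 2 * c) : ℝ) : ℂ) • (a - b) =
      T * (a - b) + (a - b) * T + ((a * a - b * b) + (a * a - b * b)) := by
    rw [hT]
    simp only [sub_mul, mul_sub, add_mul, mul_add, smul_mul_assoc, mul_smul_comm, one_mul, mul_one]
    push_cast
    module
  have h3 : 2 * (R + 2 * c) * ‖a - b‖ ≤ R * ‖a - b‖ + ‖a - b‖ * R +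
      (‖a * a - b * b‖ + ‖a * a - b * b‖) := by
    have h4 : ‖((2 * (R + 2 * c) : ℝ) : ℂ) • (a - b)‖ = 2 * (R + 2 * c) * ‖a - b‖ := by
      rw [norm_smul, Complex.norm_real, Real.norm_of_nonneg (by positivity)]
    rw [← h4, key]
    refine (norm_add_le _ _).trans (add_le_add ((norm_add_le _ _).trans (add_le_add ?_ ?_))
      (norm_add_le _ _))
    · exact (norm_mul_le _ _).trans (mul_le_mul_of_nonneg_right hT1 (norm_nonneg _))
    · exact (norm_mul_le _ _).trans (mul_le_mul_of_nonneg_left hT1 (norm_nonneg _))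
  rw [le_div_iff₀ hc]
  nlinarith [norm_nonneg (a - b), norm_nonneg (a * a - b * b)]

/-- `r = (y⋆y)^{-1/2}`, `f = φ(y⋆y)` with `φ s = -1 / (√s (1 + √s))`. -/
theorem exists_polar_near {y : Op H} (h1 : ‖star y * y - 1‖ ≤ 1 / 2)
    (h2 : ‖y * star y - 1‖ ≤ 1 / 2) :
    ∃ r f : Op H, IsSelfAdjoint r ∧ y * r ∈ unitary (Op H) ∧ ‖f‖ ≤ 2 ∧
      r - 1 = f * (star y * y - 1) ∧ ∀ t : Op H, Commute t (star y * y) → Commute t r := by
  set p : Op H := star y * y with hp
  have hsa : IsSelfAdjoint p := IsSelfAdjoint.star_mul_self y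
  have hsp : ∀ s ∈ spectrum ℝ p, 1 / 2 ≤ s := by
    intro s hs
    have h3 := norm_apply_le_norm_cfc (fun s : ℝ => s - 1) p hs
    rw [cfc_sub _ _ p, cfc_id' ℝ p, cfc_const_one ℝ p] at h3
    have h4 := (abs_le.1 (h3.trans h1)).1
    linarith
  have hsq : ∀ s ∈ spectrum ℝ p, 1 / 2 ≤ √s := by
    intro s hs
    refine Real.le_sqrt_of_sq_le ?_
    linarith [hsp s hs]
  have c1 : ContinuousOn (fun s : ℝ => (√s)⁻¹) (spectrum ℝ p) :=
    Real.continuous_sqrt.continuousOn.inv₀ fun s hs => by linarith [hsq s hs]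
  have c2 : ContinuousOn (fun s : ℝ => -(√s * (1 + √s))⁻¹) (spectrum ℝ p) := by
    refine (ContinuousOn.inv₀ (by fun_prop) fun s hs => ?_).neg
    have := hsq s hs
    positivity
  set r : Op H := cfc (fun s : ℝ => (√s)⁻¹) p with hr
  have hrs : IsSelfAdjoint r := cfc_predicate _ _
  have hrpr : r * p * r = 1 := by
    have e1 : r * p * r = cfc (fun s : ℝ => (√s)⁻¹ * s * (√s)⁻¹) p := by
      rw [cfc_mul (fun s : ℝ => (√s)⁻¹ * s) _ p (c1.mul continuousOn_id) c1,
        cfc_mul _ (fun s : ℝ => s) p c1 continuousOn_id, cfc_id' ℝ p]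
    rw [e1, ← cfc_const_one ℝ p]
    refine cfc_congr fun s hs => ?_
    have h3 := hsq s hs
    have h4 : √s * √s = s := Real.mul_self_sqrt (by linarith [hsp s hs])
    have h5 : √s ≠ 0 := by linarith
    field_simp
    linarith
  refine ⟨r, cfc (fun s : ℝ => -(√s * (1 + √s))⁻¹) p, hrs, ?_, ?_, ?_, ?_⟩
  · have e1 : star (y * r) * (y * r) = 1 := by
      rw [star_mul, hrs.star_eq, ← hrpr, hp]
      simp only [mul_assoc]
    obtain ⟨k, hk⟩ : ∃ k, y * star y * k = 1 := by
      have h3 : ‖1 - y * star y‖ < 1 := by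
        rw [norm_sub_rev]
        linarith
      refine ⟨(Units.oneSub _ h3).inv, ?_⟩
      have := (Units.oneSub _ h3).val_inv
      rwa [Units.val_oneSub, sub_sub_cancel] at this
    have e2 : (y * r) * (p * r * star y * k) = 1 := by
      calc (y * r) * (p * r * star y * k) = y * (r * p * r) * star y * k := by
            simp only [mul_assoc]
        _ = 1 := by rw [hrpr, mul_one, hk]
    have e3 : star (y * r) = p * r * star y * k := by
      calc star (y * r) = star (y * r) * ((y * r) * (p * r * star y * k)) := by rw [e2, mul_one]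
        _ = _ := by rw [← mul_assoc, e1, one_mul]
    exact Unitary.mem_iff.2 ⟨e1, by rw [e3, e2]⟩
  · refine norm_cfc_le (by norm_num) fun s hs => ?_
    have h3 := hsq s hs
    have h4 : 1 / 2 ≤ √s * (1 + √s) := by nlinarith
    rw [norm_neg, Real.norm_of_nonneg (by positivity), inv_le_comm₀ (by positivity) (by norm_num)]
    linarith
  · have e1 : r - 1 = cfc (fun s : ℝ => (√s)⁻¹ - 1) p := by
      rw [cfc_sub _ _ p c1, cfc_const_one ℝ p]
    have e2 : p - 1 = cfc (fun s : ℝ => s - 1) p := by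
      rw [cfc_sub _ _ p, cfc_id' ℝ p, cfc_const_one ℝ p]
    rw [e1, e2, ← cfc_mul _ _ p c2]
    refine cfc_congr fun s hs => ?_
    have h3 := hsq s hs
    have h4 : √s * √s = s := Real.mul_self_sqrt (by linarith [hsp s hs])
    have h5 : √s ≠ 0 := by linarith
    have h6 : 1 + √s ≠ 0 := by linarith
    field_simp
    linarith
  · intro t ht
    exact (ht.symm.cfc_real _).symm

theorem exists_unitary_near {a y : Op H} (ha : a ∈ unitary (Op H)) {ε : ℝ} (hε : ε ≤ 1 / 8)
    (h : ‖a - y‖ ≤ ε) :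
    ∃ v ∈ unitary (Op H), ‖a - v‖ ≤ 8 * ε ∧ (∀ N : VN H, y ∈ N → v ∈ N) ∧
      (∀ s ∈ unitary (Op H), ∀ t ∈ unitary (Op H), s * y = y * t → s * v = v * t) ∧
      (∀ t : Op H, Commute t y → Commute t (star y) → Commute t v) ∧
      (IsSelfAdjoint y → IsSelfAdjoint v) := by
  have ha1 : ‖a‖ ≤ 1 := R121.norm_unitary_le ha
  have hε0 : 0 ≤ ε := (norm_nonneg _).trans h
  have hy : ‖y‖ ≤ 9 / 8 := by
    have : y = a - (a - y) := by abel
    rw [this]
    linarith [norm_sub_le a (a - y)]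
  have hs : ‖star a - star y‖ ≤ ε := by rwa [← star_sub, norm_star]
  have h1 : ‖star y * y - 1‖ ≤ 17 / 8 * ε := by
    have e : star y * y - 1 = -((star a - star y) * y + star a * (a - y)) := by
      rw [← Unitary.star_mul_self_of_mem ha]
      noncomm_ring
    rw [e, norm_neg]
    have g1 : ‖(star a - star y) * y‖ ≤ ε * (9 / 8) :=
      (norm_mul_le _ _).trans (mul_le_mul hs hy (norm_nonneg _) hε0)
    have g2 : ‖star a * (a - y)‖ ≤ 1 * ε :=
      (norm_mul_le _ _).trans (mul_le_mul (by rwa [norm_star]) h (norm_nonneg _) zero_le_one)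
    linarith [norm_add_le ((star a - star y) * y) (star a * (a - y))]
  have h2 : ‖y * star y - 1‖ ≤ 17 / 8 * ε := by
    have e : y * star y - 1 = -((a - y) * star y + a * (star a - star y)) := by
      rw [← Unitary.mul_star_self_of_mem ha]
      noncomm_ring
    rw [e, norm_neg]
    have g1 : ‖(a - y) * star y‖ ≤ ε * (9 / 8) :=
      (norm_mul_le _ _).trans (mul_le_mul h (by rwa [norm_star]) (norm_nonneg _) hε0)
    have g2 : ‖a * (star a - star y)‖ ≤ 1 * ε :=
      (norm_mul_le _ _).trans (mul_le_mul ha1 hs (norm_nonneg _) zero_le_one)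
    linarith [norm_add_le ((a - y) * star y) (a * (star a - star y))]
  obtain ⟨r, f, hr, hu, hf, hrf, hc⟩ := exists_polar_near (y := y) (by linarith) (by linarith)
  refine ⟨y * r, hu, ?_, ?_, ?_, ?_, ?_⟩
  · have e : a - y * r = (a - y) - y * (f * (star y * y - 1)) := by
      rw [← hrf]
      noncomm_ring
    have g1 : ‖f * (star y * y - 1)‖ ≤ 2 * (17 / 8 * ε) :=
      (norm_mul_le _ _).trans (mul_le_mul hf h1 (norm_nonneg _) (by norm_num))
    have g2 : ‖y * (f * (star y * y - 1))‖ ≤ 9 / 8 * (2 * (17 / 8 * ε)) :=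
      (norm_mul_le _ _).trans (mul_le_mul hy g1 (norm_nonneg _) (by norm_num))
    rw [e]
    linarith [norm_sub_le (a - y) (y * (f * (star y * y - 1)))]
  · intro N hN
    exact mul_mem hN (mem_of_commute fun t ht =>
      (hc t (commute_of_mem (mul_mem (star_mem hN) hN) ht).symm).symm)
  · intro s hs t ht hst
    have e1 : star y * star s = star t * star y := by rw [← star_mul, hst, star_mul]
    have e2 : star t * (star y * y) * t = star y * y := by
      calc star t * (star y * y) * t = (star t * star y) * (y * t) := by simp only [mul_assoc]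
        _ = star y * (star s * s) * y := by rw [← e1, ← hst]; simp only [mul_assoc]
        _ = _ := by rw [Unitary.star_mul_self_of_mem hs, mul_one]
    have e3 : Commute t (star y * y) := by
      show t * (star y * y) = star y * y * t
      calc t * (star y * y) = t * (star t * (star y * y) * t) := by rw [e2]
        _ = (t * star t) * (star y * y) * t := by simp only [mul_assoc]
        _ = _ := by rw [Unitary.mul_star_self_of_mem ht, one_mul]
    rw [← mul_assoc, hst, mul_assoc, (hc t e3).eq, mul_assoc]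
  · intro t h1 h2
    exact h1.mul_right (hc t (h2.mul_right h1))
  · intro hy
    have e : Commute y r := hc y (by
      rw [hy.star_eq]
      exact (Commute.refl y).mul_right (Commute.refl y))
    rw [IsSelfAdjoint, star_mul, hr.star_eq, hy.star_eq, e.eq]

/-- polar part of `1 + k` for an almost skew `k` -/
theorem exists_unitary_skew {k : Op H} {ε η : ℝ} (hε : ε ≤ 1 / 8) (hk : ‖k‖ ≤ ε)
    (hη : ‖k + star k‖ ≤ η) :
    ∃ v ∈ unitary (Op H), ‖v - (1 + k)‖ ≤ 3 * (η + ε ^ 2) ∧ (∀ N : VN H, k ∈ N → v ∈ N) ∧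
      (∀ t : Op H, Commute t k → Commute t (star k) → Commute t v) := by
  have hε0 : 0 ≤ ε := (norm_nonneg _).trans hk
  have hy : ‖1 + k‖ ≤ 9 / 8 := by
    have : ‖(1 : Op H)‖ ≤ 1 := R121.norm_unitary_le (one_mem _)
    linarith [norm_add_le 1 k]
  have hk' : ‖star k‖ ≤ ε := by rwa [norm_star]
  have g0 : ‖k + star k‖ ≤ 2 * ε := by linarith [norm_add_le k (star k)]
  have g1 : ‖star k * k‖ ≤ ε ^ 2 :=
    (norm_mul_le _ _).trans (by rw [sq]; exact mul_le_mul hk' hk (norm_nonneg _) hε0)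
  have g2 : ‖k * star k‖ ≤ ε ^ 2 :=
    (norm_mul_le _ _).trans (by rw [sq]; exact mul_le_mul hk hk' (norm_nonneg _) hε0)
  have e1 : star (1 + k) * (1 + k) - 1 = (k + star k) + star k * k := by
    rw [star_add, star_one]
    noncomm_ring
  have e2 : (1 + k) * star (1 + k) - 1 = (k + star k) + k * star k := by
    rw [star_add, star_one]
    noncomm_ring
  have g3 : ε ^ 2 ≤ 1 / 64 := by nlinarith
  obtain ⟨r, f, hr, hu, hf, hrf, hc⟩ := exists_polar_near (y := 1 + k)
    (by rw [e1]; linarith [norm_add_le (k + star k) (star k * k)])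
    (by rw [e2]; linarith [norm_add_le (k + star k) (k * star k)])
  refine ⟨(1 + k) * r, hu, ?_, ?_, ?_⟩
  · have e : (1 + k) * r - (1 + k) = (1 + k) * (f * (star (1 + k) * (1 + k) - 1)) := by
      rw [← hrf]
      noncomm_ring
    have g4 : ‖star (1 + k) * (1 + k) - 1‖ ≤ η + ε ^ 2 := by
      rw [e1]
      linarith [norm_add_le (k + star k) (star k * k)]
    have g5 : ‖f * (star (1 + k) * (1 + k) - 1)‖ ≤ 2 * (η + ε ^ 2) :=
      (norm_mul_le _ _).trans (mul_le_mul hf g4 (norm_nonneg _) (by norm_num))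
    have g6 : ‖(1 + k) * (f * (star (1 + k) * (1 + k) - 1))‖ ≤ 9 / 8 * (2 * (η + ε ^ 2)) :=
      (norm_mul_le _ _).trans (mul_le_mul hy g5 (norm_nonneg _) (by norm_num))
    rw [e]
    have := (norm_nonneg _).trans g4
    linarith
  · intro N hN
    have hN' : 1 + k ∈ N := add_mem (one_mem _) hN
    exact mul_mem hN' (mem_of_commute fun t ht =>
      (hc t (commute_of_mem (mul_mem (star_mem hN') hN') ht).symm).symm)
  · intro t h1 h2
    have h3 : Commute t (1 + k) := (Commute.one_right t).add_right h1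
    have h4 : Commute t (star (1 + k)) := by
      rw [star_add, star_one]
      exact (Commute.one_right t).add_right h2
    exact h3.mul_right (hc t (h4.mul_right h3))

lemma norm_add_star_le {v : Op H} (hv : v ∈ unitary (Op H)) :
    ‖(v - 1) + star (v - 1)‖ ≤ ‖v - 1‖ ^ 2 := by
  have e : (v - 1) + star (v - 1) = -(star (v - 1) * (v - 1)) := by
    rw [star_sub, star_one, sub_mul, mul_sub, Unitary.star_mul_self_of_mem hv]
    noncomm_ring
  rw [e, norm_neg, sq]
  exact (norm_mul_le _ _).trans (by rw [norm_star])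

theorem Near.unitary {M N : VN H} {δ : ℝ} (h : Near (M : Set (Op H)) (N : Set (Op H)) δ)
    (h0 : 0 ≤ δ) (hδ : δ ≤ 1 / 8) {a : Op H} (ha : UIn M a) : ∃ n, UIn N n ∧ ‖a - n‖ ≤ 8 * δ := by
  obtain ⟨y, hy, hy'⟩ := h a ha.1
  obtain ⟨v, hv, h1, h2, -⟩ := exists_unitary_near ha.2 hδ
    (hy'.trans (mul_le_of_le_one_right h0 ha.norm_le))
  exact ⟨v, ⟨h2 N hy, hv⟩, h1⟩

theorem exists_unitary_lim (v : ℕ → Op H) (hv : ∀ k, v k ∈ unitary (Op H)) (h0 : v 0 = 1) {c : ℝ}
    (h : ∀ k, ‖v (k + 1) - v k‖ ≤ c * (1 / 2) ^ k) :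
    ∃ u ∈ unitary (Op H), Tendsto v atTop (𝓝 u) ∧ ‖u - 1‖ ≤ 2 * c := by
  have h' : ∀ k, dist (v k) (v (k + 1)) ≤ c * (1 / 2) ^ k := fun k => by
    rw [dist_comm, dist_eq_norm]
    exact h k
  obtain ⟨u, hu⟩ := cauchySeq_tendsto_of_complete
    (cauchySeq_of_le_geometric (1 / 2) c (by norm_num) h')
  refine ⟨u, Unitary.mem_iff.2 ⟨?_, ?_⟩, hu, ?_⟩
  · refine tendsto_nhds_unique (hu.star.mul hu) ?_
    simp only [Unitary.star_mul_self_of_mem (hv _)]
    exact tendsto_const_nhds
  · refine tendsto_nhds_unique (hu.mul hu.star) ?_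
    simp only [Unitary.mul_star_self_of_mem (hv _)]
    exact tendsto_const_nhds
  · have := dist_le_of_le_geometric_of_tendsto₀ (1 / 2) c (by norm_num) h' hu
    rw [h0, dist_comm, dist_eq_norm] at this
    refine this.trans (le_of_eq ?_)
    ring

theorem nml_of_approx {N : VN H} {w : Op H}
    (h : ∀ ε : ℝ, 0 < ε → ∃ w' ∈ unitary (Op H), Nml w' N ∧ ‖w - w'‖ ≤ ε) : Nml w N := by
  choose v hv hn hd using fun n : ℕ => h (1 / ((n : ℝ) + 1)) Nat.one_div_pos_of_nat
  have ht : Tendsto v atTop (𝓝 w) := by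
    rw [tendsto_iff_norm_sub_tendsto_zero]
    refine squeeze_zero (fun n => norm_nonneg _) (fun n => ?_)
      tendsto_one_div_add_atTop_nhds_zero_nat
    rw [norm_sub_rev]
    exact hd n
  intro y hy
  exact ⟨(isClosed_vn N).mem_of_tendsto ((ht.mul_const y).mul ht.star)
      (Eventually.of_forall fun n => (hn n y hy).1),
    (isClosed_vn N).mem_of_tendsto ((ht.star.mul_const y).mul ht)
      (Eventually.of_forall fun n => (hn n y hy).2)⟩

end Crest.Agent.R78
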