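import Crest.Agent.R78.CfcA

/-! # Row 78: functional calculus lemmas -/

set_option autoImplicit false

namespace Crest.Agent.R78

open scoped InnerProductSpace ComplexOrder BigOperators Topology
open Filter
open Crest.Agent.R124 (Op cm)
open Crest.OpAlg (LineCalculus)

universe u

variable {H : Type u} [NormedAddCommGroup H] [InnerProductSpace ℂ H] [CompleteSpace H]

/-- two commuting symmetries at distance less than `2` are equal -/
theorem symm_eq_of_near {s t : Op H} (hs : star s = s) (hs' : s * s = 1) (ht : star t = t)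
    (ht' : t * t = 1) (hc : Commute s t) (h : ‖s - t‖ < 2) : s = t := by
  have hu : s ∈ unitary (Op H) := by rw [Unitary.mem_iff, hs]; exact ⟨hs', hs'⟩
  have e1 : s * (s - t) = 1 - s * t := by rw [mul_sub, hs']
  have hn : ‖1 - s * t‖ < 2 := by
    rw [← e1, CStarRing.norm_mem_unitary_mul _ hu]; exact h
  have hst : s * t * (s * t) = 1 := by
    rw [mul_assoc, ← mul_assoc t, ← hc.eq, mul_assoc, ht', mul_one, hs']
  have e2 : (1 - s * t) * (1 - s * t) = (2 : ℂ) • (1 - s * t) := by
    rw [sub_mul, mul_sub, mul_sub, hst, two_smul]; simp only [one_mul, mul_one]; abel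
  have h2 : 2 * ‖1 - s * t‖ ≤ ‖1 - s * t‖ * ‖1 - s * t‖ := by
    have := norm_mul_le (1 - s * t) (1 - s * t)
    rwa [e2, norm_smul, Complex.norm_two] at this
  have h3 : ‖1 - s * t‖ = 0 := by nlinarith [norm_nonneg (1 - s * t)]
  have h4 : s * (s - t) = 0 := by rw [e1]; exact norm_eq_zero.1 h3
  have h5 : s - t = 0 := by rw [← one_mul (s - t), ← hs', mul_assoc, h4, mul_zero]
  exact sub_eq_zero.1 h5

namespace CfcB

lemma exp_smul_cfc {s : Op H} (hs : IsStarNormal s) {f : ℂ → ℂ} (hf : Continuous f) (c : ℂ) :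
    NormedSpace.exp (c • cfc f s) = cfc (fun z => Complex.exp (c * f z)) s := by
  rw [← cfc_const_mul c f s, ← CFC.complex_exp_eq_normedSpace_exp,
    ← cfc_comp' Complex.exp (fun z => c * f z) s]

lemma exp_arccos {z : ℂ} (hz : ‖z‖ = 1) :
    Complex.exp (Complex.I * (Real.arccos z.re : ℝ)) =
        z + 2 * Complex.I * ((max (-z.im) 0 : ℝ) : ℂ) ∧
      Complex.exp (-Complex.I * (Real.arccos z.re : ℝ)) =
        z - 2 * Complex.I * ((max z.im 0 : ℝ) : ℂ) := by
  have h1 : z.re ^ 2 + z.im ^ 2 = 1 := by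
    have := Complex.sq_norm z
    rw [hz, Complex.normSq_apply] at this
    nlinarith
  have h2 : -1 ≤ z.re := by nlinarith [sq_nonneg z.im]
  have h3 : z.re ≤ 1 := by nlinarith [sq_nonneg z.im]
  have hc : Real.cos (Real.arccos z.re) = z.re := Real.cos_arccos h2 h3
  have hsn : Real.sin (Real.arccos z.re) = |z.im| := by
    rw [Real.sin_arccos, ← Real.sqrt_sq_eq_abs]; congr 1; linarith
  constructor
  · rw [mul_comm, Complex.exp_ofReal_mul_I, hc, hsn]
    apply Complex.ext
    · simp
    · rcases le_total 0 z.im with h | h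
      · simp [abs_of_nonneg h, h]
      · simp [abs_of_nonpos h, h]; ring
  · have e : -Complex.I * (Real.arccos z.re : ℝ) = ((-Real.arccos z.re : ℝ) : ℂ) * Complex.I := by
      push_cast; ring
    rw [e, Complex.exp_ofReal_mul_I, Real.cos_neg, Real.sin_neg, hc, hsn]
    apply Complex.ext
    · simp
    · rcases le_total 0 z.im with h | h
      · simp [abs_of_nonneg h, h]; ring
      · simp [abs_of_nonpos h, h]

lemma sa_cfc (s : Op H) (f : ℂ → ℝ) : IsSelfAdjoint (cfc (fun z => (f z : ℂ)) s) := by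
  rw [IsSelfAdjoint, ← cfc_star]
  simp only [RCLike.star_def, Complex.conj_ofReal]

end CfcB

/-- `s = c + i d`; `a = arccos(c) (2 q - 1)` where `q` is the range projection of `d⁺` (the
orthogonal projection onto the closure of the range; it commutes with everything that commutes
with `s` and `s⋆`): `q d = d⁺ = |d| q`, `(1 - q) d = -|d| (1 - q)`, `|d| = √(1 - c²)`. -/
theorem exists_log {s : Op H} (hs : s ∈ unitary (Op H)) : ∃ a, IsLog s a := by
  have hn : IsStarNormal s := isStarNormal_of_mem_unitary hs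
  obtain ⟨θ, hθ⟩ : ∃ θ, θ = cfc (fun z : ℂ => ((Real.arccos z.re : ℝ) : ℂ)) s := ⟨_, rfl⟩
  obtain ⟨P, hP⟩ : ∃ P, P = cfc (fun z : ℂ => ((max z.im 0 : ℝ) : ℂ)) s := ⟨_, rfl⟩
  obtain ⟨N, hN⟩ : ∃ N, N = cfc (fun z : ℂ => ((max (-z.im) 0 : ℝ) : ℂ)) s := ⟨_, rfl⟩
  have cθ : Continuous fun z : ℂ => ((Real.arccos z.re : ℝ) : ℂ) :=
    Complex.continuous_ofReal.comp (Real.continuous_arccos.comp Complex.continuous_re)
  have cP : Continuous fun z : ℂ => ((max z.im 0 : ℝ) : ℂ) := by fun_prop
  have cN : Continuous fun z : ℂ => ((max (-z.im) 0 : ℝ) : ℂ) := by fun_prop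
  have hθs : IsSelfAdjoint θ := hθ ▸ CfcB.sa_cfc s _
  have hNs : IsSelfAdjoint N := hN ▸ CfcB.sa_cfc s _
  have hsp : ∀ z ∈ spectrum ℂ s, ‖z‖ = 1 := fun z hz => by
    simpa using spectrum.subset_circle_of_unitary hs hz
  have e1 : NormedSpace.exp (Complex.I • θ) = s + (2 * Complex.I) • N := by
    rw [hθ, CfcB.exp_smul_cfc hn cθ, hN, ← cfc_const_mul _ _ s]
    conv_rhs => enter [1]; rw [← cfc_id' ℂ s]
    rw [← cfc_add s _ _]
    exact cfc_congr fun z hz => (CfcB.exp_arccos (hsp z hz)).1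
  have e2 : NormedSpace.exp ((-Complex.I) • θ) = s - (2 * Complex.I) • P := by
    rw [hθ, CfcB.exp_smul_cfc hn cθ, hP, ← cfc_const_mul _ _ s]
    conv_rhs => enter [1]; rw [← cfc_id' ℂ s]
    rw [← cfc_sub _ _ s]
    exact cfc_congr fun z hz => (CfcB.exp_arccos (hsp z hz)).2
  have hPN : P * N = 0 := by
    rw [hP, hN, ← cfc_mul _ _ s, ← cfc_zero ℂ s]
    refine cfc_congr fun z _ => ?_
    rcases le_total 0 z.im with h | h <;> simp [h]
  have hcfc : ∀ t : Op H, Commute t s → Commute t (star s) → ∀ f : ℂ → ℂ, Commute t (cfc f s) :=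
    fun t h1 h2 f => (h1.symm.cfc h2.symm f).symm
  let V : Submodule ℂ H := LinearMap.ker (P : H →ₗ[ℂ] H)
  have hV : ∀ ξ, ξ ∈ V ↔ P ξ = 0 := fun ξ => LinearMap.mem_ker
  have : CompleteSpace V := (ContinuousLinearMap.isClosed_ker P).completeSpace_coe
  obtain ⟨q, hq⟩ : ∃ q : Op H, q = V.starProjection := ⟨_, rfl⟩
  have hqp : IsStarProjection q := hq ▸ isStarProjection_starProjection
  have hqc : ∀ t : Op H, Commute t s → Commute t (star s) → Commute t q := by
    intro t h1 h2
    have inv : ∀ t : Op H, Commute t s → Commute t (star s) → ∀ v ∈ V, t v ∈ V := by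
      intro t h1 h2 v hv
      rw [hV] at hv ⊢
      have := congrArg (fun A : Op H => A v) (hP ▸ hcfc t h1 h2 _ : Commute t P).eq
      simp only [ContinuousLinearMap.mul_apply, hv, map_zero] at this
      exact this.symm
    refine ContinuousLinearMap.ext fun ξ => ?_
    rw [hq]
    refine (R124.DistAux.proj_comm V t (star t) (fun u w => ?_) (inv t h1 h2)
      (inv _ (by simpa using h2.star_star) h1.star_star) ξ).symm
    rw [ContinuousLinearMap.star_eq_adjoint, ContinuousLinearMap.adjoint_inner_left]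
  have hPq : P * q = 0 := ContinuousLinearMap.ext fun ξ => by
    rw [hq]; exact (hV _).1 (V.starProjection_apply_mem ξ)
  have hqN : q * N = N := ContinuousLinearMap.ext fun ξ => by
    rw [hq]
    exact Submodule.starProjection_eq_self_iff.2
      ((hV _).2 (congrArg (fun A : Op H => A ξ) hPN))
  have hNq : N * q = N := by
    have := congrArg star hqN
    rwa [star_mul, hNs.star_eq, hqp.isSelfAdjoint.star_eq] at this
  have hθq : Commute θ q :=
    hqc θ (hθ ▸ (hcfc s (Commute.refl s) hn.star_comm_self.symm _).symm)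
      (hθ ▸ (hcfc (star s) hn.star_comm_self (Commute.refl _) _).symm)
  have hqq := hqp.isIdempotentElem.eq
  refine ⟨θ - θ * q - θ * q, ?_, ?_, fun t h1 h2 => ?_⟩
  · have : IsSelfAdjoint (θ * q) := by
      rw [IsSelfAdjoint, star_mul, hθs.star_eq, hqp.isSelfAdjoint.star_eq, hθq.eq]
    exact (hθs.sub this).sub this
  · have s1 : SemiconjBy (1 - q) (Complex.I • (θ - θ * q - θ * q)) (Complex.I • θ) := by
      refine SemiconjBy.smul_right ?_ _
      simp only [SemiconjBy, mul_sub, sub_mul, one_mul, mul_one, ← mul_assoc, ← hθq.eq]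
      simp only [mul_assoc, hqq]; abel
    have s2 : SemiconjBy q (Complex.I • (θ - θ * q - θ * q)) ((-Complex.I) • θ) := by
      rw [neg_smul, ← smul_neg]
      refine SemiconjBy.smul_right ?_ _
      simp only [SemiconjBy, mul_sub, neg_mul, ← mul_assoc, ← hθq.eq]
      simp only [mul_assoc, hqq]; abel
    let _ : NormedAlgebra ℚ (Op H) := NormedAlgebra.restrictScalars ℚ ℂ (Op H)
    have t1 := s1.exp_right.eq
    have t2 := s2.exp_right.eq
    rw [e1, add_mul, smul_mul_assoc, mul_sub N, mul_one, hNq, sub_self, smul_zero, add_zero] at t1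
    rw [e2, sub_mul, smul_mul_assoc, hPq, smul_zero, sub_zero] at t2
    calc _ = (1 - q) * NormedSpace.exp (Complex.I • (θ - θ * q - θ * q)) +
          q * NormedSpace.exp (Complex.I • (θ - θ * q - θ * q)) := by
          rw [← add_mul, sub_add_cancel, one_mul]
      _ = s := by rw [t1, t2, ← mul_add, sub_add_cancel, mul_one]
  · have a1 : Commute t θ := hθ ▸ hcfc t h1 h2 _
    have a2 : Commute t (θ * q) := a1.mul_right (hqc t h1 h2)
    exact (a1.sub_right a2).sub_right a2

theorem exists_four {M : VN H} {x : Op H} (hx : x ∈ M) :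
    ∃ (v : Fin 4 → Op H) (c : Fin 4 → ℂ), (∀ i, UIn M (v i)) ∧ (∀ i, ‖c i‖ ≤ ‖x‖) ∧
      x = ∑ i, c i • v i := by
  obtain ⟨u, c, hu, hc⟩ := CStarAlgebra.exists_sum_four_unitary (⟨x, hx⟩ : R121.Alg M)
  refine ⟨fun i => ((u i : R121.Alg M) : Op H), c, fun i => ⟨(u i : R121.Alg M).2, ?_⟩,
    fun i => (hc i).trans ?_, ?_⟩
  · rw [Unitary.mem_iff]
    exact ⟨congrArg Subtype.val (Unitary.star_mul_self_of_mem (u i).2),
      congrArg Subtype.val (Unitary.mul_star_self_of_mem (u i).2)⟩
  · exact half_le_self (norm_nonneg x)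
  · simpa using congrArg (fun y : R121.Alg M => (y : Op H)) hu

end Crest.Agent.R78
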