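import Crest.Agent.R78.Amp
import Crest.Agent.R78.Mean

/-! # Row 78: the discrete core: structure -/

set_option autoImplicit false

namespace Crest.Agent.R78

open scoped InnerProductSpace ComplexOrder BigOperators Topology
open Filter
open Crest.Agent.R124 (Op cm)
open Crest.OpAlg (LineCalculus)

universe u

variable {H : Type u} [NormedAddCommGroup H] [InnerProductSpace ℂ H] [CompleteSpace H]

namespace CoreA

section gen
variable {K : Type*} [NormedAddCommGroup K] [InnerProductSpace ℂ K] [CompleteSpace K]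

lemma commute_star_of_unitary {u t : Op K} (hu : u ∈ unitary (Op K)) (h : Commute t u) :
    Commute t (star u) := by
  have h1 : star u * u = 1 := (Unitary.mem_iff.mp hu).1
  have h2 : u * star u = 1 := (Unitary.mem_iff.mp hu).2
  have h' : t * u = u * t := h
  show t * star u = star u * t
  calc t * star u = (star u * u) * t * star u := by rw [h1, one_mul]
    _ = star u * (u * t) * star u := by simp only [mul_assoc]
    _ = star u * (t * u) * star u := by rw [h']
    _ = star u * t * (u * star u) := by simp only [mul_assoc]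
    _ = star u * t := by rw [h2, mul_one]

lemma conj_of_commute {u t : Op K} (hu : u ∈ unitary (Op K)) (h : Commute t u) :
    u * t * star u = t := by
  have h2 : u * star u = 1 := (Unitary.mem_iff.mp hu).2
  have h' : t * u = u * t := h
  rw [← h', mul_assoc, h2, mul_one]

lemma commute_conj {w x y : Op K} (hw : w ∈ unitary (Op K)) (h : Commute x y) :
    Commute (w * x * star w) (w * y * star w) := by
  have h1 : star w * w = 1 := (Unitary.mem_iff.mp hw).1
  have h' : x * y = y * x := h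
  show w * x * star w * (w * y * star w) = w * y * star w * (w * x * star w)
  calc w * x * star w * (w * y * star w) = w * x * (star w * w) * y * star w := by
        simp only [mul_assoc]
    _ = w * (x * y) * star w := by rw [h1, mul_one]; simp only [mul_assoc]
    _ = w * (y * x) * star w := by rw [h']
    _ = w * y * (star w * w) * x * star w := by rw [h1, mul_one]; simp only [mul_assoc]
    _ = w * y * star w * (w * x * star w) := by simp only [mul_assoc]

lemma conj_conj {w : Op K} (hw : w ∈ unitary (Op K)) (y : Op K) :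
    w * (star w * y * w) * star w = y := by
  have h2 : w * star w = 1 := (Unitary.mem_iff.mp hw).2
  calc w * (star w * y * w) * star w = (w * star w) * y * (w * star w) := by simp only [mul_assoc]
    _ = y := by rw [h2, one_mul, mul_one]

lemma conj_conj' {w : Op K} (hw : w ∈ unitary (Op K)) (y : Op K) :
    star w * (w * y * star w) * w = y := by
  have h1 : star w * w = 1 := (Unitary.mem_iff.mp hw).1
  calc star w * (w * y * star w) * w = (star w * w) * y * (star w * w) := by simp only [mul_assoc]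
    _ = y := by rw [h1, one_mul, mul_one]

lemma commute_conj_iff {w x y : Op K} (hw : w ∈ unitary (Op K)) :
    Commute y (w * x * star w) ↔ Commute (star w * y * w) x := by
  constructor
  · intro h
    have := commute_conj (Unitary.star_mem hw) h
    rwa [star_star, conj_conj' hw] at this
  · intro h
    have := commute_conj hw h
    rwa [conj_conj hw] at this

lemma conj_unitary {w x : Op K} (hw : w ∈ unitary (Op K)) (hx : x ∈ unitary (Op K)) :
    w * x * star w ∈ unitary (Op K) :=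
  mul_mem (mul_mem hw hx) (Unitary.star_mem hw)

lemma norm_unitary_le {w : Op K} (hw : w ∈ unitary (Op K)) : ‖w‖ ≤ 1 := by
  rcases subsingleton_or_nontrivial (Op K) with h | h
  · rw [Subsingleton.elim w 0, norm_zero]; exact zero_le_one
  · exact (CStarRing.norm_of_mem_unitary hw).le

lemma norm_unitary_app {w : Op K} (hw : w ∈ unitary (Op K)) (ξ : K) : ‖w ξ‖ = ‖ξ‖ := by
  apply le_antisymm
  · calc ‖w ξ‖ ≤ ‖w‖ * ‖ξ‖ := w.le_opNorm ξ
      _ ≤ 1 * ‖ξ‖ := by gcongr; exact norm_unitary_le hw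
      _ = ‖ξ‖ := one_mul _
  · have h1 : star w * w = 1 := (Unitary.mem_iff.mp hw).1
    have h3 : (star w) (w ξ) = ξ := by
      rw [← mul_apply_eq_comp, h1]; rfl
    calc ‖ξ‖ = ‖(star w) (w ξ)‖ := by rw [h3]
      _ ≤ ‖star w‖ * ‖w ξ‖ := (star w).le_opNorm _
      _ ≤ 1 * ‖w ξ‖ := by gcongr; exact norm_unitary_le (Unitary.star_mem hw)
      _ = ‖w ξ‖ := one_mul _

lemma urep_mul {G : Type*} [AddCommGroup G] {A B : G → Op K} (hA : URep A) (hB : URep B)
    (h : ∀ g g', Commute (A g) (B g')) : URep (fun g => A g * B g) := by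
  refine ⟨fun g => mul_mem (hA.unit g) (hB.unit g), fun g g' => ?_⟩
  show A (g + g') * B (g + g') = A g * B g * (A g' * B g')
  have h' : A g' * B g = B g * A g' := h g' g
  rw [hA.add, hB.add]
  calc A g * A g' * (B g * B g') = A g * (A g' * B g) * B g' := by simp only [mul_assoc]
    _ = A g * (B g * A g') * B g' := by rw [h']
    _ = _ := by simp only [mul_assoc]

lemma urep_comp {G G' : Type*} [AddCommGroup G] [AddCommGroup G'] {A : G → Op K} (hA : URep A)
    (φ : G' → G) (hφ : ∀ g g', φ (g + g') = φ g + φ g') : URep (fun g => A (φ g)) :=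
  ⟨fun g => hA.unit _, fun g g' => by show A (φ (g + g')) = _; rw [hφ, hA.add]⟩

lemma urep_conj {G : Type*} [AddCommGroup G] {A : G → Op K} (hA : URep A) {w : Op K}
    (hw : w ∈ unitary (Op K)) : URep (fun g => w * A g * star w) := by
  refine ⟨fun g => conj_unitary hw (hA.unit g), fun g g' => ?_⟩
  have h1 : star w * w = 1 := (Unitary.mem_iff.mp hw).1
  show w * A (g + g') * star w = w * A g * star w * (w * A g' * star w)
  rw [hA.add]
  calc w * (A g * A g') * star w = w * A g * (star w * w) * A g' * star w := by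
        rw [h1, mul_one]; simp only [mul_assoc]
    _ = _ := by simp only [mul_assoc]

lemma unif_compact {α : Type*} {l : Filter α} {W : α → Op K} (hW : ∀ a, ‖W a‖ ≤ 1)
    (h : ∀ η, Tendsto (fun a => W a η) l (𝓝 η)) {C : Set K} (hC : IsCompact C) {ε : ℝ}
    (hε : 0 < ε) : ∀ᶠ a in l, ∀ η ∈ C, ‖W a η - η‖ ≤ ε := by
  refine hC.induction_on (p := fun S => ∀ᶠ a in l, ∀ η ∈ S, ‖W a η - η‖ ≤ ε) (by simp) ?_ ?_ ?_
  · intro S S' hS h'
    exact h'.mono fun a ha η hη => ha η (hS hη)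
  · intro S S' h1 h2
    filter_upwards [h1, h2] with a h1 h2 η hη
    rcases hη with hη | hη
    exacts [h1 η hη, h2 η hη]
  · intro η₀ _
    refine ⟨Metric.ball η₀ (ε / 3), mem_nhdsWithin_of_mem_nhds (Metric.ball_mem_nhds _ (by positivity)), ?_⟩
    filter_upwards [(h η₀).eventually (Metric.ball_mem_nhds η₀ (show 0 < ε / 3 by positivity))]
      with a ha η hη
    rw [mem_ball_iff_norm] at hη
    have ha' : ‖W a η₀ - η₀‖ < ε / 3 := by rwa [dist_eq_norm] at ha
    have h1 : ‖W a (η - η₀)‖ ≤ ‖η - η₀‖ :=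
      calc ‖W a (η - η₀)‖ ≤ ‖W a‖ * ‖η - η₀‖ := (W a).le_opNorm _
        _ ≤ 1 * ‖η - η₀‖ := by gcongr; exact hW a
        _ = _ := one_mul _
    have h2 : W a η - η = W a (η - η₀) + (W a η₀ - η₀) - (η - η₀) := by
      rw [map_sub]; abel
    rw [h2]
    calc ‖W a (η - η₀) + (W a η₀ - η₀) - (η - η₀)‖
        ≤ ‖W a (η - η₀)‖ + ‖W a η₀ - η₀‖ + ‖η - η₀‖ :=
          (norm_sub_le _ _).trans (by gcongr; exact norm_add_le _ _)
      _ ≤ ε := by linarith

lemma norm_star_app_sub {w : Op K} (hw : w ∈ unitary (Op K)) (η : K) :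
    ‖star w η - η‖ = ‖w η - η‖ := by
  have h2 : w * star w = 1 := (Unitary.mem_iff.mp hw).2
  have h3 : w (star w η) = η := by
    rw [← mul_apply_eq_comp, h2]; rfl
  rw [← norm_unitary_app hw, map_sub, h3, norm_sub_rev]

end gen

lemma urep_int_commute {V : ℤ → Op H} (hV : URep V) {y : Op H} (h : Commute y (V 1)) (k : ℤ) :
    Commute y (V k) := by
  induction k using Int.induction_on with
  | zero => rw [hV.zero]; exact Commute.one_right y
  | succ n ih => rw [hV.add]; exact ih.mul_right h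
  | pred n ih =>
    rw [sub_eq_add_neg, hV.add, hV.neg 1]
    exact ih.mul_right (commute_star_of_unitary (hV.unit 1) h)

lemma urep_period {D : ℝ → Op H} (hD : URep D) {T : ℝ} (hT : D T = 1) (k : ℤ) :
    D (k * T) = 1 := by
  induction k using Int.induction_on with
  | zero => simpa using hD.zero
  | succ n ih =>
    have : (((n : ℤ) + 1 : ℤ) : ℝ) * T = ((n : ℤ) : ℝ) * T + T := by push_cast; ring
    rw [this, hD.add, ih, hT, one_mul]
  | pred n ih =>
    have : ((-(n : ℤ) - 1 : ℤ) : ℝ) * T = ((-(n : ℤ) : ℤ) : ℝ) * T + -T := by push_cast; ring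
    rw [this, hD.add, ih, hD.neg, hT, star_one, one_mul]

lemma urep_dg {ι : Type} {G : Type*} [AddCommGroup G] {U : G → Op H} (hU : URep U) :
    URep (fun g => dg ι (U g)) :=
  ⟨fun g => dg_unitary (hU.unit g), fun g g' => by show dg ι (U (g + g')) = _; rw [hU.add, dg_mul]⟩

lemma commute_dg {ι : Type} {x y : Op H} (h : Commute x y) : Commute (dg ι x) (dg ι y) := by
  show dg ι x * dg ι y = dg ι y * dg ι x
  rw [← dg_mul, ← dg_mul, h.eq]

lemma mem_ampB_iff {ι : Type} {Q : VN H} {y : Op (Amp ι H)} :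
    y ∈ ampB ι Q ↔ ∀ q ∈ Q.commutant, Commute y (dg ι q) := by
  unfold ampB
  rw [mem_cmt]
  constructor
  · intro h q hq
    exact (h _ ⟨q, hq, rfl⟩).1.symm
  · rintro h _ ⟨q, hq, rfl⟩
    refine ⟨(h q hq).symm, ?_⟩
    rw [← dg_star]
    exact (h _ (star_mem hq)).symm

lemma nml_dg {ι : Type} {Q : VN H} {u : Op H} (hu : u ∈ unitary (Op H)) (h : Nml u Q) :
    Nml (dg ι u) (ampB ι Q) := by
  have h' := h.commutant hu
  have hd : dg ι u ∈ unitary (Op (Amp ι H)) := dg_unitary hu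
  intro y hy
  rw [mem_ampB_iff] at hy
  constructor
  · rw [mem_ampB_iff]
    intro q hq
    have := commute_conj hd (hy _ (h' q hq).2)
    rwa [dg_mul, dg_mul, dg_star, conj_conj hd] at this
  · rw [mem_ampB_iff]
    intro q hq
    have := commute_conj (Unitary.star_mem hd) (hy _ (h' q hq).1)
    rwa [dg_mul, dg_mul, dg_star, star_star, conj_conj' hd] at this

end CoreA

open CoreA

section
variable {U : ℝ → Op H} {s a : Op (Amp ℤ H)} {T : ℝ} {Q : VN H}

lemma shift_dg (hs : IsShift s) (x : Op H) : Commute (dg ℤ x) s := by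
  show dg ℤ x * s = s * dg ℤ x
  ext f k
  rw [mul_apply_eq_comp, mul_apply_eq_comp, dg_apply, hs.2, hs.2, dg_apply]

lemma shift_inj (hs : IsShift s) (k : ℤ) (ξ : H) : s (inj k ξ) = inj (k + 1) ξ := by
  ext j
  rw [hs.2, inj_apply, inj_apply]
  simp only [sub_eq_iff_eq_add]

lemma log_dg (hs : IsShift s) (ha : IsLog s a) (x : Op H) : Commute (dg ℤ x) a :=
  ha.comm _ (shift_dg hs x) (commute_star_of_unitary hs.1 (shift_dg hs x))

lemma eop_urep (ha : IsLog s a) : URep (Eop a) := by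
  letI : NormedAlgebra ℚ (Op (Amp ℤ H)) := NormedAlgebra.restrictScalars ℚ ℂ _
  refine ⟨fun r => ?_, fun r r' => ?_⟩
  · apply NormedSpace.exp_mem_unitary_of_mem_skewAdjoint
    rw [skewAdjoint.mem_iff, star_smul, ha.sa.star_eq, ← neg_smul]
    congr 1
    simp
  · unfold Eop
    rw [← NormedSpace.exp_add_of_commute (((Commute.refl a).smul_left _).smul_right _), ← add_smul]
    congr 2
    push_cast
    ring

lemma eop_one (ha : IsLog s a) : Eop a 1 = s := by
  unfold Eop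
  rw [← ha.exp_eq]
  simp

lemma commute_eop {y : Op (Amp ℤ H)} (h : Commute y a) (r : ℝ) : Commute y (Eop a r) :=
  Commute.exp_right (h.smul_right _)

lemma wop_unitary (hU : URep U) (T : ℝ) : Wop U T ∈ unitary (Op (Amp ℤ H)) :=
  dgf_unitary fun _ => hU.unit _

lemma CoreA.wop_apply (hU : URep U) (T : ℝ) (f : Amp ℤ H) (k : ℤ) :
    Wop U T f k = U (k * T) (f k) :=
  dgf_apply (x := fun k : ℤ => U (k * T)) (K := 1) (fun _ => norm_unitary_le (hU.unit _)) f k

lemma CoreA.star_wop_apply (hU : URep U) (T : ℝ) (f : Amp ℤ H) (k : ℤ) :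
    star (Wop U T) f k = star (U (k * T)) (f k) := by
  unfold Wop
  rw [← dgf_star (K := 1) (fun _ => norm_unitary_le (hU.unit _))]
  exact dgf_apply (x := fun k : ℤ => star (U (k * T))) (K := 1)
    (fun _ => norm_unitary_le (Unitary.star_mem (hU.unit _))) f k

lemma wop_shift (hU : URep U) (hs : IsShift s) (T : ℝ) :
    Wop U T * s * star (Wop U T) = dg ℤ (U T) * s := by
  ext f k
  simp only [mul_apply_eq_comp]
  rw [wop_apply hU, hs.2, star_wop_apply hU, dg_apply, hs.2, ← hU.neg,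
    ← mul_apply_eq_comp, ← hU.add]
  congr 2
  push_cast
  ring

lemma CoreA.ut_unitary (hU : URep U) (hs : IsShift s) (T : ℝ) :
    dg ℤ (U T) * s ∈ unitary (Op (Amp ℤ H)) :=
  mul_mem (dg_unitary (hU.unit T)) hs.1

/-- whatever commutes with `Ũ = dg (U T) s` and `Ũ⋆` commutes with `W exp (i r a) W⋆` -/
lemma commute_wew (hU : URep U) (hs : IsShift s) (ha : IsLog s a) {y : Op (Amp ℤ H)}
    (h : Commute y (dg ℤ (U T) * s)) (h' : Commute y (star (dg ℤ (U T) * s))) (r : ℝ) :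
    Commute y (Wop U T * Eop a r * star (Wop U T)) := by
  have hW := wop_unitary hU T
  rw [← wop_shift hU hs, commute_conj_iff hW] at h
  rw [commute_conj_iff hW]
  exact commute_eop (ha.comm _ h (commute_star_of_unitary hs.1 h)) r

lemma CoreA.commute_wew' (hU : URep U) (hs : IsShift s) (ha : IsLog s a) {y : Op (Amp ℤ H)}
    (h : Commute y (dg ℤ (U T) * s)) (r : ℝ) :
    Commute y (Wop U T * Eop a r * star (Wop U T)) :=
  commute_wew hU hs ha h (commute_star_of_unitary (ut_unitary hU hs T) h) r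

lemma CoreA.log_shift (ha : IsLog s a) : Commute a s := by
  rw [← eop_one ha]
  exact commute_eop (Commute.refl a) 1

lemma CoreA.log_ut (hs : IsShift s) (ha : IsLog s a) : Commute a (dg ℤ (U T) * s) :=
  (log_dg hs ha _).symm.mul_right (log_shift ha)

lemma CoreA.eop_ut (hs : IsShift s) (ha : IsLog s a) (r : ℝ) :
    Commute (Eop a r) (dg ℤ (U T) * s) :=
  (commute_eop (log_ut hs ha).symm r).symm

lemma CoreA.dgU_ut (hU : URep U) (hs : IsShift s) (t : ℝ) :
    Commute (dg ℤ (U t)) (dg ℤ (U T) * s) :=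
  (commute_dg (hU.commute t T)).mul_right (shift_dg hs _)

theorem dop_urep (hU : URep U) (hs : IsShift s) (ha : IsLog s a) (T : ℝ) : URep (Dop U a T) := by
  have h1 : URep (fun t : ℝ => dg ℤ (U t)) := urep_dg hU
  have h2 : URep (fun t : ℝ => Wop U T * Eop a (-(t / T)) * star (Wop U T)) :=
    urep_conj (urep_comp (eop_urep ha) (fun t => -(t / T)) (fun t t' => by ring)) (wop_unitary hU T)
  have h3 : URep (fun t : ℝ => Eop a (t / T)) :=
    urep_comp (eop_urep ha) (fun t => t / T) (fun t t' => by ring)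
  refine urep_mul (urep_mul h1 h2 fun t t' => commute_wew' hU hs ha (dgU_ut hU hs t) _) h3
    fun t t' => ?_
  exact (commute_eop (log_dg hs ha _) _).mul_left
    (commute_wew' hU hs ha (eop_ut hs ha _) _).symm

theorem dop_period (hU : URep U) (hs : IsShift s) (ha : IsLog s a) (hT : T ≠ 0) :
    Dop U a T T = 1 := by
  unfold Dop
  rw [div_self hT, (eop_urep ha).neg, eop_one ha]
  have h1 : Wop U T * star s * star (Wop U T) = star (dg ℤ (U T) * s) := by
    rw [← wop_shift hU hs, star_mul, star_mul, star_star, mul_assoc]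
  rw [h1, star_mul]
  have h2 : star s * star (dg ℤ (U T)) = star (dg ℤ (U T)) * star s := by
    rw [← star_mul, ← star_mul, (shift_dg hs _).eq]
  have h3 : dg ℤ (U T) * star (dg ℤ (U T)) = 1 := (Unitary.mem_iff.mp (dg_unitary (hU.unit T))).2
  have h4 : star s * s = 1 := (Unitary.mem_iff.mp hs.1).1
  rw [h2, ← mul_assoc, h3, one_mul, h4]

theorem mem_ralg {y : Op (Amp ℤ H)} (hU : URep U) (hs : IsShift s) :
    y ∈ Ralg Q U s T ↔ y ∈ ampB ℤ Q ∧ Commute y (dg ℤ (U T) * s) := by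
  unfold Ralg ampB
  rw [mem_cmt, mem_cmt]
  constructor
  · intro h
    exact ⟨fun z hz => h z (Or.inl hz), (h _ (Or.inr rfl)).1.symm⟩
  · rintro ⟨h1, h2⟩ z (hz | rfl)
    · exact h1 z hz
    · exact ⟨h2.symm, (commute_star_of_unitary (ut_unitary hU hs T) h2).symm⟩

theorem mem_balg {y : Op (Amp ℤ H)} (hU : URep U) (hs : IsShift s) (ha : IsLog s a) :
    y ∈ Balg Q U s a T ↔ y ∈ Ralg Q U s T ∧ ∀ t, Commute y (Dop U a T t) := by
  unfold Ralg Balg
  rw [mem_cmt, mem_cmt]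
  constructor
  · intro h
    exact ⟨fun z hz => h z (Or.inl hz), fun t => (h _ (Or.inr ⟨t, rfl⟩)).1.symm⟩
  · rintro ⟨h1, h2⟩ z (hz | ⟨t, rfl⟩)
    · exact h1 z hz
    · exact ⟨(h2 t).symm, (commute_star_of_unitary ((dop_urep hU hs ha T).unit t) (h2 t)).symm⟩

theorem log_mem_balg (hU : URep U) (hs : IsShift s) (ha : IsLog s a) : a ∈ Balg Q U s a T := by
  rw [mem_balg hU hs ha, mem_ralg hU hs, mem_ampB_iff]
  refine ⟨⟨fun q _ => (log_dg hs ha q).symm, log_ut hs ha⟩, fun t => ?_⟩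
  exact ((log_dg hs ha _).symm.mul_right (commute_wew' hU hs ha (log_ut hs ha) _)).mul_right
    (commute_eop (Commute.refl a) _)

theorem shift_mem_ralg (hU : URep U) (hs : IsShift s) : s ∈ Ralg Q U s T := by
  rw [mem_ralg hU hs, mem_ampB_iff]
  exact ⟨fun q _ => (shift_dg hs q).symm, (shift_dg hs _).symm.mul_right (Commute.refl s)⟩

lemma CoreA.eop_mem_ampB (hs : IsShift s) (ha : IsLog s a) (r : ℝ) : Eop a r ∈ ampB ℤ Q := by
  rw [mem_ampB_iff]
  exact fun q _ => (commute_eop (log_dg hs ha q) r).symm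

theorem dop_nml (hU : URep U) (hs : IsShift s) (ha : IsLog s a) (hQ : ∀ t, Nml (U t) Q) (t : ℝ) :
    Nml (Dop U a T t) (Ralg Q U s T) := by
  unfold Dop
  refine Nml.mul (Nml.mul ?_ (UIn.nml' ⟨?_, ?_⟩)) (UIn.nml ⟨?_, (eop_urep ha).unit _⟩)
  · have hd : dg ℤ (U t) ∈ unitary (Op (Amp ℤ H)) := dg_unitary (hU.unit t)
    intro y hy
    rw [mem_ralg hU hs] at hy
    have h1 := nml_dg (ι := ℤ) (hU.unit t) (hQ t) y hy.1
    have h2 := dgU_ut (T := T) hU hs t
    have h3 := (commute_star_of_unitary hd h2.symm).symm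
    rw [mem_ralg hU hs, mem_ralg hU hs]
    exact ⟨⟨h1.1, (h2.mul_left hy.2).mul_left h3⟩, ⟨h1.2, (h3.mul_left hy.2).mul_left h2⟩⟩
  · exact mem_commutant_of fun y hy => commute_wew' hU hs ha ((mem_ralg hU hs).mp hy).2 _
  · exact conj_unitary (wop_unitary hU T) ((eop_urep ha).unit _)
  · rw [mem_ralg hU hs]
    exact ⟨eop_mem_ampB hs ha _, eop_ut hs ha _⟩

lemma CoreA.pi_apply (hU : URep U) (p : Op H) (f : Amp ℤ H) (k : ℤ) :
    (Wop U T * dg ℤ p * star (Wop U T)) f k = (U (k * T) * p * star (U (k * T))) (f k) := by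
  simp only [mul_apply_eq_comp]
  rw [wop_apply hU, dg_apply, star_wop_apply hU]

theorem pi_mem (hU : URep U) (hs : IsShift s) (hQ : ∀ t, Nml (U t) Q) {p : Op H} (hp : p ∈ Q) :
    Wop U T * dg ℤ p * star (Wop U T) ∈ Ralg Q U s T := by
  rw [mem_ralg hU hs, mem_ampB_iff]
  constructor
  · intro q hq
    show Wop U T * dg ℤ p * star (Wop U T) * dg ℤ q = dg ℤ q * (Wop U T * dg ℤ p * star (Wop U T))
    ext f k
    rw [mul_apply_eq_comp, pi_apply hU, mul_apply_eq_comp (dg ℤ q),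
      dg_apply, dg_apply, pi_apply hU, ← mul_apply_eq_comp,
      (commute_of_mem (hQ _ p hp).1 hq).eq, mul_apply_eq_comp]
  · rw [← wop_shift hU hs]
    exact commute_conj (wop_unitary hU T) (shift_dg hs p)

lemma CoreA.pi_inj (hU : URep U) (p : Op H) (ξ : H) :
    (Wop U T * dg ℤ p * star (Wop U T)) (inj (0 : ℤ) ξ) = inj (0 : ℤ) (p ξ) := by
  ext k
  rw [pi_apply hU, inj_apply, inj_apply]
  split_ifs with hk
  · subst hk
    simp [hU.zero]
  · simp

theorem itw_pi (hU : URep U) (p : Op H) :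
    Itw (inj (0 : ℤ) : H →L[ℂ] Amp ℤ H) p (Wop U T * dg ℤ p * star (Wop U T)) := by
  refine ⟨fun ξ => pi_inj hU p ξ, fun ξ => ?_⟩
  rw [star_mul, star_mul, star_star, ← dg_star, ← mul_assoc]
  exact pi_inj hU _ ξ

theorem dg_mem_balg' {x : Op H} (hx : x ∈ Q.commutant) : dg ℤ x ∈ (Balg Q U s a T).commutant :=
  subset_cmt_commutant _ (Or.inl (Or.inl ⟨x, hx, rfl⟩))

/-- by periodicity only `t = r T`, `r ∈ [0, 1]` matters; `{exp (i r a) (inj 0 ξ)}` is compact and
`Wop U T → 1` strongly (`tendsto_dgf`), uniformly on compact sets -/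
theorem dop_small (hU : URep U) (hc : ∀ ξ, Continuous fun t => U t ξ) (hs : IsShift s)
    (ha : IsLog s a) (ξ : H) {ε : ℝ} (hε : 0 < ε) :
    ∀ᶠ T in 𝓝[>] (0 : ℝ), ∀ t, ‖Dop U a T t (inj 0 ξ) - inj 0 ξ‖ ≤ ε := by
  letI : NormedAlgebra ℚ (Op (Amp ℤ H)) := NormedAlgebra.restrictScalars ℚ ℂ _
  set ζ : Amp ℤ H := inj 0 ξ with hζ
  have hW : ∀ η : Amp ℤ H, Tendsto (fun T : ℝ => Wop U T η) (𝓝 0) (𝓝 η) := by
    intro η
    refine tendsto_dgf (x := fun (T : ℝ) (k : ℤ) => U (k * T))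
      (fun _ _ => norm_unitary_le (hU.unit _)) (fun k ξ' => ?_) η
    have h1 : Continuous fun T : ℝ => U (k * T) ξ' := (hc ξ').comp (continuous_const.mul continuous_id)
    have h2 := h1.tendsto 0
    simpa [hU.zero] using h2
  have hE : Continuous fun r : ℝ => Eop a r ζ := by
    unfold Eop
    have h1 : Continuous fun r : ℝ => NormedSpace.exp ((Complex.I * r) • a) :=
      NormedSpace.exp_continuous.comp (by fun_prop)
    exact h1.clm_apply continuous_const
  have hC : IsCompact ((fun r : ℝ => Eop a r ζ) '' Set.Icc 0 1) := isCompact_Icc.image hE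
  have hε3 : 0 < ε / 3 := by positivity
  have h1 := unif_compact (fun T => norm_unitary_le (wop_unitary hU T)) hW hC hε3
  have h2 : ∀ᶠ t in 𝓝 (0 : ℝ), ‖U t ξ - ξ‖ ≤ ε / 3 := by
    have h3 : Tendsto (fun t => U t ξ) (𝓝 0) (𝓝 ξ) := by simpa [hU.zero] using (hc ξ).tendsto 0
    filter_upwards [h3.eventually (Metric.ball_mem_nhds ξ hε3)] with t ht
    rw [dist_eq_norm] at ht
    exact ht.le
  obtain ⟨ρ, hρ, h2⟩ := Metric.eventually_nhds_iff.mp h2
  have h4 : ∀ᶠ T in 𝓝 (0 : ℝ), T < ρ := Iio_mem_nhds hρ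
  filter_upwards [mem_nhdsWithin_of_mem_nhds h1, mem_nhdsWithin_of_mem_nhds h4,
    self_mem_nhdsWithin] with T h1 h4 hT t
  have hT : 0 < T := hT
  have hD := dop_urep hU hs ha T
  have hWu := wop_unitary hU T
  have hE' := eop_urep ha
  set r := Int.fract (t / T) with hr
  have hr0 : 0 ≤ r := Int.fract_nonneg _
  have hr1 : r < 1 := Int.fract_lt_one _
  have ht : t = r * T + (⌊t / T⌋ : ℤ) * T := by
    rw [hr, ← add_mul, Int.fract_add_floor]; field_simp
  have hrT : r * T / T = r := by field_simp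
  rw [ht, hD.add, urep_period hD (dop_period hU hs ha hT.ne'), mul_one]
  unfold Dop
  rw [hrT]
  have a1 : ‖Wop U T ζ - ζ‖ ≤ ε / 3 := h1 ζ ⟨0, ⟨le_rfl, zero_le_one⟩, by simp [hE'.zero]⟩
  have a2 : ‖star (Wop U T) (Eop a r ζ) - Eop a r ζ‖ ≤ ε / 3 := by
    rw [norm_star_app_sub hWu]
    exact h1 _ ⟨r, ⟨hr0, hr1.le⟩, rfl⟩
  have a3 : ‖dg ℤ (U (r * T)) ζ - ζ‖ ≤ ε / 3 := by
    rw [hζ, dg_inj, ← map_sub, iso_inj]
    apply h2
    rw [Real.dist_eq, sub_zero, abs_of_nonneg (by positivity)]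
    nlinarith
  have a4 : Eop a (-r) (Eop a r ζ) = ζ := by
    rw [← mul_apply_eq_comp, ← hE'.add, neg_add_cancel, hE'.zero]; rfl
  have a5 : (dg ℤ (U (r * T)) * (Wop U T * Eop a (-r) * star (Wop U T)) * Eop a r) ζ - ζ =
      dg ℤ (U (r * T)) (Wop U T (Eop a (-r) (star (Wop U T) (Eop a r ζ) - Eop a r ζ))) +
      dg ℤ (U (r * T)) (Wop U T ζ - ζ) + (dg ℤ (U (r * T)) ζ - ζ) := by
    simp only [mul_apply_eq_comp, map_sub, a4]
    abel
  have hd : dg ℤ (U (r * T)) ∈ unitary (Op (Amp ℤ H)) := dg_unitary (hU.unit _)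
  rw [a5]
  refine (norm_add₃_le).trans ?_
  rw [norm_unitary_app hd, norm_unitary_app hWu, norm_unitary_app (hE'.unit _), norm_unitary_app hd]
  linarith

end

lemma CoreA.avg_near {G : Type*} [AddCommGroup G] {D : G → Op H} (hD : URep D) {N : VN H}
    (hN : ∀ g, Nml (D g) N) {y z : Op H} (hy : ∀ g, Commute y (D g)) (hz : z ∈ N) :
    ∃ z' ∈ N, (∀ g, Commute z' (D g)) ∧ ‖y - z'‖ ≤ ‖y - z‖ := by
  obtain ⟨z', h1, h2⟩ := exists_avg hD z
  refine ⟨z', h2 _ (convex_vn N) (wclosed_vn N) fun g => (hN g z hz).1, h1, ?_⟩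
  rw [norm_sub_rev]
  refine h2 {T : Op H | ‖T - y‖ ≤ ‖y - z‖} (convex_ball_op _ _) (wclosed_ball _ _) fun g => ?_
  show ‖D g * z * star (D g) - y‖ ≤ ‖y - z‖
  have h3 : D g * z * star (D g) - y = D g * (z - y) * star (D g) := by
    rw [mul_sub, sub_mul, conj_of_commute (hD.unit g) (hy g)]
  rw [h3, norm_sub_rev y z]
  calc ‖D g * (z - y) * star (D g)‖ ≤ ‖D g‖ * ‖z - y‖ * ‖star (D g)‖ :=
        (norm_mul_le _ _).trans (by gcongr; exact norm_mul_le _ _)
    _ ≤ 1 * ‖z - y‖ * 1 := by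
        gcongr
        · exact norm_unitary_le (hD.unit g)
        · exact norm_unitary_le (Unitary.star_mem (hD.unit g))
    _ = ‖z - y‖ := by ring

lemma CoreA.near_balg {U : ℝ → Op H} {s a : Op (Amp ℤ H)} {T : ℝ} {Q Q₁ : VN H} {δ : ℝ}
    (hU : URep U) (hs : IsShift s) (ha : IsLog s a) (hQ₁ : ∀ t, Nml (U t) Q₁)
    (h : Near (ampB ℤ Q : Set (Op (Amp ℤ H))) (ampB ℤ Q₁ : Set (Op (Amp ℤ H))) δ) :
    Near (Balg Q U s a T : Set (Op (Amp ℤ H))) (Balg Q₁ U s a T : Set (Op (Amp ℤ H))) δ := by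
  intro y hy
  obtain ⟨hy1, hy2⟩ := (mem_balg hU hs ha).mp hy
  obtain ⟨hy0, hy1⟩ := (mem_ralg hU hs).mp hy1
  obtain ⟨z, hz, hyz⟩ := h y hy0
  have hV : URep (fun k : ℤ => dg ℤ (U (k * T)) * Eop a k) :=
    urep_mul (urep_dg (urep_comp hU (fun k : ℤ => k * T) fun k k' => by push_cast; ring))
      (urep_comp (eop_urep ha) (fun k : ℤ => (k : ℝ)) fun k k' => by push_cast; ring)
      fun k k' => commute_eop (log_dg hs ha _) _
  have hV1 : dg ℤ (U (((1 : ℤ) : ℝ) * T)) * Eop a ((1 : ℤ) : ℝ) = dg ℤ (U T) * s := by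
    rw [Int.cast_one, one_mul, eop_one ha]
  obtain ⟨z₁, hz₁, hc₁, hn₁⟩ := avg_near hV (N := ampB ℤ Q₁) (y := y)
    (fun k => Nml.mul (nml_dg (hU.unit _) (hQ₁ _))
      (UIn.nml ⟨eop_mem_ampB hs ha _, (eop_urep ha).unit _⟩))
    (fun k => urep_int_commute hV (by rw [← hV1] at hy1; exact hy1) k) hz
  have hz₁' : z₁ ∈ Ralg Q₁ U s T := (mem_ralg hU hs).mpr ⟨hz₁, by rw [← hV1]; exact hc₁ 1⟩
  obtain ⟨z₂, hz₂, hc₂, hn₂⟩ := avg_near (dop_urep hU hs ha T) (dop_nml hU hs ha hQ₁) hy2 hz₁'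
  exact ⟨z₂, (mem_balg hU hs ha).mpr ⟨hz₂, hc₂⟩, hn₂.trans (hn₁.trans hyz)⟩

/-- `cl_ampB`, then `exists_avg` over `k ↦ Ũ^k` (`G = ℤ`), then over `D` (`G = ℝ`) -/
theorem balg_cl : ∃ C : ℝ, 1 ≤ C ∧ ∀ (H : Type u) [NormedAddCommGroup H] [InnerProductSpace ℂ H] [CompleteSpace H] (U : ℝ → Op H) (s a : Op (Amp ℤ H)) (T : ℝ)
    (Q Q₁ : VN H) (δ : ℝ), URep U → IsShift s → IsLog s a → (∀ t, Nml (U t) Q) →
    (∀ t, Nml (U t) Q₁) → 0 ≤ δ → CL Q Q₁ δ → CL (Balg Q U s a T) (Balg Q₁ U s a T) (C * δ) := by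
  obtain ⟨C, hC, h⟩ := cl_ampB.{u}
  refine ⟨C, hC, fun H _ _ _ U s a T Q Q₁ δ hU hs ha hQ hQ₁ hδ hcl => ?_⟩
  obtain ⟨h1, h2⟩ := h H ℤ Q Q₁ δ hδ hcl
  exact ⟨near_balg hU hs ha hQ₁ h1, near_balg hU hs ha hQ h2⟩

end Crest.Agent.R78
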