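import Crest.Agent.R78.CoreA
import Crest.Agent.R78.MDL

/-! # Row 78: the discrete core: the trace vector -/

set_option autoImplicit false

namespace Crest.Agent.R78

open scoped InnerProductSpace ComplexOrder BigOperators Topology
open Filter
open Crest.Agent.R124 (Op cm)
open Crest.OpAlg (LineCalculus)

universe u

variable {H : Type u} [NormedAddCommGroup H] [InnerProductSpace ℂ H] [CompleteSpace H]

namespace CoreB

section Ec
variable {K : Type*} [NormedAddCommGroup K] [InnerProductSpace ℂ K] [CompleteSpace K]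

/-- `exp (z a)` -/
noncomputable def Ec (a : Op K) (z : ℂ) : Op K := NormedSpace.exp (z • a)

lemma ec_add (a : Op K) (z w : ℂ) : Ec a (z + w) = Ec a z * Ec a w := by
  let _ : NormedAlgebra ℚ (Op K) := NormedAlgebra.restrictScalars ℚ ℂ (Op K)
  unfold Ec
  rw [add_smul]
  exact NormedSpace.exp_add_of_commute (((Commute.refl a).smul_left z).smul_right w)

lemma ec_zero (a : Op K) : Ec a 0 = 1 := by
  simp [Ec]

lemma ec_neg_mul (a : Op K) (z : ℂ) : Ec a (-z) * Ec a z = 1 := by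
  rw [← ec_add, neg_add_cancel, ec_zero]

lemma commute_ec {y a : Op K} (h : Commute y a) (z : ℂ) : Commute y (Ec a z) :=
  (h.smul_right z).exp_right

lemma differentiable_ec (a : Op K) : Differentiable ℂ (Ec a) := fun t =>
  (hasDerivAt_exp_smul_const (𝕂 := ℂ) a t).differentiableAt

lemma star_ec {a : Op K} (ha : IsSelfAdjoint a) (c : ℝ) : star (Ec a c) = Ec a c := by
  unfold Ec
  rw [NormedSpace.star_exp, star_smul, ha.star_eq]
  simp

end Ec

lemma ec_mem {K : Type u} [NormedAddCommGroup K] [InnerProductSpace ℂ K] [CompleteSpace K]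
    {M : VN K} {a : Op K} (ha : a ∈ M) (z : ℂ) : Ec a z ∈ M :=
  mem_of_commute fun _ hy => (commute_ec (commute_of_mem ha hy).symm z).symm

lemma eop_eq (a : Op (Amp ℤ H)) (r : ℝ) : Eop a r = Ec a (Complex.I * r) := rfl

section
variable {U : ℝ → Op H} {s a : Op (Amp ℤ H)} {T : ℝ}

/-- vectors fixed by the diagonal group -/
def Fx (U : ℝ → Op H) (f : Amp ℤ H) : Prop := ∀ t, dg ℤ (U t) f = f

lemma Fx.ec (hs : IsShift s) (ha : IsLog s a) {f : Amp ℤ H} (hf : Fx U f) (z : ℂ) :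
    Fx U (Ec a z f) := by
  intro t
  have h := congrArg (fun A : Op (Amp ℤ H) => A f) (commute_ec (log_dg hs ha (U t)) z).eq
  simp only [mul_apply_eq_comp] at h
  rw [h, hf t]

lemma norm_urep_le (hU : URep U) (t : ℝ) : ‖U t‖ ≤ 1 := by
  rcases subsingleton_or_nontrivial H with h | h
  · rw [Subsingleton.elim (U t) 0]; simp
  · exact (CStarRing.norm_of_mem_unitary (hU.unit t)).le

lemma Fx.wop (hU : URep U) {f : Amp ℤ H} (hf : Fx U f) : Wop U T f = f := by
  ext k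
  have h1 : Wop U T f k = U (k * T) (f k) :=
    dgf_apply (x := fun k : ℤ => U (k * T)) (K := 1) (fun k => norm_urep_le hU _) f k
  rw [h1, ← dg_apply, hf]

lemma Fx.wop_star (hU : URep U) {f : Amp ℤ H} (hf : Fx U f) : star (Wop U T) f = f := by
  have h := congrArg (fun A : Op (Amp ℤ H) => A f) (wop_unitary hU T).1
  simp only [mul_apply_eq_comp, one_apply_eq_self] at h
  rw [hf.wop hU] at h
  exact h

lemma Fx.wew (hU : URep U) (hs : IsShift s) (ha : IsLog s a) {f : Amp ℤ H} (hf : Fx U f) (r : ℝ) :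
    (Wop U T * Eop a r * star (Wop U T)) f = Eop a r f := by
  simp only [mul_apply_eq_comp]
  rw [hf.wop_star hU, eop_eq, (hf.ec hs ha _).wop hU]

lemma Fx.dop (hU : URep U) (hs : IsShift s) (ha : IsLog s a) {f : Amp ℤ H} (hf : Fx U f) (t : ℝ) :
    Dop U a T t f = f := by
  have h1 : Fx U (Eop a (t / T) f) := hf.ec hs ha _
  have h2 : Eop a (-(t / T)) (Eop a (t / T) f) = f := by
    rw [← mul_apply_eq_comp, ← (eop_urep ha).add, neg_add_cancel, (eop_urep ha).zero]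
    rfl
  unfold Dop
  rw [mul_apply_eq_comp, mul_apply_eq_comp, h1.wew hU hs ha, h2, hf]

lemma fx_inj {Ω : H} (hΩ : ∀ t, U t Ω = Ω) (j : ℤ) : Fx U (inj j Ω : Amp ℤ H) := by
  intro t
  rw [dg_inj, hΩ]

/-- the flow on `Balg` is implemented by `exp (-i t a / T)` on the fixed vectors -/
lemma flow_eq {Q : VN H} (hU : URep U) (hs : IsShift s) (ha : IsLog s a) {z : Op (Amp ℤ H)}
    (hz : z ∈ Balg Q U s a T) {f : Amp ℤ H} (hf : Fx U f) (t : ℝ) :
    dg ℤ (U t) (z f) = Eop a (-(t / T)) (z (Eop a (t / T) f)) := by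
  obtain ⟨hzR, hzD⟩ := (mem_balg hU hs ha).1 hz
  have hz1 := ((mem_ralg hU hs).1 hzR).2
  have hz2 : Commute z (star (dg ℤ (U T) * s)) := by
    have := ((mem_ralg hU hs).1 (star_mem hzR)).2.star_star
    rwa [star_star] at this
  have haR := ((mem_balg hU hs ha).1 (log_mem_balg (Q := Q) (T := T) hU hs ha)).1
  have hER : Eop a (t / T) ∈ Ralg Q U s T := ec_mem haR _
  have hE1 := ((mem_ralg hU hs).1 hER).2
  have hE2 : Commute (Eop a (t / T)) (star (dg ℤ (U T) * s)) := by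
    have := ((mem_ralg hU hs).1 (star_mem hER)).2.star_star
    rwa [star_star] at this
  have c1 := commute_wew hU hs ha hz1 hz2 (-(t / T))
  have c2 := commute_wew hU hs ha hE1 hE2 (-(t / T))
  have c3 : Commute (dg ℤ (U t)) (Eop a (t / T)) := commute_eop (log_dg hs ha _) _
  have hg : Fx U (Eop a (t / T) f) := hf.ec hs ha _
  have hinv : Eop a (-(t / T)) * Eop a (t / T) = 1 := by
    rw [← (eop_urep ha).add, neg_add_cancel, (eop_urep ha).zero]
  have h2 : ∀ g, Eop a (-(t / T)) (Eop a (t / T) g) = g := fun g => by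
    rw [← mul_apply_eq_comp, hinv]
    rfl
  have h3 : z (Eop a (t / T) f) = Dop U a T t (z (Eop a (t / T) f)) := by
    have h := congrArg (fun A : Op (Amp ℤ H) => A (Eop a (t / T) f)) (hzD t).eq
    simp only [mul_apply_eq_comp] at h
    rw [← h, hg.dop hU hs ha]
  have h4 : Dop U a T t * z =
      Eop a (t / T) * dg ℤ (U t) * z * (Wop U T * Eop a (-(t / T)) * star (Wop U T)) := by
    unfold Dop
    rw [mul_assoc (dg ℤ (U t)), ← c2.eq, ← mul_assoc, c3.eq, mul_assoc _ _ z, ← c1.eq,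
      ← mul_assoc]
  rw [h3, ← mul_apply_eq_comp (Dop U a T t), h4, mul_apply_eq_comp,
    hg.wew hU hs ha, h2, mul_apply_eq_comp, mul_apply_eq_comp, h2]

/-- columns of an operator commuting with `dg (U T) s` -/
lemma norm_col (hU : URep U) (hs : IsShift s) {Ω : H} (hΩ : ∀ t, U t Ω = Ω) {y : Op (Amp ℤ H)}
    (hy : Commute y (dg ℤ (U T) * s)) (j : ℤ) :
    ∀ k, ‖y (inj j Ω) k‖ = ‖y (inj 0 Ω) (k - j)‖ := by
  have step : ∀ j k : ℤ, ‖y (inj (j + 1) Ω) k‖ = ‖y (inj j Ω) (k - 1)‖ := by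
    intro j k
    have h := congrArg (fun A : Op (Amp ℤ H) => A (inj j Ω)) hy.eq
    simp only [mul_apply_eq_comp] at h
    rw [shift_inj hs, dg_inj, hΩ] at h
    rw [h, dg_apply, hs.2, ContinuousLinearMap.norm_map_of_mem_unitary (hU.unit T)]
  induction j using Int.induction_on with
  | zero => intro k; simp
  | succ i ih => intro k; rw [step, ih, show k - 1 - (i : ℤ) = k - (i + 1) by ring]
  | pred i ih =>
    intro k
    have h := step (-(i : ℤ) - 1) (k + 1)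
    rw [sub_add_cancel, add_sub_cancel_right, ih] at h
    rw [← h, show k + 1 - -(i : ℤ) = k - (-i - 1) by ring]

end

lemma norm_eq_of_coord {f g : Amp ℤ H} (h : ∀ k, ‖f k‖ = ‖g (-k)‖) : ‖f‖ = ‖g‖ := by
  have h1 := hasSum_norm_sq f
  have h2 := (Equiv.neg ℤ).hasSum_iff.2 (hasSum_norm_sq g)
  have h3 : (fun k => ‖f k‖ ^ 2) = (fun i => ‖g i‖ ^ 2) ∘ (Equiv.neg ℤ) := by
    funext k; simp [h k]
  rw [h3] at h1
  exact (sq_eq_sq₀ (norm_nonneg _) (norm_nonneg _)).1 (h1.unique h2)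

lemma kms (S : MD H) {s a : Op (Amp ℤ H)} (hs : IsShift s) (ha : IsLog s a) {T : ℝ}
    {z : Op (Amp ℤ H)} (hz : z ∈ Balg S.M S.D.wave s a T) :
    ‖Ec a (-((1 / (2 * T) : ℝ) : ℂ)) (z (Ec a ((1 / (2 * T) : ℝ) : ℂ) (inj 0 S.Ω)))‖ =
      ‖star z (inj 0 S.Ω)‖ := by
  have hU := S.urep
  have hzR := ((mem_balg hU hs ha).1 hz).1
  have hzA := ((mem_ralg hU hs).1 hzR).1
  have hz1 := ((mem_ralg hU hs).1 (star_mem hzR)).2
  refine norm_eq_of_coord fun k => ?_
  let F : ℂ → H := fun w =>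
    prj k (Ec a (-(Complex.I * (w / T))) (z (Ec a (Complex.I * (w / T)) (inj 0 S.Ω))))
  have hF : Differentiable ℂ F := by
    refine (prj k : Amp ℤ H →L[ℂ] H).differentiable.comp ?_
    refine Differentiable.clm_apply ((differentiable_ec a).comp (by fun_prop)) ?_
    refine z.differentiable.comp ?_
    exact Differentiable.clm_apply ((differentiable_ec a).comp (by fun_prop))
      (differentiable_const _)
  have hFt : ∀ t : ℝ, F t = S.D.wave t (ent z k 0 S.Ω) := by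
    intro t
    have h := flow_eq hU hs ha hz (fx_inj S.wave_Ω 0) t
    rw [ent_apply, ← dg_apply, h, eop_eq, eop_eq]
    simp only [F, prj_apply]
    push_cast
    rw [mul_neg]
  have h := S.an (mem_ampB.1 hzA k 0) hF hFt
  have hc : Complex.I * (-(Complex.I / 2) / T) = ((1 / (2 * T) : ℝ) : ℂ) := by
    push_cast
    rw [neg_div, mul_neg, div_div, ← mul_div_assoc, Complex.I_mul_I, neg_div, neg_neg]
  simp only [F, prj_apply, hc] at h
  rw [h, ← ent_star, ent_apply, norm_col hU hs S.wave_Ω hz1, zero_sub]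

lemma cyc_inj (S : MD H) {s : Op (Amp ℤ H)} (hs : IsShift s) (T : ℝ) :
    Cyc (Ralg S.M S.D.wave s T : Set (Op (Amp ℤ H))) (inj 0 S.Ω) := by
  have hU := S.urep
  set R := Ralg S.M S.D.wave s T with hR
  let V : Submodule ℂ (Amp ℤ H) :=
    { carrier := (fun x : Op (Amp ℤ H) => x (inj 0 S.Ω)) '' (R : Set (Op (Amp ℤ H)))
      add_mem' := by
        rintro _ _ ⟨x, hx, rfl⟩ ⟨y, hy, rfl⟩
        exact ⟨x + y, add_mem hx hy, rfl⟩
      zero_mem' := ⟨0, zero_mem R, rfl⟩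
      smul_mem' := by
        rintro c _ ⟨x, hx, rfl⟩
        exact ⟨c • x, smul_mem_vn c hx, rfl⟩ }
  have hV : ∀ y ∈ R, ∀ f ∈ V, y f ∈ V := by
    rintro y hy _ ⟨x, hx, rfl⟩
    exact ⟨y * x, mul_mem hy hx, rfl⟩
  have hsR : s ∈ R := shift_mem_ralg hU hs
  have h1 : ∀ q ∈ S.M, ∀ k : ℤ, (inj k (q S.Ω) : Amp ℤ H) ∈ V := by
    intro q hq k
    induction k using Int.induction_on with
    | zero => exact ⟨_, pi_mem hU hs S.nml hq, (itw_pi hU q).1 S.Ω⟩
    | succ i ih => rw [← shift_inj hs]; exact hV s hsR _ ih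
    | pred i ih =>
      have h := hV (star s) (star_mem hsR) _ ih
      have h2 := shift_inj hs (-(i : ℤ) - 1) (q S.Ω)
      rw [sub_add_cancel] at h2
      rw [← h2, ← mul_apply_eq_comp, hs.1.1] at h
      exact h
  have h2 : ∀ (k : ℤ) (ξ : H), (inj k ξ : Amp ℤ H) ∈ V.topologicalClosure := by
    intro k ξ
    refine map_mem_closure (f := (inj k : H →L[ℂ] Amp ℤ H)) (inj k : H →L[ℂ] Amp ℤ H).continuous
      (S.cyc ξ) ?_
    rintro _ ⟨q, hq, rfl⟩
    exact h1 q hq k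
  intro f
  have h3 : f ∈ V.topologicalClosure :=
    V.isClosed_topologicalClosure.mem_of_tendsto (hasSum_inj f)
      (Eventually.of_forall fun t => Submodule.sum_mem _ fun i _ => h2 i _)
  exact h3

end CoreB

open CoreB in
/-- `Ω̃ = inj 0 Ω`, `b = a / T`, `Ω₀ = exp (b / 2) Ω̃`.  `a` commutes with the projection onto
`{f | ∀ k, f k ∈ ℂ Ω}` (or: with `dg` of the rank one projection onto `Ω`), on which `W` is the
identity, so `W E W⋆ Ω̃ = E Ω̃` and `D t Ω̃ = Ω̃`.  `s^k π(q) Ω̃ = inj k (q Ω)`: `Ω̃` is cyclic for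
`Ralg`, and `exp (±b/2) ∈ Ralg`.  For `z ∈ Balg`: `dg (U t) z Ω̃ = exp (-i t b) z exp (i t b) Ω̃` is
entire in `t`; `MD.an` for `z k 0 ∈ M` gives `‖(exp (-b/2) z exp (b/2) Ω̃) k‖ = ‖(z k 0)⋆ Ω‖`, and
`z 0 k = U (kT) (z (-k) 0) U (-kT)`, so `‖z⋆ Ω̃‖ = ‖exp (-b/2) z exp (b/2) Ω̃‖`; put
`z = exp (b/2) x`. -/
theorem core_trace (S : MD H) {s a : Op (Amp ℤ H)} (hs : IsShift s) (ha : IsLog s a) {T : ℝ}
    (hT : 0 < T) : ∃ Ω₀ : Amp ℤ H, (∀ t, Dop S.D.wave a T t Ω₀ = Ω₀) ∧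
      Cyc (Ralg S.M S.D.wave s T : Set (Op (Amp ℤ H))) Ω₀ ∧
      ∀ b ∈ Balg S.M S.D.wave s a T, ‖star b Ω₀‖ = ‖b Ω₀‖ := by
  have _ := hT
  have hU := S.urep
  have haB := log_mem_balg (Q := S.M) (T := T) hU hs ha
  have haR := ((mem_balg hU hs ha).1 haB).1
  have hinv : ∀ (c : ℂ) (g : Amp ℤ H), Ec a (-c) (Ec a c g) = g := fun c g => by
    rw [← mul_apply_eq_comp, ec_neg_mul]
    rfl
  refine ⟨Ec a ((1 / (2 * T) : ℝ) : ℂ) (inj 0 S.Ω),
    fun t => ((fx_inj S.wave_Ω 0).ec hs ha _).dop hU hs ha t, ?_, fun b hb => ?_⟩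
  · refine Dense.mono ?_ (cyc_inj S hs T)
    rintro _ ⟨x, hx, rfl⟩
    refine ⟨x * Ec a (-((1 / (2 * T) : ℝ) : ℂ)), mul_mem hx (ec_mem haR _), ?_⟩
    simp only [mul_apply_eq_comp, hinv]
  · have h := kms S hs ha (mul_mem (ec_mem haB ((1 / (2 * T) : ℝ) : ℂ)) hb)
    rw [star_mul, star_ec ha.sa, mul_apply_eq_comp, mul_apply_eq_comp,
      hinv] at h
    exact h.symm

end Crest.Agent.R78
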