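import Crest.Agent.R78.FinAmp

/-! # Row 78: cutting by a projection in both commutants -/

set_option autoImplicit false

namespace Crest.Agent.R78

open scoped InnerProductSpace ComplexOrder BigOperators Topology
open Filter
open Crest.Agent.R124 (Op cm)
open Crest.OpAlg (LineCalculus)

universe u

variable {H : Type u} [NormedAddCommGroup H] [InnerProductSpace ℂ H] [CompleteSpace H]

namespace Corner

variable {K : Type u} [NormedAddCommGroup K] [InnerProductSpace ℂ K] [CompleteSpace K]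
  {V : K →L[ℂ] H}

lemma ext_lin (hV : Iso V) (h a b : Op K) :
    lin (ext V h) (ext V a) (ext V b) = ext V (lin h a b) := by
  simp only [lin, cm, ext_add, ext_sub, hV.ext_mul, mul_sub, sub_mul]

/-- the compression of an algebra that commutes with the range projection -/
def img (hV : Iso V) (B : VN H) (hB : ∀ b ∈ B, Itw V (cmp V b) b) : StarSubalgebra ℂ (Op K) where
  carrier := cmp V '' (B : Set (Op H))
  mul_mem' := by
    rintro _ _ ⟨x, hx, rfl⟩ ⟨y, hy, rfl⟩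
    exact ⟨x * y, mul_mem hx hy, (hB x hx).mul_cmp y⟩
  add_mem' := by
    rintro _ _ ⟨x, hx, rfl⟩ ⟨y, hy, rfl⟩
    exact ⟨x + y, add_mem hx hy, cmp_add V x y⟩
  algebraMap_mem' := fun c =>
    ⟨c • 1, smul_mem_vn c (one_mem B), by
      rw [cmp_smul, hV.cmp_one, Algebra.algebraMap_eq_smul_one]⟩
  star_mem' := by
    rintro _ ⟨x, hx, rfl⟩
    exact ⟨star x, star_mem hx, cmp_star V x⟩

lemma cmp_mem_cmt {B : VN H} (hB : ∀ b ∈ B, Itw V (cmp V b) b) {x : Op H}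
    (hx : x ∈ B.commutant) : cmp V x ∈ cmt (cmp V '' (B : Set (Op H))) := by
  have key : ∀ b ∈ B, cmp V b * cmp V x = cmp V x * cmp V b := fun b hb => by
    rw [← (hB b hb).mul_cmp x, ← (hB b hb).cmp_mul x, (commute_of_mem hb hx).eq]
  rw [mem_cmt]
  rintro _ ⟨b, hb, rfl⟩
  exact ⟨key b hb, by rw [← cmp_star]; exact key _ (star_mem hb)⟩

end Corner

/-- `exists_iso`, `M₀ = cmt (cmp V '' B)`, `N₀ = cmt (cmp V '' B₁)`, `res_cl`, `tr_cmt`, `ct_tr`,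
`h = ext V h₀`, `lin h (e x e) (e q) = ext V (lin h₀ (cmp V x) (cmp V q))` -/
theorem corner : ∃ C δ₀ : ℝ, 0 < C ∧ 0 < δ₀ ∧ ∀ (H : Type u) [NormedAddCommGroup H] [InnerProductSpace ℂ H] [CompleteSpace H] (B B₁ : VN H) (e : Op H) (Ω : H) (δ : ℝ),
    0 < δ → δ ≤ δ₀ → CL B B₁ δ → IsStarProjection e → e ∈ B.commutant → e ∈ B₁.commutant →
    e Ω = Ω → (∀ ζ, e ζ = ζ → ζ ∈ closure ((fun b : Op H => b Ω) '' (B : Set (Op H)))) →
    (∀ b ∈ B, ‖star b Ω‖ = ‖b Ω‖) →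
    ∃ h : Op H, ‖h‖ ≤ C * δ ∧ e * h = h ∧ h * e = h ∧ ∀ x ∈ B.commutant, ∀ q ∈ B₁,
      ‖lin h (e * x * e) (e * q)‖ ≤ C * δ ^ 2 * ‖x‖ * ‖q‖ := by
  obtain ⟨C₁, hC₁, h₁⟩ := res_cl.{u}
  obtain ⟨C₂, d₂, hC₂, hd₂, h₂⟩ := ct_tr.{u}
  have hC₁' : 0 < C₁ := by linarith
  refine ⟨C₂ * C₁ + C₂ * C₁ ^ 2, d₂ / C₁, by positivity, by positivity, ?_⟩
  intro H _ _ _ B B₁ e Ω δ hδ hδ₀ hcl he heB heB₁ heΩ hcyc htr
  rw [le_div_iff₀ hC₁', mul_comm] at hδ₀
  obtain ⟨K, _, _, _, V, hV, hVe⟩ := exists_iso he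
  have hB : ∀ b ∈ B, Itw V (cmp V b) b := fun b hb =>
    itw_of_commute hV (by rw [hVe]; exact commute_of_mem hb heB)
  have hB₁ : ∀ b ∈ B₁, Itw V (cmp V b) b := fun b hb =>
    itw_of_commute hV (by rw [hVe]; exact commute_of_mem hb heB₁)
  have hcl₀ : CL (cmt (cmp V '' (B : Set (Op H)))) (cmt (cmp V '' (B₁ : Set (Op H)))) (C₁ * δ) :=
    h₁ H K V B.toStarSubalgebra B₁.toStarSubalgebra δ hV (isClosed_vn B) (isClosed_vn B₁) hδ.le
      hcl.1 hcl.2 hB hB₁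
  have hVV : ∀ ξ : H, V (ContinuousLinearMap.adjoint V ξ) = e ξ := fun ξ => by
    rw [← hVe]; rfl
  have hΩ : V (ContinuousLinearMap.adjoint V Ω) = Ω := by rw [hVV, heΩ]
  have htr₀ : Tr (cmt (cmp V '' (B : Set (Op H)))) (ContinuousLinearMap.adjoint V Ω) := by
    refine tr_cmt (Corner.img hV B hB) (fun k => ?_) ?_
    · have h1 : V k ∈ closure ((fun b : Op H => b Ω) '' (B : Set (Op H))) :=
        hcyc _ (by rw [← hVV, hV.adj_app])
      have h2 := map_mem_closure (f := ContinuousLinearMap.adjoint V)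
        (t := (fun x : Op K => x (ContinuousLinearMap.adjoint V Ω)) ''
          (Corner.img hV B hB : Set (Op K))) (ContinuousLinearMap.adjoint V).continuous h1 (by
          rintro _ ⟨b, hb, rfl⟩
          exact ⟨cmp V b, ⟨b, hb, rfl⟩, by simp only [cmp_apply, hΩ]⟩)
      rwa [hV.adj_app] at h2
    · rintro _ ⟨b, hb, rfl⟩
      rw [← hV (star (cmp V b) _), ← hV (cmp V b _), ← (hB b hb).1, ← (hB b hb).2, hΩ]
      exact htr b hb
  obtain ⟨h₀, hh₀, hs⟩ := h₂ K _ _ (C₁ * δ) ⟨_, htr₀⟩ (by positivity) hδ₀ hcl₀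
  refine ⟨ext V h₀, ?_, by rw [← hVe, ← hV.ext_mul, one_mul],
    by rw [← hVe, ← hV.ext_mul, mul_one], fun x hx q hq => ?_⟩
  · calc ‖ext V h₀‖ ≤ C₂ * (C₁ * δ) := (hV.norm_ext_le h₀).trans hh₀
      _ ≤ _ := by
        have : 0 ≤ C₂ * C₁ ^ 2 * δ := by positivity
        nlinarith
  · have e1 : e * x * e = ext V (cmp V x) := by rw [ext_cmp, hVe]
    have e2 : e * q = ext V (cmp V q) := by
      rw [ext_cmp, hVe, mul_assoc, (commute_of_mem hq heB₁).eq, ← mul_assoc, he.isIdempotentElem.eq]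
    rw [e1, e2, Corner.ext_lin hV]
    have h3 := hs _ (Corner.cmp_mem_cmt hB hx) _ (subset_cmt_commutant _ ⟨q, hq, rfl⟩)
    calc ‖ext V (lin h₀ (cmp V x) (cmp V q))‖
        ≤ C₂ * (C₁ * δ) ^ 2 * ‖cmp V x‖ * ‖cmp V q‖ := (hV.norm_ext_le _).trans h3
      _ ≤ C₂ * (C₁ * δ) ^ 2 * ‖x‖ * ‖q‖ := by
        gcongr
        · exact hV.norm_cmp_le x
        · exact hV.norm_cmp_le q
      _ ≤ _ := by
        gcongr ?_ * _ * _
        have : 0 ≤ C₂ * C₁ * δ ^ 2 := by positivity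
        nlinarith

end Crest.Agent.R78
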