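import Crest.Agent.R78.CoreB
import Crest.Agent.R78.Corner

/-! # Row 78: the invariant case -/

set_option autoImplicit false

namespace Crest.Agent.R78

open scoped InnerProductSpace ComplexOrder BigOperators Topology
open Filter
open Crest.Agent.R124 (Op cm)
open Crest.OpAlg (LineCalculus)

universe u

variable {H : Type u} [NormedAddCommGroup H] [InnerProductSpace ℂ H] [CompleteSpace H]

namespace CoreC

section good
variable {K : Type u} [NormedAddCommGroup K] [InnerProductSpace ℂ K] [CompleteSpace K]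
  {I : Type} {l : Filter I} {V : H →L[ℂ] K}

/-- a bounded family that asymptotically intertwines with `a` -/
structure Good (l : Filter I) (V : H →L[ℂ] K) (A : I → Op K) (a : Op H) : Prop where
  bdd : ∃ c : ℝ, ∀ i, ‖A i‖ ≤ c
  app : ∀ ζ, Tendsto (fun i => A i (V ζ)) l (𝓝 (V (a ζ)))
  sapp : ∀ ζ, Tendsto (fun i => star (A i) (V ζ)) l (𝓝 (V (star a ζ)))

omit [CompleteSpace K] in
lemma tendsto_mul_app {A B : I → Op K} {c : ℝ} (hA : ∀ i, ‖A i‖ ≤ c) {v w z : K}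
    (hB : Tendsto (fun i => B i v) l (𝓝 w)) (hA' : Tendsto (fun i => A i w) l (𝓝 z)) :
    Tendsto (fun i => (A i * B i) v) l (𝓝 z) := by
  have h1 : Tendsto (fun i => A i (B i v - w)) l (𝓝 0) := by
    have h2 : Tendsto (fun i => c * ‖B i v - w‖) l (𝓝 0) := by
      simpa using (tendsto_iff_norm_sub_tendsto_zero.1 hB).const_mul c
    refine squeeze_zero_norm (fun i => ?_) h2
    exact ((A i).le_opNorm _).trans (by gcongr; exact hA i)
  have h3 := h1.add hA'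
  rw [zero_add] at h3
  refine h3.congr fun i => ?_
  simp

lemma Good.mul {A B : I → Op K} {a b : Op H} (hA : Good l V A a) (hB : Good l V B b) :
    Good l V (fun i => A i * B i) (a * b) := by
  obtain ⟨c, hc⟩ := hA.bdd
  obtain ⟨c', hc'⟩ := hB.bdd
  refine ⟨⟨c * c', fun i => (norm_mul_le _ _).trans ?_⟩, fun ζ => ?_, fun ζ => ?_⟩
  · exact mul_le_mul (hc i) (hc' i) (norm_nonneg _) ((norm_nonneg _).trans (hc i))
  · exact tendsto_mul_app hc (hB.app ζ) (hA.app (b ζ))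
  · simp only [star_mul]
    exact tendsto_mul_app (c := c') (fun i => by simpa using hc' i) (hA.sapp ζ)
      (hB.sapp (star a ζ))

lemma good_of_itw {A : I → Op K} {a : Op H} {c : ℝ} (hc : ∀ i, ‖A i‖ ≤ c)
    (h : ∀ i, Itw V a (A i)) : Good l V A a :=
  ⟨⟨c, hc⟩, fun ζ => by simp only [(h _).1]; exact tendsto_const_nhds,
    fun ζ => by simp only [(h _).2]; exact tendsto_const_nhds⟩

lemma good_one : Good l V (fun _ => (1 : Op K)) (1 : Op H) :=
  good_of_itw (c := 1) (fun _ => ContinuousLinearMap.norm_id_le) fun _ =>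
    ⟨fun _ => rfl, fun _ => by simp⟩

lemma inner_star_left' (x : Op K) (v w : K) : ⟪star x v, w⟫_ℂ = ⟪v, x w⟫_ℂ := by
  rw [ContinuousLinearMap.star_eq_adjoint, ContinuousLinearMap.adjoint_inner_left]

lemma tri {A B h : I → Op K} {a b : Op H} {R : ℝ} (hA : Good l V A a) (hB : Good l V B b)
    (hh : ∀ i, ‖h i‖ ≤ R) (ξ η : H) :
    Tendsto (fun i => ⟪V η, (A i * h i * B i) (V ξ)⟫_ℂ - ⟪η, (a * cmp V (h i) * b) ξ⟫_ℂ) l
      (𝓝 0) := by
  obtain ⟨c, hc⟩ := hB.bdd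
  have e : ∀ i, ⟪V η, (A i * h i * B i) (V ξ)⟫_ℂ - ⟪η, (a * cmp V (h i) * b) ξ⟫_ℂ =
      ⟪star (A i) (V η) - V (star a η), h i (B i (V ξ))⟫_ℂ +
        ⟪V (star a η), h i (B i (V ξ) - V (b ξ))⟫_ℂ := fun i => by
    have h1 : ⟪η, (a * cmp V (h i) * b) ξ⟫_ℂ = ⟪V (star a η), h i (V (b ξ))⟫_ℂ := by
      rw [← inner_cmp, inner_star_left']; rfl
    have h2 : ⟪V η, (A i * h i * B i) (V ξ)⟫_ℂ = ⟪star (A i) (V η), h i (B i (V ξ))⟫_ℂ := by
      rw [inner_star_left']; rfl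
    rw [h1, h2, inner_sub_left, map_sub, inner_sub_right]
    ring
  simp only [e]
  have t1 : Tendsto (fun i => ‖star (A i) (V η) - V (star a η)‖ * (R * (c * ‖V ξ‖)) +
      ‖V (star a η)‖ * (R * ‖B i (V ξ) - V (b ξ)‖)) l (𝓝 0) := by
    have s1 := (tendsto_iff_norm_sub_tendsto_zero.1 (hA.sapp η)).mul_const (R * (c * ‖V ξ‖))
    have s2 := ((tendsto_iff_norm_sub_tendsto_zero.1 (hB.app ξ)).const_mul R).const_mul
      ‖V (star a η)‖
    simpa using s1.add s2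
  refine squeeze_zero_norm (fun i => (norm_add_le _ _).trans (add_le_add ?_ ?_)) t1
  · refine (norm_inner_le_norm _ _).trans ?_
    have hR : 0 ≤ R := (norm_nonneg _).trans (hh i)
    gcongr
    refine ((h i).le_opNorm _).trans (mul_le_mul (hh i) ?_ (norm_nonneg _) hR)
    exact ((B i).le_opNorm _).trans (by gcongr; exact hc i)
  · refine (norm_inner_le_norm _ _).trans ?_
    gcongr
    exact ((h i).le_opNorm _).trans (by gcongr; exact hh i)

omit [CompleteSpace K] in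
lemma lin_expand (h x p o : Op K) (ho : o = 1) : lin h x p =
    x * o * p - p * o * x + x * h * p - x * p * h * 1 - 1 * h * (p * x) + p * h * x := by
  subst ho
  simp only [lin, cm]; noncomm_ring

lemma tendsto_lin (hV : Iso V) {X P h : I → Op K} {x p : Op H} {R : ℝ} (hX : Good l V X x)
    (hP : Good l V P p) (hh : ∀ i, ‖h i‖ ≤ R) (ξ η : H) :
    Tendsto (fun i => ⟪V η, lin (h i) (X i) (P i) (V ξ)⟫_ℂ - ⟪η, lin (cmp V (h i)) x p ξ⟫_ℂ) l
      (𝓝 0) := by
  have h1 : ∀ _ : I, ‖(1 : Op K)‖ ≤ 1 := fun _ => ContinuousLinearMap.norm_id_le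
  have t1 := tri hX hP h1 ξ η
  have t2 := tri hP hX h1 ξ η
  have t3 := tri hX hP hh ξ η
  have t4 := tri (hX.mul hP) good_one hh ξ η
  have t5 := tri good_one (hP.mul hX) hh ξ η
  have t6 := tri hP hX hh ξ η
  have t := ((((t1.sub t2).add t3).sub t4).sub t5).add t6
  simp only [sub_zero, add_zero] at t
  refine t.congr fun i => ?_
  rw [lin_expand (h i) (X i) (P i) 1 rfl, lin_expand (cmp V (h i)) x p (cmp V 1) hV.cmp_one]
  simp only [add_apply, sub_apply, inner_add_right, inner_sub_right]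
  ring

end good

section avg
variable {U : ℝ → Op H} {s a : Op (Amp ℤ H)} {T : ℝ} {Q : VN H}

lemma exists_bar (hU : URep U) (hs : IsShift s) (ha : IsLog s a) (hQ : ∀ t, Nml (U t) Q)
    {e : Op (Amp ℤ H)} (he : IsStarProjection e) (h1 : ∀ t, e * Dop U a T t = e)
    {y : Op (Amp ℤ H)} (hy : y ∈ Ralg Q U s T) :
    ∃ y' ∈ Balg Q U s a T, e * y' * e = e * y * e ∧ ‖y'‖ ≤ ‖y‖ := by
  have hD := dop_urep hU hs ha T
  obtain ⟨y', hc, hC⟩ := exists_avg hD y
  have h2 : ∀ t, star (Dop U a T t) * e = e := fun t => by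
    have := congrArg star (h1 t)
    rwa [star_mul, he.isSelfAdjoint.star_eq] at this
  refine ⟨y', (mem_balg hU hs ha).2 ⟨?_, hc⟩, ?_, ?_⟩
  · exact hC _ (convex_vn _) (wclosed_vn _) fun t => (dop_nml hU hs ha hQ t y hy).1
  · refine hC _ (convex_eq e e (e * y * e)) (wclosed_eq e e (e * y * e)) fun t => ?_
    show e * (Dop U a T t * y * star (Dop U a T t)) * e = e * y * e
    calc e * (Dop U a T t * y * star (Dop U a T t)) * e
        = (e * Dop U a T t) * y * (star (Dop U a T t) * e) := by noncomm_ring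
      _ = e * y * e := by rw [h1, h2]
  · have := hC _ (convex_ball_op 0 ‖y‖) (wclosed_ball 0 ‖y‖) fun t => by
      show ‖Dop U a T t * y * star (Dop U a T t) - 0‖ ≤ ‖y‖
      rw [sub_zero, CStarRing.norm_mul_mem_unitary _ (Unitary.star_mem (hD.unit t)),
        CStarRing.norm_mem_unitary_mul _ (hD.unit t)]
    simpa using this

end avg

end CoreC

/-- `Q = M'`, `Q₁ = N'` (`cl_comm`), `e` from `exists_fixproj`; for `y ∈ Ralg` the average `ȳ`
(`exists_avg`, `dop_nml`) lies in `Balg`, `e ȳ e = e y e`, `‖ȳ‖ ≤ ‖y‖`.  `corner` for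
`B = Balg Q`, `B₁ = Balg Q₁`, tests `dg x` and the average of `π(p)`; `h = cmp (inj 0) h̃`; for `T`
small `e` almost fixes `inj 0 ζ` for the finitely many relevant `ζ` (`dop_small`);
`solve_of_fin`. -/
theorem ct_inv : CT.{u} HypInv := by
  obtain ⟨C₁, hC₁, hcomm⟩ := cl_comm.{u}
  obtain ⟨C₂, hC₂, hbalg⟩ := balg_cl.{u}
  obtain ⟨C₃, δ₀, hC₃, hδ₀, hcorner⟩ := corner.{u}
  have hK : 1 ≤ C₂ * C₁ := one_le_mul_of_one_le_of_one_le hC₂ hC₁
  refine ⟨C₃ * (C₂ * C₁) ^ 2, δ₀ / (C₂ * C₁), by positivity, by positivity, ?_⟩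
  rintro H _ _ _ M N δ ⟨S, hSM, hN⟩ hδ hδ' hcl
  set U := S.D.wave with hUdef
  have hU : URep U := S.urep
  obtain ⟨s, hs⟩ := exists_shift H
  obtain ⟨a, ha⟩ := exists_log hs.1
  set V : H →L[ℂ] Amp ℤ H := inj (0 : ℤ) with hVdef
  have hV : Iso V := iso_inj 0
  set δ' := C₂ * (C₁ * δ) with hδ'def
  have hδ'0 : 0 < δ' := by positivity
  have hδ'1 : δ' ≤ δ₀ := by
    rw [le_div_iff₀ (by positivity)] at hδ'
    rw [hδ'def]; linarith
  have hcl1 : CL S.M N.commutant (C₁ * δ) := by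
    rw [hSM]; exact hcomm H M N δ hδ.le hcl
  -- the data for each period
  have key : ∀ T : ℝ, ∃ e h : Op (Amp ℤ H), ‖e‖ ≤ 1 ∧ star e = e ∧ ‖h‖ ≤ C₃ * δ' ∧ (0 < T →
      (∀ (ζ : Amp ℤ H) (c : ℝ), (∀ t, ‖Dop U a T t ζ - ζ‖ ≤ c) → ‖e ζ - ζ‖ ≤ c) ∧
      ∀ x ∈ M, ∀ p ∈ N.commutant,
        ‖lin h (e * dg ℤ x * e) (e * (Wop U T * dg ℤ p * star (Wop U T)) * e)‖ ≤
          C₃ * δ' ^ 2 * ‖x‖ * ‖p‖) := by
    intro T
    by_cases hT : 0 < T
    swap
    · exact ⟨0, 0, by simp, by simp, by simpa using by positivity, fun h => absurd h hT⟩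
    have hD := dop_urep hU hs ha T
    obtain ⟨e, he, -, heD, hecomm, hefix⟩ := exists_fixproj hD
    obtain ⟨Ω₀, hΩfix, hΩcyc, hΩtr⟩ := core_trace S hs ha hT
    have hee : e * e = e := he.isIdempotentElem.eq
    have hB : ∀ Q : VN H, e ∈ (Balg Q U s a T).commutant := fun Q =>
      mem_commutant_of fun b hb => hecomm b ((mem_balg hU hs ha).1 hb).2
    have heΩ : e Ω₀ = Ω₀ := by
      have := hefix Ω₀ 0 fun t => by rw [hΩfix t]; simp
      exact sub_eq_zero.1 (norm_le_zero_iff.1 this)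
    have hen : ‖e‖ ≤ 1 := he.norm_le
    obtain ⟨h, hh, -, -, hlin⟩ := hcorner (Amp ℤ H) (Balg S.M U s a T) (Balg N.commutant U s a T)
      e Ω₀ δ' hδ'0 hδ'1
      (hbalg H U s a T S.M N.commutant (C₁ * δ) hU hs ha S.nml hN (by positivity) hcl1)
      he (hB _) (hB _) heΩ (fun ζ hζ => by
        rw [Metric.mem_closure_iff]
        intro ε hε
        obtain ⟨_, ⟨y, hy, rfl⟩, hyε⟩ := Metric.mem_closure_iff.1 (hΩcyc ζ) ε hε
        obtain ⟨y', hy', hyy, -⟩ := CoreC.exists_bar hU hs ha S.nml he heD hy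
        refine ⟨_, ⟨y', hy', rfl⟩, lt_of_le_of_lt ?_ hyε⟩
        have hc : y' * e = e * y' := (commute_of_mem hy' (hB _)).eq
        have h1 : y' Ω₀ = e (y Ω₀) := by
          have h2 : y' * e = e * y * e := by
            rw [← hyy, mul_assoc, hc, ← mul_assoc, hee]
          have h3 := congrArg (fun z : Op (Amp ℤ H) => z Ω₀) h2
          simpa [heΩ] using h3
        rw [dist_eq_norm, dist_eq_norm]
        show ‖ζ - y' Ω₀‖ ≤ ‖ζ - y Ω₀‖
        rw [h1]
        calc ‖ζ - e (y Ω₀)‖ = ‖e (ζ - y Ω₀)‖ := by rw [map_sub, hζ]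
          _ ≤ ‖e‖ * ‖ζ - y Ω₀‖ := e.le_opNorm _
          _ ≤ 1 * ‖ζ - y Ω₀‖ := by gcongr
          _ = _ := one_mul _) hΩtr
    refine ⟨e, h, hen, he.isSelfAdjoint.star_eq, hh, fun _ => ⟨hefix, fun x hx p hp => ?_⟩⟩
    obtain ⟨q, hq, hqq, hqn⟩ := CoreC.exists_bar hU hs ha hN he heD (pi_mem (T := T) hU hs hN hp)
    have hx' : x ∈ S.M.commutant := by
      rw [hSM, VonNeumannAlgebra.commutant_commutant]; exact hx
    have h1 := hlin (dg ℤ x) (dg_mem_balg' hx') q hq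
    have hc : q * e = e * q := (commute_of_mem hq (hB _)).eq
    have h2 : e * q = e * (Wop U T * dg ℤ p * star (Wop U T)) * e := by
      rw [← hqq, mul_assoc, hc, ← mul_assoc, hee]
    rw [h2] at h1
    refine h1.trans ?_
    have h3 : ‖q‖ ≤ ‖p‖ := by
      refine hqn.trans ?_
      rw [CStarRing.norm_mul_mem_unitary _ (Unitary.star_mem (wop_unitary hU T)),
        CStarRing.norm_mem_unitary_mul _ (wop_unitary hU T)]
      exact norm_dg_le p
    have h4 := norm_dg_le (ι := ℤ) x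
    gcongr
  choose e h hen hes hhn hkey using key
  have hge : CoreC.Good (𝓝[>] (0 : ℝ)) V e 1 := by
    have t : ∀ ζ, Tendsto (fun T => e T (V ζ)) (𝓝[>] (0 : ℝ)) (𝓝 (V ζ)) := fun ζ => by
      rw [Metric.tendsto_nhds]
      intro ε hε
      filter_upwards [dop_small hU S.continuous_wave hs ha ζ (half_pos hε), self_mem_nhdsWithin]
        with T hT hT0
      rw [dist_eq_norm]
      exact ((hkey T hT0).1 _ _ hT).trans_lt (half_lt_self hε)
    exact ⟨⟨1, hen⟩, t, fun ζ => by simp only [hes, star_one]; exact t ζ⟩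
  have hmain : ∃ h₀ : Op H, ‖h₀‖ ≤ C₃ * δ' ∧ Solve M N.commutant h₀ (C₃ * δ' ^ 2) := by
    refine solve_of_fin (by positivity) (by positivity) fun F hF η hη => ?_
    have hev : ∀ᶠ T in 𝓝[>] (0 : ℝ), ∀ t ∈ F,
        ‖⟪V t.2.2.2, lin (h T) (e T * dg ℤ t.1 * e T)
            (e T * (Wop U T * dg ℤ t.2.1 * star (Wop U T)) * e T) (V t.2.2.1)⟫_ℂ -
          ⟪t.2.2.2, lin (cmp V (h T)) t.1 t.2.1 t.2.2.1⟫_ℂ‖ ≤ η := by
      rw [Filter.eventually_all_finset]
      rintro ⟨x, p, ξ, ζ⟩ -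
      have hX : CoreC.Good (𝓝[>] (0 : ℝ)) V (fun _ => dg ℤ x) x :=
        CoreC.good_of_itw (c := ‖x‖) (fun _ => norm_dg_le x) fun _ => itw_inj 0 x
      have hP : CoreC.Good (𝓝[>] (0 : ℝ)) V (fun T => Wop U T * dg ℤ p * star (Wop U T)) p :=
        CoreC.good_of_itw (c := ‖p‖) (fun T => by
          rw [CStarRing.norm_mul_mem_unitary _ (Unitary.star_mem (wop_unitary hU T)),
            CStarRing.norm_mem_unitary_mul _ (wop_unitary hU T)]
          exact norm_dg_le p) fun T => itw_pi hU p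
      have hX' := (hge.mul hX).mul hge
      have hP' := (hge.mul hP).mul hge
      rw [one_mul, mul_one] at hX' hP'
      have := (CoreC.tendsto_lin hV hX' hP' hhn ξ ζ).norm
      rw [norm_zero] at this
      exact (this.eventually (ge_mem_nhds hη))
    obtain ⟨T, hT, hT0⟩ := (hev.and self_mem_nhdsWithin).exists
    refine ⟨cmp V (h T), (hV.norm_cmp_le _).trans (hhn T), fun t ht => ?_⟩
    have h1 := hT t ht
    have h2 := (hkey T hT0).2 t.1 (hF t ht).1 t.2.1 (hF t ht).2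
    set L := lin (h T) (e T * dg ℤ t.1 * e T)
      (e T * (Wop U T * dg ℤ t.2.1 * star (Wop U T)) * e T) with hL
    have h3 : ‖⟪V t.2.2.2, L (V t.2.2.1)⟫_ℂ‖ ≤
        C₃ * δ' ^ 2 * ‖t.1‖ * ‖t.2.1‖ * ‖t.2.2.1‖ * ‖t.2.2.2‖ := by
      refine (norm_inner_le_norm _ _).trans ?_
      rw [hV, mul_comm]
      gcongr
      refine (L.le_opNorm _).trans ?_
      rw [hV]
      gcongr
    have h4 := norm_sub_norm_le ⟪t.2.2.2, lin (cmp V (h T)) t.1 t.2.1 t.2.2.1⟫_ℂ
      ⟪V t.2.2.2, L (V t.2.2.1)⟫_ℂ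
    rw [norm_sub_rev] at h4
    linarith
  obtain ⟨h₀, hn, hsol⟩ := hmain
  refine ⟨h₀, hn.trans ?_, hsol.mono (le_of_eq ?_)⟩
  · have : C₂ * C₁ ≤ (C₂ * C₁) ^ 2 := by nlinarith
    calc C₃ * δ' = C₃ * (C₂ * C₁) * δ := by rw [hδ'def]; ring
      _ ≤ _ := by gcongr
  · rw [hδ'def]; ring

end Crest.Agent.R78
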