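import Crest.Agent.R124.All
import Crest.Agent.R84.Calc

/-!
# Row 78, S0103 (strong Kadison–Kastler): definitions

Conventions: `cm a b = a * b - b * a`; inner products are linear in the second slot.
-/

set_option autoImplicit false

namespace Crest.Agent.R78

open scoped InnerProductSpace ComplexOrder BigOperators Topology
open Filter
open Crest.Agent.R124 (Op cm)
open Crest.OpAlg (LineCalculus)

universe u

/-- von Neumann algebras -/
abbrev VN (H : Type*) [NormedAddCommGroup H] [InnerProductSpace ℂ H] [CompleteSpace H] :=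
  VonNeumannAlgebra H

section basic
variable {H : Type*} [NormedAddCommGroup H] [InnerProductSpace ℂ H] [CompleteSpace H]

/-- one-sided near inclusion -/
def Near (A B : Set (Op H)) (δ : ℝ) : Prop := ∀ x ∈ A, ∃ y ∈ B, ‖x - y‖ ≤ δ * ‖x‖

/-- two-sided closeness -/
def CL (M N : VN H) (δ : ℝ) : Prop :=
  Near (M : Set (Op H)) (N : Set (Op H)) δ ∧ Near (N : Set (Op H)) (M : Set (Op H)) δ

/-- the linearised commutator `[x, p] + [x, [h, p]]` -/
noncomputable def lin (h x p : Op H) : Op H := cm x p + cm x (cm h p)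

/-- `h` solves the linearised equation on `M × P` up to `ε` -/
def Solve (M P : VN H) (h : Op H) (ε : ℝ) : Prop :=
  ∀ x ∈ M, ∀ p ∈ P, ‖lin h x p‖ ≤ ε * ‖x‖ * ‖p‖

/-- convergence in the weak operator topology -/
def WL {I : Type*} (l : Filter I) (T : I → Op H) (T₀ : Op H) : Prop :=
  ∀ ξ η : H, Tendsto (fun i => ⟪η, T i ξ⟫_ℂ) l (𝓝 ⟪η, T₀ ξ⟫_ℂ)

/-- weakly closed sets of operators -/
def WClosed (C : Set (Op H)) : Prop :=
  ∀ (l : Filter (Op H)) [l.NeBot] (T₀ : Op H), WL l id T₀ → (∀ᶠ T in l, T ∈ C) → T₀ ∈ C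

/-- `Ω` is cyclic for the set `A` -/
def Cyc (A : Set (Op H)) (Ω : H) : Prop := Dense ((fun x : Op H => x Ω) '' A)

/-- the commutant of `S ∪ S⋆` -/
noncomputable def cmt (S : Set (Op H)) : VN H where
  toStarSubalgebra := StarSubalgebra.centralizer ℂ S
  centralizer_centralizer' := by simp

/-- the conjugate `u M u⋆` (for unitary `u`) -/
noncomputable def cj (u : Op H) (M : VN H) : VN H :=
  cmt ((fun p => u * p * star u) '' (M.commutant : Set (Op H)))

/-- `u` normalises `N` -/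
def Nml (u : Op H) (N : VN H) : Prop := ∀ y ∈ N, u * y * star u ∈ N ∧ star u * y * u ∈ N

/-- unitary element of `M` -/
def UIn (M : VN H) (a : Op H) : Prop := a ∈ M ∧ a ∈ unitary (Op H)

/-- central projection of `M` -/
def ZP (M : VN H) (c : Op H) : Prop := c ∈ M ∧ c ∈ M.commutant ∧ IsStarProjection c

/-- `J x J` -/
noncomputable def jop (J : H ≃ₗᵢ⋆[ℂ] H) (x : Op H) : Op H :=
  LinearMap.mkContinuous
    { toFun := fun ξ => J (x (J ξ))
      map_add' := fun ξ η => by simp only [map_add]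
      map_smul' := fun c ξ => by
        simp only [LinearIsometryEquiv.map_smulₛₗ, map_smul, RingHom.id_apply,
          starRingEnd_self_apply] }
    ‖x‖ (fun ξ => by
      show ‖J (x (J ξ))‖ ≤ ‖x‖ * ‖ξ‖
      rw [J.norm_map]
      simpa only [J.norm_map] using x.le_opNorm (J ξ))

/-- the operator matrix `x` has norm at most `r` -/
def MatB {I K : Type} [Fintype I] [Fintype K] (x : Matrix I K (Op H)) (r : ℝ) : Prop :=
  ∀ α : K → H, ∑ i, ‖∑ j, x i j (α j)‖ ^ 2 ≤ r ^ 2 * ∑ j, ‖α j‖ ^ 2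

/-- a unitary representation of an abelian group -/
structure URep {G : Type*} [AddCommGroup G] (U : G → Op H) : Prop where
  unit : ∀ g, U g ∈ unitary (Op H)
  add : ∀ g g', U (g + g') = U g * U g'

/-- an invariant mean on bounded operator valued functions on `G` -/
structure IsMean {G : Type*} [AddCommGroup G] (μ : (G → Op H) → Op H) : Prop where
  conv : ∀ (f : G → Op H) (R : ℝ), (∀ g, ‖f g‖ ≤ R) → ∀ C : Set (Op H), Convex ℝ C → WClosed C →
    (∀ g, f g ∈ C) → μ f ∈ C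
  add : ∀ (f f' : G → Op H) (R R' : ℝ), (∀ g, ‖f g‖ ≤ R) → (∀ g, ‖f' g‖ ≤ R') →
    μ (fun g => f g + f' g) = μ f + μ f'
  left : ∀ (f : G → Op H) (R : ℝ), (∀ g, ‖f g‖ ≤ R) → ∀ a : Op H, μ (fun g => a * f g) = a * μ f
  right : ∀ (f : G → Op H) (R : ℝ), (∀ g, ‖f g‖ ≤ R) → ∀ a : Op H, μ (fun g => f g * a) = μ f * a
  star : ∀ (f : G → Op H) (R : ℝ), (∀ g, ‖f g‖ ≤ R) → μ (fun g => star (f g)) = star (μ f)
  shift : ∀ (f : G → Op H) (R : ℝ), (∀ g, ‖f g‖ ≤ R) → ∀ g₀, μ (fun g => f (g₀ + g)) = μ f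

end basic

section cmp
variable {H K : Type*} [NormedAddCommGroup H] [InnerProductSpace ℂ H] [CompleteSpace H]
  [NormedAddCommGroup K] [InnerProductSpace ℂ K] [CompleteSpace K]

/-- compression `V⋆ x V` -/
noncomputable def cmp (V : K →L[ℂ] H) (x : Op H) : Op K :=
  (ContinuousLinearMap.adjoint V) ∘L (x ∘L V)

/-- extension by zero `V h V⋆` -/
noncomputable def ext (V : K →L[ℂ] H) (h : Op K) : Op H :=
  V ∘L (h ∘L (ContinuousLinearMap.adjoint V))

/-- `V` is an isometry -/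
def Iso (V : K →L[ℂ] H) : Prop := ∀ k, ‖V k‖ = ‖k‖

/-- `V` intertwines `x₀` and `x`, and their adjoints -/
def Itw (V : K →L[ℂ] H) (x₀ : Op K) (x : Op H) : Prop :=
  (∀ k, x (V k) = V (x₀ k)) ∧ ∀ k, star x (V k) = V (star x₀ k)

end cmp

/-! ## amplification -/

/-- Hilbert sum of copies of `H` -/
abbrev Amp (ι : Type) (H : Type u) [NormedAddCommGroup H] : Type u := lp (fun _ : ι => H) 2

section amp
variable {ι : Type} {H : Type u} [NormedAddCommGroup H] [InnerProductSpace ℂ H] [CompleteSpace H]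

/-- inclusion of the `i`-th summand -/
noncomputable def inj [DecidableEq ι] (i : ι) : H →L[ℂ] Amp ι H :=
  lp.singleContinuousLinearMap ℂ (fun _ : ι => H) 2 i

/-- projection onto the `i`-th summand -/
noncomputable def prj (i : ι) : Amp ι H →L[ℂ] H := lp.evalCLM ℂ (fun _ : ι => H) 2 i

/-- matrix entry -/
noncomputable def ent [DecidableEq ι] (T : Op (Amp ι H)) (i j : ι) : Op H :=
  prj i ∘L (T ∘L inj j)

open Classical in
/-- diagonal operator of a bounded family -/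
noncomputable def dgf (x : ι → Op H) : Op (Amp ι H) :=
  if h : ∃ K : ℝ, 0 ≤ K ∧ ∀ i, ‖x i‖ ≤ K then lp.mapCLM 2 x h.choose_spec.1 h.choose_spec.2 else 0

variable (ι) in
/-- `x ⊗ 1` -/
noncomputable def dg (x : Op H) : Op (Amp ι H) :=
  lp.mapCLM 2 (fun _ : ι => x) (norm_nonneg x) (fun _ => le_rfl)

variable (ι) in
/-- `M ⊗ B(ℓ²(ι))` -/
noncomputable def ampB (M : VN H) : VN (Amp ι H) := cmt (dg ι '' (M.commutant : Set (Op H)))

variable (ι) in
/-- `M ⊗ 1` -/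
noncomputable def dgA (M : VN H) : VN (Amp ι H) := (ampB ι M.commutant).commutant

/-- the operator of a finite matrix -/
noncomputable def ofMat [Fintype ι] [DecidableEq ι] (x : Matrix ι ι (Op H)) : Op (Amp ι H) :=
  ∑ i, ∑ j, inj i ∘L (x i j ∘L prj j)

/-- the bilateral shift -/
def IsShift (s : Op (Amp ℤ H)) : Prop :=
  s ∈ unitary (Op (Amp ℤ H)) ∧ ∀ (f : Amp ℤ H) (k : ℤ), s f k = f (k - 1)

end amp

/-! ## modular data -/

section md
variable {H : Type*} [NormedAddCommGroup H] [InnerProductSpace ℂ H] [CompleteSpace H]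

variable (H) in
/-- the output of Tomita–Takesaki theory (`D = log Δ`) -/
structure MD where
  M : VN H
  Ω : H
  D : LineCalculus H
  J : H ≃ₗᵢ⋆[ℂ] H
  cyc : Cyc (M : Set (Op H)) Ω
  sep : ∀ x ∈ M, x Ω = 0 → x = 0
  J_J : ∀ ξ, J (J ξ) = ξ
  J_Ω : J Ω = Ω
  J_wave : ∀ (t : ℝ) (ξ : H), J (D.wave t ξ) = D.wave t (J ξ)
  wave_Ω : ∀ t : ℝ, D.wave t Ω = Ω
  half : ∀ x ∈ M, D.HalfExp (x Ω) (J (star x Ω))
  flow_mem : ∀ t : ℝ, ∀ x ∈ M, D.wave t * x * D.wave (-t) ∈ M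
  J_mem : ∀ x ∈ M, jop J x ∈ M.commutant
  J_mem' : ∀ y ∈ M.commutant, jop J y ∈ M

/-- Rieffel–van Daele data of a closed real subspace `K`: `P` is the real orthogonal projection
onto `K`, `Q = i P i⁻¹`, `R = P + Q`, `P - Q = J T`, `T = √(R (2 - R))` -/
structure RvD (K : Submodule ℝ H) (P : H → H) (R T : Op H) (J : H ≃ₗᵢ⋆[ℂ] H) : Prop where
  P_mem : ∀ ξ, P ξ ∈ K
  P_orth : ∀ ξ, ∀ k ∈ K, (⟪k, ξ - P ξ⟫_ℂ).re = 0
  R_eq : ∀ ξ, R ξ = P ξ - Complex.I • P (Complex.I • ξ)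
  JT_eq : ∀ ξ, J (T ξ) = P ξ + Complex.I • P (Complex.I • ξ)
  R_nonneg : 0 ≤ R
  R_le : R ≤ 2
  R_inj : ∀ ξ, R ξ = 0 → ξ = 0
  R_inj' : ∀ ξ, (2 - R) ξ = 0 → ξ = 0
  T_eq : T = cfc (fun r : ℝ => √(r * (2 - r))) R
  J_J : ∀ ξ, J (J ξ) = ξ
  J_R : ∀ ξ, J (R ξ) = (2 - R) (J ξ)
  J_T : ∀ ξ, J (T ξ) = T (J ξ)

/-- `D = log ((2 - R) / R)` -/
structure IsLogCalc (R : Op H) (D : LineCalculus H) : Prop where
  cfc_eq : ∀ (g : ℝ → ℂ) (f : BoundedContinuousFunction ℝ ℂ), Continuous g →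
    (∀ v, f v = g (2 / (1 + Real.exp v))) → D.apply f = cfc (fun z : ℂ => g z.re) R
  comm : ∀ t : Op H, Commute t R → ∀ f, Commute t (D.apply f)
  fix : ∀ ξ, R ξ = ξ → ∀ f, D.apply f ξ = f 0 • ξ
  anti : ∀ J : H ≃ₗᵢ⋆[ℂ] H, (∀ ξ, J (R ξ) = (2 - R) (J ξ)) →
    ∀ (t : ℝ) (ξ : H), J (D.wave t ξ) = D.wave t (J ξ)

/-- the closed real subspace generated by the self-adjoint part -/
noncomputable def saSub (M : VN H) (Ω : H) : Submodule ℝ H :=
  (Submodule.span ℝ {ξ | ∃ x ∈ M, IsSelfAdjoint x ∧ ξ = x Ω}).topologicalClosure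

/-- the modular flow on matrices, twisted by the weights `lam` -/
noncomputable def twist {D : Type} (U : ℝ → Op H) (lam : D → ℝ) (t : ℝ) (A : Matrix D D (Op H)) :
    Matrix D D (Op H) := fun i j =>
  Complex.exp (-(Complex.I * (t * Real.log (lam j / lam i) : ℝ))) • (U t * A i j * U (-t))

end md

/-! ## thermal pairs -/

section tp
variable {H : Type*} [NormedAddCommGroup H] [InnerProductSpace ℂ H] [CompleteSpace H]

/-- the channel `g ↦ ∑ lam j • (A i j)⋆ g (A i j)` -/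
noncomputable def chan {D : Type} [Fintype D] (lam : D → ℝ) (A : Matrix D D (Op H)) (g : Op H) :
    Op H := ∑ i, ∑ j, (lam j : ℂ) • (star (A i j) * g * A i j)

/-- a pair of unitary matrices over `M` and over `M'` with a common thermal weight -/
structure TP (M : VN H) where
  D : Type
  [fin : Fintype D]
  [dec : DecidableEq D]
  lam : D → ℝ
  pos : ∀ i, 0 < lam i
  sum : ∑ i, lam i = 1
  A : Matrix D D (Op H)
  B : Matrix D D (Op H)
  A_mem : ∀ i j, A i j ∈ M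
  B_mem : ∀ i j, B i j ∈ M.commutant
  A_unit : A ∈ unitary (Matrix D D (Op H))
  B_unit : B ∈ unitary (Matrix D D (Op H))

attribute [instance] TP.fin TP.dec

namespace TP
variable {M : VN H} (t : TP M)

noncomputable def Φ (g : Op H) : Op H := chan t.lam t.A g
noncomputable def Ψ (g : Op H) : Op H := chan t.lam t.B g
noncomputable def Θ : Op H :=
  ∑ i, ∑ j, ((√(t.lam i * t.lam j) : ℝ) : ℂ) • (star (t.B j i) * t.A i j)

/-- the pairing defect on the vector `ζ` -/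
noncomputable def dfc (ζ : H) : ℝ :=
  √(∑ i, ∑ j, ‖((√(t.lam j) : ℝ) : ℂ) • t.A i j ζ - ((√(t.lam i) : ℝ) : ℂ) • t.B j i ζ‖ ^ 2)

/-- the pairing defect is at most `e` on every central piece of `Ω` -/
def Dfc (Ω : H) (e : ℝ) : Prop := ∀ c, ZP M c → t.dfc (c Ω) ≤ e * ‖c Ω‖

end TP

/-- commutators with `x` are controlled by commutators with the entries of `A` -/
def Read {D : Type} [Fintype D] (lam : D → ℝ) (A : Matrix D D (Op H)) (x : Op H) (K : ℝ) : Prop :=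
  ∀ (g : Op H) (ζ : H), ‖cm g x ζ‖ ^ 2 ≤ K * ∑ i, ∑ j, lam j * ‖cm g (A i j) ζ‖ ^ 2

/-- Cesàro average of the first `n` iterates -/
noncomputable def ces (Φ : Op H → Op H) (n : ℕ) (g : Op H) : Op H :=
  (n : ℂ)⁻¹ • ∑ k ∈ Finset.range n, Φ^[k] g

/-- `w` almost fixes the states produced by thermal pairs of small defect -/
def Fix (M : VN H) (Ω : H) (w : Op H) (e θ : ℝ) : Prop :=
  ∀ t : TP M, t.Dfc Ω e → ∀ c, ZP M c →
    (1 - θ) * ‖c Ω‖ ^ 2 ≤ (⟪c Ω, t.Φ w (c Ω)⟫_ℂ).re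

/-- `w` is within `η` of `U(N) U(N') v` -/
def NearG (N : VN H) (w v : Op H) (η : ℝ) : Prop :=
  ∃ n p, UIn N n ∧ UIn N.commutant p ∧ ‖w - n * p * v‖ ≤ η

end tp

/-! ## the tracial case -/

section fin
variable {H : Type*} [NormedAddCommGroup H] [InnerProductSpace ℂ H] [CompleteSpace H]

/-- cyclic trace vector -/
def Tr (M : VN H) (Ω : H) : Prop :=
  Cyc (M : Set (Op H)) Ω ∧ ∀ x ∈ M, ‖star x Ω‖ = ‖x Ω‖

/-- the conjugation of a cyclic trace vector -/
structure TrJ (M : VN H) (Ω : H) (J : H ≃ₗᵢ⋆[ℂ] H) : Prop where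
  tr : Tr M Ω
  J_J : ∀ ξ, J (J ξ) = ξ
  app : ∀ x ∈ M, J (x Ω) = star x Ω
  app' : ∀ y ∈ M.commutant, J (y Ω) = star y Ω
  mem : ∀ x ∈ M, jop J x ∈ M.commutant
  mem' : ∀ y ∈ M.commutant, jop J y ∈ M

/-- `r` is small on `ball(M) Ω` -/
def Sm (M : VN H) (Ω : H) (r : Op H) (g : ℝ) : Prop := ∀ x ∈ M, ‖r (x Ω)‖ ≤ g * ‖x‖

/-- `r` has norm at most `d`, and `r`, `r⋆` are of size `g` on `ball(M) Ω` -/
def Sm2 (M : VN H) (Ω : H) (r : Op H) (d g : ℝ) : Prop :=
  ‖r‖ ≤ d ∧ Sm M Ω r g ∧ Sm M Ω (star r) g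

/-- vector size of the commutators -/
def Gam (M P : VN H) (Ω : H) (γ : ℝ) : Prop :=
  ∀ x ∈ M, ∀ p ∈ P, ‖cm x p Ω‖ ≤ γ * ‖x‖ * ‖p‖

/-- good approximants -/
structure Apx (M N : VN H) (Ω : H) (d g : ℝ) : Prop where
  toM' : ∀ p ∈ N.commutant, ∃ y ∈ M.commutant, Sm2 M Ω (p - y) (d * ‖p‖) (g * ‖p‖)
  toP : ∀ b, UIn M.commutant b → ∃ q, UIn N.commutant q ∧ Sm2 M Ω (q - b) d g
  toN : ∀ a, UIn M a → ∃ n, UIn N n ∧ Sm2 M Ω (a - n) d g
  gam : ∀ x ∈ M, ∀ p ∈ N.commutant, Sm2 M Ω (cm x p) (d * ‖x‖ * ‖p‖) (g * ‖x‖ * ‖p‖)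

/-- Pauli matrices in `M ∩ N` and their mirror images in `M' ∩ N'` -/
structure Pauli (M N : VN H) (J : H ≃ₗᵢ⋆[ℂ] H) (X Z : Op H) : Prop where
  XM : X ∈ M
  ZM : Z ∈ M
  XN : X ∈ N
  ZN : Z ∈ N
  X_sa : star X = X
  Z_sa : star Z = Z
  XX : X * X = 1
  ZZ : Z * Z = 1
  anti : X * Z = -(Z * X)
  XP : jop J X ∈ N.commutant
  ZP : jop J Z ∈ N.commutant

/-- commutes with the four Pauli matrices -/
def Mod (J : H ≃ₗᵢ⋆[ℂ] H) (X Z h : Op H) : Prop :=
  Commute h X ∧ Commute h Z ∧ Commute h (jop J X) ∧ Commute h (jop J Z)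

/-- a probability vector -/
def Prob {ι : Type} [Fintype ι] (μ : ι → ℝ) : Prop := (∀ i, 0 ≤ μ i) ∧ ∑ i, μ i = 1

/-- the average `∑ μ i • (a i)⋆ g (a i)` -/
noncomputable def av {ι : Type} [Fintype ι] (μ : ι → ℝ) (a : ι → Op H) (g : Op H) : Op H :=
  ∑ i, (μ i : ℂ) • (star (a i) * g * a i)

/-- the Newton increment built from two random unitaries and their approximants -/
noncomputable def incr {ι κ : Type} [Fintype ι] [Fintype κ] (μ : ι → ℝ) (a n : ι → Op H)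
    (ν : κ → ℝ) (b q : κ → Op H) : Op H :=
  ∑ i, ∑ k, ((μ i * ν k : ℝ) : ℂ) • (star (a i * b k) * (n i * q k)) - 1

/-- the convex set of admissible Newton data `(h, G, α, β)` at the point `u`: `N₀` is the original
algebra, `ρ` the scale of all small operators, `γ` their vector size -/
structure Adm (M N₀ : VN H) (Ω : H) (J : H ≃ₗᵢ⋆[ℂ] H) (X Z u : Op H) (C₀ C δ ρ γ : ℝ)
    (h G α β : Op H) : Prop where
  small : Sm2 M Ω h (C * ρ) (C * γ)
  skew : Sm2 M Ω (h + star h) (C * ρ ^ 2) (C * ρ * γ)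
  mod : Mod J X Z h
  α_mem : α ∈ N₀
  β_mem : β ∈ N₀.commutant
  α_le : ‖α‖ ≤ C * ρ
  β_le : ‖β‖ ≤ C * ρ
  G_le : ‖G‖ ≤ ρ
  drift : ‖(1 + h) * u - 1 - G - α - β‖ ≤ C₀ * δ + C * ρ ^ 2

/-- the unitary of the matrix trick, `diag(x y, 1) F diag(y⋆, 1)` with `F` the Hadamard matrix -/
noncomputable def trick (X Z x y : Op H) : Op H :=
  (x * y * ((1 / 2 : ℂ) • (1 + Z)) + (1 / 2 : ℂ) • (1 - Z)) * (((√2)⁻¹ : ℝ) : ℂ) • (X + Z) *
    (star y * ((1 / 2 : ℂ) • (1 + Z)) + (1 / 2 : ℂ) • (1 - Z))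

end fin

/-! ## the discrete core -/

section core
variable {H : Type u} [NormedAddCommGroup H] [InnerProductSpace ℂ H] [CompleteSpace H]

/-- `a` is a self-adjoint logarithm of `s` in the bicommutant of `s` -/
structure IsLog {K : Type*} [NormedAddCommGroup K] [InnerProductSpace ℂ K] [CompleteSpace K]
    (s a : Op K) : Prop where
  sa : IsSelfAdjoint a
  exp_eq : NormedSpace.exp (Complex.I • a) = s
  comm : ∀ t : Op K, Commute t s → Commute t (star s) → Commute t a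

/-- `⊕ U (k T)` -/
noncomputable def Wop (U : ℝ → Op H) (T : ℝ) : Op (Amp ℤ H) := dgf fun k : ℤ => U (k * T)

/-- `exp (i r a)` -/
noncomputable def Eop (a : Op (Amp ℤ H)) (r : ℝ) : Op (Amp ℤ H) :=
  NormedSpace.exp ((Complex.I * r) • a)

/-- the periodic group `D_t` -/
noncomputable def Dop (U : ℝ → Op H) (a : Op (Amp ℤ H)) (T t : ℝ) : Op (Amp ℤ H) :=
  dg ℤ (U t) * (Wop U T * Eop a (-(t / T)) * star (Wop U T)) * Eop a (t / T)

/-- the crossed product of `Q` by `Ad U T` -/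
noncomputable def Ralg (Q : VN H) (U : ℝ → Op H) (s : Op (Amp ℤ H)) (T : ℝ) : VN (Amp ℤ H) :=
  cmt (dg ℤ '' (Q.commutant : Set (Op H)) ∪ {dg ℤ (U T) * s})

/-- its fixed point algebra under `D` -/
noncomputable def Balg (Q : VN H) (U : ℝ → Op H) (s a : Op (Amp ℤ H)) (T : ℝ) : VN (Amp ℤ H) :=
  cmt (dg ℤ '' (Q.commutant : Set (Op H)) ∪ {dg ℤ (U T) * s} ∪ Set.range (Dop U a T))

end core

/-! ## the main statements -/

/-- the linearised problem is solvable for the pairs satisfying `Hyp` -/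
def CT (Hyp : ∀ (H : Type u) [NormedAddCommGroup H] [InnerProductSpace ℂ H] [CompleteSpace H],
    VN H → VN H → Prop) : Prop :=
  ∃ C δ₀ : ℝ, 0 < C ∧ 0 < δ₀ ∧
    ∀ (H : Type u) [NormedAddCommGroup H] [InnerProductSpace ℂ H] [CompleteSpace H]
      (M N : VN H) (δ : ℝ), Hyp H M N → 0 < δ → δ ≤ δ₀ → CL M N δ →
      ∃ h : Op H, ‖h‖ ≤ C * δ ∧ Solve M N.commutant h (C * δ ^ 2)

/-- tracial pairs with Pauli matrices -/
def HypPauli (H : Type u) [NormedAddCommGroup H] [InnerProductSpace ℂ H] [CompleteSpace H]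
    (M N : VN H) : Prop := ∃ Ω J X Z, TrJ M Ω J ∧ Pauli M N J X Z

/-- tracial pairs -/
def HypTr (H : Type u) [NormedAddCommGroup H] [InnerProductSpace ℂ H] [CompleteSpace H]
    (M _N : VN H) : Prop := ∃ Ω, Tr M Ω

/-- the commutant of `N` is invariant under a modular group of the commutant of `M` -/
def HypInv (H : Type u) [NormedAddCommGroup H] [InnerProductSpace ℂ H] [CompleteSpace H]
    (M N : VN H) : Prop := ∃ S : MD H, S.M = M.commutant ∧ ∀ t, Nml (S.D.wave t) N.commutant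

/-- standard position -/
def HypStd (H : Type u) [NormedAddCommGroup H] [InnerProductSpace ℂ H] [CompleteSpace H]
    (M N : VN H) : Prop :=
  TopologicalSpace.SeparableSpace H ∧ ∃ Ω, Cyc ((M : Set (Op H)) ∩ N) Ω ∧
    Cyc ((M.commutant : Set (Op H)) ∩ N.commutant) Ω

/-- separable space -/
def HypSep (H : Type u) [NormedAddCommGroup H] [InnerProductSpace ℂ H] [CompleteSpace H]
    (_M _N : VN H) : Prop := TopologicalSpace.SeparableSpace H

/-- no hypothesis -/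
def HypAll (H : Type u) [NormedAddCommGroup H] [InnerProductSpace ℂ H] [CompleteSpace H]
    (_M _N : VN H) : Prop := True

end Crest.Agent.R78
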