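import Crest.Agent.R78.Glob
import Crest.Agent.R78.Apx

/-! # Row 78: the Newton step in the vector seminorm -/

set_option autoImplicit false

namespace Crest.Agent.R78

open scoped InnerProductSpace ComplexOrder BigOperators Topology
open Filter
open Crest.Agent.R124 (Op cm)
open Crest.OpAlg (LineCalculus)

universe u

variable {H : Type u} [NormedAddCommGroup H] [InnerProductSpace ℂ H] [CompleteSpace H]

namespace Drift

lemma commute_star {h t : Op H} (ht : star t = t) (hc : Commute h t) : Commute (star h) t := by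
  have := congrArg star hc.eq
  rw [star_mul, star_mul, ht] at this
  exact this.symm

lemma sa_unitary {s : Op H} (h1 : star s = s) (h2 : s * s = 1) : s ∈ unitary (Op H) := by
  rw [Unitary.mem_iff, h1]; exact ⟨h2, h2⟩

lemma twirl1 {N : VN H} {s α : Op H} (h1 : star s = s) (h2 : s * s = 1) (hs : s ∈ N)
    (hα : α ∈ N) : ∃ α' ∈ N, Commute α' s ∧ (∀ t, Commute α t → s * t = -(t * s) → Commute α' t) ∧
      ∀ c, Commute c s → ‖c - α'‖ ≤ ‖c - α‖ := by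
  have hu := sa_unitary h1 h2
  refine ⟨(1 / 2 : ℂ) • (α + s * α * s), smul_mem_vn _ (add_mem hα (mul_mem (mul_mem hs hα) hs)),
    ?_, ?_, ?_⟩
  · refine Commute.smul_left ?_ _
    show (α + s * α * s) * s = s * (α + s * α * s)
    calc (α + s * α * s) * s = α * s + s * α * (s * s) := by noncomm_ring
      _ = s * α + (s * s) * α * s := by rw [h2]; noncomm_ring
      _ = _ := by noncomm_ring
  · intro t ht hst
    refine Commute.smul_left (ht.add_left ?_) _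
    show s * α * s * t = t * (s * α * s)
    have h3 : t * s = -(s * t) := by rw [hst, neg_neg]
    calc s * α * s * t = s * α * (s * t) := by noncomm_ring
      _ = -(s * (α * t) * s) := by rw [hst]; noncomm_ring
      _ = -(s * t) * α * s := by rw [ht.eq]; noncomm_ring
      _ = _ := by rw [← h3]; noncomm_ring
  · intro c hc
    have e : c - (1 / 2 : ℂ) • (α + s * α * s) = (1 / 2 : ℂ) • ((c - α) + s * (c - α) * s) := by
      have : s * c * s = c := by rw [← hc.eq, mul_assoc, h2, mul_one]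
      rw [mul_sub, sub_mul, this]
      module
    rw [e, norm_smul]
    have h4 : ‖s * (c - α) * s‖ = ‖c - α‖ := by
      rw [CStarRing.norm_mul_mem_unitary _ hu, CStarRing.norm_mem_unitary_mul _ hu]
    have h5 := norm_add_le (c - α) (s * (c - α) * s)
    have h6 : ‖(1 / 2 : ℂ)‖ = 1 / 2 := by simp
    rw [h6]; linarith

lemma twirl2 {N : VN H} {X Z α : Op H} (hX1 : star X = X) (hX2 : X * X = 1) (hZ1 : star Z = Z)
    (hZ2 : Z * Z = 1) (hXZ : X * Z = -(Z * X)) (hX : X ∈ N) (hZ : Z ∈ N) (hα : α ∈ N) :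
    ∃ α' ∈ N, Commute α' X ∧ Commute α' Z ∧
      ∀ c, Commute c X → Commute c Z → ‖c - α'‖ ≤ ‖c - α‖ := by
  obtain ⟨a, ha, h1, -, h3⟩ := twirl1 hZ1 hZ2 hZ hα
  obtain ⟨b, hb, k1, k2, k3⟩ := twirl1 hX1 hX2 hX ha
  exact ⟨b, hb, k1, k2 Z h1 hXZ, fun c hc hc' => (k3 c hc).trans (h3 c hc')⟩

lemma norm_skew_le (a : Op H) : ‖(1 / 2 : ℂ) • (a - star a)‖ ≤ ‖a‖ := by
  rw [norm_smul]
  have h5 := norm_sub_le a (star a)
  have h6 : ‖(1 / 2 : ℂ)‖ = 1 / 2 := by simp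
  rw [norm_star] at h5
  rw [h6]; linarith

lemma star_skew (a : Op H) :
    star ((1 / 2 : ℂ) • (a - star a)) = -((1 / 2 : ℂ) • (a - star a)) := by
  rw [star_smul, star_sub, star_star]
  have : star (1 / 2 : ℂ) = 1 / 2 := by simp
  rw [this]; module

lemma commute_skew {a t : Op H} (ht : star t = t) (h : Commute a t) :
    Commute t ((1 / 2 : ℂ) • (a - star a)) :=
  ((h.sub_left (commute_star ht h)).smul_left _).symm

/-- a unitary of `N` close to `1 + ` the skew part of `a` -/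
lemma exists_uin_skew {N : VN H} {a : Op H} (ha : a ∈ N) {ρ : ℝ} (hρ : ρ ≤ 1 / 8) (h : ‖a‖ ≤ ρ) :
    ∃ n, UIn N n ∧ ‖n - (1 + (1 / 2 : ℂ) • (a - star a))‖ ≤ 3 * ρ ^ 2 ∧
      ∀ t : Op H, star t = t → Commute a t → Commute n t := by
  obtain ⟨n, hn, h1, h2, h3⟩ := exists_unitary_skew (k := (1 / 2 : ℂ) • (a - star a)) (η := 0) hρ
    ((norm_skew_le a).trans h) (by rw [star_skew]; simp)
  refine ⟨n, ⟨h2 N (smul_mem_vn _ (sub_mem ha (star_mem ha))), hn⟩, by simpa using h1, ?_⟩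
  intro t ht hc
  refine (h3 t (commute_skew ht hc) ?_).symm
  rw [star_skew]; exact (commute_skew ht hc).neg_right

lemma gam_mono {M P : VN H} {Ω : H} {γ γ' : ℝ} (h : Gam M P Ω γ) (hγ : γ ≤ γ') :
    Gam M P Ω γ' := fun x hx p hp => (h x hx p hp).trans (by gcongr)

lemma cm_le_of_sm {M : VN H} {Ω : H} {E x : Op H} {g : ℝ} (h : Sm M Ω E g) (hg : 0 ≤ g)
    (hx : x ∈ M) : ‖cm x E Ω‖ ≤ 2 * g * ‖x‖ := by
  have h1 : ‖x (E Ω)‖ ≤ ‖x‖ * g := (x.le_opNorm _).trans (by gcongr; exact h.vac hg)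
  have h2 := h x hx
  have : cm x E Ω = x (E Ω) - E (x Ω) := rfl
  rw [this]
  refine (norm_sub_le _ _).trans ?_
  linarith

lemma Mod.mul {J : H ≃ₗᵢ⋆[ℂ] H} {X Z a b : Op H} (ha : Mod J X Z a) (hb : Mod J X Z b) :
    Mod J X Z (a * b) :=
  ⟨ha.1.mul_left hb.1, ha.2.1.mul_left hb.2.1, ha.2.2.1.mul_left hb.2.2.1,
    ha.2.2.2.mul_left hb.2.2.2⟩

end Drift

/-- from the increment to a unitary: `hₛ = (h - h⋆)/2`, `v = (1 + hₛ) r` (`exists_polar_near`);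
`v - 1 - h` is negligible; `v p v⋆ = p + [h, p] +` negligible -/
theorem exists_unitary_incr : ∃ C ρ₀ : ℝ, 0 < C ∧ 0 < ρ₀ ∧ ∀ (H : Type u) [NormedAddCommGroup H] [InnerProductSpace ℂ H] [CompleteSpace H] (M N : VN H) (Ω : H)
    (J : H ≃ₗᵢ⋆[ℂ] H) (X Z h : Op H) (ρ γ ε : ℝ), TrJ M Ω J → Pauli M N J X Z → 0 ≤ ρ → ρ ≤ ρ₀ →
    0 ≤ γ → 0 ≤ ε → Apx M N Ω ρ γ → Mod J X Z h → Sm2 M Ω h ρ γ →
    Sm2 M Ω (h + star h) (ρ ^ 2) (ρ * γ) →
    (∀ x ∈ M, ∀ p ∈ N.commutant, ‖lin h x p Ω‖ ≤ ε * ‖x‖ * ‖p‖) →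
    ∃ v ∈ unitary (Op H), Mod J X Z v ∧ ‖v - (1 + h)‖ ≤ C * ρ ^ 2 ∧
      Gam M (cj v N).commutant Ω (ε + C * ρ * γ) := by
  refine ⟨60, 1 / 2, by norm_num, by norm_num, ?_⟩
  intro H _ _ _ M N Ω J X Z h ρ γ ε hJ hP hρ hρ1 hγ hε hA hm hh hsk hlin
  set k : Op H := (1 / 2 : ℂ) • (h - star h) with hk
  have hks : star k = -k := Drift.star_skew h
  have hkn : ‖k‖ ≤ ρ := (Drift.norm_skew_le h).trans hh.1
  have hkS : Sm M Ω k γ := by
    have := (hh.2.1.sub hh.2.2).smul (1 / 2 : ℂ)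
    refine this.mono (le_of_eq ?_)
    have h6 : ‖(1 / 2 : ℂ)‖ = 1 / 2 := by simp
    rw [h6]; ring
  have hkk : ‖k * k‖ ≤ ρ * ρ := (norm_mul_le _ _).trans (by gcongr)
  have e1 : star (1 + k) * (1 + k) - 1 = -(k * k) := by
    rw [star_add, star_one, hks]; noncomm_ring
  have e2 : (1 + k) * star (1 + k) - 1 = -(k * k) := by
    rw [star_add, star_one, hks]; noncomm_ring
  obtain ⟨r, f, hr, hv, hf, hrf, hrc⟩ := exists_polar_near (y := 1 + k)
    (by rw [e1, norm_neg]; nlinarith) (by rw [e2, norm_neg]; nlinarith)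
  have hcom : ∀ t : Op H, Commute t k → Commute t r := by
    intro t ht
    refine hrc t ?_
    have : star (1 + k) * (1 + k) = 1 - k * k := by rw [sub_eq_iff_eq_add] at e1; rw [e1]; abel
    rw [this]
    exact (Commute.one_right t).sub_right (ht.mul_right ht)
  rw [e1] at hrf
  set v : Op H := (1 + k) * r with hvd
  set w : Op H := v - (1 + h) with hw
  have hw1 : w = -((1 + k) * f * k) * k - (1 / 2 : ℂ) • (h + star h) := by
    have : r = 1 + f * -(k * k) := by rw [← hrf]; abel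
    have e3 : h = k + (1 / 2 : ℂ) • (h + star h) := by rw [hk]; module
    calc w = (1 + k) * (1 + f * -(k * k)) - (1 + (k + (1 / 2 : ℂ) • (h + star h))) := by
          rw [← this, ← e3]
      _ = _ := by noncomm_ring
  have hw2 : star w = -((1 - k) * f * k) * k - (1 / 2 : ℂ) • (h + star h) := by
    have : r = 1 + f * -(k * k) := by rw [← hrf]; abel
    have e3 : star h = -k + (1 / 2 : ℂ) • (h + star h) := by rw [hk]; module
    have e4 : star v = (1 - k) * r := by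
      rw [hvd, star_mul, hr.star_eq, star_add, star_one, hks, ← sub_eq_add_neg]
      exact ((Commute.one_left r).sub_left (hcom k (Commute.refl k))).eq.symm
    calc star w = (1 - k) * (1 + f * -(k * k)) - (1 + (-k + (1 / 2 : ℂ) • (h + star h))) := by
          rw [← this, ← e3, hw, star_sub, e4, star_add, star_one]
      _ = _ := by noncomm_ring
  have h6 : ‖(1 / 2 : ℂ)‖ = 1 / 2 := by simp
  have hone : ‖(1 : Op H)‖ ≤ 1 := ContinuousLinearMap.norm_id_le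
  have ha1 : ‖-((1 + k) * f * k)‖ ≤ 3 * ρ := by
    rw [norm_neg]
    have : ‖1 + k‖ ≤ 3 / 2 := (norm_add_le _ _).trans (by linarith)
    calc ‖(1 + k) * f * k‖ ≤ ‖1 + k‖ * ‖f‖ * ‖k‖ := norm_mul₃_le
      _ ≤ 3 / 2 * 2 * ρ := by gcongr
      _ = 3 * ρ := by ring
  have ha2 : ‖-((1 - k) * f * k)‖ ≤ 3 * ρ := by
    rw [norm_neg]
    have : ‖1 - k‖ ≤ 3 / 2 := (norm_sub_le _ _).trans (by linarith)
    calc ‖(1 - k) * f * k‖ ≤ ‖1 - k‖ * ‖f‖ * ‖k‖ := norm_mul₃_le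
      _ ≤ 3 / 2 * 2 * ρ := by gcongr
      _ = 3 * ρ := by ring
  have hργ : 0 ≤ ρ * γ := by positivity
  have hwn : ‖w‖ ≤ 4 * ρ ^ 2 := by
    rw [hw1]
    refine (norm_sub_le _ _).trans ?_
    have b1 : ‖-((1 + k) * f * k) * k‖ ≤ 3 * ρ * ρ := (norm_mul_le _ _).trans (by gcongr)
    have b2 := hsk.1
    rw [norm_smul, h6]
    nlinarith
  have hwS : Sm M Ω w (4 * (ρ * γ)) := by
    rw [hw1]
    refine ((hkS.left _).sub (hsk.2.1.smul _)).mono ?_
    have : ‖-((1 + k) * f * k)‖ * γ ≤ 3 * ρ * γ := by gcongr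
    rw [h6]; nlinarith
  have hwS' : Sm M Ω (star w) (4 * (ρ * γ)) := by
    rw [hw2]
    refine ((hkS.left _).sub (hsk.2.1.smul _)).mono ?_
    have : ‖-((1 - k) * f * k)‖ * γ ≤ 3 * ρ * γ := by gcongr
    rw [h6]; nlinarith
  have hmod : ∀ t : Op H, star t = t → Commute h t → Commute v t := by
    intro t ht hc
    have h1 := Drift.commute_skew ht hc
    exact (((Commute.one_right t).add_right h1).mul_right (hcom t h1)).symm
  refine ⟨v, hv, ⟨hmod X hP.X_sa hm.1, hmod Z hP.Z_sa hm.2.1,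
    hmod _ (by rw [← jop_star hJ.J_J, hP.X_sa]) hm.2.2.1,
    hmod _ (by rw [← jop_star hJ.J_J, hP.Z_sa]) hm.2.2.2⟩, hwn.trans (by nlinarith), ?_⟩
  intro x hx p' hp'
  rw [cj_commutant hv, mem_cj hv] at hp'
  set p : Op H := star v * p' * v with hp
  have hpn : ‖p‖ = ‖p'‖ := by
    rw [hp, CStarRing.norm_mul_mem_unitary _ hv,
      CStarRing.norm_mem_unitary_mul _ (Unitary.star_mem hv)]
  have hpp : p' = v * p * star v := by
    have h1 : v * star v = 1 := Unitary.mul_star_self_of_mem hv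
    calc p' = (v * star v) * p' * (v * star v) := by rw [h1, one_mul, mul_one]
      _ = _ := by rw [hp]; simp only [mul_assoc]
  obtain ⟨y, hy, hpy⟩ := hA.toM' p hp'
  have hyn : ‖y‖ ≤ 2 * ‖p‖ := by
    have h1 : ‖y‖ ≤ ‖p‖ + ‖p - y‖ := by
      calc ‖y‖ = ‖p - (p - y)‖ := by rw [sub_sub_cancel]
        _ ≤ _ := norm_sub_le _ _
    have h2 := hpy.1
    have h3 : ρ * ‖p‖ ≤ 1 * ‖p‖ := by gcongr; linarith
    linarith
  set E : Op H := w * y + w * (p - y) + p * ((h + star h) + star w) +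
    ((h + w) * p) * (star h + star w) with hE
  have hvw : v = 1 + h + w := by rw [hw]; abel
  have hE1 : cm x p' = lin h x p + cm x E := by
    rw [hpp, hvw, hE, star_add, star_add, star_one]
    simp only [lin, cm]
    noncomm_ring
  have hES : Sm M Ω E (30 * (ρ * γ) * ‖p‖) := by
    refine ((((hwS.right' hJ (by positivity) hy).add (hpy.2.1.left w)).add
      ((hsk.2.1.add hwS').left p)).add ((hh.2.2.add hwS').left _)).mono ?_
    have b1 : 4 * (ρ * γ) * ‖y‖ ≤ 4 * (ρ * γ) * (2 * ‖p‖) := by gcongr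
    have b2 : ‖w‖ * (γ * ‖p‖) ≤ (2 * ρ) * (γ * ‖p‖) := by gcongr; nlinarith
    have b3 : ‖(h + w) * p‖ ≤ 3 * ρ * ‖p‖ := by
      refine (norm_mul_le _ _).trans ?_
      gcongr
      have := hh.1
      refine (norm_add_le _ _).trans ?_
      nlinarith
    have b4 : ‖(h + w) * p‖ * (γ + 4 * (ρ * γ)) ≤ (3 * ρ * ‖p‖) * (3 * γ) := by
      gcongr; nlinarith
    have b5 : 0 ≤ ρ * γ * ‖p‖ := by positivity
    nlinarith
  rw [hE1, add_apply, ← hpn]
  refine (norm_add_le _ _).trans ?_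
  have b1 := hlin x hx p hp'
  have b2 := Drift.cm_le_of_sm hES (by positivity) hx
  nlinarith

/-- gauge fixing: take skew parts, twirl `α` over `X, Z` and `β` over `JXJ, JZJ`,
`exists_unitary_skew`, `u' = v n⋆ p⋆` -/
theorem gauge : ∃ C ρ₀ : ℝ, 0 < C ∧ 0 < ρ₀ ∧ ∀ (H : Type u) [NormedAddCommGroup H] [InnerProductSpace ℂ H] [CompleteSpace H] (M N₀ : VN H) (J : H ≃ₗᵢ⋆[ℂ] H)
    (X Z v α β : Op H) (ρ r : ℝ), (∀ ξ, J (J ξ) = ξ) → Pauli M N₀ J X Z → 0 ≤ ρ → ρ ≤ ρ₀ →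
    v ∈ unitary (Op H) → Mod J X Z v → α ∈ N₀ → β ∈ N₀.commutant → ‖α‖ ≤ ρ → ‖β‖ ≤ ρ → r ≤ ρ →
    ‖v - 1 - α - β‖ ≤ r →
    ∃ u' ∈ unitary (Op H), Mod J X Z u' ∧ ‖u' - 1‖ ≤ r + C * ρ ^ 2 ∧ cj u' N₀ = cj v N₀ := by
  refine ⟨15, 1 / 8, by norm_num, by norm_num, ?_⟩
  intro H _ _ _ M N₀ J X Z v α β ρ r hJ hP hρ hρ1 hv hm hα hβ hαn hβn hr h
  have hX1 : star (jop J X) = jop J X := by rw [← jop_star hJ, hP.X_sa]
  have hZ1 : star (jop J Z) = jop J Z := by rw [← jop_star hJ, hP.Z_sa]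
  obtain ⟨a, ha, haX, haZ, hac⟩ :=
    Drift.twirl2 hP.X_sa hP.XX hP.Z_sa hP.ZZ hP.anti hP.XN hP.ZN hα
  obtain ⟨b, hb, hbX, hbZ, hbc⟩ := Drift.twirl2 (N := N₀.commutant) hX1
    (by rw [← jop_mul hJ, hP.XX, jop_one hJ]) hZ1 (by rw [← jop_mul hJ, hP.ZZ, jop_one hJ])
    (by rw [← jop_mul hJ, hP.anti, jop_neg, jop_mul hJ]) hP.XP hP.ZP hβ
  have han : ‖a‖ ≤ ρ := by
    have := hac 0 (Commute.zero_left _) (Commute.zero_left _)
    simp only [zero_sub, norm_neg] at this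
    exact this.trans hαn
  have hbn : ‖b‖ ≤ ρ := by
    have := hbc 0 (Commute.zero_left _) (Commute.zero_left _)
    simp only [zero_sub, norm_neg] at this
    exact this.trans hβn
  have h1 : ‖v - 1 - a - b‖ ≤ r := by
    refine (hbc (v - 1 - a) ?_ ?_).trans ?_
    · exact (hm.2.2.1.sub_left (Commute.one_left _)).sub_left (commute_of_mem ha hP.XP)
    · exact (hm.2.2.2.sub_left (Commute.one_left _)).sub_left (commute_of_mem ha hP.ZP)
    rw [sub_right_comm]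
    refine (hac (v - 1 - β) ?_ ?_).trans ?_
    · exact (hm.1.sub_left (Commute.one_left _)).sub_left (commute_of_mem hP.XN hβ).symm
    · exact (hm.2.1.sub_left (Commute.one_left _)).sub_left (commute_of_mem hP.ZN hβ).symm
    rw [sub_right_comm]; exact h
  have hv1 : ‖v - 1‖ ≤ 3 * ρ := by
    calc ‖v - 1‖ = ‖(v - 1 - a - b) + a + b‖ := by congr 1; abel
      _ ≤ _ := norm_add₃_le
      _ ≤ _ := by linarith
  obtain ⟨n, hn, hn1, hn2⟩ := Drift.exists_uin_skew ha hρ1 han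
  obtain ⟨p, hp, hp1, hp2⟩ := Drift.exists_uin_skew hb hρ1 hbn
  set a' : Op H := (1 / 2 : ℂ) • (a - star a) with ha'
  set b' : Op H := (1 / 2 : ℂ) • (b - star b) with hb'
  have ha'n : ‖a'‖ ≤ ρ := (Drift.norm_skew_le a).trans han
  have hb'n : ‖b'‖ ≤ ρ := (Drift.norm_skew_le b).trans hbn
  have h6 : ‖(1 / 2 : ℂ)‖ = 1 / 2 := by simp
  have hone : ‖(1 : Op H)‖ ≤ 1 := ContinuousLinearMap.norm_id_le
  have h2 : ‖v - 1 - a' - b'‖ ≤ r + 5 * ρ ^ 2 := by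
    have e : v - 1 - a' - b' = (1 / 2 : ℂ) • ((v - 1 - a - b) - star (v - 1 - a - b)) +
        (1 / 2 : ℂ) • ((v - 1) + star (v - 1)) := by
      rw [ha', hb']; simp only [star_sub]; module
    rw [e]
    refine (norm_add_le _ _).trans ?_
    have b1 := (Drift.norm_skew_le (v - 1 - a - b)).trans h1
    have b2 := norm_add_star_le hv
    have b3 : ‖v - 1‖ ^ 2 ≤ (3 * ρ) ^ 2 := by gcongr
    rw [norm_smul (1 / 2 : ℂ) ((v - 1) + star (v - 1)), h6]
    nlinarith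
  have hpn : p * n ∈ unitary (Op H) := mul_mem hp.2 hn.2
  have hmod : ∀ t : Op H, star t = t → Commute v t → Commute a t → Commute b t →
      Commute (v * star (p * n)) t := fun t ht h1 h2 h3 =>
    h1.mul_left (Drift.commute_star ht ((hp2 t ht h3).mul_left (hn2 t ht h2)))
  refine ⟨v * star (p * n), mul_mem hv (Unitary.star_mem hpn), ⟨?_, ?_, ?_, ?_⟩, ?_, ?_⟩
  · exact hmod X hP.X_sa hm.1 haX (commute_of_mem hP.XN hb).symm
  · exact hmod Z hP.Z_sa hm.2.1 haZ (commute_of_mem hP.ZN hb).symm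
  · exact hmod _ hX1 hm.2.2.1 (commute_of_mem ha hP.XP) hbX
  · exact hmod _ hZ1 hm.2.2.2 (commute_of_mem ha hP.ZP) hbZ
  · have e : v * star (p * n) - 1 = (v - p * n) * star (p * n) := by
      rw [sub_mul, Unitary.mul_star_self_of_mem hpn]
    rw [e, CStarRing.norm_mul_mem_unitary _ (Unitary.star_mem hpn)]
    have e2 : v - p * n = (v - 1 - a' - b') - (b' * a' + (p - (1 + b')) * n +
        (1 + b') * (n - (1 + a'))) := by noncomm_ring
    rw [e2]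
    refine (norm_sub_le _ _).trans ?_
    have b1 : ‖b' * a'‖ ≤ ρ * ρ := (norm_mul_le _ _).trans (by gcongr)
    have b2 : ‖(p - (1 + b')) * n‖ ≤ 3 * ρ ^ 2 := by
      rw [CStarRing.norm_mul_mem_unitary _ hn.2]; exact hp1
    have b3 : ‖(1 + b') * (n - (1 + a'))‖ ≤ 2 * (3 * ρ ^ 2) := by
      refine (norm_mul_le _ _).trans ?_
      gcongr
      exact (norm_add_le _ _).trans (by linarith)
    have b4 := norm_add₃_le (a := b' * a') (b := (p - (1 + b')) * n)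
      (c := (1 + b') * (n - (1 + a')))
    nlinarith
  · rw [← cj_mul hv (Unitary.star_mem hpn),
      cj_of_nml (Unitary.star_mem hpn) (hp.nml'.mul hn.nml).star]

/-- `CL M (cj u N₀) (5ρ)`; `exists_apx`, `glob`, `ext_tests`, `exists_unitary_incr`; the central
`z` is `δ ρ`-close to `N₀`; `gauge` for `v u` -/
theorem newton_vec : ∃ C₀ C ρ₀ : ℝ, 0 < C₀ ∧ 0 < C ∧ 0 < ρ₀ ∧ ∀ (H : Type u) [NormedAddCommGroup H] [InnerProductSpace ℂ H] [CompleteSpace H]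
    (M N₀ : VN H) (Ω : H) (J : H ≃ₗᵢ⋆[ℂ] H) (X Z u : Op H) (δ ρ γ : ℝ),
    TrJ M Ω J → Pauli M N₀ J X Z → u ∈ unitary (Op H) → Mod J X Z u → 0 < δ → δ ≤ ρ → ρ ≤ ρ₀ →
    CL M N₀ δ → ‖u - 1‖ ≤ ρ → 0 < γ →
    Gam M (cj u N₀).commutant Ω γ → ∀ n : ℕ, 1 ≤ n →
    ∃ u' ∈ unitary (Op H), Mod J X Z u' ∧ ‖u' - 1‖ ≤ C₀ * δ + C * ρ ^ 2 ∧
      Gam M (cj u' N₀).commutant Ω (C * (1 / √n + n * ρ) * γ) := by
  obtain ⟨Ca, da, hCa, hda, hA⟩ := exists_apx.{u}
  set L : ℝ := 5 * Ca with hL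
  have hL1 : 1 ≤ L := by linarith
  obtain ⟨C₀, Cg, ρg, hC₀, hCg, hρg, hG⟩ := glob.{u} L hL1
  obtain ⟨Ce, hCe, hE⟩ := ext_tests.{u}
  obtain ⟨Ci, ρi, hCi, hρi, hI⟩ := exists_unitary_incr.{u}
  obtain ⟨Cj, ρj, hCj, hρj, hJg⟩ := gauge.{u}
  set K : ℝ := L + Cg with hK
  have hK1 : 1 ≤ K := by linarith
  set K' : ℝ := Ci * K ^ 2 + C₀ + Cg + 2 with hK'
  have hK'0 : 0 < K' := by positivity
  refine ⟨C₀, (Ci * K ^ 2 + Cg + 1 + Cj * K' ^ 2) + (Ce * (Cg + L * L + 2 * (Cg * L)) + Ci * K ^ 2),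
    min (1 / L) (min (da / 5) (min ρg (min (ρi / K) (ρj / K')))), hC₀, by positivity,
    by positivity, ?_⟩
  intro H _ _ _ M N₀ Ω J X Z u δ ρ γ hJ hP hu hm hδ hδρ hρ₀ hcl hu1 hγ hgam n hn
  simp only [le_min_iff] at hρ₀
  obtain ⟨r1, r2, r3, r4, r5⟩ := hρ₀
  rw [le_div_iff₀ (by positivity)] at r1 r2 r4 r5
  have hρ : 0 < ρ := by linarith
  have hρ1 : ρ ≤ 1 := by nlinarith
  have hcl' : CL M (cj u N₀) (5 * ρ) := by
    refine (hcl.trans (cl_cj hu N₀) hδ.le (by positivity)).mono ?_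
    have : δ * (2 * ‖u - 1‖) ≤ 1 * (2 * ρ) := by gcongr; linarith
    linarith
  have hapx : Apx M (cj u N₀) Ω (L * ρ) (L * γ) :=
    (hA H M (cj u N₀) Ω J (5 * ρ) γ hJ (by positivity) (by linarith) hγ hcl' hgam).mono
      (le_of_eq (by rw [hL]; ring)) (by rw [hL]; nlinarith)
  obtain ⟨h, z, α, β, had, hzM, -, htest⟩ :=
    hG H M N₀ Ω J X Z u δ ρ γ hJ hP hu hm hδ hδρ r3 hcl hu1 hγ hapx n hn
  have hP' := hP.cj hu hm
  have hn0 : (1 : ℝ) ≤ n := by exact_mod_cast hn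
  set θ : ℝ := 1 / √n + n * ρ with hθ
  have hρθ : ρ ≤ θ := by
    have : 0 ≤ 1 / √(n : ℝ) := by positivity
    nlinarith
  have hθ0 : 0 ≤ θ := by linarith
  have hlin := hE H M (cj u N₀) Ω J X Z h (L * ρ) (L * γ) (Cg * ρ) (Cg * γ) (Cg * θ * γ) hJ hP'
    (by positivity) (by linarith) (by positivity) (by positivity) (by positivity) hapx had.mod
    had.small htest
  have hKK : Cg ≤ K ^ 2 := by nlinarith
  obtain ⟨v, hv, hvm, hv1, hvg⟩ := hI H M (cj u N₀) Ω J X Z h (K * ρ) (K * γ) _ hJ hP'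
    (by positivity) (by linarith) (by positivity) (by positivity)
    (hapx.mono (by gcongr; linarith) (by gcongr; linarith)) had.mod
    (had.small.mono (by gcongr; linarith) (by gcongr; linarith))
    (had.skew.mono (by rw [mul_pow]; gcongr) (by
      calc Cg * ρ * γ ≤ K ^ 2 * ρ * γ := by gcongr
        _ = _ := by ring)) hlin
  rw [cj_mul hv hu] at hvg
  obtain ⟨z₀, hz₀, hzz⟩ := hcl.1 z hzM
  have hzz' : ‖z - z₀‖ ≤ ρ ^ 2 := hzz.trans (by rw [sq]; gcongr; exact had.G_le)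
  have hz₀n : ‖z₀‖ ≤ 2 * ρ := by
    have h1 : ‖z₀‖ ≤ ‖z‖ + ‖z - z₀‖ := by
      calc ‖z₀‖ = ‖z - (z - z₀)‖ := by rw [sub_sub_cancel]
        _ ≤ _ := norm_sub_le _ _
    have := had.G_le
    nlinarith
  have hd : ‖v * u - 1 - (α + z₀) - β‖ ≤ C₀ * δ + (Ci * K ^ 2 + Cg + 1) * ρ ^ 2 := by
    have e : v * u - 1 - (α + z₀) - β =
        (v - (1 + h)) * u + ((1 + h) * u - 1 - z - α - β) + (z - z₀) := by noncomm_ring
    rw [e]
    refine norm_add₃_le.trans ?_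
    rw [CStarRing.norm_mul_mem_unitary _ hu]
    have := had.drift
    nlinarith
  have hc1 : 0 ≤ Ci * K ^ 2 := by positivity
  obtain ⟨u', hu', hm', hu'1, hcj⟩ := hJg H M N₀ J X Z (v * u) (α + z₀) β (K' * ρ) _ hJ.J_J hP
    (by positivity) (by linarith) (mul_mem hv hu) (Drift.Mod.mul hvm hm) (add_mem had.α_mem hz₀)
    had.β_mem
    (by
      refine (norm_add_le _ _).trans ?_
      have := had.α_le
      rw [hK']; nlinarith)
    (by have := had.β_le; rw [hK']; nlinarith)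
    (by
      have h1 : C₀ * δ ≤ C₀ * ρ := by gcongr
      have h2 : (Ci * K ^ 2 + Cg + 1) * ρ ^ 2 ≤ (Ci * K ^ 2 + Cg + 1) * ρ := by
        gcongr; nlinarith
      rw [hK']; nlinarith) hd
  refine ⟨u', hu', hm', hu'1.trans ?_, ?_⟩
  · have : 0 ≤ (Ce * (Cg + L * L + 2 * (Cg * L)) + Ci * K ^ 2) * ρ ^ 2 := by positivity
    nlinarith
  · rw [hcj]
    refine Drift.gam_mono hvg ?_
    have h1 : ρ * γ ≤ θ * γ := by gcongr
    have h2 : 0 ≤ (Ci * K ^ 2 + Cg + 1 + Cj * K' ^ 2) * (θ * γ) := by positivity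
    have h3 : Ce * (L * L + 2 * (Cg * L)) * (ρ * γ) ≤ Ce * (L * L + 2 * (Cg * L)) * (θ * γ) := by
      gcongr
    have h4 : Ci * K ^ 2 * (ρ * γ) ≤ Ci * K ^ 2 * (θ * γ) := by gcongr
    calc Ce * (Cg * θ * γ + L * ρ * (L * γ) + Cg * ρ * (L * γ) + L * ρ * (Cg * γ)) +
          Ci * (K * ρ) * (K * γ)
        = Ce * Cg * (θ * γ) + Ce * (L * L + 2 * (Cg * L)) * (ρ * γ) + Ci * K ^ 2 * (ρ * γ) := by
          ring
      _ ≤ Ce * Cg * (θ * γ) + Ce * (L * L + 2 * (Cg * L)) * (θ * γ) + Ci * K ^ 2 * (θ * γ) +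
          (Ci * K ^ 2 + Cg + 1 + Cj * K' ^ 2) * (θ * γ) := by linarith
      _ = _ := by ring

end Crest.Agent.R78
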