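import Crest.Agent.R78.Iter
import Crest.Agent.R78.Amp

/-! # Row 78: the tracial theorem -/

set_option autoImplicit false

namespace Crest.Agent.R78

open scoped InnerProductSpace ComplexOrder BigOperators Topology
open Filter
open Crest.Agent.R124 (Op cm)
open Crest.OpAlg (LineCalculus)

universe u

variable {H : Type u} [NormedAddCommGroup H] [InnerProductSpace ℂ H] [CompleteSpace H]

namespace FinAmp

variable {ι : Type} [Fintype ι] [DecidableEq ι]

variable (H) in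
/-- a scalar matrix as an operator -/
noncomputable def sm (c : Matrix ι ι ℂ) : Op (Amp ι H) := ofMat (c.map (algebraMap ℂ (Op H)))

lemma ent_sm (c : Matrix ι ι ℂ) (i j : ι) : ent (sm H c) i j = algebraMap ℂ (Op H) (c i j) :=
  ent_ofMat _ i j

lemma sm_mem (c : Matrix ι ι ℂ) (M : VN H) : sm H c ∈ ampB ι M :=
  mem_ampB.2 fun i j => by rw [ent_sm]; exact M.toStarSubalgebra.algebraMap_mem _

lemma sm_mul (c d : Matrix ι ι ℂ) : sm H (c * d) = sm H c * sm H d := by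
  rw [sm, Matrix.map_mul, ofMat_mul]; rfl

lemma sm_one : sm H (1 : Matrix ι ι ℂ) = 1 := by
  rw [sm, Matrix.map_one _ (map_zero _) (map_one _), ofMat_one]

lemma sm_neg (c : Matrix ι ι ℂ) : sm H (-c) = -sm H c :=
  ext_ent fun i j => by
    rw [← neg_one_smul ℂ (sm H c), ent_smul, ent_sm, ent_sm]; simp

lemma star_sm (c : Matrix ι ι ℂ) : star (sm H c) = sm H (star c) :=
  ext_ent fun i j => by
    rw [ent_star, ent_sm, ent_sm, Matrix.star_apply, algebraMap_star_comm]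

variable (ι) in
/-- the diagonal vector -/
noncomputable def vec (Ω : H) : Amp ι (Amp ι H) := ∑ i, inj i (inj i Ω)

lemma vec_apply (Ω : H) (k : ι) : vec ι Ω k = inj k Ω := by
  rw [← prj_apply, vec, map_sum]
  simp [prj_apply, inj_apply]

lemma dg_vec (T : Op (Amp ι H)) (Ω : H) (k i : ι) : dg ι T (vec ι Ω) k i = ent T i k Ω := by
  rw [dg_apply, vec_apply, ent_apply]

lemma norm_sq_two (f : Amp ι (Amp ι H)) : ‖f‖ ^ 2 = ∑ k, ∑ i, ‖f k i‖ ^ 2 := by
  simp only [norm_sq_eq_sum]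

lemma tr_vec [Nonempty ι] {M : VN H} {Ω : H} (h : Tr M Ω) : Tr (dgA ι (ampB ι M)) (vec ι Ω) := by
  refine ⟨Metric.dense_iff.2 fun f ε hε => ?_, fun x hx => ?_⟩
  · have hn : (0 : ℝ) < Fintype.card ι + 1 := by positivity
    have := fun i k => Metric.dense_iff.1 h.1 (f k i) (ε / (Fintype.card ι + 1)) (by positivity)
    choose y hy1 x hx hy2 using this
    refine ⟨dg ι (ofMat (Matrix.of x)) (vec ι Ω), ?_, _, dg_mem_dgA (mem_ampB.2 fun i j => ?_), rfl⟩
    · rw [Metric.mem_ball, dist_eq_norm, ← sq_lt_sq₀ (norm_nonneg _) hε.le, norm_sq_two]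
      calc _ ≤ ∑ _k : ι, ∑ _i : ι, (ε / (Fintype.card ι + 1)) ^ 2 := by
            refine Finset.sum_le_sum fun k _ => Finset.sum_le_sum fun i _ => ?_
            have h1 := hy1 i k
            rw [← hy2, Metric.mem_ball, dist_eq_norm] at h1
            rw [lp.coeFn_sub, Pi.sub_apply, lp.coeFn_sub, Pi.sub_apply, dg_vec, ent_ofMat]
            gcongr
            exact h1.le
        _ = (Fintype.card ι / (Fintype.card ι + 1)) ^ 2 * ε ^ 2 := by
            simp only [Finset.sum_const, Finset.card_univ, nsmul_eq_mul]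
            field_simp
        _ < 1 * ε ^ 2 := by
            gcongr
            rw [sq_lt_one_iff₀ (by positivity), div_lt_one hn]; linarith
        _ = _ := one_mul _
    · rw [ent_ofMat]; exact hx i j
  · obtain ⟨T, hT, rfl⟩ := mem_dgA.1 hx
    rw [← sq_eq_sq₀ (norm_nonneg _) (norm_nonneg _), norm_sq_two, norm_sq_two, ← dg_star,
      Finset.sum_comm]
    simp only [dg_vec, ent_star, h.2 _ (mem_ampB.1 hT _ _)]

lemma sm_vec {c : Matrix ι ι ℂ} (hc : ∀ i j, c i j = c j i) (Ω : H) :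
    sm (Amp ι H) c (vec ι Ω) = dg ι (sm H c) (vec ι Ω) := by
  refine lp.ext (funext fun k => lp.ext (funext fun i => ?_))
  rw [dg_vec, ent_sm, sm, ofMat_apply, ← prj_apply, map_sum]
  simp [vec_apply, prj_apply, inj_apply, Algebra.algebraMap_eq_smul_one, hc i k]

lemma jop_sm [Nonempty ι] {M : VN H} {Ω : H} {J : Amp ι (Amp ι H) ≃ₗᵢ⋆[ℂ] Amp ι (Amp ι H)}
    (h : TrJ (dgA ι (ampB ι M)) (vec ι Ω) J) {c : Matrix ι ι ℂ} (hc : ∀ i j, c i j = c j i)
    (hc' : star c = c) : jop J (dg ι (sm H c)) = sm (Amp ι H) c := by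
  have h1 : dg ι (sm H c) ∈ dgA ι (ampB ι M) := dg_mem_dgA (sm_mem c M)
  have h2 : sm (Amp ι H) c ∈ (dgA ι (ampB ι M)).commutant := by
    rw [dgA_commutant]; exact sm_mem _ _
  rw [← sub_eq_zero]
  refine Cyc.sep (M := (dgA ι (ampB ι M)).commutant)
    (by rw [VonNeumannAlgebra.commutant_commutant]; exact h.tr.1) _ (sub_mem (h.mem _ h1) h2) ?_
  rw [sub_apply, h.jop_vac h1, ← dg_star, star_sm, hc', sm_vec hc, sub_self]

/-- the flip -/
def fl : Matrix (Fin 2) (Fin 2) ℂ := !![0, 1; 1, 0]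

/-- the sign -/
def sg : Matrix (Fin 2) (Fin 2) ℂ := !![1, 0; 0, -1]

lemma fl_symm (i j : Fin 2) : fl i j = fl j i := by fin_cases i <;> fin_cases j <;> rfl
lemma sg_symm (i j : Fin 2) : sg i j = sg j i := by fin_cases i <;> fin_cases j <;> rfl
lemma star_fl : star fl = fl := by ext i j; fin_cases i <;> fin_cases j <;> simp [fl]
lemma star_sg : star sg = sg := by ext i j; fin_cases i <;> fin_cases j <;> simp [sg]
lemma fl_fl : fl * fl = 1 := by ext i j; fin_cases i <;> fin_cases j <;> simp [fl]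
lemma sg_sg : sg * sg = 1 := by ext i j; fin_cases i <;> fin_cases j <;> simp [sg]
lemma fl_sg : fl * sg = -(sg * fl) := by ext i j; fin_cases i <;> fin_cases j <;> simp [fl, sg]

lemma hypPauli {M : VN H} (N : VN H) {Ω : H} (h : Tr M Ω) :
    HypPauli _ (dgA (Fin 2) (ampB (Fin 2) M)) (dgA (Fin 2) (ampB (Fin 2) N)) := by
  obtain ⟨J, hJ⟩ := exists_trJ (tr_vec (ι := Fin 2) h)
  refine ⟨_, J, dg _ (sm H fl), dg _ (sm H sg), hJ, dg_mem_dgA (sm_mem _ _),
    dg_mem_dgA (sm_mem _ _), dg_mem_dgA (sm_mem _ _), dg_mem_dgA (sm_mem _ _), ?_, ?_, ?_, ?_, ?_,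
    ?_, ?_⟩
  · rw [← dg_star, star_sm, star_fl]
  · rw [← dg_star, star_sm, star_sg]
  · rw [← dg_mul, ← sm_mul, fl_fl, sm_one, dg_one]
  · rw [← dg_mul, ← sm_mul, sg_sg, sm_one, dg_one]
  · rw [← dg_mul, ← dg_mul, ← sm_mul, ← sm_mul, fl_sg, sm_neg, dg_neg]
  · rw [jop_sm hJ fl_symm star_fl, dgA_commutant]; exact sm_mem _ _
  · rw [jop_sm hJ sg_symm star_sg, dgA_commutant]; exact sm_mem _ _

end FinAmp

/-- `H̃ = Amp (Fin 2) (Amp (Fin 2) H)`, `M̃ = dgA (ampB M)`, `Ω̃ = ∑ i, inj i (inj i Ω)`.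
`Tr M̃ Ω̃` (component `(k, i)` of `dg T Ω̃` is `ent T i k Ω`); `X = dg (ofMat flip)`,
`Z = dg (ofMat sign)`; the outer flip and sign `X', Z' ∈ M̃' ∩ Ñ'` satisfy `X' Ω̃ = X Ω̃`, so
`J X J = X'` (`Ω̃` separates `M̃'`).  Compress with `inj 0 ∘ inj 0` (`solve_cmp`). -/
theorem ct_tr : CT.{u} HypTr := by
  obtain ⟨C, δ₀, hC, hδ₀, hP⟩ := ct_pauli.{u}
  obtain ⟨C₁, hC₁, hA⟩ := cl_ampB.{u}
  refine ⟨C * C₁ ^ 2, δ₀ / C₁, by positivity, by positivity, ?_⟩
  rintro H _ _ _ M N δ ⟨Ω, hΩ⟩ hδ hδ' hCL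
  rw [le_div_iff₀ (by positivity)] at hδ'
  obtain ⟨h, hh, hs⟩ := hP _ _ _ (C₁ * δ) (FinAmp.hypPauli N hΩ) (by positivity) (by linarith)
    (cl_dgA (hA H (Fin 2) M N δ hδ.le hCL))
  have hV : Iso ((inj 0 : Amp (Fin 2) H →L[ℂ] Amp (Fin 2) (Amp (Fin 2) H)) ∘L
      (inj 0 : H →L[ℂ] Amp (Fin 2) H)) := (iso_inj 0).comp (iso_inj 0)
  refine ⟨cmp _ h, (hV.norm_cmp_le h).trans (hh.trans ?_), ?_⟩
  · rw [mul_assoc, sq, mul_assoc]
    gcongr
    nlinarith
  · rw [show C * C₁ ^ 2 * δ ^ 2 = C * (C₁ * δ) ^ 2 by ring]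
    refine solve_cmp hV (fun x hx => ⟨_, dg_mem_dgA (dg_mem_ampB hx),
      (norm_dg_le _).trans (norm_dg_le _), (itw_inj 0 _).comp (itw_inj 0 _)⟩)
      (fun p hp => ⟨dg _ (dg _ p), ?_, (norm_dg_le _).trans (norm_dg_le _),
        (itw_inj 0 _).comp (itw_inj 0 _)⟩) (by positivity) hs
    rw [dgA_commutant, ampB_commutant]
    exact dg_mem_ampB (dg_mem_dgA hp)

end Crest.Agent.R78
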