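import Crest.Agent.R78.MV2
import Crest.Agent.R78.Amp

/-! # Row 78: almost normalising unitaries -/

set_option autoImplicit false

namespace Crest.Agent.R78

open scoped InnerProductSpace ComplexOrder BigOperators Topology
open Filter
open Crest.Agent.R124 (Op cm)
open Crest.OpAlg (LineCalculus)

universe u

variable {H : Type u} [NormedAddCommGroup H] [InnerProductSpace ℂ H] [CompleteSpace H]

theorem fix_of_near {M : VN H} (Ω : H) {w : Op H} {θ : ℝ} (h : ‖w - 1‖ ≤ θ) (e : ℝ) :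
    Fix M Ω w e θ := by
  intro t _ c _
  set ζ := c Ω
  have h1 : t.Φ w = t.Φ (w - 1) + 1 := by
    have := chan_sub (lam := t.lam) (A := t.A) w 1
    have h2 := t.Φ_one
    unfold TP.Φ at h2 ⊢
    rw [this, h2, sub_add_cancel]
  have h2 : ‖⟪ζ, t.Φ (w - 1) ζ⟫_ℂ‖ ≤ θ * ‖ζ‖ ^ 2 := by
    refine (norm_inner_le_norm _ _).trans ?_
    have h3 : ‖t.Φ (w - 1) ζ‖ ≤ θ * ‖ζ‖ :=
      ((t.Φ (w - 1)).le_opNorm ζ).trans (by gcongr; exact (t.norm_Φ_le _).trans h)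
    calc ‖ζ‖ * ‖t.Φ (w - 1) ζ‖ ≤ ‖ζ‖ * (θ * ‖ζ‖) := by gcongr
      _ = _ := by ring
  have h3 := (abs_le.1 ((Complex.abs_re_le_norm _).trans h2)).1
  have h4 : (⟪ζ, ζ⟫_ℂ).re = ‖ζ‖ ^ 2 := by
    rw [inner_self_eq_norm_sq_to_K]; norm_cast
  rw [h1, add_apply, inner_add_right, Complex.add_re]
  show _ ≤ _ + (⟪ζ, ζ⟫_ℂ).re
  rw [h4]; linarith

namespace Gap

lemma norm_sum_star_mul_le {D : Type} [Fintype D] [DecidableEq D] {lam : D → ℝ}
    {A E : Matrix D D (Op H)} (h0 : ∀ i, 0 ≤ lam i) (h1 : ∑ i, lam i = 1)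
    (hA : A ∈ unitary (Matrix D D (Op H))) {r : ℝ} (hr : 0 ≤ r) (hE : MatB E r) :
    ‖∑ i, ∑ j, (lam j : ℂ) • (star (E i j) * A i j)‖ ≤ r := by
  refine R124.norm_le_of_inner _ hr fun ζ η => ?_
  have e1 : ⟪η, (∑ i, ∑ j, (lam j : ℂ) • (star (E i j) * A i j)) ζ⟫_ℂ =
      ∑ p : D × D, ⟪((√(lam p.2) : ℝ) : ℂ) • E p.1 p.2 η, ((√(lam p.2) : ℝ) : ℂ) • A p.1 p.2 ζ⟫_ℂ := by
    rw [Fintype.sum_prod_type]
    simp only [sum_apply, inner_sum, smul_apply, inner_smul_right, inner_smul_left,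
      Complex.conj_ofReal, mul_apply_eq_comp, R124.inner_star_right]
    refine Finset.sum_congr rfl fun i _ => Finset.sum_congr rfl fun j _ => ?_
    rw [← mul_assoc, ← Complex.ofReal_mul, Real.mul_self_sqrt (h0 j)]
  have hn : ∀ (x : Op H) (j : D) (v : H), ‖((√(lam j) : ℝ) : ℂ) • x v‖ ^ 2 = lam j * ‖x v‖ ^ 2 :=
    fun x j v => by
      rw [norm_smul, Complex.norm_real, Real.norm_of_nonneg (Real.sqrt_nonneg _), mul_pow,
        Real.sq_sqrt (h0 j)]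
  have e2 : ∑ p : D × D, ‖((√(lam p.2) : ℝ) : ℂ) • A p.1 p.2 ζ‖ ^ 2 = ‖ζ‖ ^ 2 := by
    rw [Fintype.sum_prod_type]
    simp only [hn]
    exact col_sum h1 hA ζ
  have e3 : ∑ p : D × D, ‖((√(lam p.2) : ℝ) : ℂ) • E p.1 p.2 η‖ ^ 2 ≤ (r * ‖η‖) ^ 2 := by
    rw [Fintype.sum_prod_type, Finset.sum_comm]
    simp only [hn, ← Finset.mul_sum]
    calc ∑ j, lam j * ∑ i, ‖E i j η‖ ^ 2 ≤ ∑ j, lam j * (r ^ 2 * ‖η‖ ^ 2) :=
          Finset.sum_le_sum fun j _ => mul_le_mul_of_nonneg_left (hE.col j η) (h0 j)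
      _ = _ := by rw [← Finset.sum_mul, h1]; ring
  rw [e1]
  refine (R124.norm_sum_inner_le _ _ _).trans ?_
  rw [e2, Real.sqrt_sq (norm_nonneg _)]
  have := Real.sqrt_le_sqrt e3
  rw [Real.sqrt_sq (by positivity)] at this
  calc _ ≤ r * ‖η‖ * ‖ζ‖ := by gcongr
    _ = _ := by ring

end Gap

/-- `chan lam A w = w ∑ lam j (w⋆ A i j w)⋆ A i j`, and `w⋆ A w` is close to a matrix over `M` -/
theorem chan_near : ∃ C : ℝ, 1 ≤ C ∧ ∀ (H : Type u) [NormedAddCommGroup H] [InnerProductSpace ℂ H] [CompleteSpace H] (M : VN H) (w : Op H) (η : ℝ),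
    w ∈ unitary (Op H) → 0 ≤ η → CL M (cj (star w) M) η → ∀ (D : Type) [Fintype D] [DecidableEq D]
    (lam : D → ℝ) (A : Matrix D D (Op H)), (∀ i, 0 ≤ lam i) → ∑ i, lam i = 1 →
    (∀ i j, A i j ∈ M) → A ∈ unitary (Matrix D D (Op H)) →
    ∃ m ∈ M, ‖chan lam A w - w * m‖ ≤ C * η := by
  obtain ⟨C, hC, happ⟩ := mat_approx.{u}
  refine ⟨C, hC, ?_⟩
  intro H _ _ _ M w η hw hη hcl D _ _ lam A h0 h1 hAM hA
  have hws := Unitary.star_mem hw
  set Aw : Matrix D D (Op H) := fun i j => star w * A i j * w with hAw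
  have hmem : ∀ i j, Aw i j ∈ cj (star w) M := fun i j => by
    have := conj_mem_cj hws (hAM i j)
    rwa [star_star] at this
  have hB : MatB Aw 1 := fun α => by
    have h2 := matB_unitary hA fun j => w (α j)
    simp only [R124.norm_unitary_apply hw] at h2
    refine le_trans (le_of_eq (Finset.sum_congr rfl fun i _ => ?_)) h2
    rw [← R124.norm_unitary_apply hws (∑ j, A i j (w (α j))), map_sum]
    rfl
  obtain ⟨A', hA', hE⟩ := happ H (cj (star w) M) M η hη hcl.symm D Aw hmem hB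
  refine ⟨∑ i, ∑ j, (lam j : ℂ) • (star (A' i j) * A i j),
    sum_mem fun i _ => sum_mem fun j _ => smul_mem_vn _ (mul_mem (star_mem (hA' i j)) (hAM i j)), ?_⟩
  have e : chan lam A w - w * ∑ i, ∑ j, (lam j : ℂ) • (star (A' i j) * A i j) =
      w * ∑ i, ∑ j, (lam j : ℂ) • (star ((Aw - A') i j) * A i j) := by
    simp only [chan, Finset.mul_sum, ← Finset.sum_sub_distrib]
    refine Finset.sum_congr rfl fun i _ => Finset.sum_congr rfl fun j _ => ?_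
    have h3 : w * star w = 1 := Unitary.mul_star_self_of_mem hw
    simp only [Matrix.sub_apply, hAw, star_sub, star_mul, star_star, mul_smul_comm, ← smul_sub]
    congr 1
    calc star (A i j) * w * A i j - w * (star (A' i j) * A i j)
        = (w * star w) * star (A i j) * w * A i j - w * (star (A' i j) * A i j) := by
          rw [h3, one_mul]
      _ = _ := by noncomm_ring
  rw [e, CStarRing.norm_mem_unitary_mul _ hw]
  exact Gap.norm_sum_star_mul_le h0 h1 hA (by positivity) hE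

/-- `mv2` with `e / 2`; `g₁ = w m + O(η)`, `z = w m' m + O(η)` central; `Re ⟪cΩ, z cΩ⟫ ≥ ½ ‖cΩ‖²`
by `pair_inner`, `exists_comp` and `Fix`; `central_lower`, `gap_alg` -/
theorem gap : ∃ C η₀ : ℝ, 0 < C ∧ 0 < η₀ ∧ ∀ (H : Type u) [NormedAddCommGroup H] [InnerProductSpace ℂ H] [CompleteSpace H] [TopologicalSpace.SeparableSpace H]
    (S : MD H) (w : Op H) (η e : ℝ), w ∈ unitary (Op H) → 0 ≤ η → η ≤ η₀ →
    CL S.M (cj (star w) S.M) η → 0 < e → e ≤ 1 / 16 → Fix S.M S.Ω w e (1 / 4) →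
    NearG S.M w 1 (C * η) := by
  obtain ⟨C₁, hC₁, hnear⟩ := chan_near.{u}
  obtain ⟨C₂, hC₂, hcomm⟩ := cl_comm.{u}
  obtain ⟨C₃, η₃, hC₃, hη₃, halg⟩ := gap_alg.{u}
  set K := 3 * (C₁ * C₂) with hK
  have hK0 : 0 < K := by positivity
  refine ⟨C₃ * K, min 1 η₃ / K, by positivity, by positivity, ?_⟩
  intro H _ _ _ _ S w η e hw hη hη' hcl he he' hfix
  have hws := Unitary.star_mem hw
  rw [le_div_iff₀ hK0] at hη'
  have hη1 : η * K ≤ 1 := hη'.trans (min_le_left _ _)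
  have hη2 : η * K ≤ η₃ := hη'.trans (min_le_right _ _)
  have hw1 : ‖w‖ ≤ 1 := ContinuousLinearMap.opNorm_le_bound _ zero_le_one fun ξ => by
    rw [R124.norm_unitary_apply hw, one_mul]
  have hle1 : C₁ * η ≤ C₁ * (C₂ * η) := by
    gcongr; nlinarith
  have hle2 : C₁ * (C₂ * η) ≤ 1 := by
    have : 0 ≤ C₁ * (C₂ * η) := by positivity
    rw [hK] at hη1; nlinarith
  obtain ⟨s, t, hs, ht, hcen⟩ := mv2 S (half_pos he)
  set 𝒰 : Ultrafilter ℕ := Ultrafilter.of atTop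
  have h𝒰 : (𝒰 : Filter ℕ) ≤ atTop := Ultrafilter.of_le _
  have hcl' : CL S.M.commutant (cj (star w) S.M.commutant) (C₂ * η) := by
    have := hcomm H _ _ η hη hcl
    rwa [cj_commutant hws] at this
  choose m hm hm' using fun i => hnear H S.M w η hw hη hcl (s i).D (s i).lam (s i).A
    (fun k => ((s i).pos k).le) (s i).sum (s i).A_mem (s i).A_unit
  choose m' hm2 hm2' using fun j => hnear H S.M.commutant w (C₂ * η) hw (by positivity) hcl'
    (t j).D (t j).lam (t j).B (fun k => ((t j).pos k).le) (t j).sum (t j).B_mem (t j).B_unit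
  have hbd : ∀ (x y : Op H) (r : ℝ), ‖x‖ ≤ 1 → ‖x - w * y‖ ≤ r → r ≤ 1 → ‖y‖ ≤ 2 := by
    intro x y r hx hxy hr
    rw [← CStarRing.norm_mem_unitary_mul y hw]
    have := norm_sub_norm_le (w * y) x
    rw [norm_sub_rev] at this
    linarith
  have hΦ : ∀ i, ‖(s i).Φ w‖ ≤ 1 := fun i => ((s i).norm_Φ_le w).trans hw1
  have hΨ : ∀ j, ‖(t j).Ψ w‖ ≤ 1 := fun j => ((t j).norm_Ψ_le w).trans hw1
  obtain ⟨g₁, hg₁, hwg⟩ := exists_wl 𝒰 (fun i => (s i).Φ w) zero_le_one (Eventually.of_forall hΦ)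
  obtain ⟨m₀, hm₀, hwm⟩ := exists_wl 𝒰 m zero_le_two
    (Eventually.of_forall fun i => hbd _ _ _ (hΦ i) (hm' i) (hle1.trans hle2))
  obtain ⟨m₁, hm₁, hwm'⟩ := exists_wl 𝒰 m' zero_le_two
    (Eventually.of_forall fun j => hbd _ _ _ (hΨ j) (hm2' j) hle2)
  obtain ⟨z, hz, hwz⟩ := exists_wl 𝒰 (fun j => (t j).Ψ g₁) zero_le_one
    (Eventually.of_forall fun j => ((t j).norm_Ψ_le g₁).trans hg₁)
  obtain ⟨hzM, hzM'⟩ := hcen 𝒰 h𝒰 w g₁ z hwg hwz
  have hm₀M : m₀ ∈ S.M := hwm.mem (Eventually.of_forall hm)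
  have hm₁M : m₁ ∈ S.M.commutant := hwm'.mem (Eventually.of_forall hm2)
  have h1 : ‖g₁ - w * m₀‖ ≤ C₁ * η :=
    (hwg.sub (hwm.mul_left w)).norm_le (Eventually.of_forall hm')
  have h2 : ‖z - w * m₁ * m₀‖ ≤ K * η := by
    refine (hwz.sub ((hwm'.mul_left w).mul_right m₀)).norm_le (Eventually.of_forall fun j => ?_)
    have e1 : (t j).Ψ g₁ - w * m' j * m₀ =
        (t j).Ψ (g₁ - w * m₀) + ((t j).Ψ w - w * m' j) * m₀ := by
      unfold TP.Ψ
      rw [chan_sub, chan_mul_right fun a b => commute_of_mem hm₀M ((t j).B_mem a b)]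
      noncomm_ring
    rw [e1]
    refine (norm_add_le _ _).trans ?_
    have h3 := ((t j).norm_Ψ_le (g₁ - w * m₀)).trans h1
    have h4 : ‖((t j).Ψ w - w * m' j) * m₀‖ ≤ C₁ * (C₂ * η) * 2 :=
      (norm_mul_le _ _).trans (mul_le_mul (hm2' j) hm₀ (norm_nonneg _) (by positivity))
    rw [hK]; linarith
  have hlow : ∀ c, ZP S.M c → 1 / 2 * ‖c S.Ω‖ ^ 2 ≤ (⟪c S.Ω, z (c S.Ω)⟫_ℂ).re := by
    intro c hc
    set ζ := c S.Ω with hζ
    have h3 : ∀ j, (1 - 1 / 4) * ‖ζ‖ ^ 2 ≤ (⟪ζ, (t j).Φ g₁ ζ⟫_ℂ).re := fun j => by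
      have h4 : WL 𝒰 (fun i => (t j).Φ ((s i).Φ w)) ((t j).Φ g₁) := hwg.chan
      refine ge_of_tendsto ((Complex.continuous_re.tendsto _).comp (h4 ζ ζ))
        (Eventually.of_forall fun i => ?_)
      obtain ⟨r, hr, -, -, hrd⟩ := TP.exists_comp (t j) (s i)
      have h5 := hfix r (fun c' hc' => (hrd _).trans (by linarith [ht j c' hc', hs i c' hc'])) c hc
      rwa [hr] at h5
    refine ge_of_tendsto ((Complex.continuous_re.tendsto _).comp (hwz ζ ζ))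
      (Eventually.of_forall fun j => ?_)
    have h4 := (t j).pair_inner g₁ ζ
    have h5 : 2 * ‖g₁‖ * ‖ζ‖ * (t j).dfc ζ ≤ 2 * 1 * ‖ζ‖ * (e / 2 * ‖ζ‖) := by
      have := (t j).dfc_nonneg ζ
      gcongr
      exact ht j c hc
    have h6 := (abs_le.1 ((Complex.abs_re_le_norm _).trans (h4.trans h5))).2
    rw [Complex.sub_re] at h6
    have h7 := h3 j
    have h8 : e * ‖ζ‖ ^ 2 ≤ 1 / 16 * ‖ζ‖ ^ 2 := by gcongr
    show _ ≤ (⟪ζ, (t j).Ψ g₁ ζ⟫_ℂ).re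
    nlinarith [sq_nonneg ‖ζ‖]
  have := halg H S.M w m₀ m₁ z (K * η) hw hm₀M hm₁M hzM hzM' hm₀ hm₁ hz
    (central_lower S.sep hzM hzM' hlow) (by positivity) (by linarith)
    (by rwa [norm_sub_rev])
  rwa [← mul_assoc] at this

end Crest.Agent.R78
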