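import Crest.Agent.R78.Std

/-! # Row 78: separable spaces -/

set_option autoImplicit false
set_option linter.unusedSectionVars false

namespace Crest.Agent.R78

open scoped InnerProductSpace ComplexOrder BigOperators Topology
open Filter
open Crest.Agent.R124 (Op cm)
open Crest.OpAlg (LineCalculus)

universe u

variable {H : Type u} [NormedAddCommGroup H] [InnerProductSpace ℂ H] [CompleteSpace H]

/-- `A` can move a small perturbation of any vector close to any target -/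
def Reach (A : Set (Op H)) : Prop :=
  ∀ (ψ ζ : H) (ε : ℝ), 0 < ε → ∃ ψ' : H, ∃ a ∈ A, ‖ψ' - ψ‖ < ε ∧ ‖a ψ' - ζ‖ < ε

namespace Hyper

lemma isOpen_hit (A : Set (Op H)) (ζ : H) (ε : ℝ) :
    IsOpen {ψ : H | ∃ a ∈ A, ‖a ψ - ζ‖ < ε} := by
  have : {ψ : H | ∃ a ∈ A, ‖a ψ - ζ‖ < ε} = ⋃ a ∈ A, {ψ : H | ‖a ψ - ζ‖ < ε} := by
    ext ψ; simp
  rw [this]
  exact isOpen_biUnion fun a _ => isOpen_lt (by fun_prop) continuous_const

lemma cyc_eq [TopologicalSpace.SeparableSpace H] (A : Set (Op H)) :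
    {Ω : H | Cyc A Ω} = ⋂ p : ℕ × ℕ,
      {ψ : H | ∃ a ∈ A, ‖a ψ - TopologicalSpace.denseSeq H p.1‖ < 1 / ((p.2 : ℝ) + 1)} := by
  ext Ω
  simp only [Set.mem_ofPred_eq, Set.mem_iInter]
  constructor
  · intro h p
    obtain ⟨_, ⟨a, ha, rfl⟩, h2⟩ := Metric.mem_closure_iff.1
      (h (TopologicalSpace.denseSeq H p.1)) _ (Nat.one_div_pos_of_nat (n := p.2))
    exact ⟨a, ha, by rwa [dist_comm, dist_eq_norm] at h2⟩
  · intro h
    refine Dense.of_closure (Dense.mono ?_ (TopologicalSpace.denseRange_denseSeq H))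
    rintro _ ⟨n, rfl⟩
    refine Metric.mem_closure_iff.2 fun ε hε => ?_
    obtain ⟨m, hm⟩ := exists_nat_one_div_lt hε
    obtain ⟨a, ha, h2⟩ := h (n, m)
    exact ⟨a Ω, ⟨a, ha, rfl⟩, by rw [dist_comm, dist_eq_norm]; exact h2.trans hm⟩

lemma isGδ_cyc [TopologicalSpace.SeparableSpace H] (A : Set (Op H)) :
    IsGδ {Ω : H | Cyc A Ω} := by
  rw [cyc_eq]
  exact IsGδ.iInter fun p => (isOpen_hit A _ _).isGδ

lemma dense_cyc [TopologicalSpace.SeparableSpace H] {A : Set (Op H)} (hA : Reach A) :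
    Dense {Ω : H | Cyc A Ω} := by
  rw [cyc_eq]
  refine dense_iInter_of_isOpen (fun p => isOpen_hit A _ _) fun p ψ => ?_
  refine Metric.mem_closure_iff.2 fun ε hε => ?_
  obtain ⟨ψ', a, ha, h1, h2⟩ := hA ψ (TopologicalSpace.denseSeq H p.1)
    (min ε (1 / ((p.2 : ℝ) + 1))) (lt_min hε Nat.one_div_pos_of_nat)
  exact ⟨ψ', ⟨a, ha, h2.trans_le (min_le_right _ _)⟩, by
    rw [dist_comm, dist_eq_norm]; exact h1.trans_le (min_le_left _ _)⟩

end Hyper

/-- Baire -/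
theorem exists_bicyclic [TopologicalSpace.SeparableSpace H] {A B : Set (Op H)} (hA : Reach A)
    (hB : Reach B) : ∃ Ω, Cyc A Ω ∧ Cyc B Ω := by
  have h := (Hyper.dense_cyc hA).inter_of_Gδ (Hyper.isGδ_cyc A) (Hyper.isGδ_cyc B)
    (Hyper.dense_cyc hB)
  obtain ⟨Ω, h1, h2⟩ := h.nonempty
  exact ⟨Ω, h1, h2⟩

/-- `ψ' = p_n ψ + ε' ∑_{i<n} e (n+i) i ζ`, `a = ε'⁻¹ ∑_{i<n} e i (n+i)`, `p_n = ∑_{i<n} e i i` -/
theorem reach_of_units {A : Set (Op H)} (e : ℕ → ℕ → Op H)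
    (hmul : ∀ i j k l, e i j * e k l = if j = k then e i l else 0)
    (hstar : ∀ i j, star (e i j) = e j i)
    (hsum : ∀ ξ, Tendsto (fun n => ∑ i ∈ Finset.range n, e i i ξ) atTop (𝓝 ξ))
    (hA : ∀ (c : ℂ) (n : ℕ), c • ∑ i ∈ Finset.range n, e i (n + i) ∈ A) : Reach A := by
  intro ψ ζ ε hε
  have _ := hstar
  have h1 := (Metric.tendsto_nhds.1 (hsum ψ)) (ε / 2) (half_pos hε)
  have h2 := (Metric.tendsto_nhds.1 (hsum ζ)) ε hε
  obtain ⟨n, hn1, hn2⟩ := (h1.and h2).exists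
  rw [dist_eq_norm] at hn1 hn2
  set v : H := ∑ j ∈ Finset.range n, e (n + j) j ζ with hv
  set r : ℝ := ε / 2 / (‖v‖ + 1) with hr
  have hr0 : 0 < r := by positivity
  have hrv : r * ‖v‖ < ε / 2 := by
    rw [hr, div_mul_eq_mul_div, div_lt_iff₀ (by positivity)]
    nlinarith [half_pos hε]
  refine ⟨∑ i ∈ Finset.range n, e i i ψ + (r : ℂ) • v, _, hA (r : ℂ)⁻¹ n, ?_, ?_⟩
  · rw [add_sub_right_comm]
    refine (norm_add_le _ _).trans_lt ?_
    rw [norm_smul, Complex.norm_real, Real.norm_of_nonneg hr0.le]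
    linarith
  · have ha : (∑ i ∈ Finset.range n, e i (n + i)) (∑ j ∈ Finset.range n, e j j ψ) = 0 := by
      rw [map_sum]
      refine Finset.sum_eq_zero fun j hj => ?_
      rw [sum_apply]
      refine Finset.sum_eq_zero fun i _ => ?_
      have hne : n + i ≠ j := by have := Finset.mem_range.1 hj; omega
      rw [← mul_apply_eq_comp, hmul, if_neg hne]
      rfl
    have hb : (∑ i ∈ Finset.range n, e i (n + i)) v = ∑ i ∈ Finset.range n, e i i ζ := by
      rw [sum_apply]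
      refine Finset.sum_congr rfl fun i hi => ?_
      rw [hv, map_sum, Finset.sum_eq_single i]
      · rw [← mul_apply_eq_comp, hmul, if_pos rfl]
      · intro j _ hji
        have hne : n + i ≠ n + j := by omega
        rw [← mul_apply_eq_comp, hmul, if_neg hne]
        rfl
      · intro h; exact absurd hi h
    have hr' : (r : ℂ) ≠ 0 := by exact_mod_cast hr0.ne'
    rw [smul_apply, map_add, map_smul, ha, hb, zero_add, smul_smul,
      inv_mul_cancel₀ hr', one_smul]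
    exact hn2

namespace Hyper

variable (H) in
/-- matrix units -/
noncomputable def un (i j : ℕ) : Op (Amp ℕ H) := inj i ∘L ((1 : Op H) ∘L prj j)

lemma un_apply (i j : ℕ) (f : Amp ℕ H) : un H i j f = inj i (f j) := rfl

lemma un_mul (i j k l : ℕ) : un H i j * un H k l = if j = k then un H i l else 0 := by
  ext1 f
  rw [mul_apply_eq_comp, un_apply, un_apply, inj_apply]
  split_ifs with h
  · rfl
  · simp

lemma un_star (i j : ℕ) : star (un H i j) = un H j i := by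
  refine ext_ent fun k l => ?_
  rw [ent_star]
  unfold un
  rw [ent_unit, ent_unit]
  by_cases h : l = i ∧ k = j
  · rw [if_pos h, if_pos ⟨h.2, h.1⟩, star_one]
  · rw [if_neg h, if_neg (fun h' => h ⟨h'.2, h'.1⟩), star_zero]

lemma un_mem (M : VN H) (i j : ℕ) : un H i j ∈ ampB ℕ M := by
  refine mem_ampB.2 fun k l => ?_
  unfold un
  rw [ent_unit]
  split_ifs
  · exact one_mem M
  · exact zero_mem M

lemma un_sum (f : Amp ℕ H) :
    Tendsto (fun n => ∑ i ∈ Finset.range n, un H i i f) atTop (𝓝 f) :=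
  (hasSum_inj f).tendsto_sum_nat

lemma norm_un_sum (n : ℕ) : ‖∑ i ∈ Finset.range n, un H i i‖ ≤ 1 := by
  refine IsStarProjection.norm_le _ ⟨?_, ?_⟩
  · rw [IsIdempotentElem, Finset.sum_mul_sum]
    refine Finset.sum_congr rfl fun i hi => ?_
    rw [Finset.sum_eq_single i]
    · rw [un_mul, if_pos rfl]
    · intro j _ hji
      rw [un_mul, if_neg (Ne.symm hji)]
    · intro h; exact absurd hi h
  · rw [IsSelfAdjoint, star_sum]
    exact Finset.sum_congr rfl fun i _ => un_star i i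

lemma dg_zero {ι : Type} : dg ι (0 : Op H) = 0 := by
  have := dg_smul (ι := ι) (0 : ℂ) (0 : Op H)
  rwa [zero_smul, zero_smul] at this

lemma dg_sum {ι α : Type} (s : Finset α) (x : α → Op H) :
    dg ι (∑ i ∈ s, x i) = ∑ i ∈ s, dg ι (x i) := by
  classical
  induction s using Finset.induction_on with
  | empty => simp [dg_zero]
  | insert a s ha ih => rw [Finset.sum_insert ha, Finset.sum_insert ha, dg_add, ih]

lemma reach_outer (M N : VN H) :
    Reach ((ampB ℕ M : Set (Op (Amp ℕ H))) ∩ ampB ℕ N) :=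
  reach_of_units (un H) un_mul un_star un_sum fun c _ =>
    ⟨smul_mem_vn c (sum_mem fun _ _ => un_mem M _ _),
      smul_mem_vn c (sum_mem fun _ _ => un_mem N _ _)⟩

lemma reach_inner (M N : VN H) :
    Reach ((dgA ℕ (ampB ℕ M) : Set (Op (Amp ℕ (Amp ℕ H)))) ∩ dgA ℕ (ampB ℕ N)) := by
  refine reach_of_units (fun i j => dg ℕ (un H i j)) ?_ ?_ ?_ fun c _ =>
    ⟨smul_mem_vn c (sum_mem fun _ _ => dg_mem_dgA (un_mem M _ _)),
      smul_mem_vn c (sum_mem fun _ _ => dg_mem_dgA (un_mem N _ _))⟩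
  · intro i j k l
    rw [← dg_mul, un_mul]
    split_ifs
    · rfl
    · exact dg_zero
  · intro i j
    rw [← dg_star, un_star]
  · intro ξ
    have h := tendsto_dgf (ι := ℕ) (l := atTop)
      (x := fun (n : ℕ) (_ : ℕ) => ∑ i ∈ Finset.range n, un H i i)
      (fun n _ => norm_un_sum n) (fun _ f => by
        simpa only [sum_apply] using un_sum f) ξ
    simpa only [dgf_const, dg_sum, sum_apply] using h

end Hyper

/-- `Ĥ = Amp ℕ (Amp ℕ H)`, `M̂ = dgA ℕ (ampB ℕ M)`; inner matrix units `dg (inj i ∘ prj j)` lie in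
`M̂ ∩ N̂`, outer matrix units in `M̂' ∩ N̂'`; compress with `inj 0 ∘ inj 0` -/
theorem ct_sep : CT.{u} HypSep := by
  obtain ⟨C, δ₀, hC, hδ₀, h⟩ := ct_std.{u}
  obtain ⟨C₁, hC₁, h₁⟩ := cl_ampB.{u}
  have hC₁0 : 0 < C₁ := by linarith
  refine ⟨C * C₁ ^ 2, δ₀ / C₁, by positivity, by positivity, ?_⟩
  intro H _ _ _ M N δ hsep hδ hδ' hcl
  have : TopologicalSpace.SeparableSpace H := hsep
  have : TopologicalSpace.SeparableSpace (Amp ℕ H) := separable_amp
  have hs2 : TopologicalSpace.SeparableSpace (Amp ℕ (Amp ℕ H)) := separable_amp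
  have hstd : HypStd (Amp ℕ (Amp ℕ H)) (dgA ℕ (ampB ℕ M)) (dgA ℕ (ampB ℕ N)) := by
    refine ⟨hs2, ?_⟩
    rw [dgA_commutant, dgA_commutant]
    exact exists_bicyclic (Hyper.reach_inner M N) (Hyper.reach_outer _ _)
  have hle : C₁ * δ ≤ δ₀ := by
    rw [le_div_iff₀ hC₁0] at hδ'
    linarith
  obtain ⟨g, hg, hsol⟩ := h _ _ _ (C₁ * δ) hstd (by positivity) hle
    (cl_dgA (h₁ H ℕ M N δ hδ.le hcl))
  have hV : Iso ((inj (0 : ℕ) : Amp ℕ H →L[ℂ] Amp ℕ (Amp ℕ H)) ∘L (inj (0 : ℕ) : H →L[ℂ] Amp ℕ H)) :=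
    (iso_inj 0).comp (iso_inj 0)
  refine ⟨cmp _ g, (hV.norm_cmp_le g).trans (hg.trans ?_), ?_⟩
  · have : C₁ ≤ C₁ ^ 2 := by nlinarith
    have h2 : C * (C₁ * δ) = C * C₁ * δ := by ring
    rw [h2]
    gcongr
  · have h2 : C * C₁ ^ 2 * δ ^ 2 = C * (C₁ * δ) ^ 2 := by ring
    rw [h2]
    refine solve_cmp hV (fun x hx => ⟨dg ℕ (dg ℕ x), dg_mem_dgA (dg_mem_ampB hx),
      (norm_dg_le _).trans (norm_dg_le _), (itw_inj 0 _).comp (itw_inj 0 x)⟩)
      (fun p hp => ⟨dg ℕ (dg ℕ p), ?_, (norm_dg_le _).trans (norm_dg_le _),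
        (itw_inj 0 _).comp (itw_inj 0 p)⟩) (by positivity) hsol
    rw [dgA_commutant, ampB_commutant]
    exact dg_mem_ampB (dg_mem_dgA hp)

end Crest.Agent.R78
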