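import Crest.Agent.R78.Defs

/-! # Row 78: Tomita–Takesaki IV: two scalar lemmas -/

set_option autoImplicit false

namespace Crest.Agent.R78

open scoped InnerProductSpace ComplexOrder BigOperators Topology
open Filter
open Crest.Agent.R124 (Op cm)
open Crest.OpAlg (LineCalculus)

universe u

variable {H : Type u} [NormedAddCommGroup H] [InnerProductSpace ℂ H] [CompleteSpace H]

/-- the kernel -/
noncomputable def ker (φ t : ℝ) : ℝ := Real.exp (-(φ * t)) / Real.cosh (Real.pi * t)

namespace Strip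

open MeasureTheory Set Complex

lemma integrable_exp_neg_abs {δ : ℝ} (hδ : 0 < δ) :
    Integrable (fun t : ℝ => Real.exp (-(δ * |t|))) := by
  rw [← integrableOn_univ, ← Iic_union_Ioi (a := (0 : ℝ))]
  refine IntegrableOn.union ?_ ?_
  · refine (integrableOn_exp_mul_Iic hδ 0).congr_fun (fun t ht => ?_) measurableSet_Iic
    simp only [abs_of_nonpos (mem_Iic.1 ht)]
    congr 1; ring
  · refine (integrableOn_exp_mul_Ioi (a := -δ) (by linarith) 0).congr_fun (fun t ht => ?_)
      measurableSet_Ioi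
    simp only [abs_of_pos (mem_Ioi.1 ht)]
    congr 1; ring

lemma exp_abs_le_cosh (x : ℝ) : Real.exp |x| ≤ 2 * Real.cosh x := by
  rw [Real.cosh_eq]
  have h1 := Real.exp_pos x
  have h2 := Real.exp_pos (-x)
  rcases abs_cases x with ⟨h, -⟩ | ⟨h, -⟩ <;> rw [h] <;> linarith

lemma inv_cosh_le (t : ℝ) : (Real.cosh (Real.pi * t))⁻¹ ≤ 2 * Real.exp (-(Real.pi * |t|)) := by
  have h := exp_abs_le_cosh (Real.pi * t)
  rw [abs_mul, abs_of_pos Real.pi_pos] at h
  have hc := Real.cosh_pos (Real.pi * t)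
  have he := Real.exp_pos (Real.pi * |t|)
  rw [Real.exp_neg, inv_le_iff_one_le_mul₀ hc]
  calc (1 : ℝ) = (Real.exp (Real.pi * |t|))⁻¹ * Real.exp (Real.pi * |t|) :=
        (inv_mul_cancel₀ he.ne').symm
    _ ≤ (Real.exp (Real.pi * |t|))⁻¹ * (2 * Real.cosh (Real.pi * t)) := by gcongr
    _ = _ := by ring

lemma ker_nonneg (φ t : ℝ) : 0 ≤ ker φ t := by
  unfold ker
  have := Real.cosh_pos (Real.pi * t)
  positivity

lemma ker_le (φ t : ℝ) : ker φ t ≤ 2 * Real.exp (-((Real.pi - |φ|) * |t|)) := by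
  unfold ker
  rw [div_eq_mul_inv]
  have h1 : Real.exp (-(φ * t)) ≤ Real.exp (|φ| * |t|) := by
    rw [Real.exp_le_exp, ← abs_mul]; exact neg_le_abs _
  calc Real.exp (-(φ * t)) * (Real.cosh (Real.pi * t))⁻¹
      ≤ Real.exp (|φ| * |t|) * (2 * Real.exp (-(Real.pi * |t|))) := by
        have := Real.cosh_pos (Real.pi * t)
        gcongr
        exact inv_cosh_le t
    _ = 2 * Real.exp (-((Real.pi - |φ|) * |t|)) := by
        rw [mul_left_comm, ← Real.exp_add]; congr 2; ring

lemma continuous_ker (φ : ℝ) : Continuous (ker φ) := by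
  unfold ker
  refine Continuous.div (by fun_prop) (by fun_prop) fun t => (Real.cosh_pos _).ne'

end Strip

lemma integrable_ker {φ : ℝ} (hφ : |φ| < Real.pi) : MeasureTheory.Integrable (ker φ) := by
  refine ((Strip.integrable_exp_neg_abs (δ := Real.pi - |φ|) (by linarith)).const_mul 2).mono'
    (Strip.continuous_ker φ).aestronglyMeasurable (Eventually.of_forall fun t => ?_)
  rw [Real.norm_of_nonneg (Strip.ker_nonneg φ t)]
  exact Strip.ker_le φ t

namespace Strip

open MeasureTheory Set Complex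

lemma integrable_ker_mul {φ : ℝ} (hφ : |φ| < Real.pi) {h : ℝ → ℂ} (hc : Continuous h) {B : ℝ}
    (hB : ∀ t, ‖h t‖ ≤ B) : Integrable (fun t : ℝ => (ker φ t : ℂ) * h t) := by
  have h1 : Integrable (fun t : ℝ => (ker φ t : ℂ)) := (integrable_ker hφ).ofReal
  exact h1.mul_bdd hc.aestronglyMeasurable (Eventually.of_forall hB)

/-- `sin (π z) / z` -/
noncomputable def sq (z : ℂ) : ℂ := dslope (fun z : ℂ => Complex.sin (Real.pi * z)) 0 z

lemma differentiable_sq : Differentiable ℂ sq := by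
  rw [← differentiableOn_univ]
  exact (Complex.differentiableOn_dslope univ_mem).2 (by fun_prop)

lemma sq_of_ne {z : ℂ} (hz : z ≠ 0) : sq z = z⁻¹ * Complex.sin (Real.pi * z) := by
  rw [sq, dslope_of_ne _ hz, slope_def_field]; simp [div_eq_inv_mul]

lemma sq_zero : sq 0 = Real.pi := by
  rw [sq, dslope_same]
  have h : HasDerivAt (fun z : ℂ => Complex.sin (Real.pi * z))
      (Complex.cos (Real.pi * 0) * (Real.pi * 1)) 0 :=
    ((hasDerivAt_id (0 : ℂ)).const_mul (Real.pi : ℂ)).csin
  rw [h.deriv]; simp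

lemma sq_ne_zero {z : ℂ} (hz : |z.re| ≤ 1 / 2) : sq z ≠ 0 := by
  by_cases h0 : z = 0
  · rw [h0, sq_zero]; exact_mod_cast Real.pi_pos.ne'
  · rw [sq_of_ne h0]
    refine mul_ne_zero (inv_ne_zero h0) fun hs => h0 ?_
    obtain ⟨k, hk⟩ := Complex.sin_eq_zero_iff.1 hs
    have hpi : (Real.pi : ℂ) ≠ 0 := by exact_mod_cast Real.pi_pos.ne'
    have hzk : z = k := by
      rw [mul_comm] at hk; exact mul_right_cancel₀ hpi hk
    rw [hzk] at hz ⊢
    simp only [intCast_re] at hz
    have : |k| < 1 := by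
      have : (|k| : ℝ) < 1 := by linarith
      exact_mod_cast this
    rw [Int.abs_lt_one_iff.1 this]; simp

lemma norm_sin_ge (z : ℂ) : Real.exp |z.im| - 1 ≤ 2 * ‖Complex.sin z‖ := by
  have h : 2 * ‖Complex.sin z‖ = ‖Complex.exp (-z * I) - Complex.exp (z * I)‖ := by
    have : (2 : ℂ) * Complex.sin z = (Complex.exp (-z * I) - Complex.exp (z * I)) * I :=
      Complex.two_sin z
    have h2 := congrArg norm this
    simpa using h2
  rw [h]
  have ha : ‖Complex.exp (-z * I)‖ = Real.exp z.im := by rw [Complex.norm_exp]; simp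
  have hb : ‖Complex.exp (z * I)‖ = Real.exp (-z.im) := by rw [Complex.norm_exp]; simp
  have h1 := norm_sub_norm_le (Complex.exp (-z * I)) (Complex.exp (z * I))
  have h2 := norm_sub_norm_le (Complex.exp (z * I)) (Complex.exp (-z * I))
  rw [norm_sub_rev] at h2
  rw [ha, hb] at h1 h2
  rcases abs_cases z.im with ⟨h, h'⟩ | ⟨h, h'⟩ <;> rw [h]
  · have : Real.exp (-z.im) ≤ 1 := Real.exp_le_one_iff.2 (by linarith)
    linarith
  · have : Real.exp z.im ≤ 1 := Real.exp_le_one_iff.2 h'.le
    linarith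

/-- the auxiliary holomorphic function -/
noncomputable def gg (F : ℂ → ℂ) (φ : ℝ) (z : ℂ) : ℂ :=
  Complex.exp (I * φ * z) * dslope F 0 z / sq z

lemma gg_of_ne (F : ℂ → ℂ) (φ : ℝ) {z : ℂ} (hz : z ≠ 0) :
    gg F φ z = Complex.exp (I * φ * z) * (F z - F 0) / Complex.sin (Real.pi * z) := by
  rw [gg, sq_of_ne hz, dslope_of_ne _ hz, slope_def_field, sub_zero]
  field_simp

lemma differentiableOn_gg {F : ℂ → ℂ} (hF : Differentiable ℂ F) (φ : ℝ) :
    DifferentiableOn ℂ (gg F φ) {z | |z.re| ≤ 1 / 2} := by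
  have h1 : Differentiable ℂ (dslope F 0) := by
    rw [← differentiableOn_univ]
    exact (Complex.differentiableOn_dslope univ_mem).2 hF.differentiableOn
  refine DifferentiableOn.div ?_ differentiable_sq.differentiableOn fun z hz => sq_ne_zero hz
  exact (Differentiable.mul (by fun_prop) h1).differentiableOn

lemma gg_right (F : ℂ → ℂ) (φ t : ℝ) :
    gg F φ (1 / 2 + I * t) =
      (ker φ t : ℂ) * (Complex.exp (I * (φ / 2)) * (F (1 / 2 + I * t) - F 0)) := by
  have hz : (1 / 2 + I * t : ℂ) ≠ 0 := fun h => by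
    have := congrArg Complex.re h; simp at this
  rw [gg_of_ne F φ hz]
  have h1 : Complex.sin (Real.pi * (1 / 2 + I * t)) = (Real.cosh (Real.pi * t) : ℝ) := by
    have : (Real.pi * (1 / 2 + I * t) : ℂ) = (Real.pi * t : ℝ) * I + Real.pi / 2 := by
      push_cast; ring
    rw [this, Complex.sin_add_pi_div_two, Complex.cos_mul_I, Complex.ofReal_cosh]
  have h2 : Complex.exp (I * φ * (1 / 2 + I * t)) =
      Complex.exp (I * (φ / 2)) * (Real.exp (-(φ * t)) : ℝ) := by
    rw [Complex.ofReal_exp, ← Complex.exp_add]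
    congr 1
    push_cast
    linear_combination (φ * t : ℂ) * I_mul_I
  rw [h1, h2, ker, Complex.ofReal_div]
  ring

lemma gg_left (F : ℂ → ℂ) (φ t : ℝ) :
    gg F φ (-(1 / 2) + I * t) =
      -((ker φ t : ℂ) * (Complex.exp (-(I * (φ / 2))) * (F (-(1 / 2) + I * t) - F 0))) := by
  have hz : (-(1 / 2) + I * t : ℂ) ≠ 0 := fun h => by
    have := congrArg Complex.re h; simp at this
  rw [gg_of_ne F φ hz]
  have h1 : Complex.sin (Real.pi * (-(1 / 2) + I * t)) = -(Real.cosh (Real.pi * t) : ℝ) := by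
    have : (Real.pi * (-(1 / 2) + I * t) : ℂ) = (Real.pi * t : ℝ) * I - Real.pi / 2 := by
      push_cast; ring
    rw [this, Complex.sin_sub_pi_div_two, Complex.cos_mul_I, Complex.ofReal_cosh]
  have h2 : Complex.exp (I * φ * (-(1 / 2) + I * t)) =
      Complex.exp (-(I * (φ / 2))) * (Real.exp (-(φ * t)) : ℝ) := by
    rw [Complex.ofReal_exp, ← Complex.exp_add]
    congr 1
    push_cast
    linear_combination (φ * t : ℂ) * I_mul_I
  rw [h1, h2, ker, Complex.ofReal_div]
  ring

/-- decay on the horizontal sides -/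
lemma norm_gg_le {F : ℂ → ℂ} {B : ℝ} (hB : ∀ z : ℂ, |z.re| ≤ 1 / 2 → ‖F z‖ ≤ B) (φ : ℝ) {z : ℂ}
    (hz : |z.re| ≤ 1 / 2) (hy : 1 ≤ |z.im|) :
    ‖gg F φ z‖ ≤ 8 * B * Real.exp (-((Real.pi - |φ|) * |z.im|)) := by
  have hz0 : z ≠ 0 := by
    rintro rfl; norm_num at hy
  have hB0 : 0 ≤ B := (norm_nonneg _).trans (hB 0 (by norm_num))
  have h1 : ‖F z - F 0‖ ≤ 2 * B :=
    (norm_sub_le _ _).trans (by linarith [hB z hz, hB 0 (by norm_num)])
  have h2 : ‖Complex.exp (I * φ * z)‖ ≤ Real.exp (|φ| * |z.im|) := by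
    rw [Complex.norm_exp, Real.exp_le_exp, ← abs_mul]
    simpa using neg_le_abs (φ * z.im)
  have h3 := norm_sin_ge (Real.pi * z)
  have him : |((Real.pi : ℂ) * z).im| = Real.pi * |z.im| := by
    simp [abs_mul, abs_of_pos Real.pi_pos]
  rw [him] at h3
  have h4 : 2 ≤ Real.exp (Real.pi * |z.im|) := by
    have := Real.add_one_le_exp (Real.pi * |z.im|)
    nlinarith [Real.pi_gt_three]
  have h5 : Real.exp (Real.pi * |z.im|) / 4 ≤ ‖Complex.sin (Real.pi * z)‖ := by linarith
  have he := Real.exp_pos (Real.pi * |z.im|)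
  rw [gg_of_ne F φ hz0, norm_div, norm_mul]
  calc ‖Complex.exp (I * φ * z)‖ * ‖F z - F 0‖ / ‖Complex.sin (Real.pi * z)‖
      ≤ Real.exp (|φ| * |z.im|) * (2 * B) / (Real.exp (Real.pi * |z.im|) / 4) := by gcongr
    _ = 8 * B * Real.exp (-((Real.pi - |φ|) * |z.im|)) := by
        rw [show -((Real.pi - |φ|) * |z.im|) = |φ| * |z.im| - Real.pi * |z.im| by ring,
          Real.exp_sub]
        field_simp
        ring

lemma tendsto_horiz {F : ℂ → ℂ} {B : ℝ} (hB : ∀ z : ℂ, |z.re| ≤ 1 / 2 → ‖F z‖ ≤ B) {φ : ℝ}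
    (hφ : |φ| < Real.pi) {s : ℝ} (hs : |s| = 1) :
    Tendsto (fun y : ℝ => ∫ x : ℝ in (-(1 / 2) : ℝ)..(1 / 2 : ℝ), gg F φ (x + (s * y : ℝ) * I))
      atTop (𝓝 0) := by
  have hlim : Tendsto (fun y : ℝ => 8 * B * Real.exp (-((Real.pi - |φ|) * y)) * |(1 / 2 : ℝ) -
      -(1 / 2)|) atTop (𝓝 0) := by
    have h := Real.tendsto_exp_neg_atTop_nhds_zero.comp
      (tendsto_id.const_mul_atTop (r := Real.pi - |φ|) (by linarith))
    simpa using (h.const_mul (8 * B)).mul_const |(1 / 2 : ℝ) - -(1 / 2)|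
  refine squeeze_zero_norm' ?_ hlim
  filter_upwards [eventually_ge_atTop 1] with y hy
  refine intervalIntegral.norm_integral_le_of_norm_le_const fun x hx => ?_
  have hx' : |x| ≤ 1 / 2 := by
    rw [uIoc_of_le (by norm_num)] at hx
    exact abs_le.2 ⟨hx.1.le, hx.2⟩
  have him : |((x : ℂ) + (s * y : ℝ) * I).im| = y := by
    simp [abs_mul, hs, abs_of_nonneg (by linarith : (0 : ℝ) ≤ y)]
  have := norm_gg_le hB φ (z := x + (s * y : ℝ) * I) (by simpa using hx') (by rw [him]; exact hy)
  rwa [him] at this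

end Strip

/-- `g z = exp (i φ z) (F z - F 0) / sin (π z)` extends holomorphically to `|Re z| < 1` (`dslope`),
decays exponentially in the strip; Cauchy's theorem for the rectangles `[-½, ½] × [-n, n]`;
`sin (π (±½ + i t)) = ± cosh (π t)`. -/
theorem strip_formula {F : ℂ → ℂ} (hF : Differentiable ℂ F) {B : ℝ}
    (hB : ∀ z : ℂ, |z.re| ≤ 1 / 2 → ‖F z‖ ≤ B) {φ : ℝ} (hφ : |φ| < Real.pi) :
    ∫ t : ℝ, (ker φ t : ℂ) * (Complex.exp (Complex.I * (φ / 2)) * F (1 / 2 + Complex.I * t) +
        Complex.exp (-(Complex.I * (φ / 2))) * F (-(1 / 2) + Complex.I * t)) =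
      F 0 * ∫ t : ℝ, (ker φ t : ℂ) *
        (Complex.exp (Complex.I * (φ / 2)) + Complex.exp (-(Complex.I * (φ / 2)))) := by
  have hFc := hF.continuous
  set a := Complex.exp (Complex.I * (φ / 2)) with ha
  set b := Complex.exp (-(Complex.I * (φ / 2))) with hb
  have hB1 : ∀ t : ℝ, ‖F (1 / 2 + Complex.I * t)‖ ≤ B := fun t => hB _ (by norm_num [abs_of_pos])
  have hB2 : ∀ t : ℝ, ‖F (-(1 / 2) + Complex.I * t)‖ ≤ B := fun t =>
    hB _ (by norm_num [abs_of_pos])
  have i1 : MeasureTheory.Integrable fun t : ℝ => (ker φ t : ℂ) * F (1 / 2 + Complex.I * t) :=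
    Strip.integrable_ker_mul hφ (by fun_prop) hB1
  have i2 : MeasureTheory.Integrable fun t : ℝ => (ker φ t : ℂ) * F (-(1 / 2) + Complex.I * t) :=
    Strip.integrable_ker_mul hφ (by fun_prop) hB2
  have i0 : MeasureTheory.Integrable fun t : ℝ => (ker φ t : ℂ) := (integrable_ker hφ).ofReal
  have iR : MeasureTheory.Integrable fun t : ℝ => Strip.gg F φ (1 / 2 + Complex.I * t) := by
    refine ((i1.const_mul a).sub (i0.const_mul (a * F 0))).congr
      (Eventually.of_forall fun t => ?_)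
    simp only [Strip.gg_right, Pi.sub_apply, ← ha]; ring
  have iL : MeasureTheory.Integrable fun t : ℝ => Strip.gg F φ (-(1 / 2) + Complex.I * t) := by
    refine ((i0.const_mul (b * F 0)).sub (i2.const_mul b)).congr
      (Eventually.of_forall fun t => ?_)
    simp only [Strip.gg_left, Pi.sub_apply, ← hb]; ring
  have key : (∫ t : ℝ, Strip.gg F φ (1 / 2 + Complex.I * t)) =
      ∫ t : ℝ, Strip.gg F φ (-(1 / 2) + Complex.I * t) := by
    have t1 := Strip.tendsto_horiz hB hφ (s := -1) (by simp)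
    have t2 := Strip.tendsto_horiz hB hφ (s := 1) (by simp)
    have t3 := MeasureTheory.intervalIntegral_tendsto_integral iR tendsto_neg_atTop_atBot tendsto_id
    have t4 := MeasureTheory.intervalIntegral_tendsto_integral iL tendsto_neg_atTop_atBot tendsto_id
    have t5 := ((t1.sub t2).add (t3.const_mul Complex.I)).sub (t4.const_mul Complex.I)
    have t6 : ∀ y : ℝ, (∫ x : ℝ in (-(1 / 2) : ℝ)..(1 / 2 : ℝ),
          Strip.gg F φ (x + (-1 * y : ℝ) * Complex.I)) -
        (∫ x : ℝ in (-(1 / 2) : ℝ)..(1 / 2 : ℝ), Strip.gg F φ (x + (1 * y : ℝ) * Complex.I)) +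
        Complex.I * (∫ t : ℝ in (-y)..(id y), Strip.gg F φ (1 / 2 + Complex.I * t)) -
        Complex.I * (∫ t : ℝ in (-y)..(id y), Strip.gg F φ (-(1 / 2) + Complex.I * t)) = 0 := by
      intro y
      have h := Complex.integral_boundary_rect_eq_zero_of_differentiableOn (Strip.gg F φ)
        ⟨-(1 / 2), -y⟩ ⟨1 / 2, y⟩ ((Strip.differentiableOn_gg hF φ).mono fun z hz => by
          have h1 := hz.1
          simp only [Set.mem_preimage] at h1
          rw [Set.uIcc_of_le (by norm_num)] at h1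
          exact abs_le.2 h1)
      simp only [smul_eq_mul] at h
      simpa [mul_comm Complex.I] using h
    simp only [t6] at t5
    have := tendsto_nhds_unique t5 tendsto_const_nhds
    have h2 : Complex.I * ((∫ t : ℝ, Strip.gg F φ (1 / 2 + Complex.I * t)) -
      ∫ t : ℝ, Strip.gg F φ (-(1 / 2) + Complex.I * t)) = 0 := by linear_combination this
    exact sub_eq_zero.1 ((mul_eq_zero.1 h2).resolve_left Complex.I_ne_zero)
  rw [← sub_eq_zero, ← MeasureTheory.integral_sub iR iL] at key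
  rw [← MeasureTheory.integral_const_mul, ← sub_eq_zero, ← MeasureTheory.integral_sub]
  · refine Eq.trans ?_ key
    congr 1
    ext t
    simp only [Strip.gg_right, Strip.gg_left, ← ha, ← hb]; ring
  · refine ((i1.const_mul a).add (i2.const_mul b)).congr (Eventually.of_forall fun t => ?_)
    simp only [Pi.add_apply]; ring
  · exact (i0.mul_const _).const_mul _

namespace Strip

open MeasureTheory Set Complex

/-- the Laplace transform of `k` -/
noncomputable def lap (k : ℝ → ℂ) (w : ℂ) : ℂ := ∫ t : ℝ, Complex.exp (-(w * t)) * k t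

lemma differentiableAt_lap {k : ℝ → ℂ} (hc : Continuous k) {B : ℝ}
    (hB : ∀ t, ‖k t‖ ≤ B * Real.exp (-(Real.pi * |t|))) {w : ℂ} (hw : |w.re| < Real.pi) :
    DifferentiableAt ℂ (lap k) w := by
  set δ : ℝ := (Real.pi - |w.re|) / 3 with hδ
  have hδ0 : 0 < δ := by linarith
  have hB0 : 0 ≤ B := by
    have := (norm_nonneg _).trans (hB 0)
    simpa using this
  have hbd : ∀ t : ℝ, ∀ x ∈ Metric.ball w δ,
      ‖Complex.exp (-(x * t)) * k t‖ ≤ B * Real.exp (-(2 * δ * |t|)) := by
    intro t x hx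
    have h1 : |x.re| ≤ |w.re| + δ := by
      have h2 : |(x - w).re| ≤ δ := (abs_re_le_norm _).trans (mem_ball_iff_norm.1 hx).le
      have h3 := abs_add_le w.re (x - w).re
      simp only [sub_re, add_sub_cancel] at h3 h2
      linarith
    have h4 : ‖Complex.exp (-(x * t))‖ ≤ Real.exp ((|w.re| + δ) * |t|) := by
      rw [Complex.norm_exp, Real.exp_le_exp]
      have : (-(x * t)).re = -(x.re * t) := by simp
      rw [this]
      calc -(x.re * t) ≤ |x.re * t| := neg_le_abs _
        _ = |x.re| * |t| := abs_mul _ _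
        _ ≤ _ := by gcongr
    rw [norm_mul]
    calc ‖Complex.exp (-(x * t))‖ * ‖k t‖
        ≤ Real.exp ((|w.re| + δ) * |t|) * (B * Real.exp (-(Real.pi * |t|))) := by
          gcongr; exact hB t
      _ = B * Real.exp (-(2 * δ * |t|)) := by
          rw [mul_left_comm, ← Real.exp_add]; congr 2; rw [hδ]; ring
  refine (hasDerivAt_integral_of_dominated_loc_of_deriv_le (μ := volume)
    (F := fun (x : ℂ) (t : ℝ) => Complex.exp (-(x * t)) * k t)
    (F' := fun (x : ℂ) (t : ℝ) => -t * (Complex.exp (-(x * t)) * k t))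
    (bound := fun t => B / δ * Real.exp (-(δ * |t|)))
    (Metric.ball_mem_nhds w hδ0) (Eventually.of_forall fun x => ?_) ?_ ?_
    (Eventually.of_forall fun t x hx => ?_) ((integrable_exp_neg_abs hδ0).const_mul _)
    (Eventually.of_forall fun t x _ => ?_)).2.differentiableAt
  · exact Continuous.aestronglyMeasurable (by fun_prop)
  · refine ((integrable_exp_neg_abs (δ := 2 * δ) (by linarith)).const_mul B).mono'
      (Continuous.aestronglyMeasurable (by fun_prop)) (Eventually.of_forall fun t => ?_)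
    exact hbd t w (Metric.mem_ball_self hδ0)
  · exact Continuous.aestronglyMeasurable (by fun_prop)
  · rw [norm_mul, norm_neg, Complex.norm_real, Real.norm_eq_abs]
    have h1 : |t| ≤ Real.exp (δ * |t|) / δ := by
      rw [le_div_iff₀ hδ0]
      have := Real.add_one_le_exp (δ * |t|)
      linarith
    calc |t| * ‖Complex.exp (-(x * t)) * k t‖
        ≤ Real.exp (δ * |t|) / δ * (B * Real.exp (-(2 * δ * |t|))) := by
          gcongr; exact hbd t x hx
      _ = B / δ * (Real.exp (δ * |t|) * Real.exp (-(2 * δ * |t|))) := by ring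
      _ = _ := by rw [← Real.exp_add]; congr 2; ring
  · have h1 : HasDerivAt (fun x : ℂ => -(x * t)) (-(1 * t)) x :=
      ((hasDerivAt_id x).mul_const (t : ℂ)).neg
    refine (h1.cexp.mul_const (k t)).congr_deriv ?_
    ring

end Strip

/-- `w ↦ ∫ exp (-w t) h t / cosh (π t) dt` is holomorphic on `|Re w| < π` and vanishes on the real
segment, hence on the imaginary axis; Fourier inversion for `h / cosh (π ·)`. -/
theorem sech_unique {h : ℝ → ℂ} (hc : Continuous h) {B : ℝ} (hB : ∀ t, ‖h t‖ ≤ B)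
    (h0 : ∀ φ : ℝ, |φ| < Real.pi → ∫ t : ℝ, (ker φ t : ℂ) * h t = 0) (t : ℝ) : h t = 0 := by
  set k : ℝ → ℂ := fun t => (ker 0 t : ℂ) * h t with hk
  have hkc : Continuous k := (Complex.continuous_ofReal.comp (Strip.continuous_ker 0)).mul hc
  have hB0 : 0 ≤ B := (norm_nonneg _).trans (hB 0)
  have hkb : ∀ t, ‖k t‖ ≤ 2 * B * Real.exp (-(Real.pi * |t|)) := fun t => by
    have h1 := Strip.ker_le 0 t
    rw [abs_zero, sub_zero] at h1
    rw [hk, norm_mul, Complex.norm_real, Real.norm_of_nonneg (Strip.ker_nonneg 0 t)]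
    calc ker 0 t * ‖h t‖ ≤ 2 * Real.exp (-(Real.pi * |t|)) * B := by gcongr; exact hB t
      _ = _ := by ring
  set U : Set ℂ := {w | |w.re| < Real.pi} with hU
  have hUo : IsOpen U := isOpen_lt (by fun_prop) continuous_const
  have hUc : Convex ℝ U := by
    have : U = {w : ℂ | -Real.pi < w.re} ∩ {w : ℂ | w.re < Real.pi} := by
      ext w; simp [hU, abs_lt]
    rw [this]
    exact (convex_halfSpace_re_gt _).inter (convex_halfSpace_re_lt _)
  have han : AnalyticOnNhd ℂ (Strip.lap k) U :=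
    DifferentiableOn.analyticOnNhd
      (fun w hw => (Strip.differentiableAt_lap hkc hkb hw).differentiableWithinAt) hUo
  have hreal : ∀ φ : ℝ, |φ| < Real.pi → Strip.lap k φ = 0 := fun φ hφ => by
    rw [← h0 φ hφ, Strip.lap]
    congr 1
    ext s
    simp only [hk, ker, zero_mul, neg_zero, Real.exp_zero]
    push_cast
    ring
  have hfreq : ∃ᶠ z in 𝓝[≠] (0 : ℂ), Strip.lap k z = 0 := by
    have ht : Tendsto (fun x : ℝ => (x : ℂ)) (𝓝[≠] 0) (𝓝[≠] 0) := by
      refine tendsto_nhdsWithin_iff.2 ⟨?_, ?_⟩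
      · have := Complex.continuous_ofReal.tendsto 0
        rw [Complex.ofReal_zero] at this
        exact this.mono_left nhdsWithin_le_nhds
      · filter_upwards [self_mem_nhdsWithin] with x hx
        simpa using hx
    refine ht.frequently (Eventually.frequently ?_)
    have : ∀ᶠ x : ℝ in 𝓝 0, |x| < Real.pi :=
      continuous_abs.continuousAt.eventually_lt continuousAt_const (by simpa using Real.pi_pos)
    filter_upwards [this.filter_mono nhdsWithin_le_nhds] with x hx using hreal x hx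
  have hz := han.eqOn_zero_of_preconnected_of_frequently_eq_zero hUc.isPreconnected
    (by simpa [hU] using Real.pi_pos) hfreq
  have hF : FourierTransform.fourier k = 0 := by
    ext ξ
    have := hz (x := (2 * Real.pi * ξ : ℝ) * Complex.I) (by simpa [hU] using Real.pi_pos)
    rw [Real.fourier_real_eq_integral_exp_smul]
    refine Eq.trans ?_ this
    rw [Strip.lap]
    congr 1
    ext s
    rw [smul_eq_mul]
    congr 2
    push_cast
    ring
  have hki : MeasureTheory.Integrable k :=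
    Strip.integrable_ker_mul (by simpa using Real.pi_pos) hc hB
  have hinv := hkc.fourierInv_fourier_eq hki (by rw [hF]; exact MeasureTheory.integrable_zero _ _ _)
  have hkt : k t = 0 := by
    rw [← hinv, hF, Real.fourierInv_eq]
    simp
  refine (mul_eq_zero.1 hkt).resolve_left ?_
  have : 0 < ker 0 t := by
    unfold ker
    have := Real.cosh_pos (Real.pi * t)
    positivity
  exact_mod_cast this.ne'

end Crest.Agent.R78
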