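import Crest.Agent.R78.Basic
import Crest.Agent.R78.Strip

/-! # Row 78: Tomita–Takesaki VI: the integral formula -/

set_option autoImplicit false

namespace Crest.Agent.R78

open scoped InnerProductSpace ComplexOrder BigOperators Topology
open Filter
open Crest.Agent.R124 (Op cm)
open Crest.OpAlg (LineCalculus)

universe u

variable {H : Type u} [NormedAddCommGroup H] [InnerProductSpace ℂ H] [CompleteSpace H]

namespace IntF

open Crest.OpAlg.LineCalculus Crest.Agent.R84 MeasureTheory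

local notation "BC" => BoundedContinuousFunction ℝ ℂ

lemma one_add_exp_pos (v : ℝ) : 0 < 1 + Real.exp v := by positivity

lemma rho_pos (v : ℝ) : 0 < 2 / (1 + Real.exp v) := by positivity

lemma rho_le (v : ℝ) : 2 / (1 + Real.exp v) ≤ 2 := by
  rw [div_le_iff₀ (one_add_exp_pos v)]
  nlinarith [Real.exp_pos v]

/-- `2 / (1 + e^v)` -/
noncomputable def rho : BC :=
  BoundedContinuousFunction.ofNormedAddCommGroup (fun v : ℝ => ((2 / (1 + Real.exp v) : ℝ) : ℂ))
    (Complex.continuous_ofReal.comp (continuous_const.div (by fun_prop)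
      fun v => (one_add_exp_pos v).ne')) 2 (fun v => by
      rw [Complex.norm_real, Real.norm_of_nonneg (rho_pos v).le]; exact rho_le v)

lemma sqrt_rho (v : ℝ) : √(2 / (1 + Real.exp v) * (2 - 2 / (1 + Real.exp v))) =
    2 * Real.exp (v / 2) / (1 + Real.exp v) := by
  have h1 := one_add_exp_pos v
  have h2 : Real.exp (v / 2) * Real.exp (v / 2) = Real.exp v := by
    rw [← Real.exp_add]; congr 1; ring
  rw [Real.sqrt_eq_iff_mul_self_eq (mul_nonneg (rho_pos v).le (by linarith [rho_le v]))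
    (by positivity)]
  field_simp
  nlinarith

/-- `2 e^{v/2} / (1 + e^v)` -/
noncomputable def tau : BC :=
  BoundedContinuousFunction.ofNormedAddCommGroup
    (fun v : ℝ => ((2 * Real.exp (v / 2) / (1 + Real.exp v) : ℝ) : ℂ))
    (Complex.continuous_ofReal.comp (Continuous.div (by fun_prop) (by fun_prop)
      fun v => (one_add_exp_pos v).ne')) 2 (fun v => by
      rw [Complex.norm_real, Real.norm_of_nonneg (by have := one_add_exp_pos v; positivity),
        ← sqrt_rho]
      refine Real.sqrt_le_iff.2 ⟨by norm_num, ?_⟩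
      nlinarith [rho_pos v, rho_le v])

lemma rho_apply (v : ℝ) : rho v = ((2 / (1 + Real.exp v) : ℝ) : ℂ) := rfl

lemma tau_apply (v : ℝ) : tau v = ((2 * Real.exp (v / 2) / (1 + Real.exp v) : ℝ) : ℂ) := rfl

lemma apply_rho {R : Op H} {D : LineCalculus H} (hD : IsLogCalc R D) (h0 : 0 ≤ R) :
    D.apply rho = R := by
  have hR : IsSelfAdjoint R := IsSelfAdjoint.of_nonneg h0
  rw [hD.cfc_eq (fun r => (r : ℂ)) rho Complex.continuous_ofReal fun v => rfl]
  have := cfc_real_eq_complex (a := R) (fun r : ℝ => r) hR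
  rw [← this, cfc_id' ℝ R]

lemma apply_tau {R T : Op H} {D : LineCalculus H} (hD : IsLogCalc R D) (h0 : 0 ≤ R)
    (hT : T = cfc (fun r : ℝ => √(r * (2 - r))) R) : D.apply tau = T := by
  have hR : IsSelfAdjoint R := IsSelfAdjoint.of_nonneg h0
  rw [hD.cfc_eq (fun r => ((√(r * (2 - r)) : ℝ) : ℂ)) tau (by fun_prop)
    fun v => by rw [tau_apply, sqrt_rho], hT]
  exact (cfc_real_eq_complex (a := R) (fun r : ℝ => √(r * (2 - r))) hR).symm

lemma apply_two_sub {R : Op H} {D : LineCalculus H} (hD : IsLogCalc R D) (h0 : 0 ≤ R) :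
    D.apply (2 - rho) = 2 - R := by
  rw [map_sub, apply_rho hD h0, map_ofNat]

lemma two_sub_rho_apply (v : ℝ) :
    (2 - rho : BC) v = ((2 * Real.exp v / (1 + Real.exp v) : ℝ) : ℂ) := by
  have h1 := one_add_exp_pos v
  have : (2 - rho : BC) v = 2 - rho v := rfl
  rw [this, rho_apply]
  have e : 2 * Real.exp v / (1 + Real.exp v) = 2 - 2 / (1 + Real.exp v) := by
    field_simp; ring
  rw [e]; push_cast; ring

/-- evaluation -/
noncomputable def ev (v : ℝ) : BC →+* ℂ where
  toFun f := f v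
  map_one' := rfl
  map_mul' _ _ := rfl
  map_zero' := rfl
  map_add' _ _ := rfl

/-- the truncated identity -/
noncomputable def clamp (n : ℝ) : BC :=
  BoundedContinuousFunction.ofNormedAddCommGroup (fun v : ℝ => ((max (-n) (min n v) : ℝ) : ℂ))
    (by fun_prop) |n| (fun v => by
      rw [Complex.norm_real, Real.norm_eq_abs, abs_le]
      constructor
      · exact le_max_of_le_left (by linarith [le_abs_self n])
      · exact max_le (neg_le_abs n) ((min_le_left _ _).trans (le_abs_self n)))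

lemma clamp_apply (n v : ℝ) : clamp n v = ((max (-n) (min n v) : ℝ) : ℂ) := rfl

/-- `exp (z v)`, truncated -/
noncomputable def ex (n : ℝ) (z : ℂ) : BC := NormedSpace.exp (z • clamp n)

lemma ex_apply (n : ℝ) (z : ℂ) (v : ℝ) : ex n z v = Complex.exp (z * clamp n v) := by
  have hc : Continuous (ev v) := (BoundedContinuousFunction.evalCLM ℂ v : BC →L[ℂ] ℂ).continuous
  have := NormedSpace.map_exp (ev v) hc (z • clamp n)
  rw [Complex.exp_eq_exp_ℂ]
  exact this

lemma ex_apply_of_mem {n v : ℝ} (hv : v ∈ Set.Icc (-n) n) (z : ℂ) :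
    ex n z v = Complex.exp (z * v) := by
  rw [ex_apply, clamp_apply, min_eq_right hv.2, max_eq_right hv.1]

lemma differentiable_ex (n : ℝ) : Differentiable ℂ (ex n) :=
  fun z => (hasDerivAt_exp_smul_const (𝕂 := ℂ) (clamp n) z).differentiableAt

lemma norm_ex_le (n : ℝ) {z : ℂ} (hz : |z.re| ≤ 1 / 2) : ‖ex n z‖ ≤ Real.exp |n| := by
  refine (BoundedContinuousFunction.norm_le (Real.exp_pos _).le).2 fun v => ?_
  rw [ex_apply, Complex.norm_exp, clamp_apply, Real.exp_le_exp]
  have h1 : |max (-n) (min n v)| ≤ |n| := by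
    rw [abs_le]
    constructor
    · exact le_max_of_le_left (by linarith [le_abs_self n])
    · exact max_le (neg_le_abs n) ((min_le_left _ _).trans (le_abs_self n))
  simp only [Complex.mul_re, Complex.ofReal_re, Complex.ofReal_im, mul_zero, sub_zero]
  refine (le_abs_self _).trans ?_
  rw [abs_mul]
  nlinarith [abs_nonneg z.re, abs_nonneg (max (-n) (min n v)), abs_nonneg n]

lemma ex_zero (n : ℝ) : ex n 0 = 1 := by simp [ex]

lemma inner_apply (D : LineCalculus H) (f : BC) (η y : H) :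
    ⟪η, D.apply f y⟫_ℂ = ⟪D.apply (star f) η, y⟫_ℂ := by
  rw [map_star, ContinuousLinearMap.star_eq_adjoint, ContinuousLinearMap.adjoint_inner_left]

lemma inner_congr {D : LineCalculus H} {K : Set ℝ} {η : H} (h : D.SupportedIn K η) (f g : BC)
    (hfg : ∀ u ∈ K, f u = g u) (y : H) : ⟪η, D.apply f y⟫_ℂ = ⟪η, D.apply g y⟫_ℂ := by
  rw [inner_apply, inner_apply, SupportedIn.apply_congr h (star f) (star g) fun u hu => by
    simp [hfg u hu]]

/-- `cosh (v / 2)`, truncated -/
noncomputable def sig (n : ℝ) : BC := (1 / 2 : ℂ) • (ex n (1 / 2) + ex n (-(1 / 2)))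

lemma sig_apply {n v : ℝ} (hv : v ∈ Set.Icc (-n) n) :
    sig n v = (((1 + Real.exp v) / (2 * Real.exp (v / 2)) : ℝ) : ℂ) := by
  have : sig n v = (1 / 2 : ℂ) * (ex n (1 / 2) v + ex n (-(1 / 2)) v) := rfl
  rw [this, ex_apply_of_mem hv, ex_apply_of_mem hv]
  have h2 : Real.exp (v / 2) * Real.exp (v / 2) = Real.exp v := by
    rw [← Real.exp_add]; congr 1; ring
  have h3 : Real.exp (v / 2) * Real.exp (-(v / 2)) = 1 := by
    rw [← Real.exp_add]; simp
  have e : (1 + Real.exp v) / (2 * Real.exp (v / 2)) =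
      1 / 2 * (Real.exp (v / 2) + Real.exp (-(v / 2))) := by
    have := Real.exp_pos (v / 2)
    field_simp
    nlinarith
  rw [e]
  push_cast
  congr 3 <;> ring

lemma exp_half (v t : ℝ) (s : ℝ) :
    Complex.exp ((s + Complex.I * t) * v) =
      ((Real.exp (s * v) : ℝ) : ℂ) * Complex.exp (Complex.I * ((t * v : ℝ) : ℂ)) := by
  push_cast
  rw [← Complex.exp_add]; congr 1; ring

lemma sig_tau {n v : ℝ} (hv : v ∈ Set.Icc (-n) n) : sig n v * tau v = 1 := by
  rw [sig_apply hv, tau_apply, ← Complex.ofReal_mul, ← Complex.ofReal_one]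
  congr 1
  have := one_add_exp_pos v
  have := Real.exp_pos (v / 2)
  field_simp

lemma sig_rho {n v : ℝ} (hv : v ∈ Set.Icc (-n) n) :
    sig n v * rho v = ((Real.exp (-(1 / 2) * v) : ℝ) : ℂ) := by
  rw [sig_apply hv, rho_apply, ← Complex.ofReal_mul]
  congr 1
  have := one_add_exp_pos v
  have := Real.exp_pos (v / 2)
  have h3 : Real.exp (v / 2) * Real.exp (-(1 / 2) * v) = 1 := by
    rw [← Real.exp_add]; ring_nf; simp
  generalize Real.exp (-(1 / 2) * v) = w at h3
  field_simp
  linarith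

lemma sig_rho' {n v : ℝ} (hv : v ∈ Set.Icc (-n) n) :
    sig n v * (2 - rho : BC) v = ((Real.exp (1 / 2 * v) : ℝ) : ℂ) := by
  rw [sig_apply hv, two_sub_rho_apply, ← Complex.ofReal_mul]
  congr 1
  have := one_add_exp_pos v
  have := Real.exp_pos (v / 2)
  have h3 : Real.exp (v / 2) * Real.exp (1 / 2 * v) = Real.exp v := by
    rw [← Real.exp_add]; ring_nf
  generalize Real.exp (1 / 2 * v) = w at h3
  field_simp
  linarith

/-- the pointwise identity on vectors of compact spectral support -/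
lemma key {R T : Op H} {D : LineCalculus H} (hD : IsLogCalc R D) (h0 : 0 ≤ R)
    (hT : T = cfc (fun r : ℝ => √(r * (2 - r))) R) {l l' : ℂ} {a x : Op H}
    (hax : (2 : ℂ) • (T * a * T) = l • ((2 - R) * x * R) + l' • (R * x * (2 - R))) {n : ℝ}
    {ξ η : H} (hξ : D.SupportedIn (Set.Icc (-n) n) ξ) (hη : D.SupportedIn (Set.Icc (-n) n) η)
    (t : ℝ) :
    2 * ⟪η, (D.wave t * a * D.wave (-t)) ξ⟫_ℂ =
      l * ⟪η, D.apply (ex n (1 / 2 + Complex.I * t)) (x (D.apply (ex n (-(1 / 2 + Complex.I * t))) ξ))⟫_ℂ +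
      l' * ⟪η, D.apply (ex n (-(1 / 2) + Complex.I * t))
        (x (D.apply (ex n (-(-(1 / 2) + Complex.I * t))) ξ))⟫_ℂ := by
  have hT' := apply_tau hD h0 hT
  have hR' := apply_rho hD h0
  have hR2 := apply_two_sub hD h0
  set ξ₁ := D.apply (sig n * character (-t)) ξ with hξ₁
  have e1 : D.wave (-t) ξ = T ξ₁ := by
    rw [hξ₁, ← hT', ← apply_mul_apply]
    refine SupportedIn.apply_congr hξ _ _ fun u hu => ?_
    have := sig_tau hu
    simp only [BoundedContinuousFunction.coe_mul, Pi.mul_apply]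
    linear_combination (-(character (-t) u)) * this
  have e2 : ∀ y, ⟪η, D.wave t y⟫_ℂ = ⟪η, D.apply (character t * sig n) (T y)⟫_ℂ := by
    intro y
    rw [← hT', ← apply_mul_apply]
    refine inner_congr hη _ _ (fun u hu => ?_) y
    have := sig_tau hu
    simp only [BoundedContinuousFunction.coe_mul, Pi.mul_apply]
    linear_combination (-(character t u)) * this
  have e3 : R ξ₁ = D.apply (ex n (-(1 / 2 + Complex.I * t))) ξ := by
    rw [hξ₁, ← hR', ← apply_mul_apply]
    refine SupportedIn.apply_congr hξ _ _ fun u hu => ?_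
    have h1 := sig_rho hu
    have h2 := exp_half u (-t) (-(1 / 2))
    simp only [BoundedContinuousFunction.coe_mul, Pi.mul_apply]
    rw [ex_apply_of_mem hu, character_apply, ← mul_assoc, mul_comm (rho u), h1, ← h2]
    congr 1; push_cast; ring
  have e4 : (2 - R) ξ₁ = D.apply (ex n (-(-(1 / 2) + Complex.I * t))) ξ := by
    rw [hξ₁, ← hR2, ← apply_mul_apply]
    refine SupportedIn.apply_congr hξ _ _ fun u hu => ?_
    have h1 := sig_rho' hu
    have h2 := exp_half u (-t) (1 / 2)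
    simp only [BoundedContinuousFunction.coe_mul, Pi.mul_apply]
    rw [ex_apply_of_mem hu, character_apply, ← mul_assoc, mul_comm ((2 - rho : BC) u), h1, ← h2]
    congr 1; push_cast; ring
  have e5 : ∀ y, ⟪η, D.apply (character t * sig n) ((2 - R) y)⟫_ℂ =
      ⟪η, D.apply (ex n (1 / 2 + Complex.I * t)) y⟫_ℂ := by
    intro y
    rw [← hR2, ← apply_mul_apply]
    refine inner_congr hη _ _ (fun u hu => ?_) y
    have h1 := sig_rho' hu
    have h2 := exp_half u t (1 / 2)
    simp only [BoundedContinuousFunction.coe_mul, Pi.mul_apply]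
    rw [ex_apply_of_mem hu, character_apply, mul_assoc, h1, mul_comm, ← h2]
    congr 1; push_cast; ring
  have e6 : ∀ y, ⟪η, D.apply (character t * sig n) (R y)⟫_ℂ =
      ⟪η, D.apply (ex n (-(1 / 2) + Complex.I * t)) y⟫_ℂ := by
    intro y
    rw [← hR', ← apply_mul_apply]
    refine inner_congr hη _ _ (fun u hu => ?_) y
    have h1 := sig_rho hu
    have h2 := exp_half u t (-(1 / 2))
    simp only [BoundedContinuousFunction.coe_mul, Pi.mul_apply]
    rw [ex_apply_of_mem hu, character_apply, mul_assoc, h1, mul_comm, ← h2]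
    congr 1; push_cast; ring
  have e7 := congrArg (fun b : Op H => ⟪η, D.apply (character t * sig n) (b ξ₁)⟫_ℂ) hax
  simp only [add_apply, smul_apply, mul_apply_eq_comp, map_add, map_smul,
    inner_add_right, inner_smul_right] at e7
  rw [e5, e6, e3, e4] at e7
  rw [mul_apply_eq_comp, mul_apply_eq_comp, e1, e2, e7]

lemma dense_supp (D : LineCalculus H) :
    Dense {p : H × H | ∃ n : ℝ, D.SupportedIn (Set.Icc (-n) n) p.1 ∧
      D.SupportedIn (Set.Icc (-n) n) p.2} := by
  have h1 : Dense {ξ : H | ∃ n : ℝ, ∀ m, n ≤ m → D.SupportedIn (Set.Icc (-m) m) ξ} := by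
    refine Metric.dense_iff.2 fun ξ ε hε => ?_
    obtain ⟨f, hf, hfx⟩ := D.window ξ ε hε
    obtain ⟨r, hr⟩ := hf.isCompact.isBounded.exists_norm_le
    refine ⟨D.apply f ξ, by simpa [dist_eq_norm] using hfx, r, fun m hm => ?_⟩
    refine supportedIn_apply_of_vanish D f (fun u hu => ?_) ξ
    by_contra hne
    have := hr u (subset_tsupport _ hne)
    rw [Real.norm_eq_abs, abs_le] at this
    exact hu ⟨by linarith [this.1], by linarith [this.2]⟩
  refine (h1.prod h1).mono ?_
  rintro ⟨ξ, η⟩ ⟨⟨n, hn⟩, ⟨m, hm⟩⟩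
  exact ⟨max n m, hn _ (le_max_left _ _), hm _ (le_max_right _ _)⟩

lemma cont_int (D : LineCalculus H) {φ : ℝ} (hφ : |φ| < Real.pi) (a : Op H) :
    Continuous fun p : H × H =>
      ∫ t : ℝ, (ker φ t : ℂ) * ⟪p.2, (D.wave t * a * D.wave (-t)) p.1⟫_ℂ := by
  have hk := integrable_ker hφ
  refine continuous_iff_continuousAt.2 fun p₀ => ?_
  have e1 : ∀ᶠ p : H × H in 𝓝 p₀, ‖p.1‖ < ‖p₀.1‖ + 1 :=
    (by fun_prop : Continuous fun p : H × H => ‖p.1‖).continuousAt.eventually_lt
      continuousAt_const (by linarith)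
  have e2 : ∀ᶠ p : H × H in 𝓝 p₀, ‖p.2‖ < ‖p₀.2‖ + 1 :=
    (by fun_prop : Continuous fun p : H × H => ‖p.2‖).continuousAt.eventually_lt
      continuousAt_const (by linarith)
  have hform : ∀ (p : H × H) (t : ℝ), ⟪p.2, (D.wave t * a * D.wave (-t)) p.1⟫_ℂ =
      ⟪D.wave (-t) p.2, a (D.wave (-t) p.1)⟫_ℂ := fun p t => by
    rw [mul_apply_eq_comp, mul_apply_eq_comp, inner_wave_right]
  refine continuousAt_of_dominated
    (bound := fun t => ‖ker φ t‖ * ((‖p₀.2‖ + 1) * (‖a‖ * (‖p₀.1‖ + 1))))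
    (Eventually.of_forall fun p => ?_) ?_ (hk.norm.mul_const _)
    (Eventually.of_forall fun t => Continuous.continuousAt (by fun_prop))
  · refine (Complex.continuous_ofReal.comp_aestronglyMeasurable hk.aestronglyMeasurable).mul
      (Continuous.aestronglyMeasurable ?_)
    simp only [hform]
    exact ((continuous_wave D p.2).comp continuous_neg).inner
      (a.continuous.comp ((continuous_wave D p.1).comp continuous_neg))
  · filter_upwards [e1, e2] with p h1 h2
    refine Eventually.of_forall fun t => ?_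
    rw [norm_mul, Complex.norm_real, hform]
    refine mul_le_mul_of_nonneg_left ((norm_inner_le_norm _ _).trans ?_) (norm_nonneg _)
    rw [norm_wave_apply]
    refine mul_le_mul h2.le ((a.le_opNorm _).trans ?_) (norm_nonneg _) (by positivity)
    rw [norm_wave_apply]
    exact mul_le_mul_of_nonneg_left h1.le (norm_nonneg _)

end IntF

open IntF Crest.OpAlg.LineCalculus Crest.Agent.R84 in
/-- In terms of `D`: `R = 2 / (1 + e^D)`, `T = 2 e^{D/2} / (1 + e^D)`.  For `ξ = f(D) ξ₀`,
`η = f'(D) η₀` with `f, f'` of compact support, `G z = ⟪η, e^{z D} x e^{-z D} ξ⟫` is entire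
(`exp (z • A)` with `A = (v χ(v))(D)` bounded) and bounded on strips, and
`2 ⟪η, U_t a U_{-t} ξ⟫ = l G (½ + i t) + l̄ G (-½ + i t)`; apply `strip_formula`; density. -/
theorem int_formula {R T : Op H} {D : LineCalculus H} (hD : IsLogCalc R D) (h0 : 0 ≤ R)
    (h2 : R ≤ 2) (hT : T = cfc (fun r : ℝ => √(r * (2 - r))) R) {φ : ℝ} (hφ : |φ| < Real.pi) :
    ∃ c : ℂ, ∀ a x : Op H, (2 : ℂ) • (T * a * T) =
        Complex.exp (Complex.I * (φ / 2)) • ((2 - R) * x * R) +
          Complex.exp (-(Complex.I * (φ / 2))) • (R * x * (2 - R)) →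
      ∀ ξ η : H, ∫ t : ℝ, (ker φ t : ℂ) * ⟪η, (D.wave t * a * D.wave (-t)) ξ⟫_ℂ =
        c * ⟪η, x ξ⟫_ℂ := by
  refine ⟨(1 / 2) * ∫ t : ℝ, (ker φ t : ℂ) *
    (Complex.exp (Complex.I * (φ / 2)) + Complex.exp (-(Complex.I * (φ / 2)))),
    fun a x hax ξ η => ?_⟩
  have hc := Continuous.ext_on (dense_supp D) (cont_int D hφ a)
    (g := fun p : H × H => ((1 / 2) * ∫ t : ℝ, (ker φ t : ℂ) *
      (Complex.exp (Complex.I * (φ / 2)) + Complex.exp (-(Complex.I * (φ / 2))))) *
        ⟪p.2, x p.1⟫_ℂ) (by fun_prop) ?_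
  · exact congrFun hc (ξ, η)
  rintro ⟨ξ, η⟩ ⟨n, hξ, hη⟩
  let F : ℂ → ℂ := fun z => ⟪η, D.apply (ex n z) (x (D.apply (ex n (-z)) ξ))⟫_ℂ
  let Φ : BoundedContinuousFunction ℝ ℂ →L[ℂ] Op H :=
    LinearMap.mkContinuous D.apply.toAlgHom.toLinearMap 1 fun f => by
      simpa using norm_apply_le D f
  have hΦ : ∀ f, Φ f = D.apply f := fun f => rfl
  have h1 : Differentiable ℂ fun z => D.apply (ex n z) :=
    Φ.differentiable.comp (differentiable_ex n)
  have h1' : Differentiable ℂ fun z => D.apply (ex n (-z)) := h1.comp differentiable_neg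
  have hF : Differentiable ℂ F :=
    (innerSL ℂ η).differentiable.comp
      (h1.clm_apply (x.differentiable.comp (h1'.clm_apply (differentiable_const ξ))))
  have hB : ∀ z : ℂ, |z.re| ≤ 1 / 2 →
      ‖F z‖ ≤ ‖η‖ * (Real.exp |n| * (‖x‖ * (Real.exp |n| * ‖ξ‖))) := by
    intro z hz
    refine (norm_inner_le_norm _ _).trans (mul_le_mul_of_nonneg_left ?_ (norm_nonneg _))
    refine (norm_apply_apply_le D _ _).trans (mul_le_mul (norm_ex_le n hz) ?_ (norm_nonneg _)
      (Real.exp_pos _).le)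
    refine (x.le_opNorm _).trans (mul_le_mul_of_nonneg_left ?_ (norm_nonneg _))
    exact (norm_apply_apply_le D _ _).trans
      (mul_le_mul_of_nonneg_right (norm_ex_le n (by simpa using hz)) (norm_nonneg _))
  have hs := strip_formula hF hB hφ
  have hF0 : F 0 = ⟪η, x ξ⟫_ℂ := by simp [F, ex_zero]
  have e : ∀ t : ℝ, (ker φ t : ℂ) * ⟪η, (D.wave t * a * D.wave (-t)) ξ⟫_ℂ =
      (1 / 2) * ((ker φ t : ℂ) * (Complex.exp (Complex.I * (φ / 2)) * F (1 / 2 + Complex.I * t) +
        Complex.exp (-(Complex.I * (φ / 2))) * F (-(1 / 2) + Complex.I * t))) := by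
    intro t
    have := key hD h0 hT hax hξ hη t
    simp only [F]
    rw [← this]
    ring
  simp only [e]
  rw [MeasureTheory.integral_const_mul, hs, hF0]
  ring

open IntF Crest.OpAlg.LineCalculus Crest.Agent.R84 in
/-- `T f(D) ζ = (2 - R) f(D) ξ = T g(D) ξ` when `g = f e^{v/2}` -/
theorem halfExp_of {R T : Op H} {D : LineCalculus H} (hD : IsLogCalc R D) (h0 : 0 ≤ R)
    (h2 : R ≤ 2) (hT : T = cfc (fun r : ℝ => √(r * (2 - r))) R) (hi : ∀ ξ, T ξ = 0 → ξ = 0)
    {ξ ζ : H} (h : T ζ = (2 - R) ξ) : D.HalfExp ξ ζ := by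
  intro f g hfg
  have hT' := apply_tau hD h0 hT
  have hR2 := apply_two_sub hD h0
  rw [← sub_eq_zero]
  refine hi _ ?_
  rw [map_sub, sub_eq_zero]
  have e1 : T (D.apply f ζ) = D.apply f (T ζ) := by rw [← hT', apply_comm]
  rw [e1, h, ← hR2, ← hT', ← apply_mul_apply, ← apply_mul_apply]
  congr 2
  ext u
  simp only [BoundedContinuousFunction.coe_mul, Pi.mul_apply]
  rw [hfg u, two_sub_rho_apply, tau_apply]
  have h3 : Real.exp (u / 2) * Real.exp (u / 2) = Real.exp u := by
    rw [← Real.exp_add]; congr 1; ring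
  rw [← h3]
  push_cast
  ring

end Crest.Agent.R78
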