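import Crest.Agent.R78.Drift

/-! # Row 78: the tracial theorem with Pauli matrices -/

set_option autoImplicit false

namespace Crest.Agent.R78

open scoped InnerProductSpace ComplexOrder BigOperators Topology
open Filter
open Crest.Agent.R124 (Op cm)
open Crest.OpAlg (LineCalculus)

universe u

variable {H : Type u} [NormedAddCommGroup H] [InnerProductSpace ℂ H] [CompleteSpace H]

namespace Iter

lemma wl_lin {I : Type*} {l : Filter I} {T : I → Op H} {h : Op H} (hT : WL l T h) (x p : Op H) :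
    WL l (fun i => lin (T i) x p) (lin h x p) := by
  have h1 := (hT.mul_right p).sub (hT.mul_left p)
  exact (WL.const l (cm x p)).add ((h1.mul_left x).sub (h1.mul_right x))

/-- bounded operators that tend to zero on a dense set tend to zero weakly -/
lemma wl_zero {I : Type*} {l : Filter I} {T : I → Op H} {R : ℝ} (hR : ∀ i, ‖T i‖ ≤ R)
    {S : Set H} (hS : Dense S) (h : ∀ ξ ∈ S, Tendsto (fun i => T i ξ) l (𝓝 0)) : WL l T 0 := by
  intro ξ η
  have key : Tendsto (fun i => T i ξ) l (𝓝 0) := by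
    rw [Metric.tendsto_nhds]
    intro ε hε
    obtain ⟨ζ, hζ, hd⟩ := hS.exists_dist_lt ξ (show 0 < ε / 2 / (|R| + 1) by positivity)
    filter_upwards [Metric.tendsto_nhds.mp (h ζ hζ) (ε / 2) (by positivity)] with i hi
    rw [dist_zero_right] at hi ⊢
    rw [dist_eq_norm, lt_div_iff₀ (by positivity)] at hd
    have e : T i ξ = T i (ξ - ζ) + T i ζ := by rw [map_sub]; abel
    have h1 : ‖T i (ξ - ζ)‖ ≤ (|R| + 1) * ‖ξ - ζ‖ :=
      ((T i).le_opNorm _).trans (by gcongr; linarith [hR i, le_abs_self R])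
    rw [e]
    refine (norm_add_le _ _).trans_lt ?_
    linarith
  simpa using (tendsto_const_nhds (x := η)).inner (𝕜 := ℂ) key

end Iter

/-- `ρ = max (2 C₀) 1 * δ`, `n` with `C / √n ≤ 1/4`, `δ` small: unitaries `u k` with `‖u k - 1‖ ≤ ρ`
and `Gam … (γ₀ 2^{-k})`.  `h` = weak ultralimit of `u k - 1`; `norm_cm_conj_sub_lin`;
`[x, q] a Ω = [x a, q] Ω - x [a, q] Ω → 0`; density of `M Ω`. -/
theorem ct_pauli : CT.{u} HypPauli := by
  obtain ⟨C₀, C, ρ₀, hC₀, hC, hρ₀, hN⟩ := newton_vec.{u}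
  obtain ⟨n, hn⟩ := exists_nat_ge (16 * C ^ 2 + 1)
  have hn1 : (1 : ℝ) ≤ n := by nlinarith
  have hn1' : 1 ≤ n := by exact_mod_cast hn1
  have hsq : C * (1 / √(n : ℝ)) ≤ 1 / 4 := by
    have h1 : 4 * C ≤ √(n : ℝ) := Real.le_sqrt_of_sq_le (by nlinarith)
    rw [mul_one_div, div_le_iff₀ (by positivity)]
    linarith
  set L : ℝ := 2 * C₀ + 1 with hL
  have hL0 : 0 < L := by positivity
  refine ⟨L + 4 * L ^ 2, min (ρ₀ / L) (1 / (4 * C * n * L)), by positivity, by positivity, ?_⟩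
  intro H _ _ _ M N δ hyp hδ hδ₀ hcl
  obtain ⟨Ω, J, X, Z, hJ, hP⟩ := hyp
  simp only [le_min_iff] at hδ₀
  obtain ⟨r1, r2⟩ := hδ₀
  rw [le_div_iff₀ (by positivity)] at r1 r2
  set ρ : ℝ := L * δ with hρ
  have hρ0 : 0 < ρ := by positivity
  have hnρ : C * (n * ρ) ≤ 1 / 4 := by rw [hρ]; linarith
  have hCρ : C * ρ ≤ 1 / 4 := le_trans (by gcongr; nlinarith) hnρ
  set γ₀ : ℝ := 2 * ‖Ω‖ + 1 with hγ₀
  have hγ₀0 : 0 < γ₀ := by positivity
  have key : ∀ k : ℕ, ∃ u ∈ unitary (Op H), Mod J X Z u ∧ ‖u - 1‖ ≤ ρ ∧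
      Gam M (cj u N).commutant Ω (γ₀ * (1 / 2) ^ k) := by
    intro k
    induction k with
    | zero =>
      refine ⟨1, one_mem _, ⟨Commute.one_left _, Commute.one_left _, Commute.one_left _,
        Commute.one_left _⟩, by simpa using hρ0.le, ?_⟩
      intro x _ p _
      have h1 : ‖cm x p‖ ≤ 2 * ‖x‖ * ‖p‖ := by
        refine (norm_sub_le _ _).trans ?_
        have := norm_mul_le x p
        have := norm_mul_le p x
        linarith
      have h2 : ‖cm x p Ω‖ ≤ 2 * ‖x‖ * ‖p‖ * ‖Ω‖ := ((cm x p).le_opNorm Ω).trans (by gcongr)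
      have h3 : 0 ≤ ‖x‖ * ‖p‖ := by positivity
      rw [pow_zero, mul_one, hγ₀]
      linarith
    | succ k ih =>
      obtain ⟨u, hu, hm, hu1, hg⟩ := ih
      obtain ⟨u', hu', hm', hu1', hg'⟩ := hN H M N Ω J X Z u δ ρ _ hJ hP hu hm hδ
        (by rw [hρ, hL]; nlinarith) (by rw [hρ]; linarith) hcl hu1 (by positivity) hg n hn1'
      refine ⟨u', hu', hm', hu1'.trans ?_, Drift.gam_mono hg' ?_⟩
      · have h1 : C * ρ * ρ ≤ 1 / 4 * ρ := by gcongr
        have h2 : 2 * (C₀ * δ) ≤ ρ := by rw [hρ, hL]; linarith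
        nlinarith
      · have h1 : C * (1 / √n + n * ρ) ≤ 1 / 2 := by rw [mul_add]; linarith
        calc C * (1 / √n + n * ρ) * (γ₀ * (1 / 2) ^ k) ≤ 1 / 2 * (γ₀ * (1 / 2) ^ k) := by gcongr
          _ = _ := by ring
  choose u hu _ hu1 hg using key
  obtain ⟨h, hh, hw⟩ := exists_wl (hyperfilter ℕ) (fun k => u k - 1) hρ0.le
    (Eventually.of_forall hu1)
  refine ⟨h, hh.trans (by rw [hρ]; gcongr; nlinarith), ?_⟩
  intro x hx p hp
  have hq : ∀ k, u k * p * star (u k) ∈ (cj (u k) N).commutant := fun k => by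
    rw [cj_commutant (hu k)]; exact conj_mem_cj (hu k) hp
  have hqn : ∀ k, ‖u k * p * star (u k)‖ = ‖p‖ := fun k => by
    rw [CStarRing.norm_mul_mem_unitary _ (Unitary.star_mem (hu k)),
      CStarRing.norm_mem_unitary_mul _ (hu k)]
  have hz : WL (hyperfilter ℕ : Filter ℕ) (fun k => cm x (u k * p * star (u k))) 0 := by
    refine Iter.wl_zero (R := 2 * ‖x‖ * ‖p‖) (fun k => ?_) hJ.tr.1 ?_
    · refine (norm_sub_le _ _).trans ?_
      have h1 := norm_mul_le x (u k * p * star (u k))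
      have h2 := norm_mul_le (u k * p * star (u k)) x
      rw [hqn] at h1 h2
      linarith
    · rintro _ ⟨a, ha, rfl⟩
      refine Tendsto.mono_left ?_ (Nat.hyperfilter_le_atTop)
      have hlim : Tendsto (fun k : ℕ => 2 * (‖x‖ * ‖a‖ * ‖p‖) * γ₀ * (1 / 2 : ℝ) ^ k) atTop
          (𝓝 0) := by
        simpa using (tendsto_pow_atTop_nhds_zero_of_lt_one (r := (1 / 2 : ℝ)) (by norm_num)
          (by norm_num)).const_mul (2 * (‖x‖ * ‖a‖ * ‖p‖) * γ₀)
      refine squeeze_zero_norm (fun k => ?_) hlim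
      set q := u k * p * star (u k) with hqd
      have e : cm x q (a Ω) = cm (x * a) q Ω - x (cm a q Ω) := by
        simp only [cm, ContinuousLinearMap.sub_apply, ContinuousLinearMap.mul_apply, map_sub]
        abel
      have h1 := hg k (x * a) (mul_mem hx ha) q (hq k)
      have h2 := hg k a ha q (hq k)
      rw [hqn] at h1 h2
      have h3 : ‖x (cm a q Ω)‖ ≤ ‖x‖ * (γ₀ * (1 / 2) ^ k * ‖a‖ * ‖p‖) :=
        (x.le_opNorm _).trans (by gcongr)
      have h4 : γ₀ * (1 / 2) ^ k * ‖x * a‖ * ‖p‖ ≤ γ₀ * (1 / 2) ^ k * (‖x‖ * ‖a‖) * ‖p‖ := by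
        gcongr; exact norm_mul_le _ _
      show ‖cm x q (a Ω)‖ ≤ _
      rw [e]
      refine (norm_sub_le _ _).trans ?_
      linarith
  have hl := (Iter.wl_lin hw x p).sub hz
  rw [sub_zero] at hl
  refine (hl.norm_le (c := 4 * ρ ^ 2 * ‖x‖ * ‖p‖) (Eventually.of_forall fun k => ?_)).trans ?_
  · rw [norm_sub_rev]
    refine (norm_cm_conj_sub_lin (hu k) x p).trans ?_
    gcongr
    exact hu1 k
  · have h1 : 4 * ρ ^ 2 ≤ (L + 4 * L ^ 2) * δ ^ 2 := by
      have : 0 ≤ L * δ ^ 2 := by positivity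
      rw [hρ]; nlinarith
    gcongr

end Crest.Agent.R78
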