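import Crest.Agent.R78.RN

/-! # Row 78: Tomita–Takesaki V: the key identity -/

set_option autoImplicit false

namespace Crest.Agent.R78

open scoped InnerProductSpace ComplexOrder BigOperators Topology
open Filter
open Crest.Agent.R124 (Op cm)
open Crest.OpAlg (LineCalculus)

universe u

variable {H : Type u} [NormedAddCommGroup H] [InnerProductSpace ℂ H] [CompleteSpace H]

namespace Key
variable {M : VN H} {Ω : H} {P : H → H} {R T : Op H} {J : H ≃ₗᵢ⋆[ℂ] H}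

open Crest.Agent.R124 (inner_star_left inner_star_right)

/-- real and imaginary parts -/
lemma exists_re_im {N : VN H} {y : Op H} (hy : y ∈ N) :
    ∃ a ∈ N, ∃ b ∈ N, IsSelfAdjoint a ∧ IsSelfAdjoint b ∧ y = a + Complex.I • b ∧
      star y = a - Complex.I • b := by
  refine ⟨(1 / 2 : ℂ) • (y + star y), smul_mem_vn _ (add_mem hy (star_mem hy)),
    (-Complex.I / 2) • (y - star y), smul_mem_vn _ (sub_mem hy (star_mem hy)), ?_, ?_, ?_, ?_⟩
  · rw [IsSelfAdjoint, star_smul, star_add, star_star, add_comm]; simp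
  · rw [IsSelfAdjoint, star_smul, star_sub, star_star, ← neg_sub, smul_neg, ← neg_smul]
    congr 1
    simp [neg_div]
  · rw [smul_smul, show Complex.I * (-Complex.I / 2) = 1 / 2 by
      linear_combination (-1 / 2 : ℂ) * Complex.I_mul_I]
    module
  · rw [smul_smul, show Complex.I * (-Complex.I / 2) = 1 / 2 by
      linear_combination (-1 / 2 : ℂ) * Complex.I_mul_I]
    module

lemma mem_saSub {x : Op H} (hx : x ∈ M) (hs : IsSelfAdjoint x) : x Ω ∈ saSub M Ω :=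
  Submodule.le_topologicalClosure _ (Submodule.subset_span ⟨x, hx, hs, rfl⟩)

lemma re_inner_eq_zero {ξ : H} (h : ∀ x ∈ M, IsSelfAdjoint x → (⟪x Ω, ξ⟫_ℂ).re = 0) :
    ∀ k ∈ saSub M Ω, (⟪k, ξ⟫_ℂ).re = 0 := by
  intro k hk
  have hcl : IsClosed {k : H | (⟪k, ξ⟫_ℂ).re = 0} :=
    isClosed_eq (Complex.continuous_re.comp (continuous_id.inner continuous_const))
      continuous_const
  refine closure_minimal (fun k hk => ?_) hcl hk
  induction hk using Submodule.span_induction with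
  | mem k hk => obtain ⟨x, hx, hs, rfl⟩ := hk; exact h x hx hs
  | zero => simp
  | add a b _ _ ha hb =>
    simp only [Set.mem_ofPred_eq] at ha hb ⊢
    rw [inner_add_left, Complex.add_re, ha, hb, add_zero]
  | smul r a _ ha =>
    simp only [Set.mem_ofPred_eq] at ha ⊢
    rw [← Complex.coe_smul, inner_smul_left, Complex.conj_ofReal, Complex.re_ofReal_mul, ha,
      mul_zero]

lemma re_inner_I {y : Op H} (hy : y ∈ M.commutant) (hs : IsSelfAdjoint y) :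
    ∀ k ∈ saSub M Ω, (⟪k, Complex.I • y Ω⟫_ℂ).re = 0 := by
  refine re_inner_eq_zero fun x hx hx' => ?_
  have h1 : (starRingEnd ℂ) ⟪x Ω, y Ω⟫_ℂ = ⟪x Ω, y Ω⟫_ℂ := by
    rw [inner_conj_symm]
    calc ⟪y Ω, x Ω⟫_ℂ = ⟪Ω, y (x Ω)⟫_ℂ := by rw [← inner_star_left y Ω, hs.star_eq]
      _ = ⟪Ω, x (y Ω)⟫_ℂ := by
          rw [← mul_apply_eq_comp, ← (commute_of_mem hx hy).eq, mul_apply_eq_comp]
      _ = ⟪x Ω, y Ω⟫_ℂ := by rw [← inner_star_left, hx'.star_eq]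
  rw [inner_smul_right, Complex.I_mul_re, Complex.conj_eq_iff_im.1 h1, neg_zero]

/-- a vector orthogonal to `N_sa Ω` vanishes if `Ω` is cyclic for `N` -/
lemma eq_zero_of_cyc {N : VN H} (hc : Cyc (N : Set (Op H)) Ω) {η : H}
    (h : ∀ x ∈ N, ⟪x Ω, η⟫_ℂ = 0) : η = 0 :=
  Dense.eq_zero_of_inner_right hc (𝕜 := ℂ) (by rintro _ ⟨x, hx, rfl⟩; exact h x hx)

lemma eq_zero_of_cyc_sa {N : VN H} (hc : Cyc (N : Set (Op H)) Ω) {η : H}
    (h : ∀ x ∈ N, IsSelfAdjoint x → ⟪x Ω, η⟫_ℂ = 0) : η = 0 := by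
  refine eq_zero_of_cyc hc fun x hx => ?_
  obtain ⟨a, ha, b, hb, ha', hb', rfl, -⟩ := exists_re_im hx
  simp [h a ha ha', h b hb hb']

lemma op_ext_of_cyc {N : VN H} (hc : Cyc (N : Set (Op H)) Ω) {a b : Op H}
    (h : ∀ x ∈ N, a (x Ω) = b (x Ω)) : a = b := by
  ext1 ξ
  refine congrFun (Continuous.ext_on hc a.continuous b.continuous ?_) ξ
  rintro _ ⟨x, hx, rfl⟩
  exact h x hx

lemma P_eq {K : Submodule ℝ H} (h : RvD K P R T J) {ξ k : H} (hk : k ∈ K)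
    (ho : ∀ k' ∈ K, (⟪k', ξ - k⟫_ℂ).re = 0) : P ξ = k := by
  have hm : P ξ - k ∈ K := K.sub_mem (h.P_mem ξ) hk
  have h1 := ho _ hm
  have h2 := h.P_orth ξ _ hm
  have h3 : (⟪P ξ - k, P ξ - k⟫_ℂ).re = 0 := by
    have : P ξ - k = (ξ - k) - (ξ - P ξ) := by abel
    conv_lhs => rw [this, inner_sub_right, ← this, Complex.sub_re, h1, h2, sub_zero]
  have h4 : ‖P ξ - k‖ ^ 2 = 0 := by rw [← h3, ← inner_self_eq_norm_sq (𝕜 := ℂ)]; rfl
  exact sub_eq_zero.1 (norm_eq_zero.1 (pow_eq_zero_iff two_ne_zero |>.1 h4))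

lemma JT_of_mem {K : Submodule ℝ H} (h : RvD K P R T J) {k : H} (hk : k ∈ K) :
    J (T k) = (2 - R) k := by
  have h1 : P k = k := P_eq h hk (by simp)
  have h2 : (2 - R) k = (2 : ℂ) • k - R k := by
    rw [sub_apply, show (2 : Op H) = (2 : ℂ) • (1 : Op H) by rw [two_smul, one_add_one_eq_two]]
    rfl
  rw [h.JT_eq, h2, h.R_eq, h1]
  module

lemma P_I (h : RvD (saSub M Ω) P R T J) {y : Op H} (hy : y ∈ M.commutant)
    (hs : IsSelfAdjoint y) : P (Complex.I • y Ω) = 0 :=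
  P_eq h (Submodule.zero_mem _) (by simpa only [sub_zero] using re_inner_I hy hs)

lemma T_sa {K : Submodule ℝ H} (h : RvD K P R T J) : star T = T := by
  rw [h.T_eq]; exact IsSelfAdjoint.cfc

lemma R_sa {K : Submodule ℝ H} (h : RvD K P R T J) : star R = R :=
  (IsSelfAdjoint.of_nonneg h.R_nonneg)

lemma T_nonneg {K : Submodule ℝ H} (h : RvD K P R T J) : 0 ≤ T := by
  rw [h.T_eq]; exact cfc_nonneg fun _ _ => Real.sqrt_nonneg _

lemma T_mul_T {K : Submodule ℝ H} (h : RvD K P R T J) : T * T = R * (2 - R) := by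
  have hR : IsSelfAdjoint R := R_sa h
  have h0 : ∀ r ∈ spectrum ℝ R, 0 ≤ r := fun r hr => spectrum_nonneg_of_nonneg h.R_nonneg hr
  have h2 : ∀ r ∈ spectrum ℝ R, r ≤ 2 := by
    rw [← le_algebraMap_iff_spectrum_le (R := ℝ) hR, map_ofNat]
    exact h.R_le
  rw [h.T_eq, ← cfc_mul _ _ R]
  have : cfc (fun r : ℝ => r * (2 - r)) R = R * (2 - R) := by
    rw [cfc_mul _ _ R, cfc_sub _ _ R, cfc_id' ℝ R, cfc_const 2 R, map_ofNat]
  rw [← this]
  exact cfc_congr fun r hr => Real.mul_self_sqrt (mul_nonneg (h0 r hr) (sub_nonneg.2 (h2 r hr)))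

lemma inner_J_left (hJ : ∀ ξ, J (J ξ) = ξ) (ξ η : H) : ⟪J ξ, η⟫_ℂ = ⟪J η, ξ⟫_ℂ := by
  conv_lhs => rw [← hJ η, inner_J]

lemma inner_JT {K : Submodule ℝ H} (h : RvD K P R T J) (ξ η : H) :
    ⟪J (T ξ), η⟫_ℂ = ⟪J (T η), ξ⟫_ℂ := by
  rw [inner_J_left h.J_J, h.J_T η, ← inner_star_left, T_sa h]

omit [CompleteSpace H] in
lemma J_add_I (J : H ≃ₗᵢ⋆[ℂ] H) (T : Op H) (ξ η : H) :
    J (T (ξ + Complex.I • η)) = J (T ξ) - Complex.I • J (T η) := by
  rw [map_add, map_add, map_smul, LinearIsometryEquiv.map_smulₛₗ, Complex.conj_I, neg_smul,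
    sub_eq_add_neg]

omit [CompleteSpace H] in
lemma J_sub_I (J : H ≃ₗᵢ⋆[ℂ] H) (T : Op H) (ξ η : H) :
    J (T (ξ - Complex.I • η)) = J (T ξ) + Complex.I • J (T η) := by
  rw [map_sub, map_sub, map_smul, LinearIsometryEquiv.map_smulₛₗ, Complex.conj_I, neg_smul,
    sub_neg_eq_add]

end Key

open Key
open Crest.Agent.R124 (inner_star_left inner_star_right)

section
variable {M : VN H} {Ω : H} {P : H → H} {R T : Op H} {J : H ≃ₗᵢ⋆[ℂ] H}

/-- for `y = y⋆ ∈ M`, `y' = y'⋆ ∈ M'` the number `⟪y Ω, y' Ω⟫` is real; so `M'_sa Ω ⊥ i K`;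
if `ξ, i ξ ∈ K` then `ξ ⊥ M' Ω`, which is dense (`cyc_commutant`) -/
theorem saSub_inter (hsep : ∀ x ∈ M, x Ω = 0 → x = 0) :
    ∀ ξ ∈ saSub M Ω, Complex.I • ξ ∈ saSub M Ω → ξ = 0 := by
  intro ξ h1 h2
  refine eq_zero_of_cyc_sa (cyc_commutant hsep) fun y hy hs => ?_
  have a1 := re_inner_I hy hs ξ h1
  have a2 := re_inner_I hy hs _ h2
  rw [inner_smul_right, Complex.I_mul_re, neg_eq_zero] at a1
  rw [inner_smul_right, inner_smul_left, Complex.conj_I, ← mul_assoc, mul_neg, Complex.I_mul_I,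
    neg_neg, one_mul] at a2
  rw [← inner_conj_symm, show ⟪ξ, y Ω⟫_ℂ = 0 from Complex.ext a2 a1, map_zero]

theorem saSub_total (hc : Cyc (M : Set (Op H)) Ω) :
    ∀ η : H, (∀ k ∈ saSub M Ω, ⟪k, η⟫_ℂ = 0) → η = 0 := by
  exact fun η h => eq_zero_of_cyc_sa hc fun x hx hs => h _ (mem_saSub hx hs)

/-- for `k ∈ K`: `P k = k`, so `(P - Q) k = (2 - R) k`; extend by conjugate linearity -/
theorem RvD.JT_mem (h : RvD (saSub M Ω) P R T J) {y : Op H} (hy : y ∈ M) :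
    J (T (y Ω)) = (2 - R) (star y Ω) := by
  obtain ⟨a, ha, b, hb, ha', hb', rfl, hs⟩ := exists_re_im hy
  rw [hs, add_apply, sub_apply a, smul_apply, J_add_I, JT_of_mem h (mem_saSub ha ha'),
    JT_of_mem h (mem_saSub hb hb'), map_sub, map_smul]

/-- for `y' = y'⋆ ∈ M'`: `Q (y' Ω) = 0` -/
theorem RvD.JT_mem' (h : RvD (saSub M Ω) P R T J) {y : Op H} (hy : y ∈ M.commutant) :
    J (T (y Ω)) = R (star y Ω) := by
  have key : ∀ a ∈ M.commutant, IsSelfAdjoint a → J (T (a Ω)) = R (a Ω) := fun a ha ha' => by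
    rw [h.JT_eq, h.R_eq, P_I h ha ha', smul_zero, add_zero, sub_zero]
  obtain ⟨a, ha, b, hb, ha', hb', rfl, hs⟩ := exists_re_im hy
  rw [hs, add_apply, sub_apply a, smul_apply, J_add_I, key a ha ha', key b hb hb', map_sub,
    map_smul]

theorem RvD.R_vac (h : RvD (saSub M Ω) P R T J) : R Ω = Ω := by
  have h1 : P Ω = Ω := P_eq h (mem_saSub (x := 1) (one_mem M) (IsSelfAdjoint.one _)) (by simp)
  have h2 : P (Complex.I • Ω) = 0 := P_I h (y := 1) (one_mem _) (IsSelfAdjoint.one _)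
  rw [h.R_eq, h1, h2, smul_zero, sub_zero]

theorem RvD.J_vac (h : RvD (saSub M Ω) P R T J) : J Ω = Ω := by
  have h1 : J (T Ω) = Ω := by
    have := h.JT_mem' (y := 1) (one_mem _)
    rwa [star_one, one_apply_eq_self, h.R_vac] at this
  have h2 : T (T Ω) = Ω := by
    have h3 : (2 - R) Ω = Ω := by
      rw [sub_apply, h.R_vac, ← one_add_one_eq_two, add_apply, one_apply_eq_self,
        add_sub_cancel_right]
    rw [← mul_apply_eq_comp, T_mul_T h, mul_apply_eq_comp, h3, h.R_vac]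
  have h3 : T (T Ω - Ω) = -(T Ω - Ω) := by rw [map_sub, h2, neg_sub]
  have h4 := ((ContinuousLinearMap.nonneg_iff_isPositive T).1 (T_nonneg h)).re_inner_nonneg_left
    (T Ω - Ω)
  rw [h3, inner_neg_left, map_neg, inner_self_eq_norm_sq] at h4
  have h5 : ‖T Ω - Ω‖ = 0 := by nlinarith [norm_nonneg (T Ω - Ω)]
  rw [norm_eq_zero, sub_eq_zero] at h5
  rwa [h5] at h1

theorem RvD.T_inj (h : RvD (saSub M Ω) P R T J) : ∀ ξ, T ξ = 0 → ξ = 0 := by
  intro ξ h0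
  refine h.R_inj' ξ (h.R_inj _ ?_)
  rw [← mul_apply_eq_comp, ← T_mul_T h, mul_apply_eq_comp, h0, map_zero]

/-- `J P = (1 - Q) J`, so `J K ⊥ i K` -/
theorem RvD.im_J (h : RvD (saSub M Ω) P R T J) {x y : Op H} (hx : x ∈ M) (hy : y ∈ M)
    (hx' : IsSelfAdjoint x) (hy' : IsSelfAdjoint y) : (⟪y Ω, J (x Ω)⟫_ℂ).im = 0 := by
  have hk := mem_saSub (Ω := Ω) hx hx'
  have h2 : ∀ ξ : H, (2 - R) ξ = ξ + ξ - R ξ := fun ξ => by
    rw [sub_apply, ← one_add_one_eq_two, add_apply, one_apply_eq_self]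
  have h1 : T (x Ω) = R (J (x Ω)) := by
    rw [← h.J_J (T (x Ω)), JT_of_mem h hk, h2, map_sub, map_add, h.J_R, h2]
    abel
  have h3 : J (T (J (x Ω))) = R (J (x Ω)) := by rw [h.J_T, h.J_J, h1]
  rw [h.JT_eq, h.R_eq, sub_eq_add_neg, add_right_inj, eq_neg_iff_add_eq_zero, ← two_smul ℂ,
    smul_eq_zero, smul_eq_zero] at h3
  have h4 : P (Complex.I • J (x Ω)) = 0 := by simpa using h3
  have h5 := h.P_orth (Complex.I • J (x Ω)) _ (mem_saSub (Ω := Ω) hy hy')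
  rwa [h4, sub_zero, inner_smul_right, Complex.I_mul_re, neg_eq_zero] at h5

/-- RvD Cor. 4.4 (`linear_rn` with `l = 1`: `P (x' Ω) = x Ω`, `Q (x' Ω) = 0`) -/
theorem RvD.exists_JT (h : RvD (saSub M Ω) P R T J) {y' : Op H} (hy : y' ∈ M.commutant) :
    ∃ y ∈ M, J (T (y' Ω)) = y Ω ∧ J (T (star y' Ω)) = star y Ω := by
  have key : ∀ a' ∈ M.commutant, IsSelfAdjoint a' →
      ∃ a ∈ M, IsSelfAdjoint a ∧ J (T (a' Ω)) = a Ω := fun a' ha ha' => by
    obtain ⟨a, haM, has, hrn⟩ := linear_rn M Ω ha ha' (l := 1) (by simp)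
    refine ⟨a, haM, has, ?_⟩
    rw [h.JT_eq, P_I h ha ha', smul_zero, add_zero]
    refine P_eq h (mem_saSub haM has) (re_inner_eq_zero fun x hx hx' => ?_)
    rw [inner_sub_right, Complex.sub_re, hrn x hx hx', one_mul, Complex.ofReal_re, sub_self]
  obtain ⟨a', ha', b', hb', has, hbs, rfl, hs⟩ := exists_re_im hy
  obtain ⟨a, ha, has', ea⟩ := key a' ha' has
  obtain ⟨b, hb, hbs', eb⟩ := key b' hb' hbs
  refine ⟨a - Complex.I • b, sub_mem ha (smul_mem_vn _ hb), ?_, ?_⟩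
  · rw [add_apply, smul_apply, J_add_I, ea, eb, sub_apply, smul_apply]
  · rw [hs, sub_apply, smul_apply, J_sub_I, ea, eb, star_sub, star_smul, has'.star_eq,
      hbs'.star_eq, sub_apply, smul_apply, RCLike.star_def, Complex.conj_I, neg_smul,
      sub_neg_eq_add]

/-- RvD Lemma 4.5.  For `x' = x'⋆` take `x` from `linear_rn`; by (conjugate) linearity in `y` and
`y ↦ z⋆ y`, `2 ⟪y Ω, x' z Ω⟫ = l ⟪y Ω, z x Ω⟫ + l̄ ⟪y x Ω, z Ω⟫`-type identity for `y, z ∈ M`;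
insert `y Ω = J T y' Ω`, `z Ω = J T z' Ω` (`exists_JT`), use `⟪J T ξ, η⟫ = ⟪J T η, ξ⟫`, `JT_mem`,
`JT_mem'` and density of `M' Ω`.  (Use `linear_rn` with `l` or `conj l`, whichever fits.) -/
theorem RvD.key (h : RvD (saSub M Ω) P R T J) (hsep : ∀ x ∈ M, x Ω = 0 → x = 0) {x' : Op H}
    (hx' : x' ∈ M.commutant) {l : ℂ} (hl : 0 < l.re) :
    ∃ x ∈ M, (2 : ℂ) • (T * jop J x' * T) =
      l • ((2 - R) * x * R) + (starRingEnd ℂ l) • (R * x * (2 - R)) := by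
  have hc := cyc_commutant hsep
  have hR2 : star (2 - R) = 2 - R := by rw [star_sub, R_sa h]; simp
  have key : ∀ x' ∈ M.commutant, IsSelfAdjoint x' → ∃ x ∈ M, (2 : ℂ) • (T * jop J x' * T) =
      l • ((2 - R) * x * R) + (starRingEnd ℂ l) • (R * x * (2 - R)) := fun x' hx' hs => by
    obtain ⟨x, hx, hxs, hrn⟩ := linear_rn M Ω hx' hs (l := starRingEnd ℂ l) (by simpa using hl)
    refine ⟨x, hx, ?_⟩
    have e1 : ∀ y ∈ M, IsSelfAdjoint y → 2 * ⟪y Ω, x' Ω⟫_ℂ =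
        starRingEnd ℂ l * ⟪y Ω, x Ω⟫_ℂ + l * ⟪x Ω, y Ω⟫_ℂ := fun y hy hys => by
      rw [hrn y hy hys, Complex.re_eq_add_conj, map_mul, inner_conj_symm, Complex.conj_conj]
      ring
    have e2 : ∀ y ∈ M, 2 * ⟪y Ω, x' Ω⟫_ℂ =
        starRingEnd ℂ l * ⟪y Ω, x Ω⟫_ℂ + l * ⟪x Ω, star y Ω⟫_ℂ := fun y hy => by
      obtain ⟨a, ha, b, hb, ha', hb', rfl, hs⟩ := exists_re_im hy
      rw [hs]
      simp only [add_apply, sub_apply, smul_apply, inner_add_left, inner_sub_right,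
        inner_smul_left, inner_smul_right, Complex.conj_I]
      linear_combination e1 a ha ha' - Complex.I * e1 b hb hb'
    have e3 : ∀ y ∈ M, ∀ z ∈ M, 2 * ⟪y Ω, x' (z Ω)⟫_ℂ =
        starRingEnd ℂ l * ⟪y Ω, (z * x) Ω⟫_ℂ + l * ⟪(y * x) Ω, z Ω⟫_ℂ := fun y hy z hz => by
      have := e2 (star z * y) (mul_mem (star_mem hz) hy)
      rw [star_mul, star_star, mul_apply_eq_comp, mul_apply_eq_comp, inner_star_left,
        inner_star_left, inner_star_right, ← mul_apply_eq_comp z x',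
        (commute_of_mem hz hx').eq] at this
      exact this
    refine op_ext_of_cyc hc fun z' hz' => ?_
    rw [← sub_eq_zero]
    refine eq_zero_of_cyc hc fun y' hy' => ?_
    obtain ⟨y, hy, ey1, ey2⟩ := h.exists_JT hy'
    obtain ⟨z, hz, ez1, ez2⟩ := h.exists_JT hz'
    rw [h.JT_mem' (star_mem hy'), star_star] at ey2
    rw [h.JT_mem' (star_mem hz'), star_star] at ez2
    have f1 : ⟪y Ω, x' (z Ω)⟫_ℂ = ⟪(T * jop J x' * T) (z' Ω), y' Ω⟫_ℂ := by
      rw [← ey1, ← ez1, inner_JT h, h.J_T]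
      rfl
    have f2 : ⟪y Ω, (z * x) Ω⟫_ℂ = ⟪((2 - R) * x * R) (z' Ω), y' Ω⟫_ℂ := by
      rw [← ey1, inner_JT h, h.JT_mem (mul_mem hz hx), star_mul, hxs.star_eq, mul_apply_eq_comp,
        ← ez2]
      rfl
    have f3 : ⟪(y * x) Ω, z Ω⟫_ℂ = ⟪(R * x * (2 - R)) (z' Ω), y' Ω⟫_ℂ := by
      rw [← ez1, ← inner_conj_symm, inner_JT h, inner_conj_symm, h.JT_mem (mul_mem hy hx),
        star_mul, hxs.star_eq, mul_apply_eq_comp, ← ey2, ← inner_star_left (2 - R), hR2,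
        ← inner_star_left x, hxs.star_eq, ← inner_star_left R, R_sa h]
      rfl
    have e4 := e3 y hy z hz
    rw [f1, f2, f3] at e4
    rw [← inner_conj_symm, map_eq_zero, inner_sub_left, smul_apply, add_apply, smul_apply,
      smul_apply, inner_add_left, inner_smul_left, inner_smul_left, inner_smul_left,
      Complex.conj_conj, ← e4, map_ofNat, sub_self]
  obtain ⟨a', ha', b', hb', has, hbs, rfl, -⟩ := exists_re_im hx'
  obtain ⟨a, ha, ea⟩ := key a' ha' has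
  obtain ⟨b, hb, eb⟩ := key b' hb' hbs
  refine ⟨a - Complex.I • b, sub_mem ha (smul_mem_vn _ hb), ?_⟩
  rw [jop_add, jop_smul, Complex.conj_I]
  simp only [mul_add, add_mul, mul_sub _ a, sub_mul (_ * a), mul_smul_comm, smul_mul_assoc]
  linear_combination (norm := module) ea - Complex.I • eb

/-- RvD Lemma 4.9.  `⟪Ω, J x J y Ω⟫ = ⟪Ω, y J x J Ω⟫` for self-adjoint `x, y ∈ M` (`im_J`), hence
for all `x, y ∈ M`; replace `x` by `(J z'⋆ J) x` to get `J x J y Ω = y J x J Ω`; then `y ↦ y z`. -/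
theorem RvD.jop_mem (h : RvD (saSub M Ω) P R T J) (hc : Cyc (M : Set (Op H)) Ω)
    (hsep : ∀ x ∈ M, x Ω = 0 → x = 0) (hJ : ∀ y ∈ M.commutant, jop J y ∈ M) :
    ∀ x ∈ M, jop J x ∈ M.commutant := by
  have hc' := cyc_commutant hsep
  have hΩ : ∀ x : Op H, jop J x Ω = J (x Ω) := fun x => by rw [jop_apply, h.J_vac]
  have e1 : ∀ x ∈ M, IsSelfAdjoint x → ∀ y ∈ M, IsSelfAdjoint y →
      ⟪Ω, y (jop J x Ω)⟫_ℂ = ⟪Ω, jop J x (y Ω)⟫_ℂ := fun x hx hxs y hy hys => by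
    have h1 := Complex.conj_eq_iff_im.2 (h.im_J hx hy hxs hys)
    rw [inner_conj_symm] at h1
    rw [← inner_star_left y Ω, ← inner_star_left (jop J x) Ω, ← jop_star h.J_J, hxs.star_eq,
      hys.star_eq, hΩ, h1]
  have e2 : ∀ x ∈ M, IsSelfAdjoint x → ∀ y ∈ M,
      ⟪Ω, y (jop J x Ω)⟫_ℂ = ⟪Ω, jop J x (y Ω)⟫_ℂ := fun x hx hxs y hy => by
    obtain ⟨a, ha, b, hb, ha', hb', rfl, -⟩ := exists_re_im hy
    simp only [add_apply, smul_apply, map_add, map_smul, inner_add_right, inner_smul_right,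
      e1 x hx hxs a ha ha', e1 x hx hxs b hb hb']
  have e3 : ∀ x ∈ M, ∀ y ∈ M, ⟪Ω, y (jop J x Ω)⟫_ℂ = ⟪Ω, jop J x (y Ω)⟫_ℂ := fun x hx y hy => by
    obtain ⟨a, ha, b, hb, ha', hb', rfl, -⟩ := exists_re_im hx
    simp only [jop_add, jop_smul, add_apply, smul_apply, map_add, map_smul, inner_add_right,
      inner_smul_right, e2 a ha ha' y hy, e2 b hb hb' y hy]
  have e4 : ∀ x ∈ M, ∀ y ∈ M, y (jop J x Ω) = jop J x (y Ω) := fun x hx y hy => by
    rw [← sub_eq_zero]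
    refine eq_zero_of_cyc hc' fun z' hz' => ?_
    have := e3 _ (mul_mem (hJ _ (star_mem hz')) hx) y hy
    rw [jop_mul h.J_J, jop_jop h.J_J, mul_apply_eq_comp, mul_apply_eq_comp,
      ← mul_apply_eq_comp y (star z'), (commute_of_mem hy (star_mem hz')).eq, mul_apply_eq_comp,
      inner_star_right, inner_star_right] at this
    rw [inner_sub_right, this, sub_self]
  intro x hx
  refine mem_commutant_of fun y hy => op_ext_of_cyc hc fun z hz => ?_
  rw [mul_apply_eq_comp, mul_apply_eq_comp, ← e4 x hx z hz, ← mul_apply_eq_comp y z,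
    ← mul_apply_eq_comp y z, e4 x hx _ (mul_mem hy hz)]

end

end Crest.Agent.R78
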