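import Crest.Agent.R78.Hyper

/-! # Row 78: reduction to separable spaces -/

set_option autoImplicit false

namespace Crest.Agent.R78

open scoped InnerProductSpace ComplexOrder BigOperators Topology
open Filter
open Crest.Agent.R124 (Op cm)
open Crest.OpAlg (LineCalculus)

universe u

variable {H : Type u} [NormedAddCommGroup H] [InnerProductSpace ℂ H] [CompleteSpace H]

namespace LS

open TopologicalSpace

theorem closure_countable {M : Type*} [Monoid M] {s : Set M} (hs : s.Countable) :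
    (Submonoid.closure s : Set M).Countable := by
  rw [Submonoid.closure_eq_image_prod]
  refine Set.Countable.image ?_ _
  have := hs.to_subtype
  refine (Set.countable_range (fun l : List s => l.map Subtype.val)).mono fun l hl => ?_
  refine ⟨l.attachWith _ hl, ?_⟩
  simp

theorem adjoin_separable {s : Set (Op H)} (hs : s.Countable) :
    IsSeparable (StarAlgebra.adjoin ℂ s : Set (Op H)) := by
  have h1 : (s ∪ star s).Countable := by
    refine hs.union ?_
    have : star s = star '' s := (Set.image_star (s := s)).symm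
    rw [this]; exact hs.image _
  have h2 := ((closure_countable h1).isSeparable).span (R := ℂ)
  refine h2.mono fun x hx => ?_
  have h3 : x ∈ (StarAlgebra.adjoin ℂ s).toSubalgebra := hx
  rw [StarAlgebra.adjoin_toSubalgebra] at h3
  have h4 : x ∈ Subalgebra.toSubmodule (Algebra.adjoin ℂ (s ∪ star s)) := h3
  rw [Algebra.adjoin_eq_span] at h4
  exact h4

end LS

lemma isSeparable_adjoin {S : Set (Op H)} (hS : TopologicalSpace.IsSeparable S) :
    TopologicalSpace.IsSeparable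
      ((StarAlgebra.adjoin ℂ S).topologicalClosure : Set (Op H)) := by
  obtain ⟨c, hc, hSc⟩ := hS
  have h1 : (StarAlgebra.adjoin ℂ S).topologicalClosure ≤
      (StarAlgebra.adjoin ℂ c).topologicalClosure := by
    refine StarSubalgebra.topologicalClosure_minimal (StarAlgebra.adjoin_le ?_)
      (StarSubalgebra.isClosed_topologicalClosure _)
    rw [StarSubalgebra.topologicalClosure_coe]
    exact hSc.trans (closure_mono (StarAlgebra.subset_adjoin ℂ c))
  refine TopologicalSpace.IsSeparable.mono ?_ h1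
  rw [StarSubalgebra.topologicalClosure_coe]
  exact (LS.adjoin_separable hc).closure

namespace LS

open TopologicalSpace

/-- approximate near inclusion -/
def ANear (A B : Set (Op H)) (δ : ℝ) : Prop :=
  ∀ x ∈ A, ∀ ε : ℝ, 0 < ε → ∃ y ∈ B, ‖x - y‖ ≤ δ * ‖x‖ + ε

omit [CompleteSpace H] in
lemma exists_apx {Q Q₁ S : Set (Op H)} {δ : ℝ} (hδ : 0 < δ) (h : Near Q Q₁ δ) (hS : IsSeparable S)
    (hSQ : S ⊆ Q) : ∃ T : Set (Op H), IsSeparable T ∧ T ⊆ Q₁ ∧ ANear S T δ := by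
  obtain ⟨t, hts, htc, hst⟩ := hS.exists_countable_dense_subset
  choose! f hf hf' using h
  refine ⟨f '' t, (htc.image f).isSeparable, ?_, fun x hx ε hε => ?_⟩
  · rintro _ ⟨x, hx, rfl⟩
    exact hf x (hSQ (hts hx))
  · obtain ⟨x', hx', hxx⟩ := Metric.mem_closure_iff.1 (hst hx) (ε / (1 + δ)) (by positivity)
    rw [dist_eq_norm] at hxx
    refine ⟨f x', ⟨x', hx', rfl⟩, ?_⟩
    have h1 := hf' x' (hSQ (hts hx'))
    have h2 : ‖x'‖ ≤ ‖x‖ + ε / (1 + δ) := by
      have := norm_sub_norm_le x' x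
      rw [norm_sub_rev] at this
      linarith
    have h3 := norm_sub_le_norm_sub_add_norm_sub x x' (f x')
    have h4 : δ * ‖x'‖ ≤ δ * (‖x‖ + ε / (1 + δ)) := by gcongr
    have h5 : ε / (1 + δ) + δ * (ε / (1 + δ)) = ε := by field_simp
    linarith

lemma exists_grow {Q Q₁ : VN H} {δ : ℝ} (hδ : 0 < δ) (h : Near (Q : Set (Op H)) Q₁ δ)
    {A B : StarSubalgebra ℂ (Op H)} (hA : IsSeparable (A : Set (Op H)))
    (hB : IsSeparable (B : Set (Op H))) (hAQ : (A : Set (Op H)) ⊆ Q) (hBQ : (B : Set (Op H)) ⊆ Q₁) :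
    ∃ B' : StarSubalgebra ℂ (Op H), IsSeparable (B' : Set (Op H)) ∧ (B' : Set (Op H)) ⊆ Q₁ ∧
      B ≤ B' ∧ ANear (A : Set (Op H)) B' δ := by
  obtain ⟨T, hT, hTQ, hAT⟩ := exists_apx hδ h hA hAQ
  refine ⟨StarAlgebra.adjoin ℂ ((B : Set (Op H)) ∪ T),
    (isSeparable_adjoin (hB.union hT)).mono (StarSubalgebra.le_topologicalClosure _), ?_,
    fun x hx => StarAlgebra.subset_adjoin ℂ _ (Or.inl hx), fun x hx ε hε => ?_⟩
  · have : StarAlgebra.adjoin ℂ ((B : Set (Op H)) ∪ T) ≤ Q₁.toStarSubalgebra :=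
      StarAlgebra.adjoin_le (Set.union_subset hBQ hTQ)
    exact this
  · obtain ⟨y, hy, hxy⟩ := hAT x hx ε hε
    exact ⟨y, StarAlgebra.subset_adjoin ℂ _ (Or.inr hy), hxy⟩

lemma near_limit {δ : ℝ} (hδ : 0 < δ) {A B : ℕ → StarSubalgebra ℂ (Op H)} (hA : Monotone A)
    (h : ∀ n, ANear (A n : Set (Op H)) (B (n + 1)) δ) :
    Near ((⨆ n, A n).topologicalClosure : Set (Op H)) ((⨆ n, B n).topologicalClosure) (2 * δ) := by
  intro x hx
  rcases eq_or_ne x 0 with rfl | hx0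
  · exact ⟨0, zero_mem _, by simp⟩
  have hxp : 0 < ‖x‖ := norm_pos_iff.2 hx0
  rw [StarSubalgebra.topologicalClosure_coe,
    StarSubalgebra.coe_iSup_of_directed hA.directed_le] at hx
  set ε := δ * ‖x‖ / (2 + δ) with hε
  have hε0 : 0 < ε := by positivity
  obtain ⟨x', hx', hxx⟩ := Metric.mem_closure_iff.1 hx ε hε0
  rw [dist_eq_norm] at hxx
  obtain ⟨n, hn⟩ := Set.mem_iUnion.1 hx'
  obtain ⟨y, hy, hxy⟩ := h n x' hn ε hε0
  refine ⟨y, StarSubalgebra.le_topologicalClosure _ (le_iSup B (n + 1) hy), ?_⟩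
  have h2 : ‖x'‖ ≤ ‖x‖ + ε := by
    have := norm_sub_norm_le x' x
    rw [norm_sub_rev] at this
    linarith
  have h3 := norm_sub_le_norm_sub_add_norm_sub x x' y
  have h4 : δ * ‖x'‖ ≤ δ * (‖x‖ + ε) := by gcongr
  have h5 : ε * (2 + δ) = δ * ‖x‖ := by rw [hε]; field_simp
  linarith

lemma limit_props {Q : VN H} {A : ℕ → StarSubalgebra ℂ (Op H)} (hA : Monotone A)
    (hs : ∀ n, IsSeparable (A n : Set (Op H))) (hQ : ∀ n, (A n : Set (Op H)) ⊆ Q) :
    IsSeparable ((⨆ n, A n).topologicalClosure : Set (Op H)) ∧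
      ∀ a ∈ (⨆ n, A n).topologicalClosure, a ∈ Q := by
  constructor
  · rw [StarSubalgebra.topologicalClosure_coe, StarSubalgebra.coe_iSup_of_directed hA.directed_le]
    exact (IsSeparable.iUnion hs).closure
  · have : (⨆ n, A n).topologicalClosure ≤ Q.toStarSubalgebra :=
      StarSubalgebra.topologicalClosure_minimal (iSup_le fun n => hQ n) (isClosed_vn Q)
    exact fun a ha => this ha

end LS

/-- back and forth along `ℕ` -/
theorem exists_sep_pair {Q Q₁ : VN H} {δ : ℝ} (hδ : 0 < δ) (h : CL Q Q₁ δ) (F : Finset (Op H))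
    (hF : ∀ p ∈ F, p ∈ Q₁) : ∃ A B : StarSubalgebra ℂ (Op H), IsClosed (A : Set (Op H)) ∧
      IsClosed (B : Set (Op H)) ∧ TopologicalSpace.IsSeparable (A : Set (Op H)) ∧
      TopologicalSpace.IsSeparable (B : Set (Op H)) ∧ (∀ a ∈ A, a ∈ Q) ∧ (∀ b ∈ B, b ∈ Q₁) ∧
      (∀ p ∈ F, p ∈ B) ∧ Near (A : Set (Op H)) (B : Set (Op H)) (2 * δ) ∧
      Near (B : Set (Op H)) (A : Set (Op H)) (2 * δ) := by
  let P := {p : StarSubalgebra ℂ (Op H) × StarSubalgebra ℂ (Op H) //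
    TopologicalSpace.IsSeparable (p.1 : Set (Op H)) ∧
    TopologicalSpace.IsSeparable (p.2 : Set (Op H)) ∧ (p.1 : Set (Op H)) ⊆ Q ∧
    (p.2 : Set (Op H)) ⊆ Q₁}
  have step : ∀ p : P, ∃ p' : P, p.1.1 ≤ p'.1.1 ∧ p.1.2 ≤ p'.1.2 ∧
      LS.ANear (p.1.1 : Set (Op H)) p'.1.2 δ ∧ LS.ANear (p.1.2 : Set (Op H)) p'.1.1 δ := by
    rintro ⟨⟨A, B⟩, hA, hB, hAQ, hBQ⟩
    obtain ⟨B', h1, h2, h3, h4⟩ := LS.exists_grow hδ h.1 hA hB hAQ hBQ
    obtain ⟨A', h5, h6, h7, h8⟩ := LS.exists_grow hδ h.2 hB hA hBQ hAQ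
    exact ⟨⟨(A', B'), h5, h1, h6, h2⟩, h7, h3, h4, h8⟩
  choose f hf1 hf2 hf3 hf4 using step
  have hsub : ∀ (S : Set (Op H)) (R : VN H), S ⊆ R →
      (StarAlgebra.adjoin ℂ S : Set (Op H)) ⊆ R := fun S R hS => by
    have : StarAlgebra.adjoin ℂ S ≤ R.toStarSubalgebra := StarAlgebra.adjoin_le hS
    exact this
  let p₀ : P := ⟨(StarAlgebra.adjoin ℂ ∅, StarAlgebra.adjoin ℂ (F : Set (Op H))),
    LS.adjoin_separable Set.countable_empty, LS.adjoin_separable F.countable_toSet,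
    hsub _ _ (Set.empty_subset _), hsub _ _ fun p hp => hF p hp⟩
  let A : ℕ → StarSubalgebra ℂ (Op H) := fun n => (f^[n] p₀).1.1
  let B : ℕ → StarSubalgebra ℂ (Op H) := fun n => (f^[n] p₀).1.2
  have hA : Monotone A := monotone_nat_of_le_succ fun n => by
    simp only [A, Function.iterate_succ_apply']; exact hf1 _
  have hB : Monotone B := monotone_nat_of_le_succ fun n => by
    simp only [B, Function.iterate_succ_apply']; exact hf2 _
  obtain ⟨a1, a2⟩ := LS.limit_props (Q := Q) hA (fun n => (f^[n] p₀).2.1)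
    fun n => (f^[n] p₀).2.2.2.1
  obtain ⟨b1, b2⟩ := LS.limit_props (Q := Q₁) hB (fun n => (f^[n] p₀).2.2.1)
    fun n => (f^[n] p₀).2.2.2.2
  refine ⟨(⨆ n, A n).topologicalClosure, (⨆ n, B n).topologicalClosure,
    StarSubalgebra.isClosed_topologicalClosure _, StarSubalgebra.isClosed_topologicalClosure _,
    a1, b1, a2, b2, fun p hp => ?_, LS.near_limit hδ hA fun n => ?_,
    LS.near_limit hδ hB fun n => ?_⟩
  · exact StarSubalgebra.le_topologicalClosure _
      (le_iSup B 0 (StarAlgebra.subset_adjoin ℂ (F : Set (Op H)) hp))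
  · simp only [A, B, Function.iterate_succ_apply']; exact hf3 _
  · simp only [A, B, Function.iterate_succ_apply']; exact hf4 _

/-- the closed span of `C V`, `C` the closed ⋆-algebra generated by `S` -/
theorem exists_sep_iso {S : Set (Op H)} (hS : TopologicalSpace.IsSeparable S) (F : Finset H) :
    ∃ (K : Type u) (_ : NormedAddCommGroup K) (_ : InnerProductSpace ℂ K) (_ : CompleteSpace K)
      (V : K →L[ℂ] H), TopologicalSpace.SeparableSpace K ∧ Iso V ∧
      (∀ x ∈ S, Itw V (cmp V x) x) ∧ ∀ ξ ∈ F, ∃ k, V k = ξ := by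
  set C := StarAlgebra.adjoin ℂ S with hC
  have hCs : TopologicalSpace.IsSeparable (C : Set (Op H)) :=
    (isSeparable_adjoin hS).mono (StarSubalgebra.le_topologicalClosure _)
  set G : Set H := ⋃ ξ : F, (fun c : Op H => c (ξ : H)) '' (C : Set (Op H)) with hG
  have hGs : TopologicalSpace.IsSeparable G :=
    TopologicalSpace.IsSeparable.iUnion fun ξ => hCs.image (by fun_prop)
  set W := (Submodule.span ℂ G).topologicalClosure with hW
  have hWc : IsClosed (W : Set H) := Submodule.isClosed_topologicalClosure _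
  have hWs : TopologicalSpace.IsSeparable (W : Set H) := by
    rw [hW, Submodule.topologicalClosure_coe]
    exact (hGs.span (R := ℂ)).closure
  have hinv : ∀ x ∈ C, ∀ w ∈ W, x w ∈ W := by
    intro x hx
    have : W ≤ W.comap (x : H →ₗ[ℂ] H) := by
      refine Submodule.topologicalClosure_minimal _ (Submodule.span_le.2 ?_)
        (hWc.preimage x.continuous)
      intro w hw
      obtain ⟨ξ, c, hc, rfl⟩ := Set.mem_iUnion.1 hw
      refine Submodule.le_topologicalClosure _ (Submodule.subset_span ?_)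
      exact Set.mem_iUnion.2 ⟨ξ, x * c, mul_mem hx hc, rfl⟩
    exact fun w hw => this hw
  have : CompleteSpace W := hWc.completeSpace_coe
  have hV : Iso (W.subtypeL : W →L[ℂ] H) := fun _ => rfl
  have key : ∀ x ∈ C, ∀ k : W, x (W.subtypeL k) = W.subtypeL (cmp W.subtypeL x k) := by
    intro x hx k
    have h1 : x (W.subtypeL k) = W.subtypeL ⟨x k, hinv x hx k k.2⟩ := rfl
    rw [cmp_apply, h1, hV.adj_app]
  refine ⟨W, inferInstance, inferInstance, inferInstance, W.subtypeL, hWs.separableSpace, hV,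
    fun x hx => ?_, fun ξ hξ => ⟨⟨ξ, ?_⟩, rfl⟩⟩
  · have hx' : x ∈ C := StarAlgebra.subset_adjoin ℂ S hx
    refine ⟨key x hx', fun k => ?_⟩
    rw [← cmp_star]
    exact key _ (star_mem hx') k
  · refine Submodule.le_topologicalClosure _ (Submodule.subset_span ?_)
    exact Set.mem_iUnion.2 ⟨⟨ξ, hξ⟩, 1, one_mem C, rfl⟩

/-- `solve_of_fin`; `(Q, Q₁) = (M', N')`, `M₀ = cmt (cmp V '' A)`, `N₀ = cmt (cmp V '' B)`,
`res_cl`, `ct_sep`, `h = ext V h₀`, `cmp_lin`, `Iso.cmp_ext` -/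
theorem ct_all : CT.{u} HypAll := by
  classical
  obtain ⟨C₁, hC₁, hcomm⟩ := cl_comm.{u}
  obtain ⟨C₂, hC₂, hres⟩ := res_cl.{u}
  obtain ⟨C₃, δ₀, hC₃, hδ₀, hsep⟩ := ct_sep.{u}
  have hK : 1 ≤ C₂ * (2 * C₁) := one_le_mul_of_one_le_of_one_le hC₂ (by linarith)
  refine ⟨C₃ * (C₂ * (2 * C₁)) ^ 2, δ₀ / (C₂ * (2 * C₁)), by positivity, by positivity, ?_⟩
  rintro H _ _ _ M N δ - hδ hδ' hcl
  set δ' := C₂ * (2 * (C₁ * δ)) with hδ'def
  have hδ'0 : 0 < δ' := by positivity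
  have hδ'1 : δ' ≤ δ₀ := by
    rw [le_div_iff₀ (by positivity)] at hδ'
    rw [hδ'def]; linarith
  have hmain : ∃ h₀ : Op H, ‖h₀‖ ≤ C₃ * δ' ∧ Solve M N.commutant h₀ (C₃ * δ' ^ 2) := by
    refine solve_of_fin (by positivity) (by positivity) fun F hF η hη => ?_
    obtain ⟨A, B, hAc, hBc, hAs, hBs, hAQ, hBQ, hFB, hAB, hBA⟩ :=
      exists_sep_pair (by positivity : 0 < C₁ * δ) (hcomm H M N δ hδ.le hcl)
        (F.image fun t => t.2.1) (fun p hp => by
          obtain ⟨t, ht, rfl⟩ := Finset.mem_image.1 hp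
          exact (hF t ht).2)
    obtain ⟨K, _, _, _, V, hK, hV, hitw, hvec⟩ := exists_sep_iso
      ((hAs.union hBs).union (F.image fun t => t.1).finite_toSet.isSeparable)
      (F.image (fun t => t.2.2.1) ∪ F.image fun t => t.2.2.2)
    have hA : ∀ a ∈ A, Itw V (cmp V a) a := fun a ha => hitw a (Or.inl (Or.inl ha))
    have hB : ∀ b ∈ B, Itw V (cmp V b) b := fun b hb => hitw b (Or.inl (Or.inr hb))
    obtain ⟨h₀, hh₀, hsol⟩ := hsep K _ _ δ' hK hδ'0 hδ'1
      (hres H K V A B (2 * (C₁ * δ)) hV hAc hBc (by positivity) hAB hBA hA hB)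
    refine ⟨ext V h₀, (hV.norm_ext_le _).trans hh₀, fun t ht => ?_⟩
    obtain ⟨x, p, ξ, ζ⟩ := t
    have hx : Itw V (cmp V x) x := hitw x (Or.inr (Finset.mem_coe.2
      (Finset.mem_image.2 ⟨_, ht, rfl⟩)))
    have hpB : p ∈ B := hFB p (Finset.mem_image.2 ⟨_, ht, rfl⟩)
    obtain ⟨k, rfl⟩ := hvec ξ (Finset.mem_union_left _ (Finset.mem_image.2 ⟨_, ht, rfl⟩))
    obtain ⟨k', rfl⟩ := hvec ζ (Finset.mem_union_right _ (Finset.mem_image.2 ⟨_, ht, rfl⟩))
    have hxM : x ∈ M := (hF _ ht).1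
    have hc : ∀ a ∈ A, cmp V a * cmp V x = cmp V x * cmp V a := fun a ha => by
      rw [← (hA a ha).mul_cmp, ← (hA a ha).cmp_mul, (commute_of_mem hxM (hAQ a ha)).eq]
    have hx₀ : cmp V x ∈ cmt (cmp V '' (A : Set (Op H))) := by
      rw [mem_cmt]
      rintro _ ⟨a, ha, rfl⟩
      refine ⟨hc a ha, ?_⟩
      rw [← cmp_star]
      exact hc _ (star_mem ha)
    have h1 := hsol _ hx₀ _ (subset_cmt_commutant (cmp V '' (B : Set (Op H))) ⟨p, hpB, rfl⟩)
    show ‖⟪V k', lin (ext V h₀) x p (V k)⟫_ℂ‖ ≤ C₃ * δ' ^ 2 * ‖x‖ * ‖p‖ * ‖V k‖ * ‖V k'‖ + η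
    rw [← inner_cmp, cmp_lin hV hx (hB p hpB), hV.cmp_ext, hV, hV]
    refine (norm_inner_le_norm _ _).trans (le_add_of_le_of_nonneg ?_ hη.le)
    rw [mul_comm]
    gcongr
    refine (ContinuousLinearMap.le_opNorm _ _).trans ?_
    gcongr
    refine h1.trans ?_
    have h2 := hV.norm_cmp_le x
    have h3 := hV.norm_cmp_le p
    gcongr
  obtain ⟨h₀, hn, hsol⟩ := hmain
  refine ⟨h₀, hn.trans ?_, hsol.mono (le_of_eq ?_)⟩
  · have : C₂ * (2 * C₁) ≤ (C₂ * (2 * C₁)) ^ 2 := by nlinarith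
    calc C₃ * δ' = C₃ * (C₂ * (2 * C₁)) * δ := by rw [hδ'def]; ring
      _ ≤ _ := by gcongr
  · rw [hδ'def]; ring

end Crest.Agent.R78
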