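import Crest.Agent.R78.Basic

/-! # Row 78: the linearised equation, compressions -/

set_option autoImplicit false

namespace Crest.Agent.R78

open scoped InnerProductSpace ComplexOrder BigOperators Topology
open Filter
open Crest.Agent.R124 (Op cm)
open Crest.OpAlg (LineCalculus)

universe u

variable {H : Type u} [NormedAddCommGroup H] [InnerProductSpace ℂ H] [CompleteSpace H]

namespace Lin

lemma norm_cm_le (a b : Op H) : ‖cm a b‖ ≤ 2 * ‖a‖ * ‖b‖ := by
  have h1 := norm_mul_le a b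
  have h2 := norm_mul_le b a
  have h3 := norm_sub_le (a * b) (b * a)
  unfold cm
  nlinarith

lemma norm_star_sub_one (u : Op H) : ‖star u - 1‖ = ‖u - 1‖ := by
  rw [← norm_star, star_sub, star_star, star_one]

lemma norm_conj {u : Op H} (hu : u ∈ unitary (Op H)) (p : Op H) : ‖u * p * star u‖ = ‖p‖ := by
  rw [CStarRing.norm_mul_mem_unitary _ (Unitary.star_mem hu), CStarRing.norm_mem_unitary_mul _ hu]

lemma norm_conj_sub {u : Op H} (hu : u ∈ unitary (Op H)) (p : Op H) :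
    ‖u * p * star u - p‖ ≤ 2 * ‖u - 1‖ * ‖p‖ := by
  have h1 := Unitary.mul_star_self_of_mem hu
  have e : u * p * star u - p = cm (u - 1) p * star u := by
    unfold cm
    linear_combination (norm := noncomm_ring) p * h1
  rw [e, CStarRing.norm_mul_mem_unitary _ (Unitary.star_mem hu)]
  exact norm_cm_le _ _

lemma norm_le_of_inner {T : Op H} {c : ℝ} (hc : 0 ≤ c)
    (h : ∀ ξ η : H, ‖⟪η, T ξ⟫_ℂ‖ ≤ c * ‖ξ‖ * ‖η‖) : ‖T‖ ≤ c := by
  refine ContinuousLinearMap.opNorm_le_bound _ hc fun ξ => ?_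
  have h1 := h ξ (T ξ)
  rw [inner_self_eq_norm_sq_to_K, norm_pow, RCLike.norm_ofReal, abs_norm] at h1
  rcases (norm_nonneg (T ξ)).eq_or_lt with h0 | h0
  · rw [← h0]; positivity
  · exact le_of_mul_le_mul_right (by nlinarith) h0

lemma wl_lin {I : Type*} {l : Filter I} {T : I → Op H} {a : Op H} (h : WL l T a) (x p : Op H) :
    WL l (fun i => lin (T i) x p) (lin a x p) := by
  have h1 : WL l (fun i => cm (T i) p) (cm a p) := (h.mul_right p).sub (h.mul_left p)
  have h2 : WL l (fun i => cm x (cm (T i) p)) (cm x (cm a p)) :=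
    (h1.mul_left x).sub (h1.mul_right x)
  exact (WL.const l (cm x p)).add h2

end Lin

lemma star_lin (h x p : Op H) : star (lin h x p) = -lin (-star h) (star x) (star p) := by
  simp only [lin, cm, star_add, star_sub, star_mul]
  noncomm_ring

theorem Solve.mono {M P : VN H} {h : Op H} {ε ε' : ℝ} (hs : Solve M P h ε) (hε : ε ≤ ε') :
    Solve M P h ε' := by
  intro x hx p hp
  refine (hs x hx p hp).trans ?_
  gcongr

theorem Solve.skew {M P : VN H} {h : Op H} {ε : ℝ} (hs : Solve M P h ε) :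
    Solve M P ((1 / 2 : ℂ) • (h - star h)) ε := by
  intro x hx p hp
  have h1 := hs x hx p hp
  have h2 := hs (star x) (star_mem hx) (star p) (star_mem hp)
  rw [← norm_star, star_lin, norm_neg, star_star, star_star, norm_star, norm_star] at h2
  have e : lin ((1 / 2 : ℂ) • (h - star h)) x p =
      (1 / 2 : ℂ) • (lin h x p + lin (-star h) x p) := by
    simp only [lin, cm, smul_mul_assoc, mul_smul_comm, mul_sub, sub_mul, neg_mul, mul_neg]
    module
  rw [e, norm_smul]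
  have h3 := norm_add_le (lin h x p) (lin (-star h) x p)
  have h4 : ‖(1 / 2 : ℂ)‖ = 1 / 2 := by simp
  rw [h4]
  linarith

theorem norm_cm_conj_sub_lin {u : Op H} (hu : u ∈ unitary (Op H)) (x p : Op H) :
    ‖cm x (u * p * star u) - lin (u - 1) x p‖ ≤ 4 * ‖u - 1‖ ^ 2 * ‖x‖ * ‖p‖ := by
  have h1 := Unitary.mul_star_self_of_mem hu
  have e0 : u * p * star u - p - cm (u - 1) p = cm (u - 1) p * (star u - 1) := by
    unfold cm
    linear_combination (norm := noncomm_ring) p * h1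
  have e : cm x (u * p * star u) - lin (u - 1) x p = cm x (cm (u - 1) p * (star u - 1)) := by
    rw [← e0]
    simp only [lin, cm]
    noncomm_ring
  rw [e]
  have h2 := Lin.norm_cm_le x (cm (u - 1) p * (star u - 1))
  have h3 : ‖cm (u - 1) p * (star u - 1)‖ ≤ 2 * ‖u - 1‖ * ‖p‖ * ‖u - 1‖ := by
    refine (norm_mul_le _ _).trans ?_
    rw [Lin.norm_star_sub_one]
    exact mul_le_mul_of_nonneg_right (Lin.norm_cm_le _ _) (norm_nonneg _)
  calc _ ≤ 2 * ‖x‖ * ‖cm (u - 1) p * (star u - 1)‖ := h2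
    _ ≤ 2 * ‖x‖ * (2 * ‖u - 1‖ * ‖p‖ * ‖u - 1‖) := by gcongr
    _ = _ := by ring

theorem solve_trans {M P : VN H} {u h : Op H} {ε : ℝ} (hu : u ∈ unitary (Op H))
    (hs : Solve M (cj u P) h ε) :
    Solve M P (u - 1 + h) (ε + 4 * ‖u - 1‖ ^ 2 + 8 * ‖h‖ * ‖u - 1‖) := by
  intro x hx p hp
  have h1 := hs x hx _ (conj_mem_cj hu hp)
  rw [Lin.norm_conj hu] at h1
  have h2 := norm_cm_conj_sub_lin hu x p
  have h3 : ‖cm x (cm h (u * p * star u - p))‖ ≤ 8 * ‖h‖ * ‖u - 1‖ * ‖x‖ * ‖p‖ := by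
    calc _ ≤ 2 * ‖x‖ * ‖cm h (u * p * star u - p)‖ := Lin.norm_cm_le _ _
      _ ≤ 2 * ‖x‖ * (2 * ‖h‖ * ‖u * p * star u - p‖) := by
        gcongr; exact Lin.norm_cm_le _ _
      _ ≤ 2 * ‖x‖ * (2 * ‖h‖ * (2 * ‖u - 1‖ * ‖p‖)) := by
        gcongr; exact Lin.norm_conj_sub hu p
      _ = _ := by ring
  have e : lin (u - 1 + h) x p = lin h x (u * p * star u) -
      (cm x (u * p * star u) - lin (u - 1) x p) - cm x (cm h (u * p * star u - p)) := by
    simp only [lin, cm]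
    noncomm_ring
  rw [e]
  have h4 := norm_sub_le (lin h x (u * p * star u) - (cm x (u * p * star u) - lin (u - 1) x p))
    (cm x (cm h (u * p * star u - p)))
  have h5 := norm_sub_le (lin h x (u * p * star u)) (cm x (u * p * star u) - lin (u - 1) x p)
  nlinarith

/-- weak compactness: index by `Finset × ℕ` and take an ultralimit -/
theorem solve_of_fin {M P : VN H} {R ε : ℝ} (hR : 0 ≤ R) (hε : 0 ≤ ε)
    (h : ∀ F : Finset (Op H × Op H × H × H), (∀ t ∈ F, t.1 ∈ M ∧ t.2.1 ∈ P) → ∀ η : ℝ, 0 < η →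
      ∃ h : Op H, ‖h‖ ≤ R ∧ ∀ t ∈ F, ‖⟪t.2.2.2, lin h t.1 t.2.1 t.2.2.1⟫_ℂ‖ ≤
        ε * ‖t.1‖ * ‖t.2.1‖ * ‖t.2.2.1‖ * ‖t.2.2.2‖ + η) :
    ∃ h : Op H, ‖h‖ ≤ R ∧ Solve M P h ε := by
  classical
  choose! g hgR hg using h
  let good : Op H × Op H × H × H → Prop := fun t => t.1 ∈ M ∧ t.2.1 ∈ P
  let T : Finset (Op H × Op H × H × H) × ℕ → Op H :=
    fun i => g (i.1.filter good) (1 / ((i.2 : ℝ) + 1))
  have hgood : ∀ F : Finset (Op H × Op H × H × H), ∀ t ∈ F.filter good, t.1 ∈ M ∧ t.2.1 ∈ P :=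
    fun F t ht => (Finset.mem_filter.1 ht).2
  let 𝒰 : Ultrafilter (Finset (Op H × Op H × H × H) × ℕ) := Ultrafilter.of atTop
  have h𝒰 : (𝒰 : Filter (Finset (Op H × Op H × H × H) × ℕ)) ≤ atTop := Ultrafilter.of_le _
  obtain ⟨h₀, hh₀, hw⟩ := exists_wl 𝒰 T hR (Eventually.of_forall fun i =>
    hgR _ (hgood _) _ Nat.one_div_pos_of_nat)
  refine ⟨h₀, hh₀, fun x hx p hp => Lin.norm_le_of_inner (by positivity) fun ξ η => ?_⟩
  have h1 := ((Lin.wl_lin hw x p) ξ η).norm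
  have h2 : Tendsto (fun i : Finset (Op H × Op H × H × H) × ℕ =>
      ε * ‖x‖ * ‖p‖ * ‖ξ‖ * ‖η‖ + 1 / ((i.2 : ℝ) + 1)) 𝒰 (𝓝 (ε * ‖x‖ * ‖p‖ * ‖ξ‖ * ‖η‖ + 0)) := by
    refine tendsto_const_nhds.add (Tendsto.mono_left ?_ h𝒰)
    refine tendsto_one_div_add_atTop_nhds_zero_nat.comp ?_
    rw [← prod_atTop_atTop_eq]
    exact tendsto_snd
  rw [add_zero] at h2
  refine le_of_tendsto_of_tendsto h1 h2 (h𝒰 ?_)
  filter_upwards [eventually_ge_atTop (({(x, p, ξ, η)} : Finset _), (0 : ℕ))] with i hi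
  have hm : (x, p, ξ, η) ∈ i.1.filter good :=
    Finset.mem_filter.2 ⟨hi.1 (Finset.mem_singleton_self _), hx, hp⟩
  exact hg _ (hgood _) _ Nat.one_div_pos_of_nat _ hm

section cmp
variable {K : Type u} [NormedAddCommGroup K] [InnerProductSpace ℂ K] [CompleteSpace K]
  {V : K →L[ℂ] H}

lemma cmp_apply (V : K →L[ℂ] H) (x : Op H) (k : K) :
    cmp V x k = ContinuousLinearMap.adjoint V (x (V k)) := rfl

lemma ext_apply (V : K →L[ℂ] H) (h : Op K) (ξ : H) :
    ext V h ξ = V (h (ContinuousLinearMap.adjoint V ξ)) := rfl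

lemma inner_cmp (V : K →L[ℂ] H) (x : Op H) (k k' : K) :
    ⟪k', cmp V x k⟫_ℂ = ⟪V k', x (V k)⟫_ℂ := by
  rw [cmp_apply, ContinuousLinearMap.adjoint_inner_right]

lemma Iso.adj_app (hV : Iso V) (k : K) : ContinuousLinearMap.adjoint V (V k) = k := by
  refine ext_inner_left ℂ fun k' => ?_
  rw [ContinuousLinearMap.adjoint_inner_right]
  exact (LinearIsometry.mk V.toLinearMap hV).inner_map_map k' k

lemma Iso.norm_adj_le (hV : Iso V) (ξ : H) : ‖ContinuousLinearMap.adjoint V ξ‖ ≤ ‖ξ‖ := by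
  have h1 : ‖V‖ ≤ 1 := V.opNorm_le_bound zero_le_one fun k => by rw [hV k, one_mul]
  have h2 := (ContinuousLinearMap.adjoint V).le_opNorm ξ
  rw [LinearIsometryEquiv.norm_map] at h2
  exact h2.trans (mul_le_of_le_one_left (norm_nonneg _) h1)

lemma Iso.norm_cmp_le (hV : Iso V) (x : Op H) : ‖cmp V x‖ ≤ ‖x‖ := by
  refine ContinuousLinearMap.opNorm_le_bound _ (norm_nonneg _) fun k => ?_
  rw [cmp_apply, ← hV k]
  exact (hV.norm_adj_le _).trans (x.le_opNorm _)

lemma Iso.norm_ext_le (hV : Iso V) (h : Op K) : ‖ext V h‖ ≤ ‖h‖ := by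
  refine ContinuousLinearMap.opNorm_le_bound _ (norm_nonneg _) fun ξ => ?_
  rw [ext_apply, hV]
  exact (h.le_opNorm _).trans (mul_le_mul_of_nonneg_left (hV.norm_adj_le ξ) (norm_nonneg _))

lemma Iso.cmp_ext (hV : Iso V) (h : Op K) : cmp V (ext V h) = h := by
  ext k
  rw [cmp_apply, ext_apply, hV.adj_app, hV.adj_app]

lemma Iso.cmp_one (hV : Iso V) : cmp V 1 = 1 := by
  ext k
  rw [cmp_apply, one_apply_eq_self, one_apply_eq_self, hV.adj_app]

lemma Iso.ext_mul (hV : Iso V) (h h' : Op K) : ext V (h * h') = ext V h * ext V h' := by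
  ext ξ
  simp only [mul_apply_eq_comp, ext_apply, hV.adj_app]

lemma Iso.comp {L : Type u} [NormedAddCommGroup L] [InnerProductSpace ℂ L] [CompleteSpace L]
    (hV : Iso V) {W : L →L[ℂ] K} (hW : Iso W) : Iso (V ∘L W) := by
  intro k
  rw [ContinuousLinearMap.comp_apply, hV, hW]

lemma Itw.comp {L : Type u} [NormedAddCommGroup L] [InnerProductSpace ℂ L] [CompleteSpace L]
    {W : L →L[ℂ] K} {x : Op H} {x₀ : Op K} {x₁ : Op L} (h : Itw V x₀ x) (h' : Itw W x₁ x₀) :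
    Itw (V ∘L W) x₁ x := by
  refine ⟨fun k => ?_, fun k => ?_⟩
  · rw [ContinuousLinearMap.comp_apply, ContinuousLinearMap.comp_apply, h.1, h'.1]
  · rw [ContinuousLinearMap.comp_apply, ContinuousLinearMap.comp_apply, h.2, h'.2]

lemma cmp_star (V : K →L[ℂ] H) (x : Op H) : cmp V (star x) = star (cmp V x) := by
  simp only [cmp, ContinuousLinearMap.star_eq_adjoint, ContinuousLinearMap.adjoint_comp,
    ContinuousLinearMap.adjoint_adjoint, ContinuousLinearMap.comp_assoc]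

lemma ext_star (V : K →L[ℂ] H) (h : Op K) : ext V (star h) = star (ext V h) := by
  simp only [ext, ContinuousLinearMap.star_eq_adjoint, ContinuousLinearMap.adjoint_comp,
    ContinuousLinearMap.adjoint_adjoint, ContinuousLinearMap.comp_assoc]

lemma cmp_add (V : K →L[ℂ] H) (x y : Op H) : cmp V (x + y) = cmp V x + cmp V y := by
  ext k
  simp only [cmp_apply, add_apply, map_add]

lemma cmp_sub (V : K →L[ℂ] H) (x y : Op H) : cmp V (x - y) = cmp V x - cmp V y := by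
  ext k
  simp only [cmp_apply, sub_apply, map_sub]

lemma cmp_smul (V : K →L[ℂ] H) (c : ℂ) (x : Op H) : cmp V (c • x) = c • cmp V x := by
  ext k
  simp only [cmp_apply, smul_apply, map_smul]

lemma ext_add (V : K →L[ℂ] H) (x y : Op K) : ext V (x + y) = ext V x + ext V y := by
  ext k
  simp only [ext_apply, add_apply, map_add]

lemma ext_sub (V : K →L[ℂ] H) (x y : Op K) : ext V (x - y) = ext V x - ext V y := by
  ext k
  simp only [ext_apply, sub_apply, map_sub]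

lemma ext_cmp (V : K →L[ℂ] H) (x : Op H) : ext V (cmp V x) = ext V 1 * x * ext V 1 := by
  ext k
  simp only [ext_apply, cmp_apply, mul_apply_eq_comp, one_apply_eq_self]

lemma Itw.cmp_mul {x : Op H} {x₀ : Op K} (h : Itw V x₀ x) (y : Op H) :
    cmp V (y * x) = cmp V y * x₀ := by
  ext k
  simp only [cmp_apply, mul_apply_eq_comp, h.1]

lemma Itw.mul_cmp {x : Op H} {x₀ : Op K} (h : Itw V x₀ x) (y : Op H) :
    cmp V (x * y) = x₀ * cmp V y := by
  have h1 : cmp V (star y * star x) = cmp V (star y) * star x₀ := by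
    ext k
    simp only [cmp_apply, mul_apply_eq_comp, h.2]
  have h2 := congrArg star h1
  rwa [← star_mul, cmp_star, star_star, cmp_star, star_mul, star_star, star_star] at h2

lemma itw_of_commute (hV : Iso V) {x : Op H} (h : Commute x (ext V 1)) : Itw V (cmp V x) x := by
  have key : ∀ y : Op H, Commute y (ext V 1) → ∀ k, y (V k) = V (cmp V y k) := by
    intro y hy k
    have h1 := congrArg (fun T : Op H => T (V k)) hy.eq
    simp only [mul_apply_eq_comp, ext_apply, one_apply_eq_self,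
      hV.adj_app] at h1
    rw [cmp_apply, ← h1]
  refine ⟨key x h, fun k => ?_⟩
  rw [← cmp_star]
  refine key _ ?_ k
  have h2 := h.star_star
  rwa [← ext_star, star_one] at h2

theorem cmp_lin (hV : Iso V) {x p : Op H} {x₀ p₀ : Op K} (hx : Itw V x₀ x) (hp : Itw V p₀ p)
    (h : Op H) : cmp V (lin h x p) = lin (cmp V h) x₀ p₀ := by
  have e : ∀ {y : Op H} {y₀ : Op K}, Itw V y₀ y → cmp V y = y₀ := by
    intro y y₀ hy
    have h1 := hy.cmp_mul 1
    rwa [one_mul, hV.cmp_one, one_mul] at h1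
  have c1 : ∀ y : Op H, cmp V (cm x y) = cm x₀ (cmp V y) := fun y => by
    rw [cm, cm, cmp_sub, hx.cmp_mul, hx.mul_cmp]
  have c2 : cmp V (cm h p) = cm (cmp V h) p₀ := by
    rw [cm, cm, cmp_sub, hp.cmp_mul, hp.mul_cmp]
  rw [lin, lin, cmp_add, c1, c1, c2, e hp]

theorem solve_cmp (hV : Iso V) {M P : VN H} {M₀ P₀ : VN K}
    (hM : ∀ x₀ ∈ M₀, ∃ x ∈ M, ‖x‖ ≤ ‖x₀‖ ∧ Itw V x₀ x)
    (hP : ∀ p₀ ∈ P₀, ∃ p ∈ P, ‖p‖ ≤ ‖p₀‖ ∧ Itw V p₀ p) {h : Op H} {ε : ℝ} (hε : 0 ≤ ε)
    (hs : Solve M P h ε) : Solve M₀ P₀ (cmp V h) ε := by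
  intro x₀ hx₀ p₀ hp₀
  obtain ⟨x, hx, hxn, hxi⟩ := hM x₀ hx₀
  obtain ⟨p, hp, hpn, hpi⟩ := hP p₀ hp₀
  rw [← cmp_lin hV hxi hpi]
  refine (hV.norm_cmp_le _).trans ((hs x hx p hp).trans ?_)
  gcongr

end cmp

/-- every projection is the range projection of an isometry (`K = range e`) -/
theorem exists_iso {e : Op H} (he : IsStarProjection e) :
    ∃ (K : Type u) (_ : NormedAddCommGroup K) (_ : InnerProductSpace ℂ K) (_ : CompleteSpace K)
      (V : K →L[ℂ] H), Iso V ∧ ext V 1 = e := by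
  let S : Submodule ℂ H := LinearMap.ker (1 - e).toLinearMap
  have hS : IsClosed (S : Set H) := ContinuousLinearMap.isClosed_ker (1 - e)
  have : CompleteSpace S := hS.completeSpace_coe
  have hmem : ∀ ξ, ξ ∈ S ↔ e ξ = ξ := fun ξ => by
    simp only [S, LinearMap.mem_ker, ContinuousLinearMap.coe_coe, sub_apply,
      one_apply_eq_self, sub_eq_zero]
    exact eq_comm
  have hee : ∀ ξ, e (e ξ) = e ξ := fun ξ => congrArg (fun T : Op H => T ξ) he.isIdempotentElem.eq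
  refine ⟨S, inferInstance, inferInstance, inferInstance, S.subtypeL, fun k => rfl, ?_⟩
  ext ξ
  have h1 : ContinuousLinearMap.adjoint S.subtypeL ξ = ⟨e ξ, (hmem _).2 (hee ξ)⟩ := by
    refine ext_inner_left ℂ fun k => ?_
    rw [ContinuousLinearMap.adjoint_inner_right, Submodule.coe_inner]
    show ⟪(k : H), ξ⟫_ℂ = ⟪(k : H), e ξ⟫_ℂ
    rw [← ContinuousLinearMap.adjoint_inner_left, ← ContinuousLinearMap.star_eq_adjoint,
      he.isSelfAdjoint.star_eq, (hmem _).1 k.2]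
  rw [ext_apply, one_apply_eq_self, h1]
  rfl

end Crest.Agent.R78
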