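import Crest.Agent.R78.TP

/-! # Row 78: the martingale estimate for almost bi-harmonic operators -/

set_option autoImplicit false

namespace Crest.Agent.R78

open scoped InnerProductSpace ComplexOrder BigOperators Topology
open Filter
open Crest.Agent.R124 (Op cm)
open Crest.OpAlg (LineCalculus)

universe u

variable {H : Type u} [NormedAddCommGroup H] [InnerProductSpace ℂ H] [CompleteSpace H]

namespace MVcore

theorem norm_cm_le (a b : Op H) : ‖cm a b‖ ≤ 2 * ‖a‖ * ‖b‖ := by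
  have h1 := norm_mul_le a b
  have h2 := norm_mul_le b a
  refine (norm_sub_le _ _).trans ?_
  nlinarith

theorem re_le (a : Op H) (ζ : H) : |(⟪ζ, a ζ⟫_ℂ).re| ≤ ‖a‖ * ‖ζ‖ ^ 2 := by
  refine (Complex.abs_re_le_norm _).trans ((norm_inner_le_norm _ _).trans ?_)
  have := mul_le_mul_of_nonneg_left (a.le_opNorm ζ) (norm_nonneg ζ)
  nlinarith

theorem re_star_mul (a : Op H) (ζ : H) : (⟪ζ, (star a * a) ζ⟫_ℂ).re = ‖a ζ‖ ^ 2 := by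
  rw [mul_apply_eq_comp, ContinuousLinearMap.star_eq_adjoint,
    ContinuousLinearMap.adjoint_inner_right]
  exact inner_self_eq_norm_sq (𝕜 := ℂ) (a ζ)

theorem iter_sub {Φ : Op H → Op H} (hs : ∀ a b, Φ (a - b) = Φ a - Φ b) (k : ℕ) (a b : Op H) :
    Φ^[k] (a - b) = Φ^[k] a - Φ^[k] b := by
  induction k generalizing a b with
  | zero => rfl
  | succ k ih => simp only [Function.iterate_succ_apply, hs, ih]

theorem iter_norm {Φ : Op H → Op H} (hn : ∀ a, ‖Φ a‖ ≤ ‖a‖) (k : ℕ) (a : Op H) :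
    ‖Φ^[k] a‖ ≤ ‖a‖ := by
  induction k generalizing a with
  | zero => exact le_rfl
  | succ k ih => rw [Function.iterate_succ_apply]; exact (ih _).trans (hn a)

theorem iter_harm {Φ : Op H → Op H} (hs : ∀ a b, Φ (a - b) = Φ a - Φ b) (hn : ∀ a, ‖Φ a‖ ≤ ‖a‖)
    {G : Op H} {ε : ℝ} (h : ‖Φ G - G‖ ≤ ε) (k : ℕ) : ‖Φ^[k] G - G‖ ≤ k * ε := by
  induction k with
  | zero => simp
  | succ k ih =>
    have e : Φ^[k + 1] G - G = Φ^[k] (Φ G - G) + (Φ^[k] G - G) := by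
      rw [iter_sub hs, Function.iterate_succ_apply]; abel
    rw [e]
    refine (norm_add_le _ _).trans ?_
    have := iter_norm hn k (Φ G - G)
    push_cast
    linarith

theorem exists_good {Φ : Op H → Op H} (hs : ∀ a b, Φ (a - b) = Φ a - Φ b)
    (hn : ∀ a, ‖Φ a‖ ≤ ‖a‖) (G E : Op H) {e : ℝ} (hE : ‖E‖ ≤ e) (ζ : H) {n : ℕ} (hn1 : 1 ≤ n) :
    ∃ k < n, (⟪ζ, Φ^[k] (Φ (star G * G) - star G * G - E) ζ⟫_ℂ).re ≤
      (‖G‖ ^ 2 / n + e) * ‖ζ‖ ^ 2 := by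
  have hn0 : (0 : ℝ) < n := by exact_mod_cast hn1
  set f : ℕ → ℝ := fun k => (⟪ζ, Φ^[k] (star G * G) ζ⟫_ℂ).re with hf
  have h1 : ∀ k, (⟪ζ, Φ^[k] (Φ (star G * G) - star G * G - E) ζ⟫_ℂ).re ≤
      f (k + 1) - f k + e * ‖ζ‖ ^ 2 := by
    intro k
    rw [iter_sub hs, iter_sub hs, ← Function.iterate_succ_apply]
    simp only [sub_apply, inner_sub_right, Complex.sub_re]
    have e1 := (abs_le.1 (re_le (Φ^[k] E) ζ)).1
    have e2 := mul_le_mul_of_nonneg_right ((iter_norm hn k E).trans hE) (sq_nonneg ‖ζ‖)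
    simp only [hf]
    linarith
  have h2 : ∑ k ∈ Finset.range n, (f (k + 1) - f k + e * ‖ζ‖ ^ 2) ≤
      ∑ _k ∈ Finset.range n, (‖G‖ ^ 2 / n + e) * ‖ζ‖ ^ 2 := by
    rw [Finset.sum_add_distrib, Finset.sum_range_sub, Finset.sum_const, Finset.sum_const,
      Finset.card_range, nsmul_eq_mul, nsmul_eq_mul]
    have e0 : 0 ≤ f 0 := by
      show 0 ≤ (⟪ζ, (star G * G) ζ⟫_ℂ).re
      rw [re_star_mul]; positivity
    have e1 : f n ≤ ‖G‖ ^ 2 * ‖ζ‖ ^ 2 := by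
      refine (le_abs_self _).trans ((re_le _ ζ).trans (mul_le_mul_of_nonneg_right ?_ (sq_nonneg _)))
      refine (iter_norm hn n _).trans ((norm_mul_le _ _).trans (le_of_eq ?_))
      rw [norm_star, sq]
    have e2 : n * ((‖G‖ ^ 2 / n + e) * ‖ζ‖ ^ 2) = ‖G‖ ^ 2 * ‖ζ‖ ^ 2 + n * (e * ‖ζ‖ ^ 2) := by
      field_simp
    linarith
  obtain ⟨k, hk, hk'⟩ := Finset.exists_le_of_sum_le ⟨0, Finset.mem_range.2 hn1⟩ h2
  exact ⟨k, Finset.mem_range.1 hk, (h1 k).trans hk'⟩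

end MVcore

open MVcore in
/-- `Γ = ∑ lam j [G, A i j]⋆ [G, A i j] ≤ Φ (G⋆G) - G⋆G + 2 ‖G‖ ε` (`chan_energy`), so
`∑_{k<n} ⟪ζ, Φ^k Γ ζ⟫ ≤ ‖G‖² ‖ζ‖² + 2 n ‖G‖ ε ‖ζ‖²`; pick the best `k`.  With `y = [G, x]`,
`y⋆y ≤ K Γ` (`Read`, `chan_mono` for `exists_pow`), `pair_sqrt`, `chan_schwarz`, and
`Ψ^k y = [Ψ^k G, x]`, `‖Ψ^k G - G‖ ≤ k ε`. -/
theorem mv_core {M : VN H} (t : TP M) (hΘ : IsSelfAdjoint t.Θ) {G x : Op H} (hx : x ∈ M) {K ε : ℝ}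
    (hK0 : 0 ≤ K) (hK : Read t.lam t.A x K) (h1 : ‖t.Φ G - G‖ ≤ ε) (h2 : ‖t.Ψ G - G‖ ≤ ε) (ζ : H)
    {n : ℕ} (hn : 1 ≤ n) :
    ‖cm G x ζ‖ ≤ √(K * (‖G‖ ^ 2 / n + 2 * ‖G‖ * ε)) * ‖ζ‖ + 2 * ‖G‖ * ‖x‖ * (√n * t.dfc ζ) +
      2 * n * ε * ‖x‖ * ‖ζ‖ := by
  have hn0 : (0 : ℝ) < n := by exact_mod_cast hn
  have hε : 0 ≤ ε := (norm_nonneg _).trans h1
  have hE : ‖star (t.Φ G - G) * G + star G * (t.Φ G - G)‖ ≤ 2 * ‖G‖ * ε := by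
    refine (norm_add_le _ _).trans ?_
    have e1 := norm_mul_le (star (t.Φ G - G)) G
    have e2 := norm_mul_le (star G) (t.Φ G - G)
    rw [norm_star] at e1 e2
    have := mul_le_mul_of_nonneg_left h1 (norm_nonneg G)
    nlinarith
  obtain ⟨k, hk, hk'⟩ := exists_good (Φ := t.Φ) (fun a b => chan_sub a b) t.norm_Φ_le G _ hE ζ hn
  have hΓ := chan_energy t.sum t.A_unit G
  rw [sub_sub _ (star (chan t.lam t.A G - G) * G)] at hΓ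
  set Γ := ∑ i, ∑ j, (t.lam j : ℂ) • (star (cm G (t.A i j)) * cm G (t.A i j)) with hΓd
  have hk2 : (⟪ζ, t.Φ^[k] Γ ζ⟫_ℂ).re ≤ (‖G‖ ^ 2 / n + 2 * ‖G‖ * ε) * ‖ζ‖ ^ 2 := by
    rw [hΓ]; exact hk'
  obtain ⟨t', hΦ, hΨ, hd⟩ := t.exists_pow hΘ k
  set y := cm G x with hy
  have e1 : ∀ ξ, (⟪ξ, (star y * y) ξ⟫_ℂ).re ≤ (⟪ξ, ((K : ℂ) • Γ) ξ⟫_ℂ).re := by
    intro ξ
    rw [re_star_mul, _root_.smul_apply, inner_smul_right, Complex.re_ofReal_mul]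
    refine (hK G ξ).trans (le_of_eq ?_)
    congr 1
    rw [hΓd, _root_.sum_apply, inner_sum, Complex.re_sum]
    refine Finset.sum_congr rfl fun i _ => ?_
    rw [_root_.sum_apply, inner_sum, Complex.re_sum]
    refine Finset.sum_congr rfl fun j _ => ?_
    rw [_root_.smul_apply, inner_smul_right, Complex.re_ofReal_mul, re_star_mul]
  have e2 : (⟪ζ, t'.Φ (star y * y) ζ⟫_ℂ).re ≤ K * (‖G‖ ^ 2 / n + 2 * ‖G‖ * ε) * ‖ζ‖ ^ 2 := by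
    refine (chan_mono (lam := t'.lam) (A := t'.A) (fun i => (t'.pos i).le) e1 ζ).trans ?_
    rw [chan_smul, _root_.smul_apply, inner_smul_right, Complex.re_ofReal_mul, mul_assoc]
    refine mul_le_mul_of_nonneg_left ?_ hK0
    have := hΦ Γ
    rw [TP.Φ] at this
    rw [this]
    exact hk2
  have e3 : √(⟪ζ, t'.Φ (star y * y) ζ⟫_ℂ).re ≤ √(K * (‖G‖ ^ 2 / n + 2 * ‖G‖ * ε)) * ‖ζ‖ := by
    refine (Real.sqrt_le_sqrt e2).trans (le_of_eq ?_)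
    rw [Real.sqrt_mul' _ (sq_nonneg _), Real.sqrt_sq (norm_nonneg _)]
  have e4 : ‖t'.Ψ y ζ‖ ≤ √(⟪ζ, t'.Ψ (star y * y) ζ⟫_ℂ).re :=
    Real.le_sqrt_of_sq_le (chan_schwarz (fun i => (t'.pos i).le) t'.sum t'.B_unit y ζ)
  have e5 := t'.pair_sqrt y ζ
  have hkn : (k : ℝ) ≤ n := by exact_mod_cast hk.le
  have e6 : ‖y‖ * t'.dfc ζ ≤ 2 * ‖G‖ * ‖x‖ * (√n * t.dfc ζ) :=
    mul_le_mul (norm_cm_le G x) ((hd ζ).trans (mul_le_mul_of_nonneg_right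
      (Real.sqrt_le_sqrt hkn) (t.dfc_nonneg ζ))) (t'.dfc_nonneg ζ) (by positivity)
  have e7 : ‖t'.Ψ G - G‖ ≤ n * ε := by
    rw [hΨ]
    exact (iter_harm (Φ := t.Ψ) (fun a b => chan_sub a b) t.norm_Ψ_le h2 k).trans
      (mul_le_mul_of_nonneg_right hkn hε)
  have e8 : y ζ = t'.Ψ y ζ - cm (t'.Ψ G - G) x ζ := by
    rw [hy, t'.Ψ_cm hx]
    simp only [cm, sub_mul, mul_sub, sub_apply]
    abel
  have e9 : ‖cm (t'.Ψ G - G) x ζ‖ ≤ 2 * n * ε * ‖x‖ * ‖ζ‖ := by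
    refine (ContinuousLinearMap.le_opNorm _ _).trans (mul_le_mul_of_nonneg_right
      ((norm_cm_le _ _).trans ?_) (norm_nonneg _))
    have := mul_le_mul_of_nonneg_right e7 (norm_nonneg x)
    nlinarith
  rw [e8]
  refine (norm_sub_le _ _).trans ?_
  linarith

/-- the same for the commutant (`TP.swap`) -/
theorem mv_core' {M : VN H} (t : TP M) (hΘ : IsSelfAdjoint t.Θ) {G x : Op H}
    (hx : x ∈ M.commutant) {K ε : ℝ} (hK0 : 0 ≤ K) (hK : Read t.lam t.B x K)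
    (h1 : ‖t.Φ G - G‖ ≤ ε) (h2 : ‖t.Ψ G - G‖ ≤ ε) (ζ : H) {n : ℕ} (hn : 1 ≤ n) :
    ‖cm G x ζ‖ ≤ √(K * (‖G‖ ^ 2 / n + 2 * ‖G‖ * ε)) * ‖ζ‖ + 2 * ‖G‖ * ‖x‖ * (√n * t.dfc ζ) +
      2 * n * ε * ‖x‖ * ‖ζ‖ := by
  have := mv_core t.swap (by rw [TP.swap_Θ, hΘ.star_eq]; exact hΘ) hx hK0 hK h2 h1 ζ hn
  rwa [TP.swap_dfc] at this

end Crest.Agent.R78
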