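import Crest.Agent.R78.Defs

/-! # Row 78: random walks on a monoid (auxiliary file for `T2`) -/

set_option autoImplicit false

namespace Crest.Agent.R78
namespace T2

open scoped InnerProductSpace BigOperators

section walk
variable {G σ : Type*} [Fintype σ] {π : σ → ℝ} {t : σ → G → G}

/-- the transition operator -/
noncomputable def W (E : Type*) [AddCommGroup E] [Module ℝ E] (π : σ → ℝ) (t : σ → G → G) :
    Module.End ℝ (G → E) := ∑ s, π s • LinearMap.funLeft ℝ E (t s)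

theorem W_apply {E : Type*} [AddCommGroup E] [Module ℝ E] (f : G → E) (x : G) :
    W E π t f x = ∑ s, π s • f (t s x) := by
  simp [W, LinearMap.sum_apply, Finset.sum_apply]

theorem W_succ {E : Type*} [AddCommGroup E] [Module ℝ E] (k : ℕ) (f : G → E) (x : G) :
    (W E π t ^ (k + 1)) f x = ∑ s, π s • (W E π t ^ k) f (t s x) := by
  rw [pow_succ', Module.End.mul_apply, W_apply]

theorem tele {E : Type*} [AddCommGroup E] [Module ℝ E] (A : Module.End ℝ (G → E)) (n : ℕ)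
    (f : G → E) (x : G) : (A ^ n) f x - f x = ∑ k ∈ Finset.range n, (A ^ k) (A f - f) x := by
  induction n with
  | zero => simp
  | succ n ih =>
    rw [Finset.sum_range_succ, ← ih, map_sub, pow_succ, Module.End.mul_apply, Pi.sub_apply]
    abel

theorem norm_avg_le {E : Type*} [NormedAddCommGroup E] [NormedSpace ℝ E] (h0 : ∀ s, 0 ≤ π s)
    (h1 : ∑ s, π s = 1) {v : σ → E} {B : ℝ} (h : ∀ s, ‖v s‖ ≤ B) : ‖∑ s, π s • v s‖ ≤ B := by
  calc _ ≤ ∑ s, π s * B := (norm_sum_le _ _).trans (Finset.sum_le_sum fun s _ => by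
        rw [norm_smul, Real.norm_of_nonneg (h0 s)]
        exact mul_le_mul_of_nonneg_left (h s) (h0 s))
    _ = B := by rw [← Finset.sum_mul, h1, one_mul]

theorem norm_avg_sq_le {E : Type*} [NormedAddCommGroup E] [NormedSpace ℝ E] (h0 : ∀ s, 0 ≤ π s)
    (h1 : ∑ s, π s = 1) (v : σ → E) : ‖∑ s, π s • v s‖ ^ 2 ≤ ∑ s, π s * ‖v s‖ ^ 2 := by
  have e1 : ‖∑ s, π s • v s‖ ≤ ∑ s, π s * ‖v s‖ :=
    (norm_sum_le _ _).trans (Finset.sum_le_sum fun s _ => by
      rw [norm_smul, Real.norm_of_nonneg (h0 s)])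
  set m := ∑ s, π s * ‖v s‖ with hm
  have e2 : 0 ≤ ∑ s, π s * (‖v s‖ - m) ^ 2 :=
    Finset.sum_nonneg fun s _ => mul_nonneg (h0 s) (sq_nonneg _)
  have e3 : ∑ s, π s * (‖v s‖ - m) ^ 2 =
      ∑ s, π s * ‖v s‖ ^ 2 - 2 * m * ∑ s, π s * ‖v s‖ + m ^ 2 * ∑ s, π s := by
    rw [Finset.mul_sum _ _ (2 * m), Finset.mul_sum _ _ (m ^ 2), ← Finset.sum_sub_distrib,
      ← Finset.sum_add_distrib]
    exact Finset.sum_congr rfl fun s _ => by ring
  rw [h1, ← hm] at e3
  have e4 := pow_le_pow_left₀ (norm_nonneg _) e1 2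
  nlinarith

theorem norm_pow_le {E : Type*} [NormedAddCommGroup E] [NormedSpace ℝ E] (h0 : ∀ s, 0 ≤ π s)
    (h1 : ∑ s, π s = 1) {f : G → E} {B : ℝ} (h : ∀ x, ‖f x‖ ≤ B) (k : ℕ) (x : G) :
    ‖(W E π t ^ k) f x‖ ≤ B := by
  induction k generalizing x with
  | zero => exact h x
  | succ k ih => rw [W_succ]; exact norm_avg_le h0 h1 fun s => ih _

theorem pow_mono (h0 : ∀ s, 0 ≤ π s) {f f' : G → ℝ} (h : ∀ x, f x ≤ f' x) (k : ℕ) (x : G) :
    (W ℝ π t ^ k) f x ≤ (W ℝ π t ^ k) f' x := by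
  induction k generalizing x with
  | zero => exact h x
  | succ k ih =>
    rw [W_succ, W_succ]
    exact Finset.sum_le_sum fun s _ => mul_le_mul_of_nonneg_left (ih _) (h0 s)

theorem pow_const {E : Type*} [AddCommGroup E] [Module ℝ E] (h1 : ∑ s, π s = 1) (c : E) (k : ℕ)
    (x : G) : (W E π t ^ k) (fun _ => c) x = c := by
  induction k generalizing x with
  | zero => rfl
  | succ k ih => rw [W_succ]; simp only [ih]; rw [← Finset.sum_smul, h1, one_smul]

theorem harm {E : Type*} [NormedAddCommGroup E] [NormedSpace ℝ E] (h0 : ∀ s, 0 ≤ π s)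
    (h1 : ∑ s, π s = 1) {f : G → E} {ε : ℝ} (h : ∀ x, ‖W E π t f x - f x‖ ≤ ε) (k : ℕ) (x : G) :
    ‖(W E π t ^ k) f x - f x‖ ≤ k * ε := by
  rw [tele]
  refine (norm_sum_le _ _).trans ((Finset.sum_le_sum fun j _ =>
    norm_pow_le h0 h1 (f := W E π t f - f) h j x).trans ?_)
  simp

theorem jensen {E : Type*} [NormedAddCommGroup E] [NormedSpace ℝ E] (h0 : ∀ s, 0 ≤ π s)
    (h1 : ∑ s, π s = 1) (f : G → E) (k : ℕ) (x : G) :
    ‖(W E π t ^ k) f x‖ ^ 2 ≤ (W ℝ π t ^ k) (fun y => ‖f y‖ ^ 2) x := by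
  induction k generalizing x with
  | zero => exact le_rfl
  | succ k ih =>
    rw [W_succ, W_succ]
    exact (norm_avg_sq_le h0 h1 _).trans
      (Finset.sum_le_sum fun s _ => mul_le_mul_of_nonneg_left (ih _) (h0 s))

theorem left_right [Monoid G] {E : Type*} [AddCommGroup E] [Module ℝ E] (w : σ → G) (k : ℕ)
    (f : G → E) :
    (W E π (fun s x => w s * x) ^ k) f 1 = (W E π (fun s x => x * w s) ^ k) f 1 := by
  have hc : Commute (W E π (fun s x => x * w s)) (W E π (fun s x => w s * x)) := by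
    refine LinearMap.ext fun f => funext fun x => ?_
    simp only [Module.End.mul_apply, W_apply, Finset.smul_sum, mul_assoc]
    rw [Finset.sum_comm]
    exact Finset.sum_congr rfl fun s _ => Finset.sum_congr rfl fun s' _ => smul_comm _ _ _
  induction k generalizing f with
  | zero => rfl
  | succ k ih =>
    have e : (W E π (fun s x => w s * x) ^ (k + 1)) f 1 =
        (W E π (fun s x => x * w s) * W E π (fun s x => w s * x) ^ k) f 1 := by
      rw [W_succ, Module.End.mul_apply, W_apply]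
      simp only [mul_one, one_mul]
    rw [e, (hc.pow_right k).eq, Module.End.mul_apply, ih, pow_succ, Module.End.mul_apply]

end walk

section main
variable {G σ H : Type*} [Monoid G] [Fintype σ] [NormedAddCommGroup H] [InnerProductSpace ℂ H]

theorem pow_rep {π : σ → ℝ} (w : σ → G) (ρ : G → H →L[ℂ] H) (hρ : ∀ x y, ρ (x * y) = ρ x * ρ y)
    (k : ℕ) (ξ : H) (x : G) :
    (W H π (fun s x => x * w s) ^ k) (fun y => ρ y ξ) x =
      ρ x (((∑ s, (π s : ℂ) • ρ (w s)) ^ k) ξ) := by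
  induction k generalizing x with
  | zero => rfl
  | succ k ih =>
    rw [W_succ, pow_succ', mul_apply_eq_comp, _root_.sum_apply, map_sum]
    refine Finset.sum_congr rfl fun s _ => ?_
    rw [ih, hρ, _root_.smul_apply, map_smul, Complex.coe_smul]
    rfl

theorem energy {π : σ → ℝ} (h1 : ∑ s, π s = 1) (y : H) (v : σ → H) {B μ : ℝ} (hy : ‖y‖ ≤ B)
    (hμ : ‖∑ s, π s • (v s - y)‖ ≤ μ) :
    ∑ s, π s * ‖v s - y‖ ^ 2 ≤ ∑ s, π s * ‖v s‖ ^ 2 - ‖y‖ ^ 2 + 2 * B * μ := by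
  have e1 : ∀ s, ‖v s‖ ^ 2 = ‖y‖ ^ 2 + 2 * (⟪y, v s - y⟫_ℂ).re + ‖v s - y‖ ^ 2 := by
    intro s
    have := norm_add_sq (𝕜 := ℂ) y (v s - y)
    rwa [add_sub_cancel] at this
  have e2 : ∑ s, π s * (⟪y, v s - y⟫_ℂ).re = (⟪y, ∑ s, π s • (v s - y)⟫_ℂ).re := by
    rw [inner_sum, Complex.re_sum]
    refine Finset.sum_congr rfl fun s _ => ?_
    rw [← Complex.coe_smul, inner_smul_right, Complex.re_ofReal_mul]
  have e3 : ∑ s, π s * ‖v s‖ ^ 2 = (∑ s, π s) * ‖y‖ ^ 2 + 2 * ∑ s, π s * (⟪y, v s - y⟫_ℂ).re +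
      ∑ s, π s * ‖v s - y‖ ^ 2 := by
    rw [Finset.sum_mul, Finset.mul_sum, ← Finset.sum_add_distrib, ← Finset.sum_add_distrib]
    exact Finset.sum_congr rfl fun s _ => by rw [e1]; ring
  have e4 : |(⟪y, ∑ s, π s • (v s - y)⟫_ℂ).re| ≤ B * μ :=
    (Complex.abs_re_le_norm _).trans ((norm_inner_le_norm _ _).trans
      (mul_le_mul hy hμ (norm_nonneg _) ((norm_nonneg _).trans hy)))
  rw [e3, e2, h1]
  have := (abs_le.1 e4).1
  linarith

/-- the abstract two-sided martingale estimate -/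
theorem abs_main {π : σ → ℝ} (h0 : ∀ s, 0 ≤ π s) (h1 : ∑ s, π s = 1) (w : σ → G)
    (ρ : G → H →L[ℂ] H) (hρ : ∀ x y, ρ (x * y) = ρ x * ρ y) (hρ1 : ρ 1 = 1)
    (hn : ∀ x ξ, ‖ρ x ξ‖ = ‖ξ‖) (F : G → H) (Z h : σ → G → H) (d : σ → H) {g ε : ℝ} (hg : 0 ≤ g)
    (hε : 0 ≤ ε) (hF : ∀ x, ‖F x‖ ≤ g) (hF1 : F 1 = 0)
    (hZ : ∀ s x, F (x * w s) - F x = ρ x (Z s x))
    (ha : ∀ x, ‖∑ s, π s • Z s x - ∑ s, π s • d s‖ ≤ ε)
    (hb : ∀ s x, ‖Z s x - d s - h s x‖ ≤ ε) (hh1 : ∀ s, h s 1 = 0)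
    (hh : ∀ s x, ‖∑ s', π s' • h s (w s' * x) - h s x‖ ≤ ε) (n : ℕ) (hn1 : 1 ≤ n) :
    ∃ η : H, ∑ s, π s * ‖d s + ρ (w s) η - η‖ ^ 2 ≤ 80 * (g ^ 2 / n + n ^ 2 * ε ^ 2) := by
  have hn0 : (0 : ℝ) < n := by exact_mod_cast hn1
  have hn1' : (1 : ℝ) ≤ n := by exact_mod_cast hn1
  set R := W H π (fun s x => x * w s) with hR
  set R' := W ℝ π (fun s (x : G) => x * w s) with hR'
  set κ₀ := ∑ s, π s • d s with hκ
  set Θ := ∑ s, (π s : ℂ) • ρ (w s) with hΘ
  have hΘa : ∀ ξ, Θ ξ = ∑ s, π s • ρ (w s) ξ := by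
    intro ξ
    rw [hΘ, _root_.sum_apply]
    exact Finset.sum_congr rfl fun s _ => by rw [_root_.smul_apply, Complex.coe_smul]
  have hρs : ∀ x (v : σ → H), ρ x (∑ s, π s • v s) = ∑ s, π s • ρ x (v s) := by
    intro x v
    rw [map_sum]
    exact Finset.sum_congr rfl fun s _ => by rw [← Complex.coe_smul, map_smul, Complex.coe_smul]
  have hsub : ∀ (v : σ → H) (y : H), ∑ s, π s • (v s - y) = ∑ s, π s • v s - y := by
    intro v y
    simp only [smul_sub, Finset.sum_sub_distrib]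
    rw [← Finset.sum_smul, h1, one_smul]
  set S : ℕ → H := fun m => ∑ j ∈ Finset.range m, (Θ ^ j) κ₀ with hS
  have hSb : ∀ m : ℕ, ‖S m‖ ≤ g + m * ε := by
    intro m
    have e1 := tele R m F 1
    have e2 : ∀ x, ‖(R F - F - fun y => ρ y κ₀) x‖ ≤ ε := by
      intro x
      have : (R F - F - fun y => ρ y κ₀) x = ρ x (∑ s, π s • Z s x - κ₀) := by
        simp only [Pi.sub_apply, hR, W_apply, map_sub, hρs, ← hZ, hsub]
      rw [this, hn]
      exact ha x
    have e3 : ∀ j, (R ^ j) (R F - F) 1 = (Θ ^ j) κ₀ + (R ^ j) (R F - F - fun y => ρ y κ₀) 1 := by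
      intro j
      rw [map_sub (R ^ j) (R F - F), Pi.sub_apply, hR, pow_rep w ρ hρ, hρ1]
      simp [hΘ]
    simp only [e3, Finset.sum_add_distrib, hF1, sub_zero] at e1
    have e4 : S m = (R ^ m) F 1 - ∑ j ∈ Finset.range m, (R ^ j) (R F - F - fun y => ρ y κ₀) 1 := by
      rw [e1]; simp [hS]
    rw [e4]
    refine (norm_sub_le _ _).trans (add_le_add (norm_pow_le h0 h1 hF m 1) ?_)
    refine (norm_sum_le _ _).trans ((Finset.sum_le_sum fun j _ => norm_pow_le h0 h1 e2 j 1).trans ?_)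
    simp
  set η := (n : ℝ)⁻¹ • ∑ m ∈ Finset.range n, S (m + 1) with hη
  have hηb : ‖η‖ ≤ g + n * ε := by
    rw [hη, norm_smul, norm_inv, Real.norm_of_nonneg hn0.le, inv_mul_le_iff₀ hn0]
    refine (norm_sum_le _ _).trans ((Finset.sum_le_sum (g := fun _ => g + n * ε)
      fun m hm => (hSb _).trans ?_).trans (by simp [mul_add]))
    have : ((m + 1 : ℕ) : ℝ) ≤ n := by exact_mod_cast Finset.mem_range.1 hm
    nlinarith
  have hΘS : ∀ m, Θ (S m) = S (m + 1) - κ₀ := by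
    intro m
    simp only [hS, map_sum]
    rw [Finset.sum_range_succ']
    simp [pow_succ']
  have hmean : ‖κ₀ + Θ η - η‖ ≤ (g + n * ε) / n := by
    have e : κ₀ + Θ η - η = (n : ℝ)⁻¹ • Θ (S n) := by
      have e1 : ∑ m ∈ Finset.range n, (S (m + 1 + 1) - S (m + 1)) = S (n + 1) - S (0 + 1) :=
        Finset.sum_range_sub (fun m => S (m + 1)) n
      have e2 : S (0 + 1) = κ₀ := by simp [hS]
      have e3 : κ₀ = (n : ℝ)⁻¹ • ∑ _m ∈ Finset.range n, κ₀ := by
        rw [Finset.sum_const, Finset.card_range, ← Nat.cast_smul_eq_nsmul ℝ, smul_smul,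
          inv_mul_cancel₀ hn0.ne', one_smul]
      have e4 : Θ η = (n : ℝ)⁻¹ • ∑ m ∈ Finset.range n, (S (m + 1 + 1) - κ₀) := by
        rw [hη, ← Complex.coe_smul, map_smul, Complex.coe_smul, map_sum]
        simp only [hΘS]
      rw [hΘS, ← e2, ← e1, e2, e4, hη]
      conv_lhs => rw [e3]
      rw [← smul_add, ← smul_sub, ← Finset.sum_add_distrib, ← Finset.sum_sub_distrib, ← e3]
      congr 1
      exact Finset.sum_congr rfl fun m _ => by abel
    rw [e, norm_smul, norm_inv, Real.norm_of_nonneg hn0.le, div_eq_inv_mul]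
    refine mul_le_mul_of_nonneg_left ?_ (inv_nonneg.2 hn0.le)
    rw [hΘa]
    exact norm_avg_le h0 h1 fun s => (hn _ _).trans_le (hSb n)
  refine ⟨η, ?_⟩
  set c : σ → H := fun s => d s + ρ (w s) η - η with hc
  set Y : G → H := fun x => F x + ρ x η with hY
  set B := 2 * g + n * ε with hB
  set μ := ε + (g + n * ε) / n with hμ
  have hYb : ∀ x, ‖Y x‖ ≤ B := fun x =>
    (norm_add_le _ _).trans (by rw [hn]; linarith [hF x])
  set Z' : σ → G → H := fun s x => Z s x - d s + c s with hZ'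
  have hΔ : ∀ s x, Y (x * w s) - Y x = ρ x (Z' s x) := by
    intro s x
    have := hZ s x
    simp only [hY, hZ', hc, map_add, map_sub, hρ, mul_apply_eq_comp, ← this]
    abel
  have hE : ∀ x, ∑ s, π s * ‖Z' s x‖ ^ 2 ≤
      (R' (fun y => ‖Y y‖ ^ 2) - (fun y => ‖Y y‖ ^ 2) + (fun _ => 2 * B * μ) : G → ℝ) x := by
    intro x
    have e1 : ‖∑ s, π s • (Y (x * w s) - Y x)‖ ≤ μ := by
      simp only [hΔ]
      rw [← hρs, hn]
      have : ∑ s, π s • Z' s x = (∑ s, π s • Z s x - κ₀) + (κ₀ + Θ η - η) := by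
        simp only [hZ', hc, smul_add, smul_sub, Finset.sum_add_distrib, Finset.sum_sub_distrib,
          hΘa, hκ]
        rw [← Finset.sum_smul, h1, one_smul]
      rw [this]
      exact (norm_add_le _ _).trans (add_le_add (ha x) hmean)
    have e2 := energy h1 (Y x) (fun s => Y (x * w s)) (hYb x) e1
    simp only [hΔ, hn] at e2
    simpa only [Pi.add_apply, Pi.sub_apply, hR', W_apply, smul_eq_mul] using e2
  have hB0 : 0 ≤ B := by positivity
  have hsum : ∑ k ∈ Finset.range n, (R' ^ k) (fun x => ∑ s, π s * ‖Z' s x‖ ^ 2) 1 ≤ 5 * B ^ 2 := by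
    refine (Finset.sum_le_sum fun k _ => pow_mono h0 hE k 1).trans ?_
    simp only [map_add, Pi.add_apply, Finset.sum_add_distrib, hR', pow_const h1]
    rw [← hR', ← tele, Finset.sum_const, Finset.card_range, nsmul_eq_mul]
    have e1 : ‖(R' ^ n) (fun y => ‖Y y‖ ^ 2) 1‖ ≤ B ^ 2 := norm_pow_le h0 h1 (fun x => by
      rw [Real.norm_of_nonneg (sq_nonneg _)]
      exact pow_le_pow_left₀ (norm_nonneg _) (hYb x) 2) n 1
    have e2 : n * μ = g + 2 * (n * ε) := by rw [hμ]; field_simp; ring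
    have e3 : n * (2 * B * μ) ≤ 4 * B ^ 2 := by
      have : n * (2 * B * μ) = 2 * B * (n * μ) := by ring
      rw [this, e2]
      have : g + 2 * (n * ε) ≤ 2 * B := by rw [hB]; linarith
      nlinarith
    have e4 := (le_abs_self _).trans e1
    nlinarith [sq_nonneg ‖Y 1‖]
  have hk : ∀ k ∈ Finset.range n, ∑ s, π s * ‖c s‖ ^ 2 ≤
      2 * (R' ^ k) (fun x => ∑ s, π s * ‖Z' s x‖ ^ 2) 1 + 2 * (n * ε) ^ 2 := by
    intro k hk
    have hkn : (k : ℝ) + 1 ≤ n := by exact_mod_cast Finset.mem_range.1 hk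
    have e1 : ∀ s, ‖c s‖ ^ 2 ≤ 2 * (R' ^ k) (fun x => ‖Z' s x‖ ^ 2) 1 + 2 * (n * ε) ^ 2 := by
      intro s
      have j1 := jensen (t := fun s x => x * w s) h0 h1 (Z' s) k 1
      have j2 : ‖(R ^ k) (h s) 1‖ ≤ k * ε := by
        have := harm (t := fun s' x => w s' * x) h0 h1 (f := h s) (ε := ε)
          (fun x => by rw [W_apply]; exact hh s x) k 1
        rwa [hh1, sub_zero, left_right] at this
      have j3 : ‖(R ^ k) (fun x => Z s x - d s - h s x) 1‖ ≤ ε := norm_pow_le h0 h1 (hb s) k 1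
      have j4 : c s = (R ^ k) (Z' s) 1 - (R ^ k) (h s) 1 -
          (R ^ k) (fun x => Z s x - d s - h s x) 1 := by
        have : (fun _ => c s) = Z' s - h s - fun x => Z s x - d s - h s x := by
          funext x
          simp only [hZ', Pi.sub_apply]
          abel
        rw [← Pi.sub_apply, ← Pi.sub_apply, ← map_sub, ← map_sub, ← this, hR, pow_const h1]
      have j5 : ‖c s‖ ≤ ‖(R ^ k) (Z' s) 1‖ + n * ε := by
        rw [j4]
        refine (norm_sub_le _ _).trans ((add_le_add (norm_sub_le _ _) j3).trans ?_)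
        nlinarith
      have j6 := pow_le_pow_left₀ (norm_nonneg _) j5 2
      nlinarith [sq_nonneg (‖(R ^ k) (Z' s) 1‖ - n * ε)]
    have e2 : (R' ^ k) (fun x => ∑ s, π s * ‖Z' s x‖ ^ 2) 1 =
        ∑ s, π s * (R' ^ k) (fun x => ‖Z' s x‖ ^ 2) 1 := by
      have : (fun x => ∑ s, π s * ‖Z' s x‖ ^ 2) = ∑ s, π s • fun x => ‖Z' s x‖ ^ 2 := by
        funext x
        simp [Finset.sum_apply]
      rw [this, map_sum, Finset.sum_apply]
      simp only [map_smul, Pi.smul_apply, smul_eq_mul]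
    rw [e2]
    calc _ ≤ ∑ s, π s * (2 * (R' ^ k) (fun x => ‖Z' s x‖ ^ 2) 1 + 2 * (n * ε) ^ 2) :=
          Finset.sum_le_sum fun s _ => mul_le_mul_of_nonneg_left (e1 s) (h0 s)
      _ = 2 * ∑ s, π s * (R' ^ k) (fun x => ‖Z' s x‖ ^ 2) 1 + (∑ s, π s) * (2 * (n * ε) ^ 2) := by
          rw [Finset.mul_sum, Finset.sum_mul, ← Finset.sum_add_distrib]
          exact Finset.sum_congr rfl fun s _ => by ring
      _ = _ := by rw [h1, one_mul]
  have hfin := Finset.sum_le_sum hk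
  rw [Finset.sum_const, Finset.card_range, nsmul_eq_mul, Finset.sum_add_distrib, ← Finset.mul_sum,
    Finset.sum_const, Finset.card_range, nsmul_eq_mul] at hfin
  have hB2 : B ^ 2 ≤ 8 * g ^ 2 + 2 * (n * ε) ^ 2 := by
    rw [hB]; nlinarith [sq_nonneg (2 * g - n * ε)]
  refine le_of_mul_le_mul_left ?_ hn0
  have e : n * (80 * (g ^ 2 / n + n ^ 2 * ε ^ 2)) = 80 * g ^ 2 + 80 * (n * (n * ε) ^ 2) := by
    field_simp
  have e' : (n * ε) ^ 2 ≤ n * (n * ε) ^ 2 := le_mul_of_one_le_left (sq_nonneg _) hn1'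
  rw [e]
  nlinarith [sq_nonneg (n * ε)]

end main

end T2
end Crest.Agent.R78
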