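import Crest.Agent.R78.TrJ
import Crest.Agent.R78.T2Aux

/-! # Row 78: the two-sided martingale -/

set_option autoImplicit false

namespace Crest.Agent.R78

open scoped InnerProductSpace ComplexOrder BigOperators Topology
open Filter
open Crest.Agent.R124 (Op cm)
open Crest.OpAlg (LineCalculus)

universe u

variable {H : Type u} [NormedAddCommGroup H] [InnerProductSpace ℂ H] [CompleteSpace H]

namespace T2

/-- pairs of unitaries of `M` and of `M'` -/
def GG (M : VN H) : Submonoid (Op H × Op H) where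
  carrier := {p | UIn M p.1 ∧ UIn M.commutant p.2}
  one_mem' := ⟨UIn.one M, UIn.one _⟩
  mul_mem' := fun ha hb => ⟨ha.1.mul hb.1, ha.2.mul hb.2⟩

theorem u1 {a : Op H} (ha : a ∈ unitary (Op H)) (ξ : H) : star a (a ξ) = ξ := by
  rw [← mul_apply_eq_comp, Unitary.star_mul_self_of_mem ha]; rfl

theorem u2 {a : Op H} (ha : a ∈ unitary (Op H)) (ξ : H) : a (star a ξ) = ξ := by
  rw [← mul_apply_eq_comp, Unitary.mul_star_self_of_mem ha]; rfl

theorem un {a : Op H} (ha : a ∈ unitary (Op H)) (ξ : H) : ‖a ξ‖ = ‖ξ‖ :=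
  ContinuousLinearMap.norm_map_of_mem_unitary ha ξ

theorem un' {a : Op H} (ha : a ∈ unitary (Op H)) (ξ : H) : ‖star a ξ‖ = ‖ξ‖ :=
  un (Unitary.star_mem ha) ξ

theorem sm_u {M : VN H} {Ω : H} {r : Op H} {g : ℝ} (h : Sm M Ω r g) (hg : 0 ≤ g) {a : Op H}
    (ha : UIn M a) : ‖r (a Ω)‖ ≤ g :=
  (h a ha.1).trans (mul_le_of_le_one_right hg ha.norm_le)

theorem sm_u' {M : VN H} {Ω : H} {J : H ≃ₗᵢ⋆[ℂ] H} (hJ : TrJ M Ω J) {r : Op H} {g : ℝ}
    (h : Sm M Ω r g) (hg : 0 ≤ g) {b : Op H} (hb : UIn M.commutant b) : ‖r (b Ω)‖ ≤ g :=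
  (Sm.app hJ h hg (UIn.one M).1 hb.1).trans (mul_le_of_le_one_right hg
    (mul_le_one₀ hb.norm_le (norm_nonneg _) (UIn.one M).norm_le))

theorem key (a b U V Tb TbV TV Sa SU : Op H) (Ω : H) (hVU : V (U Ω) = Ω) :
    cm (a * U) TbV Ω - cm a Tb Ω =
      a (b (cm U TV Ω)) + a (cm SU b (V Ω)) + b (cm Sa V (U Ω)) +
      (a ((cm U TbV - cm SU (b * V)) Ω) - a (b ((cm U TV - cm SU V) Ω)) +
        (cm a TbV - cm Sa (b * V)) (U Ω) - (cm a Tb - cm Sa b) Ω) := by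
  simp only [cm, sub_apply, mul_apply_eq_comp, map_sub, hVU]
  abel

theorem av_apply {σ : Type} [Fintype σ] (π : σ → ℝ) (U : σ → Op H) (X : Op H) (ξ : H) :
    av π U X ξ = ∑ s, π s • star (U s) (X (U s ξ)) := by
  rw [av, _root_.sum_apply]
  exact Finset.sum_congr rfl fun s _ => by rw [_root_.smul_apply, Complex.coe_smul]; rfl

theorem av_apply' {σ : Type} [Fintype σ] {π : σ → ℝ} {iv : σ → σ} {U : σ → Op H}
    (hi : Function.Involutive iv) (hπ : ∀ s, π (iv s) = π s) (hU : ∀ s, U (iv s) = star (U s))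
    (X : Op H) (ξ : H) : av π U X ξ = ∑ s, π s • U s (X (star (U s) ξ)) := by
  rw [av_apply, ← Equiv.sum_comp hi.toPerm]
  exact Finset.sum_congr rfl fun s _ => by
    simp only [Function.Involutive.coe_toPerm, hπ, hU, star_star]

theorem map_avg {σ : Type} [Fintype σ] (π : σ → ℝ) (a : Op H) (v : σ → H) :
    a (∑ s, π s • v s) = ∑ s, π s • a (v s) := by
  rw [map_sum]
  exact Finset.sum_congr rfl fun s _ => by rw [← Complex.coe_smul, map_smul, Complex.coe_smul]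

theorem avg_sub {σ : Type} [Fintype σ] {π : σ → ℝ} (h1 : ∑ s, π s = 1) (v : σ → H) (y : H) :
    ∑ s, π s • (v s - y) = ∑ s, π s • v s - y := by
  simp only [smul_sub, Finset.sum_sub_distrib]
  rw [← Finset.sum_smul, h1, one_smul]

theorem avg_sub' {σ : Type} [Fintype σ] {π : σ → ℝ} (h1 : ∑ s, π s = 1) (v : σ → H) (y : H) :
    ∑ s, π s • (y - v s) = y - ∑ s, π s • v s := by
  simp only [smul_sub, Finset.sum_sub_distrib]
  rw [← Finset.sum_smul, h1, one_smul]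

end T2

open T2 in
/-- `V s = J (U s) J`, `U s V s Ω = Ω`.  For `f` on pairs let `(A f)(a, b) = ∑ π s f (a U s, b V s)`.
`Y (a, b) = [a, T b] Ω + a b η`.  Modulo `O(κ)`,
`Y (aU, bV) - Y (a, b) = b [S a, V] U Ω + a [S U, b] V Ω + a b c(s)`,
`c(s) = [U, T V] Ω + U V η - η`.  The first two terms have mean `O(κ)` (symmetry of the steps and
the harmonicity hypotheses).  With `κ₀ = ∑ π s [U s, T (V s)] Ω`, `Θ = ∑ π s U s V s`, the sums
`∑_{j<m} Θ^j κ₀ = A^m ([·, T ·] Ω)(1, 1) + O(m κ)` are `O(g + m κ)`; `η` is their Cesàro mean over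
`1 ≤ m ≤ n`, so `∑ π s c(s) = O((g + n κ) / n)`.  Energy: `∑_{k<n} A^k (∑ π ‖ΔY‖²)(1,1) ≤ C (g+nκ)²`.
Jensen over the past: `A^k ((a b)⋆ ΔY_s)(1,1) = c(s) + O(k κ)` because
`a⋆ [a, T V] = T V - a⋆ (T V) a`, `b⋆ [S U, b] = b⋆ (S U) b - S U`. -/
theorem t2 : ∃ C : ℝ, 0 ≤ C ∧ ∀ (H : Type u) [NormedAddCommGroup H] [InnerProductSpace ℂ H] [CompleteSpace H] (M : VN H) (Ω : H) (J : H ≃ₗᵢ⋆[ℂ] H) (S T : Op H → Op H)
    (g κ : ℝ) (σ : Type) [Fintype σ] (π : σ → ℝ) (iv : σ → σ) (U : σ → Op H), TrJ M Ω J → 0 ≤ g →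
    0 ≤ κ → Prob π → Function.Involutive iv → (∀ s, π (iv s) = π s) → (∀ s, UIn M (U s)) →
    (∀ s, U (iv s) = star (U s)) →
    (∀ a b, UIn M a → UIn M.commutant b → Sm M Ω (cm a (T b) - cm (S a) b) κ) →
    (∀ b, UIn M.commutant b → Sm M Ω (T b) g) → (∀ a, UIn M a → Sm M Ω (S a) g) →
    (∀ b, UIn M.commutant b → Sm M Ω (av π U (T b) - T b) κ) →
    (∀ a, UIn M a → Sm M Ω (av π (fun s => jop J (U s)) (S a) - S a) κ) →
    ∀ n : ℕ, 1 ≤ n → ∃ η : H,
      ∑ s, π s * ‖cm (U s) (T (jop J (U s))) Ω + U s (jop J (U s) η) - η‖ ^ 2 ≤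
        C * (g ^ 2 / n + n ^ 2 * κ ^ 2) := by
  refine ⟨80 * 49, by norm_num, ?_⟩
  intro H _ _ _ M Ω J S T g κ σ _ π iv U hJ hg hκ hπ hi hπi hU hUi H1 H2 H2' H3 H4 n hn
  set V : σ → Op H := fun s => jop J (U s) with hVdef
  have hV : ∀ s, UIn M.commutant (V s) := fun s => hJ.uin (hU s)
  have hVi : ∀ s, V (iv s) = star (V s) := fun s => by
    simp only [hVdef, hUi, jop_star hJ.J_J]
  have hVΩ : ∀ s, V s Ω = star (U s) Ω := fun s => hJ.jop_vac (hU s).1
  have hc : ∀ {a b : Op H}, UIn M a → UIn M.commutant b → ∀ ξ, a (b ξ) = b (a ξ) := by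
    intro a b ha hb ξ
    rw [← mul_apply_eq_comp, (commute_of_mem ha.1 hb.1).eq]; rfl
  have hUV : ∀ s, U s (V s Ω) = Ω := fun s => by rw [hVΩ, u2 (hU s).2]
  have hVU : ∀ s, V s (U s Ω) = Ω := fun s => by rw [← hc (hU s) (hV s), hUV]
  have hUΩ : ∀ s, U s Ω = star (V s) Ω := fun s => by
    conv_rhs => rw [← hVU s, u1 (hV s).2]
  let w : σ → GG M := fun s => ⟨(U s, V s), hU s, hV s⟩
  let ρ : GG M → Op H := fun x => x.1.1 * x.1.2
  have hρu : ∀ x, ρ x ∈ unitary (Op H) := fun x => mul_mem x.2.1.2 x.2.2.2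
  let F : GG M → H := fun x => cm x.1.1 (T x.1.2) Ω
  let Z : σ → GG M → H := fun s x => star (ρ x) (F (x * w s) - F x)
  let d : σ → H := fun s => cm (U s) (T (V s)) Ω
  let P : σ → GG M → H := fun s x => star x.1.1 (cm (S x.1.1) (V s) (U s Ω))
  let Q : σ → GG M → H := fun s x => star x.1.2 (cm (S (U s)) x.1.2 (V s Ω))
  let h : σ → GG M → H := fun s x =>
    (T (V s) (U s Ω) - star x.1.1 (T (V s) (x.1.1 (U s Ω)))) +
    (star x.1.2 (S (U s) (x.1.2 (V s Ω))) - S (U s) (V s Ω))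
  have hZ : ∀ s x, F (x * w s) - F x = ρ x (Z s x) := fun s x => (u2 (hρu x) _).symm
  have hstar : ∀ s x, ‖Z s x - d s - P s x - Q s x‖ ≤ 4 * κ := by
    rintro s x
    obtain ⟨ha, hb⟩ := x.2
    have hbV := hb.mul (hV s)
    have e := key x.1.1 x.1.2 (U s) (V s) (T x.1.2) (T (x.1.2 * V s)) (T (V s)) (S x.1.1)
      (S (U s)) Ω (hVU s)
    have eP : ρ x (P s x) = x.1.2 (cm (S x.1.1) (V s) (U s Ω)) := by
      show x.1.1 (x.1.2 (star x.1.1 _)) = _
      rw [hc ha hb, u2 ha.2]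
    have eQ : ρ x (Q s x) = x.1.1 (cm (S (U s)) x.1.2 (V s Ω)) := by
      show x.1.1 (x.1.2 (star x.1.2 _)) = _
      rw [u2 hb.2]
    have eZ : ρ x (Z s x) = cm (x.1.1 * U s) (T (x.1.2 * V s)) Ω - cm x.1.1 (T x.1.2) Ω :=
      (hZ s x).symm
    have ed : ρ x (d s) = x.1.1 (x.1.2 (cm (U s) (T (V s)) Ω)) := rfl
    rw [← un (hρu x), map_sub, map_sub, map_sub, eP, eQ, eZ, ed, e]
    have f1 := sm_u (H1 _ _ ha hbV) hκ (hU s)
    have f2 := (H1 _ _ ha hb).vac hκ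
    have f3 := (H1 _ _ (hU s) hbV).vac hκ
    have f4 := (H1 _ _ (hU s) (hV s)).vac hκ
    rw [← un ha.2] at f3
    rw [← un hb.2, ← un ha.2] at f4
    refine le_trans (le_of_eq (congrArg norm ?_)) ((norm_sub_le _ _).trans (add_le_add
      ((norm_add_le _ _).trans (add_le_add ((norm_sub_le _ _).trans (add_le_add f3 f4)) f1))
      f2)) |>.trans (le_of_eq (by ring))
    abel
  refine Exists.elim (abs_main hπ.1 hπ.2 w ρ (fun x y => ?_) (mul_one _) (fun x => un (hρu x))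
    F Z h d (g := 2 * g) (ε := 7 * κ) (by positivity) (by positivity) (fun x => ?_) ?_ hZ
    (fun x => ?_) (fun s x => ?_) (fun s => ?_) (fun s x => ?_) n hn) fun η hη => ?_
  rotate_right
  · refine ⟨η, hη.trans ?_⟩
    have e1 : 0 ≤ g ^ 2 / n := by positivity
    have e2 : (2 * g) ^ 2 / n = 4 * (g ^ 2 / n) := by ring
    rw [e2]
    nlinarith
  · show x.1.1 * y.1.1 * (x.1.2 * y.1.2) = x.1.1 * x.1.2 * (y.1.1 * y.1.2)
    rw [mul_assoc, mul_assoc, ← mul_assoc y.1.1, (commute_of_mem y.2.1.1 x.2.2.1).eq, mul_assoc]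
  · obtain ⟨ha, hb⟩ := x.2
    show ‖x.1.1 (T x.1.2 Ω) - T x.1.2 (x.1.1 Ω)‖ ≤ 2 * g
    refine (norm_sub_le _ _).trans ?_
    rw [un ha.2]
    linarith [(H2 _ hb).vac hg, sm_u (H2 _ hb) hg ha]
  · show T 1 Ω - T 1 Ω = 0
    exact sub_self _
  · obtain ⟨ha, hb⟩ := x.2
    have f1 := norm_avg_le hπ.1 hπ.2 fun s => hstar s x
    have f2 : ‖∑ s, π s • P s x‖ ≤ κ := by
      have e : ∑ s, π s • P s x = -star x.1.1 ((av π V (S x.1.1) - S x.1.1) Ω) := by
        rw [← map_avg, ← map_neg, sub_apply, neg_sub, av_apply' hi hπi hVi, ← avg_sub' hπ.2]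
        congr 1
        refine Finset.sum_congr rfl fun s _ => ?_
        rw [← hUΩ]
        simp only [cm, sub_apply, mul_apply_eq_comp, hVU]
      rw [e, norm_neg, un' ha.2]
      exact (H4 _ ha).vac hκ
    have f3 : ‖∑ s, π s • Q s x‖ ≤ κ + κ := by
      have e : ∑ s, π s • Q s x = star x.1.2 ((av π U (T x.1.2) - T x.1.2) Ω -
          ∑ s, π s • (cm (U s) (T x.1.2) - cm (S (U s)) x.1.2) (V s Ω)) := by
        rw [← map_avg, sub_apply, av_apply' hi hπi hUi, ← avg_sub hπ.2, ← Finset.sum_sub_distrib]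
        congr 1
        refine Finset.sum_congr rfl fun s _ => ?_
        rw [← hVΩ, ← smul_sub]
        congr 1
        simp only [cm, sub_apply, mul_apply_eq_comp, hUV]
        abel
      rw [e, un' hb.2]
      exact (norm_sub_le _ _).trans (add_le_add ((H3 _ hb).vac hκ)
        (norm_avg_le hπ.1 hπ.2 fun s => sm_u' hJ (H1 _ _ (hU s) hb) hκ (hV s)))
    have e : ∑ s, π s • Z s x - ∑ s, π s • d s =
        ∑ s, π s • (Z s x - d s - P s x - Q s x) + ∑ s, π s • P s x + ∑ s, π s • Q s x := by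
      simp only [smul_sub, Finset.sum_sub_distrib]
      abel
    rw [e]
    refine ((norm_add_le _ _).trans (add_le_add ((norm_add_le _ _).trans (add_le_add f1 f2))
      f3)).trans (le_of_eq (by ring))
  · obtain ⟨ha, hb⟩ := x.2
    have f := sm_u (H1 _ _ ha (hV s)) hκ (hU s)
    rw [← un' ha.2] at f
    have e : Z s x - d s - h s x = (Z s x - d s - P s x - Q s x) -
        star x.1.1 ((cm x.1.1 (T (V s)) - cm (S x.1.1) (V s)) (U s Ω)) := by
      simp only [h, P, Q, cm, sub_apply, mul_apply_eq_comp, map_sub, u1 ha.2, u1 hb.2]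
      abel
    rw [e]
    refine (norm_sub_le _ _).trans ?_
    linarith [hstar s x]
  · show (T (V s) (U s Ω) - star (1 : Op H) (T (V s) (U s Ω))) +
      (star (1 : Op H) (S (U s) (V s Ω)) - S (U s) (V s Ω)) = 0
    simp
  · obtain ⟨ha, hb⟩ := x.2
    have f1 := sm_u (H3 _ (hV s)) hκ (ha.mul (hU s))
    have f2 := sm_u' hJ (H4 _ (hU s)) hκ (hb.mul (hV s))
    rw [← un' ha.2] at f1
    rw [← un' hb.2] at f2
    have e : ∑ s', π s' • h s (w s' * x) - h s x =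
        star x.1.2 ((av π V (S (U s)) - S (U s)) ((x.1.2 * V s) Ω)) -
        star x.1.1 ((av π U (T (V s)) - T (V s)) ((x.1.1 * U s) Ω)) := by
      have e1 : ∀ s', h s (w s' * x) =
          (T (V s) (U s Ω) - star x.1.1 (star (U s') (T (V s) (U s' (x.1.1 (U s Ω)))))) +
          (star x.1.2 (star (V s') (S (U s) (V s' (x.1.2 (V s Ω))))) - S (U s) (V s Ω)) := by
        intro s'
        show (_ - star (U s' * x.1.1) _) + (star (V s' * x.1.2) _ - _) = _
        rw [star_mul, star_mul]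
        rfl
      simp only [e1, smul_add, Finset.sum_add_distrib, avg_sub hπ.2, avg_sub' hπ.2, sub_apply,
        map_sub, av_apply, map_avg, mul_apply_eq_comp, h]
      abel
    rw [e]
    refine (norm_sub_le _ _).trans ?_
    linarith

end Crest.Agent.R78
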