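import Crest.Agent.R78.TrJ
import Crest.Agent.R78.Cfc

/-! # Row 78: Pauli calculus (auxiliary file for `Trick`) -/

set_option autoImplicit false
set_option linter.unusedSectionVars false

namespace Crest.Agent.R78.Trick

open scoped InnerProductSpace BigOperators Topology
open Crest.Agent.R124 (Op cm cm_mul cm_add cm_sub cm_smul cm_eq_zero cm_one)

universe u

variable {H : Type u} [NormedAddCommGroup H] [InnerProductSpace ℂ H] [CompleteSpace H]

lemma cm_mul_r {U e : Op H} (h : Commute U e) (a : Op H) : cm U (a * e) = cm U a * e := by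
  rw [cm_mul, cm_eq_zero h, mul_zero, add_zero]

lemma cm_mul_l {U e : Op H} (h : Commute U e) (a : Op H) : cm U (e * a) = e * cm U a := by
  rw [cm_mul, cm_eq_zero h, zero_mul, zero_add]

lemma cm_l_mul {e W : Op H} (h : Commute e W) (a : Op H) : cm (e * a) W = e * cm a W := by
  simp only [cm, mul_sub, mul_assoc, h.left_comm]

lemma cm_r_mul {e W : Op H} (h : Commute e W) (a : Op H) : cm (a * e) W = cm a W * e := by
  simp only [cm, sub_mul, mul_assoc, h.eq]

lemma cm_smul_left (c : ℂ) (a W : Op H) : cm (c • a) W = c • cm a W := by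
  simp only [cm, smul_mul_assoc, mul_smul_comm, smul_sub]

lemma commute_cm {e a b : Op H} (ha : Commute e a) (hb : Commute e b) : Commute e (cm a b) :=
  (ha.mul_right hb).sub_right (hb.mul_right ha)

lemma cm_mem {M : VN H} {a b : Op H} (ha : a ∈ M) (hb : b ∈ M) : cm a b ∈ M :=
  sub_mem (mul_mem ha hb) (mul_mem hb ha)

/-- moving a commutator -/
lemma cm_cm_of_commute {u g : Op H} (h : Commute u g) (W : Op H) :
    cm u W * g - g * cm u W = cm u (W * g - g * W) := by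
  rw [cm_sub, cm_mul_r h, cm_mul_l h]

lemma app_le_of_le_one {a : Op H} (ha : ‖a‖ ≤ 1) (ξ : H) : ‖a ξ‖ ≤ ‖ξ‖ :=
  (a.le_opNorm ξ).trans (by simpa using mul_le_mul_of_nonneg_right ha (norm_nonneg ξ))

lemma mul_le_of_le_one_left {a : Op H} (ha : ‖a‖ ≤ 1) (b : Op H) : ‖a * b‖ ≤ ‖b‖ :=
  (norm_mul_le _ _).trans (by simpa using mul_le_mul_of_nonneg_right ha (norm_nonneg b))

lemma mul_le_of_le_one_right {a : Op H} (ha : ‖a‖ ≤ 1) (b : Op H) : ‖b * a‖ ≤ ‖b‖ :=
  (norm_mul_le _ _).trans (by simpa using mul_le_mul_of_nonneg_left ha (norm_nonneg b))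

/-- a pair of Pauli matrices in `M` -/
structure PP (M : VN H) (X Z : Op H) : Prop where
  XM : X ∈ M
  ZM : Z ∈ M
  X_sa : star X = X
  Z_sa : star Z = Z
  XX : X * X = 1
  ZZ : Z * Z = 1
  anti : X * Z = -(Z * X)

lemma pp_of_pauli {M N : VN H} {J : H ≃ₗᵢ⋆[ℂ] H} {X Z : Op H} (h : Pauli M N J X Z) : PP M X Z :=
  ⟨h.XM, h.ZM, h.X_sa, h.Z_sa, h.XX, h.ZZ, h.anti⟩

variable {M : VN H} {X Z : Op H}

lemma PP.jop {Ω : H} {J : H ≃ₗᵢ⋆[ℂ] H} (h : PP M X Z) (hJ : TrJ M Ω J) :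
    PP M.commutant (jop J X) (jop J Z) where
  XM := hJ.mem _ h.XM
  ZM := hJ.mem _ h.ZM
  X_sa := by rw [← jop_star hJ.J_J, h.X_sa]
  Z_sa := by rw [← jop_star hJ.J_J, h.Z_sa]
  XX := by rw [← jop_mul hJ.J_J, h.XX, jop_one hJ.J_J]
  ZZ := by rw [← jop_mul hJ.J_J, h.ZZ, jop_one hJ.J_J]
  anti := by rw [← jop_mul hJ.J_J, h.anti, jop_neg, jop_mul hJ.J_J]

lemma PP.uX (h : PP M X Z) : UIn M X :=
  ⟨h.XM, Unitary.mem_iff.2 ⟨by rw [h.X_sa, h.XX], by rw [h.X_sa, h.XX]⟩⟩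

lemma PP.uZ (h : PP M X Z) : UIn M Z :=
  ⟨h.ZM, Unitary.mem_iff.2 ⟨by rw [h.Z_sa, h.ZZ], by rw [h.Z_sa, h.ZZ]⟩⟩

lemma PP.XX' (h : PP M X Z) (a : Op H) : X * (X * a) = a := by rw [← mul_assoc, h.XX, one_mul]
lemma PP.ZZ' (h : PP M X Z) (a : Op H) : Z * (Z * a) = a := by rw [← mul_assoc, h.ZZ, one_mul]
lemma PP.anti' (h : PP M X Z) (a : Op H) : X * (Z * a) = -(Z * (X * a)) := by
  rw [← mul_assoc, h.anti, neg_mul, mul_assoc]

/-- the twirl -/
noncomputable def tw (X Z a : Op H) : Op H :=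
  (1 / 4 : ℂ) • (a + X * a * X + Z * a * Z + X * Z * a * Z * X)

lemma PP.tw_mem (h : PP M X Z) {a : Op H} (ha : a ∈ M) : tw X Z a ∈ M := by
  have hX := h.XM
  have hZ := h.ZM
  exact smul_mem_vn _ (add_mem (add_mem (add_mem ha (mul_mem (mul_mem hX ha) hX))
    (mul_mem (mul_mem hZ ha) hZ)) (mul_mem (mul_mem (mul_mem (mul_mem hX hZ) ha) hZ) hX))

lemma PP.tw_X (h : PP M X Z) (a : Op H) : Commute (tw X Z a) X := by
  refine Commute.smul_left ?_ _
  change _ = _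
  simp only [mul_add, add_mul, mul_assoc, h.XX, h.XX', h.anti, h.anti', mul_neg,
    neg_mul, neg_neg, mul_one]
  abel

lemma PP.tw_Z (h : PP M X Z) (a : Op H) : Commute (tw X Z a) Z := by
  refine Commute.smul_left ?_ _
  change _ = _
  simp only [mul_add, add_mul, mul_assoc, h.ZZ, h.ZZ', h.anti, h.anti', mul_neg,
    neg_mul, neg_neg, mul_one]
  abel

lemma PP.norm_tw (h : PP M X Z) (a : Op H) : ‖tw X Z a‖ ≤ ‖a‖ := by
  have hX := h.uX.norm_le
  have hZ := h.uZ.norm_le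
  have h1 : ‖X * a * X‖ ≤ ‖a‖ := (mul_le_of_le_one_right hX _).trans (mul_le_of_le_one_left hX _)
  have h2 : ‖Z * a * Z‖ ≤ ‖a‖ := (mul_le_of_le_one_right hZ _).trans (mul_le_of_le_one_left hZ _)
  have h3 : ‖X * Z * a * Z * X‖ ≤ ‖a‖ := (mul_le_of_le_one_right hX _).trans
    ((mul_le_of_le_one_right hZ _).trans (mul_le_of_le_one_left (h.uX.mul h.uZ).norm_le _))
  have h4 := norm_add_le (a + X * a * X + Z * a * Z) (X * Z * a * Z * X)
  have h5 := norm_add_le (a + X * a * X) (Z * a * Z)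
  have h6 := norm_add_le a (X * a * X)
  rw [tw, norm_smul]
  have : ‖(1 / 4 : ℂ)‖ = 1 / 4 := by simp
  rw [this]
  linarith

lemma PP.decomp (h : PP M X Z) (a : Op H) : a = tw X Z a * 1 + tw X Z (a * X) * X +
    tw X Z (a * Z) * Z + tw X Z (a * (Z * X)) * (X * Z) := by
  simp only [tw, smul_mul_assoc, mul_add, add_mul, mul_assoc, h.XX, h.XX', h.ZZ, h.ZZ', h.anti,
    h.anti', mul_neg, neg_mul, neg_neg, mul_one]
  module

/-- every element of `M` is a short combination of products of a unitary commuting with the Paulis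
and a Pauli -/
lemma PP.ind (h : PP M X Z) {Q : Op H → ℝ → Prop} {Good : Op H → Prop}
    (hadd : ∀ a b s t, Q a s → Q b t → Q (a + b) (s + t))
    (hsmul : ∀ (c : ℂ) a s, ‖c‖ ≤ s → Q a 1 → Q (c • a) s)
    (h1 : Good 1) (hX : Good X) (hZ : Good Z) (hXZ : Good (X * Z))
    (hb : ∀ v g, UIn M v → Commute v X → Commute v Z → Commute v g → Good g → Q (v * g) 1)
    {x : Op H} (hx : x ∈ M) : Q x (16 * ‖x‖) := by
  have key : ∀ a g, a ∈ M → ‖a‖ ≤ ‖x‖ → Good g →
      (∀ v, Commute v X → Commute v Z → Commute v g) → Q (tw X Z a * g) (4 * ‖x‖) := by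
    intro a g ha han hg hcg
    have hm : tw X Z a ∈ cmt ((M.commutant : Set (Op H)) ∪ {X, Z}) := by
      refine mem_cmt.2 ?_
      rintro s (hs | rfl | rfl)
      · exact ⟨(commute_of_mem (h.tw_mem ha) hs).symm.eq,
          (commute_of_mem (h.tw_mem ha) (star_mem hs)).symm.eq⟩
      · rw [h.X_sa]; exact ⟨(h.tw_X a).symm.eq, (h.tw_X a).symm.eq⟩
      · rw [h.Z_sa]; exact ⟨(h.tw_Z a).symm.eq, (h.tw_Z a).symm.eq⟩
    obtain ⟨v, c, hv, hc, e⟩ := exists_four hm
    have hq : ∀ i, Q (c i • (v i * g)) ‖x‖ := fun i => by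
      have hvi := mem_cmt.1 (hv i).1
      have h1 : Commute (v i) X := (hvi X (Or.inr (Or.inl rfl))).1.symm
      have h2 : Commute (v i) Z := (hvi Z (Or.inr (Or.inr rfl))).1.symm
      refine hsmul _ _ _ ((hc i).trans ((h.norm_tw a).trans han))
        (hb _ _ ⟨?_, (hv i).2⟩ h1 h2 (hcg _ h1 h2) hg)
      exact mem_of_commute fun y hy => (hvi y (Or.inl hy)).1.symm
    have := hadd _ _ _ _ (hadd _ _ _ _ (hadd _ _ _ _ (hq 0) (hq 1)) (hq 2)) (hq 3)
    rw [e, Fin.sum_univ_four]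
    simp only [add_mul, smul_mul_assoc]
    convert this using 1
    ring
  have := hadd _ _ _ _ (hadd _ _ _ _ (hadd _ _ _ _ 
    (key x 1 hx le_rfl h1 fun v _ _ => Commute.one_right v)
    (key (x * X) X (mul_mem hx h.XM) (mul_le_of_le_one_right h.uX.norm_le _) hX fun _ h _ => h))
    (key (x * Z) Z (mul_mem hx h.ZM) (mul_le_of_le_one_right h.uZ.norm_le _) hZ fun _ _ h => h))
    (key (x * (Z * X)) (X * Z) (mul_mem hx (mul_mem h.ZM h.XM))
      (mul_le_of_le_one_right (h.uZ.mul h.uX).norm_le _) hXZ fun _ h h' => h.mul_right h')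
  rw [← h.decomp x] at this
  convert this using 1
  ring

/-! ## matrix units -/

/-- `E₁₁` -/
noncomputable def e1 (Z : Op H) : Op H := (1 / 2 : ℂ) • (1 + Z)

/-- `E₂₂` -/
noncomputable def e2 (Z : Op H) : Op H := (1 / 2 : ℂ) • (1 - Z)

/-- `1 / √2` -/
noncomputable def cc : ℂ := (((√2)⁻¹ : ℝ) : ℂ)

lemma cc_mul_cc : cc * cc = 1 / 2 := by
  rw [cc, ← Complex.ofReal_mul, ← mul_inv, Real.mul_self_sqrt (by norm_num)]
  push_cast; norm_num

lemma conj_cc : starRingEnd ℂ cc = cc := Complex.conj_ofReal _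

lemma norm_cc : ‖cc‖ ≤ 1 := by
  have h : ‖cc‖ * ‖cc‖ = 1 / 2 := by rw [← norm_mul, cc_mul_cc]; simp
  nlinarith [norm_nonneg cc]

lemma trick_eq (X Z x y : Op H) : trick X Z x y =
    (x * y * e1 Z + e2 Z) * (cc • (X + Z)) * (star y * e1 Z + e2 Z) := rfl

lemma e1_mem (hZ : Z ∈ M) : e1 Z ∈ M := smul_mem_vn _ (add_mem (one_mem M) hZ)
lemma e2_mem (hZ : Z ∈ M) : e2 Z ∈ M := smul_mem_vn _ (sub_mem (one_mem M) hZ)

lemma commute_e1 {a : Op H} (h : Commute a Z) : Commute a (e1 Z) :=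
  ((Commute.one_right a).add_right h).smul_right _

lemma commute_e2 {a : Op H} (h : Commute a Z) : Commute a (e2 Z) :=
  ((Commute.one_right a).sub_right h).smul_right _

lemma norm_one_le : ‖(1 : Op H)‖ ≤ 1 := ContinuousLinearMap.norm_id_le

lemma PP.norm_e1 (h : PP M X Z) : ‖e1 Z‖ ≤ 1 := by
  have := norm_add_le (1 : Op H) Z
  rw [e1, norm_smul]
  have e : ‖(1 / 2 : ℂ)‖ = 1 / 2 := by simp
  rw [e]
  linarith [h.uZ.norm_le, norm_one_le (H := H)]

lemma PP.norm_e2 (h : PP M X Z) : ‖e2 Z‖ ≤ 1 := by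
  have := norm_sub_le (1 : Op H) Z
  rw [e2, norm_smul]
  have e : ‖(1 / 2 : ℂ)‖ = 1 / 2 := by simp
  rw [e]
  linarith [h.uZ.norm_le, norm_one_le (H := H)]

lemma e1_add_e2 (Z : Op H) : e1 Z + e2 Z = 1 := by
  simp only [e1, e2]; module

lemma PP.e2_eq (h : PP M X Z) : e2 Z = X * (e1 Z * X) := by
  simp only [e1, e2, smul_mul_assoc, mul_smul_comm, mul_add, add_mul, mul_assoc, h.XX,
    h.anti', one_mul, mul_one]
  module

lemma PP.star_e2X (h : PP M X Z) : star (e2 Z * X) = e1 Z * X := by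
  simp only [e1, e2, star_mul, star_smul, star_sub, star_one, h.X_sa, h.Z_sa, smul_mul_assoc,
    mul_smul_comm, mul_sub, add_mul, h.anti, one_mul, mul_one]
  simp

lemma PP.e1_e1 (h : PP M X Z) : e1 Z * e1 Z = e1 Z := by
  simp only [e1, smul_mul_assoc, mul_smul_comm, mul_add, add_mul, h.ZZ, one_mul, mul_one]
  module

lemma jop_e2 {J : H ≃ₗᵢ⋆[ℂ] H} (hJ : ∀ ξ, J (J ξ) = ξ) (Z : Op H) :
    jop J (e2 Z) = e2 (jop J Z) := by
  rw [e2, jop_smul, jop_sub, jop_one hJ, e2]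
  simp [map_ofNat]

section
variable {x y : Op H}

lemma PP.diag_uin (h : PP M X Z) {a : Op H} (ha : UIn M a) (haZ : Commute a Z) :
    UIn M (a * e1 Z + e2 Z) := by
  have h1 := (Unitary.mem_iff.1 ha.2).1
  have h2 := (Unitary.mem_iff.1 ha.2).2
  have h1' : ∀ b, star a * (a * b) = b := fun b => by rw [← mul_assoc, h1, one_mul]
  have h2' : ∀ b, a * (star a * b) = b := fun b => by rw [← mul_assoc, h2, one_mul]
  have haZ' : Commute (star a) Z := by simpa [h.Z_sa] using haZ.star_star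
  have hs : star (a * e1 Z + e2 Z) = star a * e1 Z + e2 Z := by
    simp only [e1, e2, star_add, star_mul, star_smul, star_sub, star_one, h.Z_sa, smul_mul_assoc,
      mul_smul_comm, mul_add, add_mul, one_mul, mul_one, haZ'.eq]
    simp
  refine ⟨add_mem (mul_mem ha.1 (e1_mem h.ZM)) (e2_mem h.ZM), Unitary.mem_iff.2 ⟨?_, ?_⟩⟩
  · rw [hs]
    simp only [e1, e2, smul_mul_assoc, mul_smul_comm, mul_add, add_mul, mul_sub, sub_mul,
      mul_assoc, h.ZZ, one_mul, mul_one, haZ.symm.eq, haZ.symm.left_comm, h1, h1']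
    module
  · rw [hs]
    simp only [e1, e2, smul_mul_assoc, mul_smul_comm, mul_add, add_mul, mul_sub, sub_mul,
      mul_assoc, h.ZZ, one_mul, mul_one, haZ'.symm.eq, haZ'.symm.left_comm, h2, h2']
    module

lemma PP.had_uin (h : PP M X Z) : UIn M (cc • (X + Z)) := by
  have hs : star (cc • (X + Z)) = cc • (X + Z) := by
    rw [star_smul, star_add, h.X_sa, h.Z_sa]
    congr 1
    exact conj_cc
  have e : cc • (X + Z) * cc • (X + Z) = 1 := by
    rw [smul_mul_smul_comm, cc_mul_cc]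
    simp only [mul_add, add_mul, h.XX, h.ZZ, h.anti]
    module
  exact ⟨smul_mem_vn _ (add_mem h.XM h.ZM), Unitary.mem_iff.2 ⟨by rw [hs, e], by rw [hs, e]⟩⟩

lemma PP.trick_uin (h : PP M X Z) (hx : UIn M x) (hy : UIn M y) (hxZ : Commute x Z)
    (hyZ : Commute y Z) : UIn M (trick X Z x y) := by
  have hyZ' : Commute (star y) Z := by simpa [h.Z_sa] using hyZ.star_star
  rw [trick_eq]
  exact ((h.diag_uin (hx.mul hy) (hxZ.mul_left hyZ)).mul h.had_uin).mul (h.diag_uin hy.star hyZ')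

lemma PP.e1_trick (h : PP M X Z) (hy : UIn M y) (hxZ : Commute x Z)
    (hyX : Commute y X) (hyZ : Commute y Z) :
    e1 Z * trick X Z x y = cc • (x * (e1 Z + y * e1 Z * X)) := by
  have h2 := (Unitary.mem_iff.1 hy.2).2
  have h2' : ∀ b, y * (star y * b) = b := fun b => by rw [← mul_assoc, h2, one_mul]
  have hyZ' : Commute (star y) Z := by simpa [h.Z_sa] using hyZ.star_star
  have hyX' : Commute (star y) X := by simpa [h.X_sa] using hyX.star_star
  simp only [trick_eq, e1, e2, smul_mul_assoc, mul_smul_comm, mul_add, add_mul, mul_sub, sub_mul,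
    mul_assoc, h.ZZ, h.ZZ', h.anti, one_mul, mul_one, mul_neg,
    hxZ.symm.left_comm, hyZ.symm.left_comm, hyZ'.symm.eq, hyZ'.symm.left_comm,
    hyX'.symm.eq, hyX'.symm.left_comm, h2, h2', hxZ.symm.eq, hyZ.symm.eq]
  module

lemma PP.e2_trick (h : PP M X Z) (hxZ : Commute x Z)
    (hyX : Commute y X) (hyZ : Commute y Z) :
    e2 Z * trick X Z x y = cc • (star y * (e2 Z * X) - e2 Z) := by
  have hyZ' : Commute (star y) Z := by simpa [h.Z_sa] using hyZ.star_star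
  have hyX' : Commute (star y) X := by simpa [h.X_sa] using hyX.star_star
  simp only [trick_eq, e1, e2, smul_mul_assoc, mul_smul_comm, mul_add, add_mul, mul_sub, sub_mul,
    mul_assoc, h.ZZ, h.ZZ', h.anti, one_mul, mul_one, mul_neg,
    hxZ.symm.left_comm, hyZ.symm.left_comm, hyZ'.symm.eq, hyZ'.symm.left_comm,
    hyX'.symm.eq, hyX'.symm.left_comm]
  module

lemma PP.e1_trick_e1 (h : PP M X Z) (hy : UIn M y) (hxZ : Commute x Z)
    (hyX : Commute y X) (hyZ : Commute y Z) :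
    e1 Z * trick X Z x y * e1 Z = cc • (x * e1 Z) := by
  rw [h.e1_trick hy hxZ hyX hyZ]
  simp only [e1, smul_mul_assoc, mul_smul_comm, mul_add, add_mul,
    mul_assoc, h.ZZ, h.ZZ', h.anti, one_mul, mul_one, mul_neg]
  module

end

end Crest.Agent.R78.Trick
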