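import Crest.Agent.R78.TrJ
import Crest.Agent.R78.Cfc
import Crest.Agent.R78.TrickAux

/-! # Row 78: the matrix trick -/

set_option autoImplicit false

namespace Crest.Agent.R78

open scoped InnerProductSpace ComplexOrder BigOperators Topology
open Filter
open Crest.Agent.R124 (Op cm)
open Crest.OpAlg (LineCalculus)

universe u

variable {H : Type u} [NormedAddCommGroup H] [InnerProductSpace ℂ H] [CompleteSpace H]

theorem Pauli.cj {M N : VN H} {J : H ≃ₗᵢ⋆[ℂ] H} {X Z u : Op H} (h : Pauli M N J X Z)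
    (hu : u ∈ unitary (Op H)) (hm : Mod J X Z u) : Pauli M (cj u N) J X Z := by
  have key : ∀ (Q : VN H) (a : Op H), a ∈ Q → Commute u a → a ∈ R78.cj u Q := fun Q a ha hc => by
    have := conj_mem_cj hu ha
    rwa [hc.eq, mul_assoc, (Unitary.mem_iff.1 hu).2, mul_one] at this
  refine ⟨h.XM, h.ZM, key N X h.XN hm.1, key N Z h.ZN hm.2.1, h.X_sa, h.Z_sa, h.XX, h.ZZ, h.anti,
    ?_, ?_⟩
  · rw [cj_commutant hu]; exact key _ _ h.XP hm.2.2.1
  · rw [cj_commutant hu]; exact key _ _ h.ZP hm.2.2.2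

theorem trick_uin {M N : VN H} {J : H ≃ₗᵢ⋆[ℂ] H} {X Z x y : Op H} (h : Pauli M N J X Z)
    (hx : UIn M x) (hy : UIn M y) (hxX : Commute x X) (hxZ : Commute x Z) (hyX : Commute y X)
    (hyZ : Commute y Z) : UIn M (trick X Z x y) := by
  have _ := hxX
  have _ := hyX
  exact (Trick.pp_of_pauli h).trick_uin hx hy hxZ hyZ

/-- the defect of the paired step `trick X Z x y` -/
noncomputable def tdef (Ω : H) (J : H ≃ₗᵢ⋆[ℂ] H) (X Z : Op H) (T : Op H → Op H) (η : H)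
    (x y : Op H) : H :=
  cm (trick X Z x y) (T (jop J (trick X Z x y))) Ω +
    trick X Z x y (jop J (trick X Z x y) η) - η

namespace Trick

open Crest.Agent.R124 (cm_mul cm_add cm_sub cm_smul cm_eq_zero cm_one cm_add_left)

variable {M N : VN H} {Ω : H} {J : H ≃ₗᵢ⋆[ℂ] H} {X Z h : Op H} {d g : ℝ}

lemma jop_commute (hJ : TrJ M Ω J) {a b : Op H} (hab : Commute a b) :
    Commute (jop J a) (jop J b) := by
  change _ = _
  rw [← jop_mul hJ.J_J, ← jop_mul hJ.J_J, hab.eq]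

/-- vector size of a commutator of `M` with a small element of `N'` -/
lemma gam_app (hA : Apx M N Ω d g) (hg : 0 ≤ g) {x r a : Op H} {t : ℝ} (hx : x ∈ M)
    (hx1 : ‖x‖ ≤ 1) (hr : r ∈ N.commutant) (hrt : ‖r‖ ≤ t) (ha : a ∈ M) (ha1 : ‖a‖ ≤ 1) :
    ‖cm x r (a Ω)‖ ≤ g * t := by
  refine ((hA.gam x hx r hr).2.1 a ha).trans ?_
  have ht : 0 ≤ t := (norm_nonneg _).trans hrt
  calc _ ≤ g * 1 * t * 1 := by gcongr
    _ = _ := by ring

/-- the part of the defect that does not depend on `x` -/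
noncomputable def Lv (J : H ≃ₗᵢ⋆[ℂ] H) (X Z : Op H) (η : H) (y : Op H) : H :=
  (cc • (e1 Z + y * e1 Z * X)) (e2 (jop J Z) (jop J (trick X Z 1 y) η))

lemma key (hJ : TrJ M Ω J) (hP : Pauli M N J X Z) (hg : 0 ≤ g) (hA : Apx M N Ω d g)
    (hm : Mod J X Z h) {T : Op H → Op H}
    (hT : ∀ b, UIn M.commutant b →
      ∃ q ∈ N.commutant, Sm2 M Ω (q - b) d g ∧ T b = q - b + cm h b) (η : H) {x y p : Op H}
    (hx : UIn M x) (hy : UIn M y) (hxZ : Commute x Z) (hyX : Commute y X) (hyZ : Commute y Z)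
    (hp : p ∈ N.commutant) (hpd : ‖p - jop J (star y)‖ ≤ d) :
    ‖e1 Z (e2 (jop J Z) (tdef Ω J X Z T η x y)) -
      ((1 / 2 : ℂ) • cm x (p + cm h (jop J (star y))) ((e1 Z * X) Ω) + x (Lv J X Z η y) -
        e1 Z (e2 (jop J Z) η))‖ ≤ g * (2 * d) := by
  have hQ := pp_of_pauli hP
  have hQ' := hQ.jop hJ
  have hU := hQ.trick_uin hx hy hxZ hyZ
  set U := trick X Z x y with hUdef
  have hV := hJ.uin hU
  set V := jop J U with hVdef
  set F := e2 (jop J Z) with hF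
  set X' := jop J X with hX'
  set y' := jop J (star y) with hy'
  have hFM : F ∈ M.commutant := e2_mem hQ'.ZM
  have hFN : F ∈ N.commutant := e2_mem hP.ZP
  have hy'M : y' ∈ M.commutant := hJ.mem _ (star_mem hy.1)
  have hE1 : e1 Z ∈ M := e1_mem hQ.ZM
  have hFV : ∀ x : Op H, Commute x Z →
      F * jop J (trick X Z x y) = cc • (y' * (F * X') - F) := fun x hxZ => by
    rw [hF, ← jop_e2 hJ.J_J, ← jop_mul hJ.J_J, hQ.e2_trick hxZ hyX hyZ, jop_smul, conj_cc, jop_sub,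
      jop_mul hJ.J_J, jop_mul hJ.J_J]
  obtain ⟨q, hq, hqs, hTV⟩ := hT V hV
  set r := F * q - cc • (p * (F * X') - F) with hr
  have hrN : r ∈ N.commutant :=
    sub_mem (mul_mem hFN hq) (smul_mem_vn _ (sub_mem (mul_mem hp (mul_mem hFN hP.XP)) hFN))
  have hrn : ‖r‖ ≤ 2 * d := by
    have e : r = F * (q - V) - cc • ((p - y') * (F * X')) := by
      rw [hr, mul_sub, hVdef, hUdef, hFV x hxZ, sub_mul]
      module
    have h1 : ‖F * (q - V)‖ ≤ d := (mul_le_of_le_one_left hQ'.norm_e2 _).trans hqs.1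
    have h2 : ‖cc • ((p - y') * (F * X'))‖ ≤ d := by
      rw [norm_smul]
      have h3 : ‖(p - y') * (F * X')‖ ≤ d := (mul_le_of_le_one_right
        ((mul_le_of_le_one_left hQ'.norm_e2 _).trans hQ'.uX.norm_le) _).trans hpd
      calc _ ≤ 1 * d := mul_le_mul norm_cc h3 (norm_nonneg _) zero_le_one
        _ = d := one_mul d
    rw [e]
    linarith [norm_sub_le (F * (q - V)) (cc • ((p - y') * (F * X')))]
  have hUF : Commute U F := commute_of_mem hU.1 hFM
  have hUFX : Commute U (F * X') := commute_of_mem hU.1 (mul_mem hFM hQ'.XM)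
  have hhF : Commute h F := commute_e2 hm.2.2.2
  have hhFX : Commute h (F * X') := hhF.mul_right hm.2.2.1
  set W := p + cm h y' with hW
  have hE1W : Commute (e1 Z) W := by
    refine Commute.add_right (commute_of_mem (e1_mem hP.ZN) hp) (commute_cm ?_ ?_)
    · exact (commute_e1 hm.2.1).symm
    · exact commute_of_mem hE1 hy'M
  have op1 : F * cm U (T V) = cm U r + cc • (cm U W * (F * X')) := by
    have e1' : F * q = r + cc • (p * (F * X') - F) := by rw [hr]; abel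
    have a1 : cm U (F * q) = cm U r + cc • (cm U p * (F * X')) := by
      rw [e1', cm_add, cm_smul, cm_sub U (p * (F * X')), cm_eq_zero hUF, sub_zero, cm_mul_r hUFX]
    have a2 : cm U (cm h (F * V)) = cc • (cm U (cm h y') * (F * X')) := by
      rw [hFV x hxZ, cm_smul, cm_smul, cm_sub h, cm_eq_zero hhF, sub_zero, cm_mul_r hhFX,
        cm_mul_r hUFX]
    rw [← cm_mul_l hUF, hTV, mul_add, mul_sub, ← cm_mul_l hhF, cm_add, cm_sub U (F * q),
      cm_eq_zero (commute_of_mem hU.1 (mul_mem hFM hV.1)), sub_zero, a1, a2, hW, cm_add,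
      add_mul, smul_add, add_assoc]
  have hFXΩ : (F * X') Ω = (e1 Z * X) Ω := by
    rw [hF, hX', ← jop_e2 hJ.J_J, ← jop_mul hJ.J_J, hJ.jop_vac (mul_mem (e2_mem hQ.ZM) hQ.XM),
      hQ.star_e2X]
  have op2 : e1 Z * cm U W * (e1 Z * X) = cc • (cm x W * (e1 Z * X)) := by
    rw [← mul_assoc, ← cm_l_mul hE1W, ← cm_r_mul hE1W, hUdef, hQ.e1_trick_e1 hy hxZ hyX hyZ,
      cm_smul_left, cm_r_mul hE1W, smul_mul_assoc, mul_assoc]
  have v1 : e1 Z (F (cm U (T V) Ω)) =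
      e1 Z (cm U r Ω) + (1 / 2 : ℂ) • cm x W ((e1 Z * X) Ω) := by
    have h1 : F (cm U (T V) Ω) = cm U r Ω + cc • cm U W ((e1 Z * X) Ω) := by
      rw [← hFXΩ]
      exact congrArg (fun S : Op H => S Ω) op1
    have h2 : e1 Z (cm U W ((e1 Z * X) Ω)) = cc • cm x W ((e1 Z * X) Ω) :=
      congrArg (fun S : Op H => S Ω) op2
    rw [h1, map_add, map_smul, h2, smul_smul, cc_mul_cc]
  have v2 : e1 Z (F (U (V η))) = x (Lv J X Z η y) := by
    have h1 : F (U (V η)) = U (F (jop J (trick X Z 1 y) η)) := by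
      change (F * U) (V η) = U ((F * jop J (trick X Z 1 y)) η)
      rw [← hUF.eq, hFV 1 (Commute.one_left Z), ← hFV x hxZ]
      rfl
    rw [h1]
    change (e1 Z * U) _ = _
    rw [hUdef, hQ.e1_trick hy hxZ hyX hyZ, ← mul_smul_comm]
    rfl
  have e : e1 Z (F (tdef Ω J X Z T η x y)) -
      ((1 / 2 : ℂ) • cm x W ((e1 Z * X) Ω) + x (Lv J X Z η y) - e1 Z (F η)) =
      e1 Z (cm U r Ω) := by
    rw [tdef, ← hUdef, ← hVdef, map_sub, map_add, map_sub, map_add, v1, v2]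
    abel
  rw [e]
  refine (app_le_of_le_one hQ.norm_e1 _).trans ?_
  simpa using gam_app hA hg hU.1 hU.norm_le hrN hrn (one_mem M) norm_one_le

/-- Paulis of `M` -/
def GoodM (M N : VN H) (h a : Op H) : Prop := UIn M a ∧ a ∈ N ∧ Commute h a

lemma move (hA : Apx M N Ω d g) (hg : 0 ≤ g) {x p v b a : Op H} (hx : UIn M x)
    (hp : p ∈ N.commutant) (hpd : ‖p - v‖ ≤ d) (hb : GoodM M.commutant N.commutant h b)
    (hvb : Commute v b) (ha : a ∈ M) (ha1 : ‖a‖ ≤ 1) :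
    ‖cm x (p + cm h v) (b (a Ω)) - b (cm x (p + cm h v) (a Ω))‖ ≤ g * (2 * d) := by
  have h1 := cm_cm_of_commute (commute_of_mem hx.1 hb.1.1) (p + cm h v)
  have h2 : (p + cm h v) * b - b * (p + cm h v) = p * b - b * p := by
    rw [add_mul, mul_add, (commute_cm hb.2.2.symm hvb.symm).eq]; abel
  have h3 : ‖p * b - b * p‖ ≤ 2 * d := by
    have e : p * b - b * p = (p - v) * b - b * (p - v) := by
      rw [sub_mul, mul_sub, hvb.eq]; abel
    rw [e]
    have := mul_le_of_le_one_left hb.1.norm_le (p - v)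
    have := mul_le_of_le_one_right hb.1.norm_le (p - v)
    linarith [norm_sub_le ((p - v) * b) (b * (p - v))]
  have h4 := gam_app hA hg hx.1 hx.norm_le
    (sub_mem (mul_mem hp hb.2.1) (mul_mem hb.2.1 hp)) h3 ha ha1
  rw [← h2, ← h1] at h4
  exact h4

lemma GoodM.mul {a b : Op H} (ha : GoodM M N h a) (hb : GoodM M N h b) : GoodM M N h (a * b) :=
  ⟨ha.1.mul hb.1, mul_mem ha.2.1 hb.2.1, ha.2.2.mul_right hb.2.2⟩

lemma GoodM.one : GoodM M N h 1 := ⟨UIn.one M, one_mem N, Commute.one_right h⟩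

end Trick

open Trick Crest.Agent.R124 in
/-- Matrix units `E₁₁ = (1+Z)/2`, `E₂₂ = (1-Z)/2`, `E₁₂ = E₁₁ X`, `E₂₁ = E₂₂ X`, `E' = J E J`,
`E'_{kl} Ω = E_{lk} Ω`.  `U = (x E₁₁ + x y E₁₂ + y⋆ E₂₁ - E₂₂) / √2`, `V = J U J`.  Replace the
approximant of `V` by `∑ p_{kl} E'_{kl}` with twirled (over `JXJ`, `JZJ`) approximants `p_{kl}` of
the entries (`p = 1` for the entry `1`); the error is `[U, small element of N']` (`Apx.gam`).  With
`B x y = [x, p⁰] + [x, [h, J y⋆ J]]` (commutes with the four Paulis):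
`E₁₁ E'₂₂ tdef x y = ½ B x y E₁₂ Ω + x L(y) η - E₁₁ E'₂₂ η + O(d g)`, and `B 1 y = 0`,
`B x 1 = 0`; take the alternating sum `tdef x y - x tdef 1 y - tdef x 1 + x tdef 1 1`.
`‖B E₁₂ Ω‖ = ‖B Ω‖ / √2` since `X (JXJ) Ω = Ω`. -/
theorem trick_est : ∃ C : ℝ, 0 ≤ C ∧ ∀ (H : Type u) [NormedAddCommGroup H] [InnerProductSpace ℂ H] [CompleteSpace H] (M N : VN H) (Ω : H) (J : H ≃ₗᵢ⋆[ℂ] H)
    (X Z h : Op H) (d g : ℝ) (T : Op H → Op H) (η : H) (x y p : Op H), TrJ M Ω J →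
    Pauli M N J X Z → 0 ≤ d → d ≤ 1 → 0 ≤ g → Apx M N Ω d g → Mod J X Z h →
    (∀ b, UIn M.commutant b →
      ∃ q ∈ N.commutant, Sm2 M Ω (q - b) d g ∧ T b = q - b + cm h b) →
    UIn M x → UIn M y → Commute x X → Commute x Z → Commute y X → Commute y Z →
    p ∈ N.commutant → Sm2 M Ω (p - jop J (star y)) d g →
    ‖(cm x p + cm x (cm h (jop J (star y)))) Ω‖ ≤
      C * (‖tdef Ω J X Z T η x y‖ + ‖tdef Ω J X Z T η 1 y‖ + ‖tdef Ω J X Z T η x 1‖ +
        ‖tdef Ω J X Z T η 1 1‖ + d * g) := by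
  refine ⟨34, by norm_num, fun H _ _ _ M N Ω J X Z h d g T η x y p hJ hP hd _ hg hA hm hT hx hy
    hxX hxZ hyX hyZ hp hps => ?_⟩
  have hQ := pp_of_pauli hP
  have hQ' := hQ.jop hJ
  have h1d : ‖(1 : Op H) - jop J (star 1)‖ ≤ d := by
    rw [star_one, jop_one hJ.J_J, sub_self, norm_zero]; exact hd
  have c1 : ∀ a : Op H, Commute 1 a := Commute.one_left
  have k1 := key hJ hP hg hA hm hT η hx hy hxZ hyX hyZ hp hps.1
  have k2 := key hJ hP hg hA hm hT η (UIn.one M) hy (c1 Z) hyX hyZ hp hps.1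
  have k3 := key hJ hP hg hA hm hT η hx (UIn.one M) hxZ (c1 X) (c1 Z) (one_mem _) h1d
  have k4 := key hJ hP hg hA hm hT η (UIn.one M) (UIn.one M) (c1 Z) (c1 X) (c1 Z) (one_mem _) h1d
  have z1 : ∀ W : Op H, cm 1 W = 0 := fun W => cm_eq_zero (c1 W)
  rw [z1] at k2 k4
  rw [star_one, jop_one hJ.J_J, cm_one, add_zero, cm_one] at k3
  rw [← cm_add]
  set y' := jop J (star y) with hy'
  set B := cm x (p + cm h y') with hB
  have hPn : ∀ ξ, ‖e1 Z (e2 (jop J Z) ξ)‖ ≤ ‖ξ‖ := fun ξ =>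
    (app_le_of_le_one hQ.norm_e1 _).trans (app_le_of_le_one hQ'.norm_e2 _)
  have n1 := hPn (tdef Ω J X Z T η x y)
  have n2 := hPn (tdef Ω J X Z T η 1 y)
  have n3 := hPn (tdef Ω J X Z T η x 1)
  have n4 := hPn (tdef Ω J X Z T η 1 1)
  generalize e1 Z (e2 (jop J Z) (tdef Ω J X Z T η x y)) = t1 at *
  generalize e1 Z (e2 (jop J Z) (tdef Ω J X Z T η 1 y)) = t2 at *
  generalize e1 Z (e2 (jop J Z) (tdef Ω J X Z T η x 1)) = t3 at *
  generalize e1 Z (e2 (jop J Z) (tdef Ω J X Z T η 1 1)) = t4 at *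
  generalize e1 Z (e2 (jop J Z) η) = P at *
  generalize Lv J X Z η y = Ly at *
  generalize Lv J X Z η 1 = L1 at *
  simp only [_root_.zero_apply, smul_zero, zero_add, one_apply_eq_self] at k2 k3 k4
  have hxn := app_le_of_le_one hx.norm_le
  have e : (1 / 2 : ℂ) • B ((e1 Z * X) Ω) = t1 - x t2 - t3 + x t4 -
      (t1 - ((1 / 2 : ℂ) • B ((e1 Z * X) Ω) + x Ly - P)) + x (t2 - (Ly - P)) + (t3 - (x L1 - P)) -
      x (t4 - (L1 - P)) := by
    simp only [map_sub]; abel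
  have b1 : ‖(1 / 2 : ℂ) • B ((e1 Z * X) Ω)‖ ≤ ‖t1‖ + ‖t2‖ + ‖t3‖ + ‖t4‖ + 4 * (g * (2 * d)) := by
    rw [e]
    have a1 := hxn t2
    have a2 := hxn t4
    have a3 := hxn (t2 - (Ly - P))
    have a4 := hxn (t4 - (L1 - P))
    refine (norm_sub_le _ _).trans ?_
    refine (add_le_add_left (norm_add_le _ _) _).trans ?_
    refine (add_le_add_left (add_le_add_left (norm_add_le _ _) _) _).trans ?_
    refine (add_le_add_left (add_le_add_left (add_le_add_left (norm_sub_le _ _) _) _) _).trans ?_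
    have a5 := norm_add_le (t1 - x t2 - t3) (x t4)
    have a6 := norm_sub_le (t1 - x t2) t3
    have a7 := norm_sub_le t1 (x t2)
    linarith
  rw [norm_smul] at b1
  have e2' : ‖(1 / 2 : ℂ)‖ = 1 / 2 := by simp
  rw [e2'] at b1
  have hy'M : y' ∈ M.commutant := hJ.mem _ (star_mem hy.1)
  have hXB : Commute X B := commute_cm hxX.symm
    (Commute.add_right (commute_of_mem hP.XN hp) (commute_cm hm.1.symm (commute_of_mem hP.XM hy'M)))
  have b2 : ‖B (e2 Z Ω)‖ ≤ ‖B ((e1 Z * X) Ω)‖ := by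
    have : B (e2 Z Ω) = X (B ((e1 Z * X) Ω)) := by
      rw [hQ.e2_eq]
      change (B * X) ((e1 Z * X) Ω) = (X * B) ((e1 Z * X) Ω)
      rw [hXB.eq]
    rw [this]
    exact app_le_of_le_one hQ.uX.norm_le _
  have b3 : ‖B (e1 Z Ω)‖ ≤ ‖B ((e1 Z * X) Ω)‖ + g * (2 * d) := by
    have hyX' : Commute (star y) X := by simpa [hQ.X_sa] using hyX.star_star
    have m := move (h := h) hA hg hx hp hps.1 ⟨hQ'.uX, hP.XP, hm.2.2.1⟩ (jop_commute hJ hyX')
      (e1_mem hQ.ZM) hQ.norm_e1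
    have e3 : jop J X (e1 Z Ω) = (e1 Z * X) Ω := by
      change (jop J X * e1 Z) Ω = e1 Z (X Ω)
      rw [← (commute_of_mem (e1_mem hQ.ZM) hQ'.XM).eq]
      change e1 Z (jop J X Ω) = _
      rw [hJ.jop_vac hQ.XM, hQ.X_sa]
    rw [e3, ← hB] at m
    have e4 : ‖B (e1 Z Ω)‖ = ‖jop J X (B (e1 Z Ω))‖ :=
      (R124.norm_unitary_apply hQ'.uX.2 _).symm
    rw [e4]
    have := norm_sub_norm_le (jop J X (B (e1 Z Ω))) (B ((e1 Z * X) Ω))
    rw [norm_sub_rev] at this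
    linarith
  have b4 : ‖B Ω‖ ≤ ‖B (e1 Z Ω)‖ + ‖B (e2 Z Ω)‖ := by
    refine le_trans (le_of_eq ?_) (norm_add_le _ _)
    rw [← map_add, ← _root_.add_apply, e1_add_e2, one_apply_eq_self]
  have := mul_nonneg hd hg
  have := norm_nonneg (tdef Ω J X Z T η x y)
  have := norm_nonneg (tdef Ω J X Z T η 1 y)
  have := norm_nonneg (tdef Ω J X Z T η x 1)
  have := norm_nonneg (tdef Ω J X Z T η 1 1)
  linarith

/-- valid tests -/
def Test (M N : VN H) (Ω : H) (J : H ≃ₗᵢ⋆[ℂ] H) (X Z : Op H) (d g : ℝ) (x y p : Op H) : Prop :=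
  UIn M x ∧ UIn M y ∧ Commute x X ∧ Commute x Z ∧ Commute y X ∧ Commute y Z ∧
    p ∈ N.commutant ∧ Sm2 M Ω (p - jop J (star y)) d g

/-- the value of a test -/
noncomputable def tval (Ω : H) (J : H ≃ₗᵢ⋆[ℂ] H) (h x y p : Op H) : ℝ :=
  ‖(cm x p + cm x (cm h (jop J (star y)))) Ω‖

open Trick Crest.Agent.R124 in
/-- From tests to all of `M × N'`.  Write `x = ∑ x_g g` over the Paulis `g ∈ {1, X, Z, XZ}` with
`x_g` commuting with `X, Z`, then `exists_four` in `cmt (M' ∪ {X, Z})`; the same for the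
approximant `y' ∈ M'` of `p`.  For a unitary `v ∈ M'` commuting with `JXJ, JZJ` use the twirled
approximant `p⁰`; `[x g, p⁰ g'] + [x g, [h, v g']] = B g g'` and `‖B g g' Ω‖ = ‖B Ω‖`. -/
theorem ext_tests : ∃ C : ℝ, 0 ≤ C ∧ ∀ (H : Type u) [NormedAddCommGroup H] [InnerProductSpace ℂ H] [CompleteSpace H] (M N : VN H) (Ω : H) (J : H ≃ₗᵢ⋆[ℂ] H)
    (X Z h : Op H) (d g d' g' ε : ℝ), TrJ M Ω J → Pauli M N J X Z → 0 ≤ d → d ≤ 1 → 0 ≤ g →
    0 ≤ g' → 0 ≤ ε → Apx M N Ω d g → Mod J X Z h → Sm2 M Ω h d' g' →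
    (∀ x y p, Test M N Ω J X Z d g x y p → tval Ω J h x y p ≤ ε) →
    ∀ x ∈ M, ∀ p ∈ N.commutant,
      ‖lin h x p Ω‖ ≤ C * (ε + d * g + d' * g + d * g') * ‖x‖ * ‖p‖ := by
  refine ⟨1100, by norm_num, fun H _ _ _ M N Ω J X Z h d g d' g' ε hJ hP hd hd1 hg hg' hε hA hm hh
    ht x hx p hp => ?_⟩
  have hQ := pp_of_pauli hP
  have hQ' := hQ.jop hJ
  have hd' : 0 ≤ d' := (norm_nonneg _).trans hh.1
  have hdg := mul_nonneg hd hg
  set K : ℝ := 16 * (ε + g * (2 * d)) * ‖x‖ with hK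
  have hK0 : 0 ≤ K := by positivity
  -- unitaries of the commutant
  have s1 : ∀ v b, UIn M.commutant v → Commute v (jop J X) → Commute v (jop J Z) →
      Commute v b → GoodM M.commutant N.commutant h b →
      ∃ q ∈ N.commutant, ‖q - v * b‖ ≤ d * 1 ∧ ‖cm x (q + cm h (v * b)) Ω‖ ≤ K * 1 := by
    intro v b hv hvX hvZ hvb hb
    obtain ⟨q, hq, hqs⟩ := hA.toP v hv
    refine ⟨q * b, mul_mem hq.1 hb.2.1, ?_, ?_⟩
    · rw [← sub_mul, mul_one]
      exact (mul_le_of_le_one_right hb.1.norm_le _).trans hqs.1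
    · rw [cm_mul_r hb.2.2, ← add_mul, cm_mul_r (commute_of_mem hx hb.1.1), mul_one]
      set W := q + cm h v with hW
      have hy : UIn M (jop J (star v)) := hJ.uin' hv.star
      have hyv : jop J (star (jop J (star v))) = v := by
        rw [← jop_star hJ.J_J, star_star, jop_jop hJ.J_J]
      have hyc : ∀ a : Op H, star a = a → Commute v (jop J a) → Commute (jop J (star v)) a :=
        fun a ha hc => by
          have h1 := jop_commute hJ hc.star_star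
          rwa [← jop_star hJ.J_J, jop_jop hJ.J_J, ha] at h1
      have := hQ.ind (Q := fun a t => ‖cm a W (b Ω)‖ ≤ (ε + g * (2 * d)) * t) (Good := GoodM M N h)
        (fun a a' s t h1 h2 => by
          rw [cm_add_left, _root_.add_apply, mul_add]
          exact (norm_add_le _ _).trans (add_le_add h1 h2))
        (fun c a s h1 h2 => by
          rw [cm_smul_left, _root_.smul_apply, norm_smul, mul_comm (ε + _)]
          exact mul_le_mul h1 (by simpa using h2) (norm_nonneg _) ((norm_nonneg _).trans h1))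
        GoodM.one ⟨hQ.uX, hP.XN, hm.1⟩ ⟨hQ.uZ, hP.ZN, hm.2.1⟩
        (GoodM.mul ⟨hQ.uX, hP.XN, hm.1⟩ ⟨hQ.uZ, hP.ZN, hm.2.1⟩)
        (fun u a hu huX huZ hua ha => by
          have haW : Commute a W := Commute.add_right (commute_of_mem ha.2.1 hq.1)
            (commute_cm ha.2.2.symm (commute_of_mem ha.1.1 hv.1))
          have h1 := ht u (jop J (star v)) q ⟨hu, hy, huX, huZ, hyc X hQ.X_sa hvX,
            hyc Z hQ.Z_sa hvZ, hq.1, by rw [hyv]; exact hqs⟩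
          rw [tval, hyv, ← cm_add, ← hW] at h1
          have m := move (h := h) hA hg hu hq.1 hqs.1 hb hvb (one_mem M) norm_one_le
          rw [one_apply_eq_self, ← hW] at m
          have h2 := app_le_of_le_one hb.1.norm_le (cm u W Ω)
          have h3 := norm_sub_norm_le (cm u W (b Ω)) (b (cm u W Ω))
          rw [hua.eq, cm_l_mul haW, mul_one]
          refine (app_le_of_le_one ha.1.norm_le (cm u W (b Ω))).trans ?_
          linarith) hx
      rw [hK]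
      change ‖cm x W (b Ω)‖ ≤ _
      linarith
  obtain ⟨y, hy, hys⟩ := hA.toM' p hp
  have hp0 := norm_nonneg p
  have hx0 := norm_nonneg x
  have hyn : ‖y‖ ≤ 2 * ‖p‖ := by
    have h1 := norm_sub_norm_le y p
    rw [norm_sub_rev] at h1
    nlinarith [hys.1]
  obtain ⟨q, hq, hq1, hq2⟩ := hQ'.ind
    (Q := fun v t => ∃ q ∈ N.commutant, ‖q - v‖ ≤ d * t ∧ ‖cm x (q + cm h v) Ω‖ ≤ K * t)
    (Good := GoodM M.commutant N.commutant h)
    (fun a a' s t ⟨q, hq, h1, h2⟩ ⟨q', hq', h1', h2'⟩ => by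
      refine ⟨q + q', add_mem hq hq', ?_, ?_⟩
      · rw [add_sub_add_comm, mul_add]
        exact (norm_add_le _ _).trans (add_le_add h1 h1')
      · rw [cm_add h, add_add_add_comm, cm_add x, _root_.add_apply, mul_add]
        exact (norm_add_le _ _).trans (add_le_add h2 h2'))
    (fun c a s h0 ⟨q, hq, h1, h2⟩ => by
      refine ⟨c • q, smul_mem_vn _ hq, ?_, ?_⟩
      · rw [← smul_sub, norm_smul, mul_comm d]
        exact mul_le_mul h0 (by simpa using h1) (norm_nonneg _) ((norm_nonneg _).trans h0)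
      · rw [cm_smul, ← smul_add, cm_smul, _root_.smul_apply, norm_smul, mul_comm K]
        exact mul_le_mul h0 (by simpa using h2) (norm_nonneg _) ((norm_nonneg _).trans h0))
    GoodM.one ⟨hQ'.uX, hP.XP, hm.2.2.1⟩ ⟨hQ'.uZ, hP.ZP, hm.2.2.2⟩
    (GoodM.mul ⟨hQ'.uX, hP.XP, hm.2.2.1⟩ ⟨hQ'.uZ, hP.ZP, hm.2.2.2⟩) s1 hy
  have e : lin h x p = cm x (q + cm h y) + cm x (p - q) + cm x (cm h (p - y)) := by
    simp only [lin, cm_add, cm_sub]; abel
  have b1 : ‖cm x (q + cm h y) Ω‖ ≤ K * (32 * ‖p‖) :=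
    hq2.trans (mul_le_mul_of_nonneg_left (by linarith) hK0)
  have b2 : ‖cm x (p - q) Ω‖ ≤ g * ‖x‖ * (33 * (d * ‖p‖)) := by
    have h1 : ‖p - q‖ ≤ 33 * (d * ‖p‖) := by
      have h2 := norm_sub_le (p - y) (q - y)
      rw [sub_sub_sub_cancel_right] at h2
      have h3 : d * (16 * ‖y‖) ≤ d * (32 * ‖p‖) := mul_le_mul_of_nonneg_left (by linarith) hd
      linarith [hys.1]
    refine ((hA.gam x hx _ (sub_mem hp hq)).2.1.vac (by positivity)).trans ?_
    gcongr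
  have b3 : ‖cm x (cm h (p - y)) Ω‖ ≤ 4 * ((d' * g + d * g') * ‖x‖ * ‖p‖) := by
    have h1 := ((hh.mul hys hg' (by positivity)).sub (hys.mul hh (by positivity) hg')).2.1
    have h2 := h1.vac (by positivity)
    have h3 := h1 x hx
    change ‖x (cm h (p - y) Ω) - cm h (p - y) (x Ω)‖ ≤ _
    refine (norm_sub_le _ _).trans ?_
    have h4 := (x.le_opNorm (cm h (p - y) Ω)).trans (mul_le_mul_of_nonneg_left h2 hx0)
    refine (add_le_add h4 h3).trans (le_of_eq ?_)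
    ring
  rw [e, _root_.add_apply, _root_.add_apply]
  refine (norm_add_le _ _).trans ((add_le_add_left (norm_add_le _ _) _).trans ?_)
  refine (add_le_add (add_le_add b1 b2) b3).trans ?_
  have t1 : 0 ≤ ε * ‖x‖ * ‖p‖ := by positivity
  have t2 : 0 ≤ d * g * ‖x‖ * ‖p‖ := by positivity
  have t3 : 0 ≤ d' * g * ‖x‖ * ‖p‖ := by positivity
  have t4 : 0 ≤ d * g' * ‖x‖ * ‖p‖ := by positivity
  rw [hK]
  linarith

end Crest.Agent.R78
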