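import Crest.Agent.R78.Step
import Crest.Agent.R78.Trick
import Crest.Agent.R78.T2
import Crest.Agent.R78.MVcore

/-! # Row 78: one Newton increment for finitely many tests -/

set_option autoImplicit false
set_option linter.unusedSectionVars false

namespace Crest.Agent.R78

open scoped InnerProductSpace ComplexOrder BigOperators Topology
open Filter
open Crest.Agent.R124 (Op cm)
open Crest.OpAlg (LineCalculus)

universe u

variable {H : Type u} [NormedAddCommGroup H] [InnerProductSpace ℂ H] [CompleteSpace H]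

/-- `Φ` is an average over finitely many unitaries of `M` -/
def RU (M : VN H) (Φ : Op H → Op H) : Prop :=
  ∃ (ι : Type) (_ : Fintype ι) (μ : ι → ℝ) (a : ι → Op H), Prob μ ∧ (∀ i, UIn M (a i)) ∧
    ∀ g, Φ g = av μ a g

namespace Loc

section av
variable {ι κ : Type} [Fintype ι] [Fintype κ]

/-- two-sided average -/
noncomputable def av2 (μ : ι → ℝ) (a n : ι → Op H) (r : Op H) : Op H :=
  ∑ i, (μ i : ℂ) • (star (a i) * r * n i)

lemma av_eq (μ : ι → ℝ) (a : ι → Op H) (r : Op H) : av μ a r = av2 μ a a r := rfl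

lemma av_add (μ : ι → ℝ) (a : ι → Op H) (r s : Op H) :
    av μ a (r + s) = av μ a r + av μ a s := by
  simp only [av, mul_add, add_mul, smul_add, Finset.sum_add_distrib]

lemma av_sub (μ : ι → ℝ) (a : ι → Op H) (r s : Op H) :
    av μ a (r - s) = av μ a r - av μ a s := by
  simp only [av, mul_sub, sub_mul, smul_sub, Finset.sum_sub_distrib]

lemma av_smul (μ : ι → ℝ) (a : ι → Op H) (c : ℂ) (r : Op H) :
    av μ a (c • r) = c • av μ a r := by
  simp only [av, Finset.smul_sum, mul_smul_comm, smul_mul_assoc, smul_comm c]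

lemma av_av (μ : ι → ℝ) (a : ι → Op H) (ν : κ → ℝ) (b : κ → Op H) (r : Op H) :
    av μ a (av ν b r) =
      av (fun p : ι × κ => μ p.1 * ν p.2) (fun p => b p.2 * a p.1) r := by
  simp only [av, Fintype.sum_prod_type, Finset.mul_sum, Finset.sum_mul, Finset.smul_sum,
    mul_smul_comm, smul_mul_assoc, smul_smul, star_mul, mul_assoc, Complex.ofReal_mul]

lemma av_comm (μ : ι → ℝ) {a : ι → Op H} (ν : κ → ℝ) {b : κ → Op H}
    (h : ∀ i k, Commute (a i) (b k)) (r : Op H) :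
    av μ a (av ν b r) = av ν b (av μ a r) := by
  rw [av_av, av_av]
  unfold av
  refine Fintype.sum_equiv (Equiv.prodComm ι κ) _ _ fun p => ?_
  simp only [Equiv.prodComm_apply, Prod.fst_swap, Prod.snd_swap]
  rw [mul_comm (μ p.1), (h p.1 p.2).eq]

lemma prob_prod {μ : ι → ℝ} {ν : κ → ℝ} (hμ : Prob μ) (hν : Prob ν) :
    Prob (fun p : ι × κ => μ p.1 * ν p.2) := by
  refine ⟨fun p => mul_nonneg (hμ.1 _) (hν.1 _), ?_⟩
  rw [Fintype.sum_prod_type]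
  simp only [← Finset.mul_sum, hν.2, mul_one, hμ.2]

/-- conjugation symmetry of an average -/
lemma av_conj {π : ι → ℝ} {U : ι → Op H} {Y : Op H} (h1 : star Y = Y) (h2 : Y * Y = 1)
    (τ : ι ≃ ι) (hτ : ∀ s, π (τ s) = π s ∧ U (τ s) = Y * U s * Y) (r : Op H) :
    av π U (Y * r * Y) = Y * av π U r * Y := by
  unfold av
  rw [Finset.mul_sum, Finset.sum_mul, ← τ.sum_comp]
  refine Finset.sum_congr rfl fun s _ => ?_
  rw [(hτ s).1, (hτ s).2]
  simp only [star_mul, h1, mul_smul_comm, smul_mul_assoc]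
  congr 1
  calc Y * (star (U s) * Y) * (Y * r * Y) * (Y * U s * Y)
      = Y * (star (U s) * (Y * Y) * r * (Y * Y) * U s) * Y := by noncomm_ring
    _ = Y * (star (U s) * r * U s) * Y := by rw [h2, mul_one, mul_one]

end av

lemma ru_av {M : VN H} {ι : Type} [Fintype ι] {μ : ι → ℝ} {a : ι → Op H} (hμ : Prob μ)
    (ha : ∀ i, UIn M (a i)) : RU M (av μ a) :=
  ⟨ι, inferInstance, μ, a, hμ, ha, fun _ => rfl⟩

lemma ru_id (M : VN H) : RU M id := by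
  refine ⟨Unit, inferInstance, fun _ => 1, fun _ => 1, ⟨fun _ => zero_le_one, by simp⟩,
    fun _ => UIn.one M, fun g => ?_⟩
  simp [av]

lemma ru_comp {M : VN H} {Φ Ψ : Op H → Op H} (h : RU M Φ) (h' : RU M Ψ) : RU M (Φ ∘ Ψ) := by
  obtain ⟨ι, _, μ, a, hμ, ha, hΦ⟩ := h
  obtain ⟨κ, _, ν, b, hν, hb, hΨ⟩ := h'
  refine ⟨ι × κ, inferInstance, _, _, prob_prod hμ hν, fun p => (hb p.2).mul (ha p.1),
    fun g => ?_⟩
  rw [Function.comp_apply, hΦ, hΨ, av_av]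

lemma ru_iter {M : VN H} {Φ : Op H → Op H} (h : RU M Φ) (k : ℕ) : RU M (Φ^[k]) := by
  induction k with
  | zero => exact ru_id M
  | succ k ih => rw [Function.iterate_succ]; exact ru_comp ih h

lemma ru_add {M : VN H} {Φ : Op H → Op H} (h : RU M Φ) (r s : Op H) :
    Φ (r + s) = Φ r + Φ s := by
  obtain ⟨ι, _, μ, a, -, -, hΦ⟩ := h
  rw [hΦ, hΦ, hΦ, av_add]

lemma ru_sub {M : VN H} {Φ : Op H → Op H} (h : RU M Φ) (r s : Op H) :
    Φ (r - s) = Φ r - Φ s := by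
  obtain ⟨ι, _, μ, a, -, -, hΦ⟩ := h
  rw [hΦ, hΦ, hΦ, av_sub]

lemma ru_smul {M : VN H} {Φ : Op H → Op H} (h : RU M Φ) (c : ℂ) (r : Op H) :
    Φ (c • r) = c • Φ r := by
  obtain ⟨ι, _, μ, a, -, -, hΦ⟩ := h
  rw [hΦ, hΦ, av_smul]

lemma ru_zero {M : VN H} {Φ : Op H → Op H} (h : RU M Φ) : Φ 0 = 0 := by
  have := ru_smul h 0 0
  simpa using this

lemma ru_sum {M : VN H} {Φ : Op H → Op H} (h : RU M Φ) {α : Type*} (s : Finset α)
    (f : α → Op H) : Φ (∑ i ∈ s, f i) = ∑ i ∈ s, Φ (f i) := by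
  classical
  induction s using Finset.induction_on with
  | empty => simpa using ru_zero h
  | insert i s hi ih => rw [Finset.sum_insert hi, Finset.sum_insert hi, ru_add h, ih]

lemma ru_norm {M : VN H} {Φ : Op H → Op H} (h : RU M Φ) (r : Op H) : ‖Φ r‖ ≤ ‖r‖ := by
  obtain ⟨ι, _, μ, a, hμ, ha, hΦ⟩ := h
  rw [hΦ]
  exact norm_av_le hμ (fun i => (ha i).2) r

lemma ru_sm {M A : VN H} {Ω : H} {J : H ≃ₗᵢ⋆[ℂ] H} (hJ : TrJ M Ω J)
    (hA : A = M ∨ A = M.commutant) {Φ : Op H → Op H} (h : RU A Φ) {r : Op H} {c : ℝ}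
    (hc : 0 ≤ c) (hr : Sm M Ω r c) : Sm M Ω (Φ r) c := by
  obtain ⟨ι, _, μ, a, hμ, ha, hΦ⟩ := h
  rw [hΦ]
  rcases hA with rfl | rfl
  · exact Sm.av hμ ha hr hc
  · exact Sm.av' hJ hμ ha hr hc

lemma ces_tel {M : VN H} {Φ : Op H → Op H} (h : RU M Φ) (n : ℕ) (r : Op H) :
    Φ (ces Φ n r) - ces Φ n r = (n : ℂ)⁻¹ • (Φ^[n] r - r) := by
  unfold ces
  rw [ru_smul h, ru_sum h, ← smul_sub, ← Finset.sum_sub_distrib]
  congr 1
  have := Finset.sum_range_sub (fun k => Φ^[k] r) n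
  simp only [Function.iterate_succ_apply', Function.iterate_zero_apply] at this
  exact this

end Loc

theorem RU.ces {M : VN H} {Φ : Op H → Op H} (h : RU M Φ) {n : ℕ} (hn : 1 ≤ n) :
    RU M (ces Φ n) := by
  classical
  choose ι inst μ a hμ ha hΦ using fun k : Fin n => Loc.ru_iter h k
  have hn' : (0 : ℝ) < n := by exact_mod_cast hn
  refine ⟨Σ k : Fin n, ι k, inferInstance, fun p => (n : ℝ)⁻¹ * μ p.1 p.2, fun p => a p.1 p.2,
    ⟨fun p => mul_nonneg (inv_nonneg.2 hn'.le) ((hμ _).1 _), ?_⟩, fun p => ha _ _, fun g => ?_⟩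
  · rw [Fintype.sum_sigma]
    simp only [← Finset.mul_sum, (hμ _).2]
    simp [hn'.ne']
  · unfold R78.ces av
    rw [Fintype.sum_sigma, Finset.sum_range, Finset.smul_sum]
    refine Finset.sum_congr rfl fun k _ => ?_
    rw [hΦ k g, av, Finset.smul_sum]
    refine Finset.sum_congr rfl fun i _ => ?_
    rw [smul_smul]
    push_cast
    rfl

namespace Loc

/-- conjugation by `Y ^ b` -/
noncomputable def cY (Y : Op H) (b : Bool) (V : Op H) : Op H := if b then Y * V * Y else V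

lemma cY_not {Y : Op H} (h2 : Y * Y = 1) (b : Bool) (V : Op H) :
    cY Y (!b) V = Y * cY Y b V * Y := by
  cases b
  · simp [cY]
  · simp only [cY, Bool.not_true, Bool.false_eq_true, if_false, if_true]
    calc V = (Y * Y) * V * (Y * Y) := by rw [h2, one_mul, mul_one]
      _ = _ := by noncomm_ring

lemma cY_conj {X Z : Op H} (hXZ : X * Z = -(Z * X)) (b : Bool) (V : Op H) :
    cY X b (Z * V * Z) = Z * cY X b V * Z := by
  cases b
  · simp [cY]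
  · simp only [cY, if_true]
    have h' : Z * X = -(X * Z) := by rw [hXZ, neg_neg]
    calc X * (Z * V * Z) * X = (X * Z) * V * (Z * X) := by noncomm_ring
      _ = (-(Z * X)) * V * (-(X * Z)) := by rw [← hXZ, ← h']
      _ = _ := by noncomm_ring

lemma star_cY {Y : Op H} (h1 : star Y = Y) (b : Bool) (V : Op H) :
    star (cY Y b V) = cY Y b (star V) := by
  cases b
  · simp [cY]
  · simp [cY, h1, mul_assoc]

lemma uin_sa {M : VN H} {Y : Op H} (hY : Y ∈ M) (h1 : star Y = Y) (h2 : Y * Y = 1) : UIn M Y :=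
  ⟨hY, Unitary.mem_iff.2 ⟨by rw [h1, h2], by rw [h1, h2]⟩⟩

lemma uin_cY {M : VN H} {Y V : Op H} (hY : UIn M Y) (hV : UIn M V) (b : Bool) :
    UIn M (cY Y b V) := by
  cases b
  · simpa [cY] using hV
  · simpa [cY] using (hY.mul hV).mul hY

end Loc

/-- symmetrisation: `σ = ι × Bool × Bool × Bool`, steps `g (U i)^{±1} g⋆`, `g ∈ {1, X, Z, X Z}` -/
theorem exists_symm {M : VN H} {X Z : Op H} (hX : X ∈ M) (hZ : Z ∈ M) (hX1 : star X = X)
    (hZ1 : star Z = Z) (hX2 : X * X = 1) (hZ2 : Z * Z = 1) (hXZ : X * Z = -(Z * X))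
    {ι : Type} [Fintype ι] (π : ι → ℝ) (h0 : ∀ i, 0 < π i) (h1 : ∑ i, π i = 1) (U : ι → Op H)
    (hU : ∀ i, UIn M (U i)) :
    ∃ (σ : Type) (_ : Fintype σ) (π' : σ → ℝ) (iv : σ → σ) (U' : σ → Op H) (e : ι → σ)
      (τX τZ : σ ≃ σ), (∀ s, 0 < π' s) ∧ ∑ s, π' s = 1 ∧ Function.Involutive iv ∧
      (∀ s, π' (iv s) = π' s) ∧ (∀ s, UIn M (U' s)) ∧ (∀ s, U' (iv s) = star (U' s)) ∧
      Function.Injective e ∧ (∀ i, U' (e i) = U i) ∧ (∀ i, π' (e i) = π i / 8) ∧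
      (∀ s, π' (τX s) = π' s ∧ U' (τX s) = X * U' s * X) ∧
      (∀ s, π' (τZ s) = π' s ∧ U' (τZ s) = Z * U' s * Z) := by
  have uX := Loc.uin_sa hX hX1 hX2
  have uZ := Loc.uin_sa hZ hZ1 hZ2
  let nb : Bool ≃ Bool := Function.Involutive.toPerm (fun b => !b) Bool.not_not
  refine ⟨ι × Bool × Bool × Bool, inferInstance, fun s => π s.1 / 8,
    fun s => (s.1, !s.2.1, s.2.2.1, s.2.2.2),
    fun s => Loc.cY X s.2.2.1 (Loc.cY Z s.2.2.2 (if s.2.1 then star (U s.1) else U s.1)),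
    fun i => (i, false, false, false),
    (Equiv.refl ι).prodCongr ((Equiv.refl Bool).prodCongr (nb.prodCongr (Equiv.refl Bool))),
    (Equiv.refl ι).prodCongr ((Equiv.refl Bool).prodCongr ((Equiv.refl Bool).prodCongr nb)),
    fun s => div_pos (h0 _) (by norm_num), ?_, ?_, fun s => rfl, ?_, ?_, ?_, ?_, fun i => rfl,
    ?_, ?_⟩
  · simp only [Fintype.sum_prod_type, Finset.sum_const, Finset.card_univ, Fintype.card_bool,
      Fintype.card_prod, nsmul_eq_mul]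
    rw [← h1]
    refine Finset.sum_congr rfl fun i _ => ?_
    push_cast
    ring
  · rintro ⟨i, s, b, c⟩
    simp
  · rintro ⟨i, s, b, c⟩
    refine Loc.uin_cY uX (Loc.uin_cY uZ ?_ _) _
    cases s
    · simpa using hU i
    · simpa using (hU i).star
  · rintro ⟨i, s, b, c⟩
    simp only [Loc.star_cY hX1, Loc.star_cY hZ1]
    cases s <;> simp
  · intro i j hij
    exact congrArg Prod.fst hij
  · intro i
    simp [Loc.cY]
  · rintro ⟨i, s, b, c⟩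
    exact ⟨rfl, Loc.cY_not hX2 b _⟩
  · rintro ⟨i, s, b, c⟩
    refine ⟨rfl, ?_⟩
    rw [← Loc.cY_conj hXZ, ← Loc.cY_not hZ2]
    rfl

namespace Loc

/-- the twirl over `{1, Y}` -/
noncomputable def Tw (Y r : Op H) : Op H := (1 / 2 : ℂ) • (r + Y * r * Y)

lemma av2_tw {ι : Type} [Fintype ι] (μ : ι → ℝ) (a n : ι → Op H) {Y : Op H} (h1 : star Y = Y)
    (r : Op H) :
    av2 (fun p : ι × Bool => μ p.1 * (1 / 2)) (fun p => a p.1 * (if p.2 then Y else 1))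
      (fun p => n p.1 * (if p.2 then Y else 1)) r = Tw Y (av2 μ a n r) := by
  unfold av2 Tw
  rw [Fintype.sum_prod_type, Finset.mul_sum, Finset.sum_mul, ← Finset.sum_add_distrib,
    Finset.smul_sum]
  refine Finset.sum_congr rfl fun i _ => ?_
  simp only [Fintype.sum_bool, if_true, Bool.false_eq_true, if_false, mul_one, star_mul, h1,
    star_one, one_mul, mul_smul_comm, smul_mul_assoc, smul_add, smul_smul, mul_assoc]
  push_cast
  rw [add_comm, mul_comm (μ i : ℂ)]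

lemma prob_half : Prob (fun _ : Bool => (1 / 2 : ℝ)) :=
  ⟨fun _ => by norm_num, by simp⟩

lemma ru_tw {A : VN H} {Y : Op H} (hY : UIn A Y) (h1 : star Y = Y) : RU A (Tw Y) := by
  refine ⟨Bool, inferInstance, fun _ => 1 / 2, fun b => if b then Y else 1, prob_half, ?_,
    fun g => ?_⟩
  · intro b
    cases b
    · simpa using UIn.one A
    · simpa using hY
  · unfold Tw av
    simp only [Fintype.sum_bool, if_true, Bool.false_eq_true, if_false, h1, star_one, one_mul,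
      mul_one, smul_add]
    push_cast
    rw [add_comm]

lemma commute_tw_self {Y : Op H} (h2 : Y * Y = 1) (r : Op H) : Commute (Tw Y r) Y := by
  unfold Tw
  refine Commute.smul_left ?_ _
  show (r + Y * r * Y) * Y = Y * (r + Y * r * Y)
  calc (r + Y * r * Y) * Y = r * Y + Y * r * (Y * Y) := by noncomm_ring
    _ = Y * r + (Y * Y) * r * Y := by rw [h2, mul_one, one_mul, add_comm]
    _ = _ := by noncomm_ring

lemma commute_tw_anti {Y W r : Op H} (h : W * Y = -(Y * W)) (hr : Commute r W) :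
    Commute (Tw Y r) W := by
  unfold Tw
  refine Commute.smul_left (hr.add_left ?_) _
  show Y * r * Y * W = W * (Y * r * Y)
  have h' : Y * W = -(W * Y) := by rw [h, neg_neg]
  calc Y * r * Y * W = Y * r * (Y * W) := by noncomm_ring
    _ = -(Y * (r * W) * Y) := by rw [h']; noncomm_ring
    _ = -(Y * W) * r * Y := by rw [hr.eq]; noncomm_ring
    _ = _ := by rw [← h]; noncomm_ring

lemma av_tw_comm {σ : Type} [Fintype σ] {π : σ → ℝ} {U : σ → Op H} {Y : Op H} (h1 : star Y = Y)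
    (h2 : Y * Y = 1) (τ : σ ≃ σ) (hτ : ∀ s, π (τ s) = π s ∧ U (τ s) = Y * U s * Y) (r : Op H) :
    av π U (Tw Y r) = Tw Y (av π U r) := by
  unfold Tw
  rw [av_smul, av_add, av_conj h1 h2 τ hτ]

section side
variable {M A B : VN H} {Ω : H} {J : H ≃ₗᵢ⋆[ℂ] H} {d g : ℝ}

lemma twist (hJ : TrJ M Ω J) (hA : A = M ∨ A = M.commutant) (hg : 0 ≤ g) {Y : Op H}
    (hYA : UIn A Y) (hYB : UIn B Y) (h1 : star Y = Y) {ι : Type} [Fintype ι] {μ : ι → ℝ}
    {a n : ι → Op H} (hμ : Prob μ)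
    (h : ∀ i, UIn A (a i) ∧ UIn B (n i) ∧ Sm2 M Ω (a i - n i) d g) :
    ∃ (ι' : Type) (_ : Fintype ι') (μ' : ι' → ℝ) (a' n' : ι' → Op H), Prob μ' ∧
      (∀ i, UIn A (a' i) ∧ UIn B (n' i) ∧ Sm2 M Ω (a' i - n' i) d g) ∧
      (∀ r, av2 μ' a' n' r = Tw Y (av2 μ a n r)) ∧ ∀ r, av μ' a' r = Tw Y (av μ a r) := by
  refine ⟨ι × Bool, inferInstance, _, _, _, prob_prod hμ prob_half, ?_, av2_tw μ a n h1,
    av2_tw μ a a h1⟩
  rintro ⟨i, b⟩
  cases b
  · simpa using h i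
  · simp only [if_true]
    refine ⟨(h i).1.mul hYA, (h i).2.1.mul hYB, ?_⟩
    have hY : Y ∈ M ∨ Y ∈ M.commutant := by
      rcases hA with rfl | rfl
      · exact Or.inl hYA.1
      · exact Or.inr hYA.1
    have hd : 0 ≤ d := (norm_nonneg _).trans (h i).2.2.1
    rw [← sub_mul]
    exact ((h i).2.2.right hJ hg hY).mono (mul_le_of_le_one_left hd hYA.norm_le)
      (mul_le_of_le_one_left hg hYA.norm_le)

lemma side (hJ : TrJ M Ω J) (hA : A = M ∨ A = M.commutant) (hg : 0 ≤ g) {X Z : Op H}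
    (hXA : X ∈ A) (hZA : Z ∈ A) (hXB : X ∈ B) (hZB : Z ∈ B) (hX1 : star X = X)
    (hZ1 : star Z = Z) (hX2 : X * X = 1) (hZ2 : Z * Z = 1) (hXZ : X * Z = -(Z * X))
    {σ : Type} [Fintype σ] {π : σ → ℝ} {U : σ → Op H} (hπ : Prob π) (hU : ∀ s, UIn A (U s))
    (τX τZ : σ ≃ σ) (hτX : ∀ s, π (τX s) = π s ∧ U (τX s) = X * U s * X)
    (hτZ : ∀ s, π (τZ s) = π s ∧ U (τZ s) = Z * U s * Z)
    (hap : ∀ a, UIn A a → ∃ n, UIn B n ∧ Sm2 M Ω (a - n) d g) {N : ℕ} (hN : 1 ≤ N) :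
    ∃ (ι : Type) (_ : Fintype ι) (μ : ι → ℝ) (a n : ι → Op H), Prob μ ∧
      (∀ i, UIn A (a i) ∧ UIn B (n i) ∧ Sm2 M Ω (a i - n i) d g) ∧
      (∀ r, Commute (av2 μ a n r) X ∧ Commute (av2 μ a n r) Z) ∧
      (∀ r, ‖av π U (av μ a r) - av μ a r‖ ≤ 2 * ‖r‖ / N) ∧
      ∀ r c, 0 ≤ c → Sm M Ω r c → Sm M Ω (av π U (av μ a r) - av μ a r) (2 * c / N) := by
  have hΦ : RU A (av π U) := ru_av hπ hU
  obtain ⟨ι, _, μ, a, hμ, ha, hces⟩ := hΦ.ces hN
  choose n hn hn' using fun i => hap (a i) (ha i)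
  have uXA := uin_sa hXA hX1 hX2
  have uZA := uin_sa hZA hZ1 hZ2
  obtain ⟨ι₁, _, μ₁, a₁, n₁, hμ₁, h₁, e₁, f₁⟩ := twist hJ hA hg uXA (uin_sa hXB hX1 hX2) hX1 hμ
    (fun i => ⟨ha i, hn i, hn' i⟩)
  obtain ⟨ι₂, _, μ₂, a₂, n₂, hμ₂, h₂, e₂, f₂⟩ := twist hJ hA hg uZA (uin_sa hZB hZ1 hZ2) hZ1 hμ₁ h₁
  have hT : RU A (Tw Z ∘ Tw X) := ru_comp (ru_tw uZA hZ1) (ru_tw uXA hX1)
  have hT' : RU A ((Tw Z ∘ Tw X) ∘ (av π U)^[N]) := ru_comp hT (ru_iter hΦ N)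
  have key : ∀ r, av π U (av μ₂ a₂ r) - av μ₂ a₂ r =
      (N : ℂ)⁻¹ • (((Tw Z ∘ Tw X) ∘ (av π U)^[N]) r - (Tw Z ∘ Tw X) r) := by
    intro r
    rw [f₂, f₁, ← hces, av_tw_comm hZ1 hZ2 τZ hτZ, av_tw_comm hX1 hX2 τX hτX]
    have := ru_sub hT (av π U (ces (av π U) N r)) (ces (av π U) N r)
    simp only [Function.comp_apply] at this
    rw [← this, ces_tel hΦ]
    have h3 := ru_smul hT (N : ℂ)⁻¹ ((av π U)^[N] r - r)
    have h4 := ru_sub hT ((av π U)^[N] r) r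
    simp only [Function.comp_apply] at h3 h4 ⊢
    rw [h3, h4]
  have hnN : ‖(N : ℂ)⁻¹‖ = (N : ℝ)⁻¹ := by simp
  refine ⟨ι₂, inferInstance, μ₂, a₂, n₂, hμ₂, h₂, fun r => ⟨?_, ?_⟩, fun r => ?_,
    fun r c hc hr => ?_⟩
  · rw [e₂, e₁]
    exact commute_tw_anti hXZ (commute_tw_self hX2 _)
  · rw [e₂]
    exact commute_tw_self hZ2 _
  · rw [key, norm_smul, hnN, div_eq_inv_mul]
    refine mul_le_mul_of_nonneg_left ((norm_sub_le _ _).trans ?_) (by positivity)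
    have := ru_norm hT' r
    have := ru_norm hT r
    linarith
  · rw [key]
    refine (((ru_sm hJ hA hT' hc hr).sub (ru_sm hJ hA hT hc hr)).smul _).mono (le_of_eq ?_)
    rw [hnN]
    ring

end side

lemma num_small {K c ε : ℝ} (hK : 0 ≤ K) (hc : 0 ≤ c) (hε : 0 < ε) :
    ∃ m : ℕ, 1 ≤ m ∧ ∃ ε₀ : ℝ, 0 < ε₀ ∧ ∀ r : ℝ, 0 ≤ r → r ≤ 1 →
      √(K * (r ^ 2 / m + 2 * r * ε₀)) * c + 2 * m * ε₀ * c ≤ ε := by
  set θ : ℝ := ε / (2 * (c + 1)) with hθ
  have hθ0 : 0 < θ := by positivity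
  have hθc : θ * c ≤ ε / 2 := by
    rw [hθ, div_mul_eq_mul_div, div_le_div_iff₀ (by positivity) (by norm_num)]
    nlinarith
  obtain ⟨m, hm⟩ := exists_nat_ge (2 * K / θ ^ 2 + 1)
  have hm1 : (1 : ℝ) ≤ m := le_trans (le_add_of_nonneg_left (by positivity)) hm
  have hm0 : (0 : ℝ) < m := by linarith
  refine ⟨m, by exact_mod_cast hm1, min (θ ^ 2 / (4 * (K + 1))) (θ / (2 * m)),
    lt_min (by positivity) (by positivity), fun r hr0 hr1 => ?_⟩
  set e : ℝ := min (θ ^ 2 / (4 * (K + 1))) (θ / (2 * m)) with he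
  have he0 : 0 < e := lt_min (by positivity) (by positivity)
  have he1 : e * (4 * (K + 1)) ≤ θ ^ 2 := (le_div_iff₀ (by positivity)).1 (min_le_left _ _)
  have he2 : e * (2 * m) ≤ θ := (le_div_iff₀ (by positivity)).1 (min_le_right _ _)
  have h1 : K * (r ^ 2 / m) ≤ θ ^ 2 / 2 := by
    have h3 : 2 * K ≤ m * θ ^ 2 := by
      have : 2 * K / θ ^ 2 ≤ m := by linarith
      exact (div_le_iff₀ (by positivity)).1 this
    have h4 : r ^ 2 ≤ 1 := by nlinarith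
    rw [← mul_div_assoc, div_le_div_iff₀ hm0 (by norm_num)]
    nlinarith
  have h2 : K * (2 * r * e) ≤ θ ^ 2 / 2 := by
    have : K * (2 * r * e) ≤ K * (2 * 1 * e) := by gcongr
    nlinarith
  have h3 : √(K * (r ^ 2 / m + 2 * r * e)) ≤ θ := by
    rw [Real.sqrt_le_left hθ0.le]
    linarith [mul_add K (r ^ 2 / m) (2 * r * e)]
  have h4 : √(K * (r ^ 2 / m + 2 * r * e)) * c ≤ θ * c := mul_le_mul_of_nonneg_right h3 hc
  have h5 : 2 * m * e * c ≤ θ * c := mul_le_mul_of_nonneg_right (by linarith) hc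
  linarith

/-- almost bi-harmonic contractions almost commute with the steps -/
lemma exists_eps {M : VN H} {Ω : H} {J : H ≃ₗᵢ⋆[ℂ] H} (hJ : TrJ M Ω J) {σ : Type} [Fintype σ]
    {π : σ → ℝ} {iv : σ → σ} {U : σ → Op H} (h0 : ∀ s, 0 < π s) (h1 : ∑ s, π s = 1)
    (hiv : Function.Involutive iv) (hπ : ∀ s, π (iv s) = π s) (hU : ∀ s, UIn M (U s))
    (hU' : ∀ s, U (iv s) = star (U s)) {ε : ℝ} (hε : 0 < ε) :
    ∃ ε₀ : ℝ, 0 < ε₀ ∧ ∀ G : Op H, ‖G‖ ≤ 1 → ‖av π U G - G‖ ≤ ε₀ →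
      ‖av π (fun s => jop J (U s)) G - G‖ ≤ ε₀ →
      ∀ s, ‖cm G (U s) Ω‖ ≤ ε ∧ ‖cm G (jop J (U s)) Ω‖ ≤ ε := by
  obtain ⟨t, hΦ, hΨ, hΘ, hd, hA, hB⟩ := TP.exists_diag π h0 h1 U (fun s => jop J (U (iv s))) hU
    (fun s => hJ.uin (hU _))
  have hK : ∀ s, 1 / π s ≤ ∑ s, 1 / π s := fun s =>
    Finset.single_le_sum (f := fun s => 1 / π s) (fun s _ => (one_div_pos.2 (h0 s)).le)
      (Finset.mem_univ s)
  have hK0 : 0 ≤ ∑ s, 1 / π s := Finset.sum_nonneg fun s _ => (one_div_pos.2 (h0 s)).le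
  obtain ⟨m, hm, ε₀, hε₀, hnum⟩ := num_small hK0 (norm_nonneg Ω) hε
  have hd0 : t.dfc Ω = 0 := by
    have : t.dfc Ω ^ 2 = 0 := by
      rw [hd]
      refine Finset.sum_eq_zero fun s _ => ?_
      rw [hJ.jop_vac (hU _).1, hU', star_star]
      simp
    exact pow_eq_zero_iff (two_ne_zero) |>.1 this
  have hsa : IsSelfAdjoint t.Θ := by
    rw [IsSelfAdjoint, hΘ, star_sum, ← Equiv.sum_comp (hiv.toPerm iv)]
    refine Finset.sum_congr rfl fun s _ => ?_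
    simp only [Function.Involutive.coe_toPerm, hiv s, hπ, star_smul, star_mul, star_star,
      Complex.star_def, Complex.conj_ofReal]
    rw [← jop_star hJ.J_J, hU', star_star,
      (commute_of_mem (hU s).1 (hJ.mem _ (hU s).1)).eq]
  have hΨ' : ∀ G, t.Ψ G = av π (fun s => jop J (U s)) G := by
    intro G
    rw [hΨ]
    unfold av
    rw [← Equiv.sum_comp (hiv.toPerm iv)]
    refine Finset.sum_congr rfl fun s _ => ?_
    simp only [Function.Involutive.coe_toPerm, hiv s, hπ]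
  refine ⟨ε₀, hε₀, fun G hG g1 g2 s => ?_⟩
  rw [← hΦ] at g1
  rw [← hΨ'] at g2
  have hn := hnum ‖G‖ (norm_nonneg _) hG
  have hm0 : (0 : ℝ) ≤ 2 * m * ε₀ := by positivity
  constructor
  · have := mv_core t hsa (hU s).1 hK0 ((hA s).mono (fun i => (t.pos i).le) (hK s)) g1 g2 Ω hm
    rw [hd0, mul_zero, mul_zero, add_zero] at this
    have h2 : 2 * m * ε₀ * ‖U s‖ * ‖Ω‖ ≤ 2 * m * ε₀ * ‖Ω‖ :=
      mul_le_mul_of_nonneg_right (mul_le_of_le_one_right hm0 (hU s).norm_le) (norm_nonneg _)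
    linarith
  · have hB' := hB (iv s)
    simp only [hiv s] at hB'
    have := mv_core' t hsa (hJ.mem _ (hU s).1) hK0
      (hB'.mono (fun i => (t.pos i).le) (hK _)) g1 g2 Ω hm
    rw [hd0, mul_zero, mul_zero, add_zero] at this
    have h2 : 2 * m * ε₀ * ‖jop J (U s)‖ * ‖Ω‖ ≤ 2 * m * ε₀ * ‖Ω‖ :=
      mul_le_mul_of_nonneg_right (mul_le_of_le_one_right hm0 (hJ.uin (hU s)).norm_le)
        (norm_nonneg _)
    linarith

lemma harm {M A : VN H} {Ω : H} {J : H ≃ₗᵢ⋆[ℂ] H} (hJ : TrJ M Ω J)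
    (hA : A = M ∨ A = M.commutant) {Φ Λ : Op H → Op H} (hΦ : RU A Φ) (hΛ : RU A Λ)
    {W T' : Op H} {c c' c'' : ℝ} (hc : 0 ≤ c) (hc' : 0 ≤ c') (h1 : Sm M Ω T' c)
    (h2 : Sm M Ω (W - Λ T') c') (h3 : Sm M Ω (Φ (Λ T') - Λ T') c'') :
    Sm M Ω W (c' + c) ∧ Sm M Ω (Φ W - W) (c' + c' + c'') := by
  constructor
  · have := h2.add (ru_sm hJ hA hΛ hc h1)
    rwa [sub_add_cancel] at this
  · have := ((ru_sm hJ hA hΦ hc' h2).sub h2).add h3
    rw [ru_sub hΦ] at this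
    convert this using 1
    abel

lemma incr_eq {ι κ : Type} [Fintype ι] [Fintype κ] (μ : ι → ℝ) (a n : ι → Op H) (ν : κ → ℝ)
    (b q : κ → Op H) : incr μ a n ν b q = av2 ν b q (av2 μ a n 1) - 1 := by
  unfold incr av2
  rw [Finset.sum_comm]
  congr 1
  refine Finset.sum_congr rfl fun k _ => ?_
  rw [Finset.mul_sum, Finset.sum_mul, Finset.smul_sum]
  refine Finset.sum_congr rfl fun i _ => ?_
  simp only [star_mul, mul_one, mul_smul_comm, smul_mul_assoc, smul_smul, mul_assoc]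
  push_cast
  rw [mul_comm (μ i : ℂ)]

lemma commute_av2 {κ : Type} [Fintype κ] (ν : κ → ℝ) {b q : κ → Op H} {X r : Op H}
    (hb : ∀ k, Commute (star (b k)) X) (hq : ∀ k, Commute (q k) X) (hr : Commute r X) :
    Commute (av2 ν b q r) X :=
  Commute.sum_left _ _ _ fun k _ => (((hb k).mul_left hr).mul_left (hq k)).smul_left _

lemma sum_comp_le {α σ : Type} [Fintype α] [Fintype σ] {f : α → σ} (hf : Function.Injective f)
    {F : σ → ℝ} (hF : ∀ s, 0 ≤ F s) : ∑ a, F (f a) ≤ ∑ s, F s := by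
  have := Finset.sum_le_sum_of_subset_of_nonneg
    (Finset.subset_univ (Finset.univ.map ⟨f, hf⟩)) (fun s _ _ => hF s)
  rwa [Finset.sum_map] at this

lemma sq_five {v C a b c d e : ℝ} (hv : 0 ≤ v) (h : v ≤ C * (a + b + c + d + e)) :
    v ^ 2 ≤ 5 * C ^ 2 * (a ^ 2 + b ^ 2 + c ^ 2 + d ^ 2 + e ^ 2) := by
  have h1 : v ^ 2 ≤ (C * (a + b + c + d + e)) ^ 2 := pow_le_pow_left₀ hv h 2
  have h2 : (a + b + c + d + e) ^ 2 ≤ 5 * (a ^ 2 + b ^ 2 + c ^ 2 + d ^ 2 + e ^ 2) := by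
    nlinarith [sq_nonneg (a - b), sq_nonneg (a - c), sq_nonneg (a - d), sq_nonneg (a - e),
      sq_nonneg (b - c), sq_nonneg (b - d), sq_nonneg (b - e), sq_nonneg (c - d),
      sq_nonneg (c - e), sq_nonneg (d - e)]
  rw [mul_pow] at h1
  nlinarith [mul_le_mul_of_nonneg_left h2 (sq_nonneg C)]

/-- the symmetric family of steps -/
lemma exists_steps {M N : VN H} {J : H ≃ₗᵢ⋆[ℂ] H} {X Z : Op H} (hP : Pauli M N J X Z)
    {E : Type} [Fintype E] {π : E → ℝ} {x y : E → Op H} (h0 : ∀ e, 0 < π e) (h1 : ∑ e, π e = 1)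
    (hxy : ∀ e, UIn M (x e) ∧ UIn M (y e) ∧ Commute (x e) X ∧ Commute (x e) Z ∧
      Commute (y e) X ∧ Commute (y e) Z)
    {E' : Type} [Fintype E'] {w : E' → Op H} (hw : ∀ e, UIn M (w e)) :
    ∃ (σ : Type) (_ : Fintype σ) (π' : σ → ℝ) (iv : σ → σ) (U' : σ → Op H)
      (τX τZ : σ ≃ σ), (∀ s, 0 < π' s) ∧ ∑ s, π' s = 1 ∧ Function.Involutive iv ∧
      (∀ s, π' (iv s) = π' s) ∧ (∀ s, UIn M (U' s)) ∧ (∀ s, U' (iv s) = star (U' s)) ∧
      (∀ s, π' (τX s) = π' s ∧ U' (τX s) = X * U' s * X) ∧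
      (∀ s, π' (τZ s) = π' s ∧ U' (τZ s) = Z * U' s * Z) ∧ (∀ e, ∃ s, U' s = w e) ∧
      ∀ F : Op H → ℝ, (∀ V, 0 ≤ F V) →
        ∑ e, π e * (F (trick X Z (x e) (y e)) + F (trick X Z 1 (y e)) + F (trick X Z (x e) 1) +
          F (trick X Z 1 1)) ≤ 64 * ∑ s, π' s * F (U' s) := by
  classical
  let π₀ : (E × Bool × Bool) ⊕ Option E' → ℝ :=
    Sum.elim (fun p => π p.1 / 8) (fun _ => 1 / (2 * (Fintype.card E' + 1)))
  let U₀ : (E × Bool × Bool) ⊕ Option E' → Op H :=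
    Sum.elim (fun p => trick X Z (if p.2.1 then x p.1 else 1) (if p.2.2 then y p.1 else 1))
      (fun o => o.elim 1 w)
  have p0 : ∀ i, 0 < π₀ i := by
    rintro (p | o)
    · exact div_pos (h0 _) (by norm_num)
    · show (0 : ℝ) < 1 / (2 * (Fintype.card E' + 1))
      positivity
  have p1 : ∑ i, π₀ i = 1 := by
    rw [Fintype.sum_sum_type]
    simp only [π₀, Sum.elim_inl, Sum.elim_inr, Fintype.sum_prod_type, Finset.sum_const,
      Finset.card_univ, Fintype.card_bool, Fintype.card_prod, Fintype.card_option, nsmul_eq_mul]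
    have : ∑ e, ((2 * 2 : ℕ) : ℝ) * (π e / 8) = 1 / 2 := by
      rw [← h1, Finset.sum_div]
      refine Finset.sum_congr rfl fun e _ => ?_
      push_cast
      ring
    rw [this]
    push_cast
    field_simp
    norm_num
  have pU : ∀ i, UIn M (U₀ i) := by
    rintro (⟨e, b, c⟩ | o)
    · obtain ⟨a1, a2, a3, a4, a5, a6⟩ := hxy e
      refine trick_uin hP ?_ ?_ ?_ ?_ ?_ ?_
      · cases b
        · exact UIn.one M
        · exact a1
      · cases c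
        · exact UIn.one M
        · exact a2
      · cases b
        · exact Commute.one_left _
        · exact a3
      · cases b
        · exact Commute.one_left _
        · exact a4
      · cases c
        · exact Commute.one_left _
        · exact a5
      · cases c
        · exact Commute.one_left _
        · exact a6
    · cases o
      · exact UIn.one M
      · exact hw _
  obtain ⟨σ, _, π', iv, U', e, τX, τZ, s1, s2, s3, s4, s5, s6, s7, s8, s9, s10, s11⟩ :=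
    exists_symm hP.XM hP.ZM hP.X_sa hP.Z_sa hP.XX hP.ZZ hP.anti π₀ p0 p1 U₀ pU
  refine ⟨σ, inferInstance, π', iv, U', τX, τZ, s1, s2, s3, s4, s5, s6, s10, s11,
    fun e' => ⟨e (Sum.inr (some e')), s8 _⟩, fun F hF => ?_⟩
  have := sum_comp_le (f := fun p : E × Bool × Bool => e (Sum.inl p))
    (s7.comp Sum.inl_injective) (F := fun s => π' s * F (U' s))
    (fun s => mul_nonneg (s1 s).le (hF _))
  refine le_trans (le_of_eq ?_) (mul_le_mul_of_nonneg_left this (by norm_num))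
  simp only [s8, s9, π₀, U₀, Sum.elim_inl, Fintype.sum_prod_type, Fintype.sum_bool, if_true,
    Bool.false_eq_true, if_false, Finset.mul_sum]
  refine Finset.sum_congr rfl fun e _ => ?_
  ring

end Loc

set_option maxHeartbeats 1600000 in
/-- Steps: `trick x y, trick 1 y, trick x 1, trick 1 1` with total weight `π e / 2` and the `w e'`
(and `1`) with total weight `½`; symmetrise (`exists_symm`): `Φ = av π' U'`, `Ψ = av π' (J U' J)`
commute with the Pauli twirls `Tw`, `Tw'`.  `ces Φ N₀`, `ces Ψ N₀` are averages over `a i`, `b k`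
(`RU.ces`); take approximants `n i`, `q k` (`Apx`), pass to the families `(a i g, n i g)`,
`(b k g', q k g')` over Paulis `g`, `g'` (uniform weights): the increment `h` is twirled, hence
`Mod`, and `av` of the new families is `Tw ∘ ces Φ N₀`, `Tw' ∘ ces Ψ N₀`, which are harmonic up
to `2 / N₀` (for the norm and for `Sm`).  `step`, `t2` (with `T b = q b - b + [h, b]`,
`S a = a - n a + [a, h]`, `κ = C ρ γ + C γ / N₀`, `N₀ ≥ 1/ρ`), `trick_est`; `step_drift`;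
`G = av (av (u - 1))`, `TP.exists_diag` with `W s = (J U' s J)⋆` (defect `0` on `Ω`), `mv_core`,
`mv_core'` with a long martingale and `N₀` much longer. -/
theorem loc (L : ℝ) (hL : 1 ≤ L) : ∃ C₀ C ρ₀ : ℝ, 0 < C₀ ∧ 0 < C ∧ 0 < ρ₀ ∧ ∀ (H : Type u) [NormedAddCommGroup H] [InnerProductSpace ℂ H] [CompleteSpace H]
    (M N₀ : VN H) (Ω : H) (J : H ≃ₗᵢ⋆[ℂ] H) (X Z u : Op H) (δ ρ γ : ℝ),
    TrJ M Ω J → Pauli M N₀ J X Z → u ∈ unitary (Op H) → Mod J X Z u → 0 < δ → δ ≤ ρ → ρ ≤ ρ₀ →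
    CL M N₀ δ → ‖u - 1‖ ≤ ρ → 0 < γ →
    Apx M (cj u N₀) Ω (L * ρ) (L * γ) →
    ∀ (E : Type) [Fintype E] (π : E → ℝ) (x y p : E → Op H), (∀ e, 0 < π e) → ∑ e, π e = 1 →
    (∀ e, Test M (cj u N₀) Ω J X Z (L * ρ) (L * γ) (x e) (y e) (p e)) →
    ∀ (E' : Type) [Fintype E'] (w : E' → Op H), (∀ e, UIn M (w e)) → ∀ ε : ℝ, 0 < ε →
    ∀ n : ℕ, 1 ≤ n → ∃ h G α β : Op H, Adm M N₀ Ω J X Z u C₀ C δ ρ γ h G α β ∧
      ∑ e, π e * tval Ω J h (x e) (y e) (p e) ^ 2 ≤ C * (1 / n + n ^ 2 * ρ ^ 2) * γ ^ 2 ∧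
      ∀ e, ‖cm G (w e) Ω‖ ≤ ε ∧ ‖cm G (jop J (w e)) Ω‖ ≤ ε := by
  obtain ⟨C₁, hC₁, hstep⟩ := step.{u}
  obtain ⟨C₀, C₂, δ₀, hC₀, hC₂, hδ₀, hdrift⟩ := step_drift.{u}
  obtain ⟨C₃, hC₃, ht2⟩ := t2.{u}
  obtain ⟨C₄, hC₄, htrick⟩ := trick_est.{u}
  have hL0 : 0 < L := by linarith
  have hL2 : L ≤ L ^ 2 := by nlinarith
  set K : ℝ := 4 * C₁ * L ^ 2 with hK
  set C₅ : ℝ := 5 * C₄ ^ 2 * (64 * C₃ * K ^ 2 + L ^ 4) with hC₅
  have hC₅0 : 0 ≤ C₅ := by positivity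
  have hA1 : 0 < C₁ * L ^ 2 := by positivity
  have hA2 : 0 < C₂ * L ^ 2 := by positivity
  refine ⟨C₀, C₁ * L ^ 2 + C₂ * L ^ 2 + C₅, min δ₀ (1 / L), hC₀, by positivity,
    lt_min hδ₀ (by positivity), ?_⟩
  intro H _ _ _ M N₀ Ω J X Z u δ ρ γ hJ hP₀ hu hmod hδ hδρ hρ hCL hu1 hγ hap E _ π x y p h0 h1
    htest E' _ w hw ε hε n hn
  set C : ℝ := C₁ * L ^ 2 + C₂ * L ^ 2 + C₅ with hC
  have hρ0 : 0 < ρ := hδ.trans_le hδρ
  have hd1 : L * ρ ≤ 1 := by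
    have := hρ.trans (min_le_right _ _)
    rw [le_div_iff₀ hL0] at this
    linarith
  have hρd : ρ ≤ L * ρ := le_mul_of_one_le_left hρ0.le hL
  have hρ1 : ρ ≤ 1 := hρd.trans hd1
  have hd0 : 0 ≤ L * ρ := by positivity
  have hg0 : 0 ≤ L * γ := by positivity
  have hP : Pauli M (cj u N₀) J X Z := hP₀.cj hu hmod
  obtain ⟨σ, _, π', iv, U, τX, τZ, s1, s2, s3, s4, s5, s6, s7, s8, s9, s10⟩ :=
    Loc.exists_steps (π := π) (x := x) (y := y) hP h0 h1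
      (fun e => ⟨(htest e).1, (htest e).2.1, (htest e).2.2.1,
        (htest e).2.2.2.1, (htest e).2.2.2.2.1, (htest e).2.2.2.2.2.1⟩) hw
  have hπ' : Prob π' := ⟨fun s => (s1 s).le, s2⟩
  obtain ⟨ε₀, hε₀, hsmall⟩ := Loc.exists_eps hJ s1 s2 s3 s4 s5 s6 hε
  obtain ⟨N, hN⟩ := exists_nat_ge (1 / ρ + 2 / ε₀ + 1)
  have hNa : 0 < 1 / ρ := by positivity
  have hNb : 0 < 2 / ε₀ := by positivity
  have hN1 : (1 : ℝ) ≤ N := by linarith
  have hN0 : (0 : ℝ) < N := by linarith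
  have hN1' : 1 ≤ N := by exact_mod_cast hN1
  have hNρ : 1 / (N : ℝ) ≤ ρ := by
    rw [div_le_iff₀ hN0]
    have : 1 / ρ ≤ N := by linarith
    rw [div_le_iff₀ hρ0] at this
    linarith
  have hNε : 2 / (N : ℝ) ≤ ε₀ := by
    rw [div_le_iff₀ hN0]
    have : 2 / ε₀ ≤ N := by linarith
    rw [div_le_iff₀ hε₀] at this
    linarith
  obtain ⟨ι, _, μ, a, m, hμ, ha, hac, han, has⟩ := Loc.side (A := M) (B := cj u N₀) hJ
    (Or.inl rfl) hg0 hP.XM hP.ZM hP.XN hP.ZN hP.X_sa hP.Z_sa hP.XX hP.ZZ hP.anti hπ' s5 τX τZ s7 s8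
    hap.toN hN1'
  have hJJ := hJ.J_J
  obtain ⟨κ, _, ν, b, q, hν, hb, hbc, hbn, hbs⟩ := Loc.side (A := M.commutant)
    (B := (cj u N₀).commutant) (X := jop J X) (Z := jop J Z) (U := fun s => jop J (U s))
    (d := L * ρ) hJ
    (Or.inr rfl) hg0 (hJ.mem _ hP.XM) (hJ.mem _ hP.ZM) hP.XP hP.ZP
    (by rw [← jop_star hJJ, hP.X_sa]) (by rw [← jop_star hJJ, hP.Z_sa])
    (by rw [← jop_mul hJJ, hP.XX, jop_one hJJ]) (by rw [← jop_mul hJJ, hP.ZZ, jop_one hJJ])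
    (by rw [← jop_mul hJJ, ← jop_mul hJJ, hP.anti, jop_neg]) hπ' (fun s => hJ.uin (s5 s)) τX τZ
    (fun s => ⟨(s7 s).1, by rw [(s7 s).2, jop_mul hJJ, jop_mul hJJ]⟩)
    (fun s => ⟨(s8 s).1, by rw [(s8 s).2, jop_mul hJJ, jop_mul hJJ]⟩)
    (fun b hb => by
      obtain ⟨q, hq, hq'⟩ := hap.toP b hb
      exact ⟨q, hq, by simpa only [neg_sub] using hq'.neg⟩) hN1'
  have hb' : ∀ k, UIn M.commutant (b k) ∧ UIn (cj u N₀).commutant (q k) ∧
      Sm2 M Ω (q k - b k) (L * ρ) (L * γ) := fun k =>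
    ⟨(hb k).1, (hb k).2.1, by simpa only [neg_sub] using (hb k).2.2.neg⟩
  obtain ⟨t1, t2', t3, t4, t5⟩ := hstep H M (cj u N₀) Ω J (L * ρ) (L * γ) ι κ μ a m ν b q hJ hd0
    hd1 hg0 hμ hν ha hb'
  obtain ⟨α, hα, β, hβ, hα', hβ', hdr⟩ := hdrift H M N₀ u δ ρ L ι κ μ a m ν b q hu hδ.le hδρ
    (hδρ.trans (hρ.trans (min_le_left _ _))) hL hd1 hCL hu1 hμ hν
    (fun i => ⟨(ha i).1, (ha i).2.1, (ha i).2.2.1⟩)
    (fun k => ⟨(hb' k).1, (hb' k).2.1, (hb' k).2.2.1⟩)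
  set h : Op H := incr μ a m ν b q with hh
  have hmodh : Mod J X Z h := by
    have c1 : ∀ Y, Y ∈ M → Y ∈ cj u N₀ → Commute (Loc.av2 μ a m 1) Y → Commute h Y := by
      intro Y hY hY' hc
      rw [hh, Loc.incr_eq]
      exact (Loc.commute_av2 ν (fun k => (commute_of_mem hY (hb k).1.star.1).symm)
        (fun k => (commute_of_mem hY' (hb k).2.1.1).symm) hc).sub_left (Commute.one_left _)
    refine ⟨c1 X hP.XM hP.XN (hac 1).1, c1 Z hP.ZM hP.ZN (hac 1).2, ?_, ?_⟩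
    · rw [hh, Loc.incr_eq]
      exact (hbc _).1.sub_left (Commute.one_left _)
    · rw [hh, Loc.incr_eq]
      exact (hbc _).2.sub_left (Commute.one_left _)
  have ruΦ : RU M (av π' U) := Loc.ru_av hπ' s5
  have ruΨ : RU M.commutant (av π' fun s => jop J (U s)) := Loc.ru_av hπ' fun s => hJ.uin (s5 s)
  have ruA : RU M (av μ a) := Loc.ru_av hμ fun i => (ha i).1
  have ruB : RU M.commutant (av ν b) := Loc.ru_av hν fun k => (hb k).1
  have hG' : ‖av ν b (u - 1)‖ ≤ ρ := (Loc.ru_norm ruB _).trans hu1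
  have hG : ‖av μ a (av ν b (u - 1))‖ ≤ ρ := (Loc.ru_norm ruA _).trans hG'
  have hCa : C₁ * L ^ 2 ≤ C := by rw [hC]; linarith
  have hCb : C₂ * L ^ 2 ≤ C := by rw [hC]; linarith
  have hCc : C₅ ≤ C := by rw [hC]; linarith
  have hCa' : C₁ * L ≤ C := le_trans (mul_le_mul_of_nonneg_left hL2 (by linarith)) hCa
  have hCb' : C₂ * L ≤ C := le_trans (mul_le_mul_of_nonneg_left hL2 hC₂.le) hCb
  refine ⟨h, av μ a (av ν b (u - 1)), α, β, ⟨t1.mono ?_ ?_, t2'.mono ?_ ?_, hmodh, hα, hβ,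
    hα'.trans (mul_le_mul_of_nonneg_right hCb' hρ0.le),
    hβ'.trans (mul_le_mul_of_nonneg_right hCb' hρ0.le), hG, hdr.trans ?_⟩, ?_, ?_⟩
  · rw [← mul_assoc]
    exact mul_le_mul_of_nonneg_right hCa' hρ0.le
  · rw [← mul_assoc]
    exact mul_le_mul_of_nonneg_right hCa' hγ.le
  · rw [mul_pow, ← mul_assoc]
    exact mul_le_mul_of_nonneg_right hCa (by positivity)
  · calc C₁ * (L * ρ) * (L * γ) = C₁ * L ^ 2 * (ρ * γ) := by ring
      _ ≤ C * (ρ * γ) := mul_le_mul_of_nonneg_right hCa (by positivity)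
      _ = C * ρ * γ := by ring
  · have := mul_le_mul_of_nonneg_right hCb (sq_nonneg ρ)
    linarith
  · -- the tests
    classical
    choose! qf hq1 hq2 using hap.toP
    choose! nf hn1 hn2 using hap.toN
    let T : Op H → Op H := fun b => qf b - b + cm h b
    let S : Op H → Op H := fun a => a - nf a + cm a h
    have hc0 : 0 ≤ C₁ * (L * γ) := by positivity
    have hc0' : 0 ≤ C₁ * (L * ρ) * (L * γ) := by positivity
    have e1 : C₁ * (L * ρ) * (L * γ) + C₁ * (L * γ) ≤ K * γ := by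
      have a1 : C₁ * (L * ρ) * (L * γ) ≤ C₁ * (L * γ) := by
        calc C₁ * (L * ρ) * (L * γ) = (L * ρ) * (C₁ * (L * γ)) := by ring
          _ ≤ C₁ * (L * γ) := mul_le_of_le_one_left hc0 hd1
      have a2 : C₁ * (L * γ) ≤ C₁ * (L ^ 2 * γ) := by gcongr
      have a3 : 0 ≤ C₁ * (L ^ 2 * γ) := by positivity
      rw [hK]
      nlinarith
    have e2 : C₁ * (L * ρ) * (L * γ) + C₁ * (L * ρ) * (L * γ) + 2 * (C₁ * (L * γ)) / N ≤
        K * ρ * γ := by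
      have a1 : 2 * (C₁ * (L * γ)) / N ≤ 2 * (C₁ * (L * γ)) * (L * ρ) := by
        rw [div_eq_mul_one_div]
        exact mul_le_mul_of_nonneg_left (hNρ.trans hρd) (by positivity)
      rw [hK]
      nlinarith
    have e3 : C₁ * (L * ρ) * (L * γ) ≤ K * ρ * γ := by
      rw [hK]
      nlinarith
    have hT : ∀ b, UIn M.commutant b →
        Sm M Ω (T b) (K * γ) ∧ Sm M Ω (av π' U (T b) - T b) (K * ρ * γ) := by
      intro b hb
      obtain ⟨T', z1, z2⟩ := t3 b (qf b) hb (hq1 b hb) (hq2 b hb)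
      obtain ⟨z3, z4⟩ := Loc.harm hJ (Or.inl rfl) ruΦ ruA hc0 hc0' z1 z2 (has _ _ hc0 z1)
      exact ⟨z3.mono e1, z4.mono e2⟩
    have hS : ∀ a, UIn M a → Sm M Ω (S a) (K * γ) ∧
        Sm M Ω (av π' (fun s => jop J (U s)) (S a) - S a) (K * ρ * γ) := by
      intro a ha
      obtain ⟨S', z1, z2⟩ := t4 a (nf a) ha (hn1 a ha) (hn2 a ha)
      obtain ⟨z3, z4⟩ := Loc.harm hJ (Or.inr rfl) ruΨ ruB hc0 hc0' z1 z2 (hbs _ _ hc0 z1)
      exact ⟨z3.mono e1, z4.mono e2⟩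
    have hK0 : 0 ≤ K := by positivity
    obtain ⟨η, hη⟩ := ht2 H M Ω J S T (K * γ) (K * ρ * γ) σ π' iv U hJ (by positivity)
      (by positivity) hπ' s3 s4 s5 s6
      (fun a b ha hb => (t5 a (nf a) b (qf b) ha (hn1 a ha) (hn2 a ha) hb (hq1 b hb)
        (hq2 b hb)).mono e3)
      (fun b hb => (hT b hb).1) (fun a ha => (hS a ha).1) (fun b hb => (hT b hb).2)
      (fun a ha => (hS a ha).2) n hn
    have f1 := s10 (fun V => ‖cm V (T (jop J V)) Ω + V (jop J V η) - η‖ ^ 2)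
      (fun V => sq_nonneg _)
    have f2 : ∀ e, tval Ω J h (x e) (y e) (p e) ^ 2 ≤ 5 * C₄ ^ 2 *
        (‖tdef Ω J X Z T η (x e) (y e)‖ ^ 2 + ‖tdef Ω J X Z T η 1 (y e)‖ ^ 2 +
          ‖tdef Ω J X Z T η (x e) 1‖ ^ 2 + ‖tdef Ω J X Z T η 1 1‖ ^ 2 +
          ((L * ρ) * (L * γ)) ^ 2) := by
      intro e
      obtain ⟨a1, a2, a3, a4, a5, a6, a7, a8⟩ := htest e
      exact Loc.sq_five (norm_nonneg _) (htrick H M (cj u N₀) Ω J X Z h (L * ρ) (L * γ) T η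
        (x e) (y e) (p e) hJ hP hd0 hd1 hg0 hap hmodh
        (fun b hb => ⟨qf b, (hq1 b hb).1, hq2 b hb, rfl⟩) a1 a2 a3 a4 a5 a6 a7 a8)
    have hn1' : (1 : ℝ) ≤ n := by exact_mod_cast hn
    set θ : ℝ := (1 / n + n ^ 2 * ρ ^ 2) * γ ^ 2 with hθ
    have hθ0 : 0 ≤ θ := by positivity
    have f3 : (K * γ) ^ 2 / n + n ^ 2 * (K * ρ * γ) ^ 2 = K ^ 2 * θ := by
      rw [hθ]
      ring
    have f4 : ((L * ρ) * (L * γ)) ^ 2 ≤ L ^ 4 * θ := by
      have a1 : ρ ^ 2 ≤ 1 / n + n ^ 2 * ρ ^ 2 := by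
        have : ρ ^ 2 ≤ n ^ 2 * ρ ^ 2 := le_mul_of_one_le_left (sq_nonneg _) (one_le_pow₀ hn1')
        have : (0 : ℝ) ≤ 1 / n := by positivity
        linarith
      calc ((L * ρ) * (L * γ)) ^ 2 = L ^ 4 * (ρ ^ 2 * γ ^ 2) := by ring
        _ ≤ L ^ 4 * θ := by rw [hθ]; gcongr
    rw [f3] at hη
    calc ∑ e, π e * tval Ω J h (x e) (y e) (p e) ^ 2
        ≤ ∑ e, π e * (5 * C₄ ^ 2 *
          (‖tdef Ω J X Z T η (x e) (y e)‖ ^ 2 + ‖tdef Ω J X Z T η 1 (y e)‖ ^ 2 +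
          ‖tdef Ω J X Z T η (x e) 1‖ ^ 2 + ‖tdef Ω J X Z T η 1 1‖ ^ 2 +
          ((L * ρ) * (L * γ)) ^ 2)) :=
          Finset.sum_le_sum fun e _ => mul_le_mul_of_nonneg_left (f2 e) (h0 e).le
      _ = 5 * C₄ ^ 2 * (∑ e, π e *
          (‖tdef Ω J X Z T η (x e) (y e)‖ ^ 2 + ‖tdef Ω J X Z T η 1 (y e)‖ ^ 2 +
          ‖tdef Ω J X Z T η (x e) 1‖ ^ 2 + ‖tdef Ω J X Z T η 1 1‖ ^ 2) +
          (∑ e, π e) * ((L * ρ) * (L * γ)) ^ 2) := by
          rw [Finset.sum_mul, ← Finset.sum_add_distrib, Finset.mul_sum]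
          refine Finset.sum_congr rfl fun e _ => ?_
          ring
      _ ≤ 5 * C₄ ^ 2 * (64 * (C₃ * (K ^ 2 * θ)) + L ^ 4 * θ) := by
          rw [h1, one_mul]
          refine mul_le_mul_of_nonneg_left (add_le_add ?_ f4) (by positivity)
          exact f1.trans (mul_le_mul_of_nonneg_left hη (by norm_num))
      _ = C₅ * θ := by rw [hC₅]; ring
      _ ≤ C * θ := mul_le_mul_of_nonneg_right hCc hθ0
      _ = _ := by rw [hθ, mul_assoc]
  · intro e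
    obtain ⟨s, hs⟩ := s9 e
    rw [← hs]
    have g0 : ∀ r : ℝ, r ≤ ρ → 2 * r / N ≤ ε₀ := fun r hr =>
      le_trans (div_le_div_of_nonneg_right (by linarith) hN0.le) hNε
    refine hsmall _ (hG.trans hρ1) ((han _).trans (g0 _ hG')) ?_ s
    rw [← Loc.av_comm μ π' (fun i s => commute_of_mem (ha i).1.1 (hJ.mem _ (s5 s).1)),
      ← Loc.av_sub]
    exact (Loc.ru_norm ruA _).trans ((hbn _).trans (g0 _ hu1))

end Crest.Agent.R78
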