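import Crest.Agent.R78.Basic

/-! # Row 78: operator valued Fourier coefficients (auxiliary file for `Toep`) -/

set_option autoImplicit false
set_option linter.unusedSectionVars false

namespace Crest.Agent.R78.Toep

open scoped InnerProductSpace ComplexConjugate BigOperators Topology
open Filter MeasureTheory Finset
open Crest.Agent.R124 (Op inner_star_left inner_star_right)

universe u

variable {H : Type u} [NormedAddCommGroup H] [InnerProductSpace ℂ H] [CompleteSpace H]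

/-- the character `e^{i y}` -/
noncomputable def ch (y : ℝ) : ℂ := Complex.exp (Complex.I * y)

lemma ch_add (a b : ℝ) : ch (a + b) = ch a * ch b := by
  simp [ch, mul_add, Complex.exp_add]

lemma ch_zero : ch 0 = 1 := by simp [ch]

lemma conj_ch (a : ℝ) : conj (ch a) = ch (-a) := by
  simp [ch, ← Complex.exp_conj]

lemma norm_ch (a : ℝ) : ‖ch a‖ = 1 := by
  rw [ch, mul_comm]; exact Complex.norm_exp_ofReal_mul_I a

@[fun_prop] lemma continuous_ch : Continuous ch := by unfold ch; fun_prop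

lemma ch_pow (a : ℝ) (k : ℕ) : ch a ^ k = ch (k * a) := by
  induction k with
  | zero => simp [ch_zero]
  | succ k ih => rw [pow_succ, ih, ← ch_add]; congr 1; push_cast; ring

lemma integral_ch {h w : ℝ} (hh : 0 < h) (hw : w * h = Real.pi) (i j : ℕ) :
    ∫ s in (-h)..h, ch (((j : ℝ) - i) * w * s) = if i = j then ((2 * h : ℝ) : ℂ) else 0 := by
  split_ifs with hij
  · subst hij
    simp [ch_zero]
    ring
  · have hw0 : w ≠ 0 := by
      rintro rfl
      simp at hw
      exact Real.pi_ne_zero hw.symm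
    have hc : Complex.I * ((((j : ℝ) - i) * w : ℝ) : ℂ) ≠ 0 := by
      refine mul_ne_zero Complex.I_ne_zero ?_
      rw [Complex.ofReal_ne_zero]
      refine mul_ne_zero (sub_ne_zero.2 ?_) hw0
      exact_mod_cast Ne.symm hij
    have e : ∀ s : ℝ, ch (((j : ℝ) - i) * w * s) =
        Complex.exp (Complex.I * ((((j : ℝ) - i) * w : ℝ) : ℂ) * s) := fun s => by
      rw [ch]; congr 1; push_cast; ring
    simp only [e]
    rw [integral_exp_mul_complex hc, div_eq_zero_iff]
    left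
    rw [sub_eq_zero, Complex.exp_eq_exp_iff_exists_int]
    refine ⟨(j : ℤ) - i, ?_⟩
    have hw' : (w : ℂ) * h = Real.pi := by exact_mod_cast hw
    push_cast
    rw [← hw']
    ring

/-- a trigonometric polynomial with vector coefficients -/
noncomputable def tp {E : Type*} [NormedAddCommGroup E] [NormedSpace ℂ E] {n : ℕ} (w : ℝ)
    (α : Fin n → E) (s : ℝ) : E := ∑ j : Fin n, ch ((j : ℕ) * w * s) • α j

lemma continuous_tp {E : Type*} [NormedAddCommGroup E] [NormedSpace ℂ E] {n : ℕ} (w : ℝ)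
    (α : Fin n → E) : Continuous (tp w α) := by
  unfold tp; fun_prop

lemma inner_tp {E : Type*} [NormedAddCommGroup E] [InnerProductSpace ℂ E] {n : ℕ} (w : ℝ)
    (β α : Fin n → E) (s : ℝ) : ⟪tp w β s, tp w α s⟫_ℂ =
      ∑ i : Fin n, ∑ j : Fin n, ch ((((j : ℕ) : ℝ) - (i : ℕ)) * w * s) * ⟪β i, α j⟫_ℂ := by
  rw [tp, tp, sum_inner]
  refine sum_congr rfl fun i _ => ?_
  rw [inner_sum]
  refine sum_congr rfl fun j _ => ?_
  rw [inner_smul_left, inner_smul_right, conj_ch, ← mul_assoc, ← ch_add]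
  congr 2
  ring

lemma parseval {E : Type*} [NormedAddCommGroup E] [InnerProductSpace ℂ E] {n : ℕ} {h w : ℝ}
    (hh : 0 < h) (hw : w * h = Real.pi) (α : Fin n → E) :
    ∫ s in (-h)..h, ‖tp w α s‖ ^ 2 = 2 * h * ∑ j, ‖α j‖ ^ 2 := by
  apply Complex.ofReal_injective
  rw [← intervalIntegral.integral_ofReal]
  have e : ∀ s, ((‖tp w α s‖ ^ 2 : ℝ) : ℂ) =
      ∑ i : Fin n, ∑ j : Fin n, ch ((((j : ℕ) : ℝ) - (i : ℕ)) * w * s) * ⟪α i, α j⟫_ℂ := fun s => by
    rw [← inner_tp, inner_self_eq_norm_sq_to_K]; simp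
  simp only [e]
  rw [intervalIntegral.integral_finsetSum fun i _ => (by fun_prop : Continuous _).intervalIntegrable _ _]
  push_cast
  rw [mul_sum]
  refine sum_congr rfl fun i _ => ?_
  rw [intervalIntegral.integral_finsetSum fun j _ => (by fun_prop : Continuous _).intervalIntegrable _ _]
  simp only [intervalIntegral.integral_mul_const, integral_ch hh hw, Fin.val_inj]
  rw [sum_eq_single i (fun j _ hj => by simp [Ne.symm hj]) (by simp)]
  simp [inner_self_eq_norm_sq_to_K]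

/-- a strongly continuous family of self-adjoint contractions -/
structure SC (a : ℝ → Op H) : Prop where
  bd : ∀ s, ‖a s‖ ≤ 1
  cont : ∀ ξ, Continuous fun s => a s ξ
  sa : ∀ s, star (a s) = a s

/-- `L` is the integral of `G • a` over `[-h, h]` -/
def Sym (a : ℝ → Op H) (h : ℝ) (G : ℝ → ℂ) (L : Op H) : Prop :=
  ∀ ξ, L ξ = ∫ s in (-h)..h, G s • a s ξ

variable {a : ℝ → Op H} {h : ℝ} {G G' : ℝ → ℂ} {L L' : Op H}

lemma SC.app_le (ha : SC a) (s : ℝ) (ξ : H) : ‖a s ξ‖ ≤ ‖ξ‖ :=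
  ((a s).le_opNorm ξ).trans (by simpa using mul_le_mul_of_nonneg_right (ha.bd s) (norm_nonneg ξ))

lemma SC.ii (ha : SC a) (hG : Continuous G) (ξ : H) (b c : ℝ) :
    IntervalIntegrable (fun s => G s • a s ξ) volume b c :=
  (hG.smul (ha.cont ξ)).intervalIntegrable _ _

lemma exists_sym (ha : SC a) (hh : 0 ≤ h) (hG : Continuous G) : ∃ L, Sym a h G L := by
  have hn : ∀ ξ : H, ‖∫ s in (-h)..h, G s • a s ξ‖ ≤ (∫ s in (-h)..h, ‖G s‖) * ‖ξ‖ := fun ξ => by
    rw [← intervalIntegral.integral_mul_const]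
    refine intervalIntegral.norm_integral_le_of_norm_le (by linarith)
      (Eventually.of_forall fun s _ => ?_) ((hG.norm.mul continuous_const).intervalIntegrable _ _)
    rw [norm_smul]
    exact mul_le_mul_of_nonneg_left (ha.app_le s ξ) (norm_nonneg _)
  let L₀ : H →ₗ[ℂ] H :=
    { toFun := fun ξ => ∫ s in (-h)..h, G s • a s ξ
      map_add' := fun x y => by
        rw [← intervalIntegral.integral_add (ha.ii hG x _ _) (ha.ii hG y _ _)]
        simp only [map_add, smul_add]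
      map_smul' := fun c x => by
        rw [RingHom.id_apply, ← intervalIntegral.integral_smul]
        simp only [map_smul, smul_comm c] }
  exact ⟨L₀.mkContinuous _ hn, fun ξ => rfl⟩

lemma Sym.inner (ha : SC a) (hG : Continuous G) (hL : Sym a h G L) (η ξ : H) :
    ⟪η, L ξ⟫_ℂ = ∫ s in (-h)..h, G s * ⟪η, a s ξ⟫_ℂ := by
  rw [hL ξ, ← innerSL_apply_apply ℂ, ← (innerSL ℂ η).intervalIntegral_comp_comm (ha.ii hG ξ _ _)]
  simp only [innerSL_apply_apply, inner_smul_right]

lemma Sym.mem (ha : SC a) (hG : Continuous G) (hL : Sym a h G L) {M : VN H} (hM : ∀ s, a s ∈ M) :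
    L ∈ M := by
  refine mem_of_commute fun y hy => ?_
  ext ξ
  change L (y ξ) = y (L ξ)
  rw [hL, hL, ← y.intervalIntegral_comp_comm (ha.ii hG ξ _ _)]
  refine intervalIntegral.integral_congr fun s _ => ?_
  have := congrArg (fun T : Op H => T ξ) (commute_of_mem (hM s) hy).eq
  simp only [mul_apply_eq_comp] at this
  simp only [map_smul, this]

lemma Sym.star_eq (ha : SC a) (hG : Continuous G) (hG' : Continuous G') (hL : Sym a h G L)
    (hL' : Sym a h G' L') (hc : ∀ s, G' s = conj (G s)) : star L = L' := by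
  ext ξ
  refine ext_inner_left ℂ fun η => ?_
  rw [inner_star_right, ← inner_conj_symm, hL.inner ha hG, hL'.inner ha hG',
    ← intervalIntegral.intervalIntegral_conj]
  refine intervalIntegral.integral_congr fun s _ => ?_
  simp only [map_mul, hc, inner_conj_symm]
  rw [← inner_star_right, ha.sa]

lemma Sym.sub (ha : SC a) (hG : Continuous G) (hG' : Continuous G') (hL : Sym a h G L)
    (hL' : Sym a h G' L') : Sym a h (fun s => G s - G' s) (L - L') := fun ξ => by
  rw [_root_.sub_apply, hL, hL',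
    ← intervalIntegral.integral_sub (ha.ii hG ξ _ _) (ha.ii hG' ξ _ _)]
  simp only [sub_smul]

lemma Sym.smul (hL : Sym a h G L) (c : ℂ) : Sym a h (fun s => c * G s) (c • L) := fun ξ => by
  rw [_root_.smul_apply, hL, ← intervalIntegral.integral_smul]
  simp only [mul_smul]

lemma Sym.congr (hL : Sym a h G L) (e : ∀ s, G s = G' s) : Sym a h G' L := by
  rwa [← funext e]

lemma Sym.sum {ι : Type*} (ha : SC a) (S : Finset ι) {G : ι → ℝ → ℂ} {L : ι → Op H}
    (hG : ∀ i, Continuous (G i)) (hL : ∀ i, Sym a h (G i) (L i)) :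
    Sym a h (fun s => ∑ i ∈ S, G i s) (∑ i ∈ S, L i) := fun ξ => by
  simp only [_root_.sum_apply, sum_smul]
  rw [intervalIntegral.integral_finsetSum fun i _ => ha.ii (hG i) ξ _ _]
  exact sum_congr rfl fun i _ => hL i ξ

/-- translation of the symbol -/
lemma Sym.shift (ha : SC a) (hG : Continuous G) (hL : Sym a h G L) {p q : Op H} {t : ℝ}
    (hpq : ∀ s, p * a s * q = a (t + s)) (hs : ∀ s, G s ≠ 0 → |s| < h)
    (hs' : ∀ s, G (s - t) ≠ 0 → |s| < h) : Sym a h (fun s => G (s - t)) (p * L * q) := fun ξ => by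
  change p (L (q ξ)) = _
  rw [hL, ← p.intervalIntegral_comp_comm (ha.ii hG _ _ _)]
  have e : ∀ s, p (G s • a s (q ξ)) = G (t + s - t) • a (t + s) ξ := fun s => by
    rw [← hpq, map_smul, add_sub_cancel_left]; rfl
  simp only [e]
  rw [intervalIntegral.integral_eq_integral_of_support_subset,
    intervalIntegral.integral_eq_integral_of_support_subset]
  · exact integral_add_left_eq_self (fun s => G (s - t) • a s ξ) t
  · intro s hs0
    have := abs_lt.1 (hs' s (left_ne_zero_of_smul hs0))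
    exact ⟨this.1, this.2.le⟩
  · intro s hs0
    have h1 : G (t + s - t) ≠ 0 := left_ne_zero_of_smul hs0
    rw [add_sub_cancel_left] at h1
    have := abs_lt.1 (hs s h1)
    exact ⟨this.1, this.2.le⟩

/-- the norm of an operator valued Toeplitz matrix -/
lemma matB_of_sym {n : ℕ} {w c : ℝ} (ha : SC a) (hh : 0 < h) (hw : w * h = Real.pi) (hc : 0 < c)
    (hG : Continuous G) (hGc : ∀ s, ‖G s‖ ≤ c / (2 * h)) {X : Matrix (Fin n) (Fin n) (Op H)}
    (hX : ∀ i j : Fin n, Sym a h (fun s => G s * ch ((((j : ℕ) : ℝ) - (i : ℕ)) * w * s)) (X i j)) :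
    MatB X c := fun α => by
  set β : Fin n → H := fun i => ∑ j, X i j (α j) with hβ
  have hcont : ∀ i j : Fin n, Continuous fun s =>
      G s * ch ((((j : ℕ) : ℝ) - (i : ℕ)) * w * s) * ⟪β i, a s (α j)⟫_ℂ := fun i j =>
    Continuous.mul (by fun_prop) (continuous_const.inner (ha.cont _))
  have e1 : ((∑ i, ‖β i‖ ^ 2 : ℝ) : ℂ) =
      ∫ s in (-h)..h, G s * ⟪tp w β s, a s (tp w α s)⟫_ℂ := by
    have e2 : ∀ s, G s * ⟪tp w β s, a s (tp w α s)⟫_ℂ = ∑ i : Fin n, ∑ j : Fin n,
        G s * ch ((((j : ℕ) : ℝ) - (i : ℕ)) * w * s) * ⟪β i, a s (α j)⟫_ℂ := fun s => by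
      have : a s (tp w α s) = tp w (fun j => a s (α j)) s := by simp [tp]
      rw [this, inner_tp, mul_sum]
      refine sum_congr rfl fun i _ => ?_
      rw [mul_sum]
      exact sum_congr rfl fun j _ => by ring
    simp only [e2]
    rw [intervalIntegral.integral_finsetSum fun i _ =>
      (continuous_finsetSum _ fun j _ => hcont i j).intervalIntegrable _ _]
    push_cast
    refine sum_congr rfl fun i _ => ?_
    rw [intervalIntegral.integral_finsetSum fun j _ => (hcont i j).intervalIntegrable _ _]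
    have e3 : ((‖β i‖ : ℂ)) ^ 2 = ⟪β i, β i⟫_ℂ := by rw [inner_self_eq_norm_sq_to_K]; simp
    rw [e3]
    conv_lhs => rw [show ⟪β i, β i⟫_ℂ = ⟪β i, ∑ j, X i j (α j)⟫_ℂ from rfl, inner_sum]
    exact sum_congr rfl fun j _ => (hX i j).inner ha (by fun_prop) _ _
  have hB0 : 0 ≤ ∑ i, ‖β i‖ ^ 2 := sum_nonneg fun i _ => sq_nonneg _
  have e4 : ∑ i, ‖β i‖ ^ 2 ≤
      ∫ s in (-h)..h, (1 / (4 * h) * ‖tp w β s‖ ^ 2 + c ^ 2 / (4 * h) * ‖tp w α s‖ ^ 2) := by
    have : ∑ i, ‖β i‖ ^ 2 = ‖((∑ i, ‖β i‖ ^ 2 : ℝ) : ℂ)‖ := by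
      rw [Complex.norm_real, Real.norm_of_nonneg hB0]
    rw [this, e1]
    refine intervalIntegral.norm_integral_le_of_norm_le (by linarith)
      (Eventually.of_forall fun s _ => ?_)
      (Continuous.intervalIntegrable (((continuous_tp w β).norm.pow 2).const_mul _ |>.add
        (((continuous_tp w α).norm.pow 2).const_mul _)) _ _)
    rw [norm_mul]
    have h1 : ‖⟪tp w β s, a s (tp w α s)⟫_ℂ‖ ≤ ‖tp w β s‖ * ‖tp w α s‖ :=
      (norm_inner_le_norm _ _).trans (mul_le_mul_of_nonneg_left (ha.app_le _ _) (norm_nonneg _))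
    refine (mul_le_mul (hGc s) h1 (norm_nonneg _) (by positivity)).trans ?_
    have h2 : 1 / (4 * h) * ‖tp w β s‖ ^ 2 + c ^ 2 / (4 * h) * ‖tp w α s‖ ^ 2 -
        c / (2 * h) * (‖tp w β s‖ * ‖tp w α s‖) =
        1 / (4 * h) * (‖tp w β s‖ - c * ‖tp w α s‖) ^ 2 := by field_simp; ring
    have h3 : 0 ≤ 1 / (4 * h) * (‖tp w β s‖ - c * ‖tp w α s‖) ^ 2 := by positivity
    linarith
  have hcβ : Continuous fun s => 1 / (4 * h) * ‖tp w β s‖ ^ 2 :=
    ((continuous_tp w β).norm.pow 2).const_mul _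
  have hcα : Continuous fun s => c ^ 2 / (4 * h) * ‖tp w α s‖ ^ 2 :=
    ((continuous_tp w α).norm.pow 2).const_mul _
  rw [intervalIntegral.integral_add (hcβ.intervalIntegrable _ _) (hcα.intervalIntegrable _ _),
    intervalIntegral.integral_const_mul, intervalIntegral.integral_const_mul,
    parseval hh hw, parseval hh hw] at e4
  have e5 : 1 / (4 * h) * (2 * h * ∑ j, ‖β j‖ ^ 2) + c ^ 2 / (4 * h) * (2 * h * ∑ j, ‖α j‖ ^ 2) =
      (∑ j, ‖β j‖ ^ 2) / 2 + c ^ 2 * (∑ j, ‖α j‖ ^ 2) / 2 := by field_simp; ring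
  rw [e5] at e4
  change ∑ i, ‖β i‖ ^ 2 ≤ _
  linarith

/-- the Fejér kernel -/
noncomputable def fej (n : ℕ) (w s : ℝ) : ℝ := ‖tp w (fun _ : Fin (n + 1) => (1 : ℂ)) s‖ ^ 2 / (n + 1)

lemma fej_nonneg (n : ℕ) (w s : ℝ) : 0 ≤ fej n w s := by unfold fej; positivity

lemma continuous_fej (n : ℕ) (w : ℝ) : Continuous (fej n w) :=
  ((continuous_tp w _).norm.pow 2).div_const _

lemma integral_fej {w : ℝ} (n : ℕ) (hh : 0 < h) (hw : w * h = Real.pi) :
    ∫ s in (-h)..h, fej n w s = 2 * h := by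
  unfold fej
  rw [intervalIntegral.integral_div, parseval hh hw]
  simp
  field_simp

lemma fej_eq (n : ℕ) (w s : ℝ) : ((fej n w s : ℝ) : ℂ) = ((n : ℂ) + 1)⁻¹ *
    ∑ i : Fin (n + 1), ∑ j : Fin (n + 1), ch ((((j : ℕ) : ℝ) - (i : ℕ)) * w * s) := by
  have := inner_tp w (fun _ : Fin (n + 1) => (1 : ℂ)) (fun _ => 1) s
  rw [inner_self_eq_norm_sq_to_K] at this
  simp only [inner_self_eq_norm_sq_to_K, norm_one] at this
  simp only [Complex.coe_algebraMap, Complex.ofReal_one, one_pow, mul_one] at this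
  rw [← this, fej]
  push_cast
  ring

lemma fej_mul_sq_le {w s : ℝ} (n : ℕ) (hs : |w * s| ≤ Real.pi) :
    fej n w s * (w * s) ^ 2 ≤ Real.pi ^ 2 / (n + 1) := by
  have h1 : tp w (fun _ : Fin (n + 1) => (1 : ℂ)) s * (ch (w * s) - 1) =
      ch (w * s) ^ (n + 1) - 1 := by
    rw [← geom_sum_mul, tp, Finset.sum_range]
    congr 1
    refine sum_congr rfl fun j _ => ?_
    rw [ch_pow, smul_eq_mul, mul_one, mul_assoc]
  have h2 : ‖ch (w * s) ^ (n + 1) - 1‖ ≤ 2 := by
    refine (norm_sub_le _ _).trans ?_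
    rw [norm_pow, norm_ch, one_pow, norm_one]; norm_num
  have h3 : 2 / Real.pi * |w * s| ≤ ‖ch (w * s) - 1‖ := by
    rw [ch, Complex.norm_exp_I_mul_ofReal_sub_one, Real.norm_eq_abs, abs_mul 2, abs_two]
    have := Real.mul_abs_le_abs_sin (x := w * s / 2) (by rw [abs_div, abs_two]; linarith)
    rw [abs_div, abs_two] at this
    linarith
  rw [← h1, norm_mul] at h2
  have h4 : ‖tp w (fun _ : Fin (n + 1) => (1 : ℂ)) s‖ * |w * s| ≤ Real.pi := by
    have h5 := (mul_le_mul_of_nonneg_left h3 (norm_nonneg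
      (tp w (fun _ : Fin (n + 1) => (1 : ℂ)) s))).trans h2
    have hπ := Real.pi_pos
    have : ‖tp w (fun _ : Fin (n + 1) => (1 : ℂ)) s‖ * |w * s| =
        Real.pi / 2 * (‖tp w (fun _ : Fin (n + 1) => (1 : ℂ)) s‖ * (2 / Real.pi * |w * s|)) := by
      field_simp
    rw [this]
    nlinarith
  have h6 := pow_le_pow_left₀ (by positivity) h4 2
  rw [mul_pow, sq_abs] at h6
  rw [fej, div_mul_eq_mul_div]
  gcongr

end Crest.Agent.R78.Toep
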