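import Crest.Agent.R78.Amp
import Crest.Agent.R78.ToepAux

/-! # Row 78: Toeplitz matrices of the modular flow -/

set_option autoImplicit false

namespace Crest.Agent.R78

open scoped InnerProductSpace ComplexOrder BigOperators Topology
open Filter
open Crest.Agent.R124 (Op cm)
open Crest.OpAlg (LineCalculus)

universe u

variable {H : Type u} [NormedAddCommGroup H] [InnerProductSpace ℂ H] [CompleteSpace H]

namespace Toep

open MeasureTheory Finset
open scoped ComplexConjugate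

/-- the tent function -/
noncomputable def tent (h s : ℝ) : ℝ := max 0 (1 - 2 * |s| / h)

lemma continuous_tent (h : ℝ) : Continuous (tent h) := by unfold tent; fun_prop

lemma tent_nonneg (h s : ℝ) : 0 ≤ tent h s := le_max_left _ _

lemma tent_le_one {h : ℝ} (hh : 0 < h) (s : ℝ) : tent h s ≤ 1 :=
  max_le zero_le_one (by have : 0 ≤ 2 * |s| / h := by positivity
                         linarith)

lemma one_sub_tent_le (h s : ℝ) : 1 - tent h s ≤ 2 * |s| / h := by
  have := le_max_right 0 (1 - 2 * |s| / h)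
  unfold tent; linarith

lemma lt_of_tent_ne {h : ℝ} (hh : 0 < h) {s : ℝ} (hs : tent h s ≠ 0) : |s| < h / 2 := by
  by_contra hc
  apply hs
  refine max_eq_left ?_
  rw [sub_nonpos, le_div_iff₀ hh]
  linarith [not_lt.1 hc]

lemma abs_tent_sub_le {h : ℝ} (hh : 0 < h) (s t : ℝ) :
    |tent h (s - t) - tent h s| ≤ 2 * |t| / h := by
  unfold tent
  rw [max_comm 0, max_comm 0]
  refine (abs_max_sub_max_le_abs _ _ _).trans ?_
  have e : 1 - 2 * |s - t| / h - (1 - 2 * |s| / h) = 2 / h * (|s| - |s - t|) := by ring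
  rw [e, abs_mul, abs_of_pos (by positivity : 0 < 2 / h)]
  have h1 : |(|s| - |s - t|)| ≤ |t| := by
    simpa using abs_abs_sub_abs_le_abs_sub s (s - t)
  calc _ ≤ 2 / h * |t| := by gcongr
    _ = _ := by ring

lemma continuous_app {U : ℝ → Op H} (hU : ∀ s, ‖U s‖ ≤ 1) (hc : ∀ ξ, Continuous fun s => U s ξ)
    {y : ℝ → H} (hy : Continuous y) : Continuous fun s => U s (y s) := by
  refine continuous_iff_continuousAt.2 fun s₀ => ?_
  have h1 : Tendsto (fun s => U s (y s - y s₀)) (𝓝 s₀) (𝓝 0) := by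
    refine squeeze_zero_norm (a := fun s => ‖y s - y s₀‖) (fun s => ?_) ?_
    · exact ((U s).le_opNorm _).trans
        (by simpa using mul_le_mul_of_nonneg_right (hU s) (norm_nonneg (y s - y s₀)))
    · exact tendsto_iff_norm_sub_tendsto_zero.1 hy.continuousAt
  have h2 := h1.add (hc (y s₀)).continuousAt
  simpa [ContinuousAt] using h2

/-- the Fejér mean approximates `x` on vectors -/
lemma approx {a : ℝ → Op H} (ha : SC a) {h w ρ ε R : ℝ} {n : ℕ} (hh : 0 < h)
    (hw : w * h = Real.pi) (hρ : 0 < ρ) (hε : 0 ≤ ε) {x Y : Op H} (hx : ‖x‖ ≤ 1) {ξ : H}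
    (hR : ‖ξ‖ ≤ R) (hξ : ∀ s, |s| ≤ ρ → ‖x ξ - a s ξ‖ ≤ ε)
    (hY : Sym a h (fun s => ((fej n w s / (2 * h) * tent h s : ℝ) : ℂ)) Y) :
    ‖(x - Y) ξ‖ ≤ ε + 2 * ρ * R / h + 2 * R * Real.pi ^ 2 / ((n + 1) * w * ρ) := by
  have hπ := Real.pi_pos
  have hw0 : 0 < w := by
    by_contra hc
    nlinarith [not_lt.1 hc]
  have hR0 : 0 ≤ R := (norm_nonneg _).trans hR
  have hxξ : ‖x ξ‖ ≤ R := (x.le_opNorm ξ).trans
    (by nlinarith [norm_nonneg ξ, norm_nonneg x])
  have hf := continuous_fej n w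
  have ht := continuous_tent h
  have e1 : x ξ = ∫ s in (-h)..h, ((fej n w s / (2 * h) : ℝ) : ℂ) • x ξ := by
    rw [intervalIntegral.integral_smul_const, intervalIntegral.integral_ofReal,
      intervalIntegral.integral_div, integral_fej n hh hw, div_self (by positivity)]
    simp
  have hc1 : Continuous fun s => ((fej n w s / (2 * h) : ℝ) : ℂ) • x ξ := by fun_prop
  have e2 : (x - Y) ξ = ∫ s in (-h)..h,
      ((fej n w s / (2 * h) : ℝ) : ℂ) • (x ξ - ((tent h s : ℝ) : ℂ) • a s ξ) := by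
    rw [_root_.sub_apply, hY ξ]
    conv_lhs => rw [e1]
    rw [← intervalIntegral.integral_sub (hc1.intervalIntegrable _ _) (ha.ii (by fun_prop) ξ _ _)]
    refine intervalIntegral.integral_congr fun s _ => ?_
    simp only [smul_sub, smul_smul, Complex.ofReal_mul]
  set A : ℝ := (ε + 2 * ρ * R / h) / (2 * h) with hA
  set B : ℝ := 2 * R * Real.pi ^ 2 / (h * (n + 1) * w ^ 2) with hB
  have hA0 : 0 ≤ A := by positivity
  have hB0 : 0 ≤ B := by positivity
  have hc2 : Continuous fun s => A * fej n w s := hf.const_mul _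
  have hc3 : Continuous fun s : ℝ => B * (ρ ^ 2 + s ^ 2)⁻¹ :=
    Continuous.const_mul (Continuous.inv₀ (by fun_prop) fun s => by positivity) _
  have e3 : ‖(x - Y) ξ‖ ≤ ∫ s in (-h)..h, (A * fej n w s + B * (ρ ^ 2 + s ^ 2)⁻¹) := by
    rw [e2]
    refine intervalIntegral.norm_integral_le_of_norm_le (by linarith)
      (Eventually.of_forall fun s hs => ?_) ((hc2.add hc3).intervalIntegrable _ _)
    have hF := fej_nonneg n w s
    rw [norm_smul, Complex.norm_real, Real.norm_of_nonneg (by positivity)]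
    have hta : ‖a s ξ‖ ≤ R := (ha.app_le s ξ).trans hR
    by_cases hsρ : |s| ≤ ρ
    · have h1 : ‖x ξ - ((tent h s : ℝ) : ℂ) • a s ξ‖ ≤ ε + 2 * ρ * R / h := by
        have e : x ξ - ((tent h s : ℝ) : ℂ) • a s ξ =
            (x ξ - a s ξ) + ((1 - tent h s : ℝ) : ℂ) • a s ξ := by
          push_cast; rw [sub_smul, one_smul]; abel
        rw [e]
        refine (norm_add_le _ _).trans (add_le_add (hξ s hsρ) ?_)
        rw [norm_smul, Complex.norm_real, Real.norm_of_nonneg (by linarith [tent_le_one hh s])]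
        calc _ ≤ (2 * ρ / h) * R := by
              refine mul_le_mul ((one_sub_tent_le h s).trans (by gcongr)) hta (norm_nonneg _)
                (by positivity)
          _ = _ := by ring
      have h2 : 0 ≤ B * (ρ ^ 2 + s ^ 2)⁻¹ := by positivity
      calc _ ≤ fej n w s / (2 * h) * (ε + 2 * ρ * R / h) := by gcongr
        _ = A * fej n w s := by rw [hA]; ring
        _ ≤ _ := by linarith
    · have h1 : ‖x ξ - ((tent h s : ℝ) : ℂ) • a s ξ‖ ≤ 2 * R := by
        refine (norm_sub_le _ _).trans ?_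
        rw [norm_smul, Complex.norm_real, Real.norm_of_nonneg (tent_nonneg h s)]
        have := mul_le_mul (tent_le_one hh s) hta (norm_nonneg _) zero_le_one
        linarith
      have h2 : |w * s| ≤ Real.pi := by
        rw [abs_mul, abs_of_pos hw0, ← hw]
        exact mul_le_mul_of_nonneg_left (abs_le.2 ⟨hs.1.le, hs.2⟩) hw0.le
      have h3 := fej_mul_sq_le n h2
      have h4 : ρ ^ 2 ≤ s ^ 2 := by
        rw [← sq_abs s]
        exact pow_le_pow_left₀ hρ.le (not_le.1 hsρ).le 2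
      have h5 : fej n w s * (ρ ^ 2 + s ^ 2) ≤ 2 * Real.pi ^ 2 / ((n + 1) * w ^ 2) := by
        rw [le_div_iff₀ (by positivity)] at h3 ⊢
        calc _ ≤ fej n w s * (s ^ 2 + s ^ 2) * ((n + 1) * w ^ 2) := by gcongr
          _ = 2 * (fej n w s * (w * s) ^ 2 * (n + 1)) := by ring
          _ ≤ _ := by linarith
      have h6 : fej n w s ≤ 2 * Real.pi ^ 2 / ((n + 1) * w ^ 2) * (ρ ^ 2 + s ^ 2)⁻¹ := by
        rw [← div_eq_mul_inv, le_div_iff₀ (by positivity)]; exact h5
      have h7 : 0 ≤ A * fej n w s := by positivity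
      calc _ ≤ (2 * Real.pi ^ 2 / ((n + 1) * w ^ 2) * (ρ ^ 2 + s ^ 2)⁻¹) / (2 * h) * (2 * R) := by
            gcongr
        _ = B * (ρ ^ 2 + s ^ 2)⁻¹ := by rw [hB]; field_simp
        _ ≤ _ := by linarith
  rw [intervalIntegral.integral_add (hc2.intervalIntegrable _ _) (hc3.intervalIntegrable _ _),
    intervalIntegral.integral_const_mul, intervalIntegral.integral_const_mul,
    integral_fej n hh hw, integral_inv_sq_add_sq hρ.ne'] at e3
  refine e3.trans (add_le_add (le_of_eq ?_) ?_)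
  · rw [hA]; field_simp
  · have h1 : Real.arctan (h / ρ) - Real.arctan (-h / ρ) ≤ Real.pi := by
      linarith [Real.arctan_lt_pi_div_two (h / ρ), Real.neg_pi_div_two_lt_arctan (-h / ρ)]
    calc _ ≤ B * (ρ⁻¹ * Real.pi) := by gcongr
      _ = _ := by
        rw [hB]
        nth_rewrite 2 [← hw]
        field_simp

/-- the geometric weights -/
noncomputable def wt (n : ℕ) (w : ℝ) (i : Fin (n + 1)) : ℝ :=
  Real.exp (-((i : ℕ) * w)) / ∑ k : Fin (n + 1), Real.exp (-((k : ℕ) * w))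

lemma Z_pos (n : ℕ) (w : ℝ) : 0 < ∑ k : Fin (n + 1), Real.exp (-((k : ℕ) * w)) :=
  sum_pos (fun _ _ => Real.exp_pos _) univ_nonempty

lemma wt_pos (n : ℕ) (w : ℝ) (i : Fin (n + 1)) : 0 < wt n w i :=
  div_pos (Real.exp_pos _) (Z_pos n w)

lemma sum_wt (n : ℕ) (w : ℝ) : ∑ i, wt n w i = 1 := by
  unfold wt
  rw [← sum_div, div_self (Z_pos n w).ne']

lemma log_wt (n : ℕ) (w : ℝ) (i j : Fin (n + 1)) :
    Real.log (wt n w j / wt n w i) = (((i : ℕ) : ℝ) - (j : ℕ)) * w := by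
  unfold wt
  rw [div_div_div_cancel_right₀ (Z_pos n w).ne', ← Real.exp_sub, Real.log_exp]
  ring

lemma inv_wt_le (n : ℕ) {w : ℝ} (hw : 0 ≤ w) (j : Fin (n + 1)) :
    1 / wt n w j ≤ (n + 1) * Real.exp (n * w) := by
  unfold wt
  rw [one_div_div, Real.exp_neg, div_inv_eq_mul]
  have h1 : ∑ k : Fin (n + 1), Real.exp (-((k : ℕ) * w)) ≤ n + 1 := by
    calc _ ≤ ∑ _k : Fin (n + 1), (1 : ℝ) := sum_le_sum fun k _ =>
          Real.exp_le_one_iff.2 (neg_nonpos.2 (by positivity))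
      _ = _ := by simp
  have h2 : ((j : ℕ) : ℝ) ≤ n := by exact_mod_cast Nat.lt_succ_iff.1 j.2
  gcongr

end Toep

open Toep in
/-- `w₀ = 2π/τ`, `f t = max 0 (1 - 4|t|/τ)`, `σ_t x = U t * x * U (-t)`, `n = ⌈L / w₀⌉`,
`lam i = e^{-i w₀} / Z`, `X i j = (1 / (2τ)) ∫ f t e^{-i (i - j) w₀ t} σ_t x dt` (defined on vectors,
cf. `R84.exists_smooth_mem`).  A matrix `(1/τ) ∫ G t e^{-i (i-j) w₀ t} σ_t x dt` with `|G| ≤ c`
supported in `[-τ/2, τ/2]` has norm `≤ c` (Cauchy–Schwarz and Parseval for trigonometric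
polynomials).  `twist t X` has symbol `f (· - t)`.  `(n+1)⁻¹ ∑ X i j` has the Fejér kernel
`|∑_{k ≤ n} e^{i k w₀ t}|² / (n + 1)` (nonnegative, mean one, `≤ π² / ((n+1) (w₀ t)²)`), so the mass
outside `|t| ≤ r'` is `≤ π / (L r')`.  `∑ 1 / lam j ≤ (n+1)³ e^{n w₀}`. -/
theorem toeplitz : ∃ C : ℝ, 0 ≤ C ∧ ∀ (H : Type u) [NormedAddCommGroup H] [InnerProductSpace ℂ H] [CompleteSpace H] (M : VN H) (U : ℝ → Op H), URep U →
    (∀ ξ, Continuous fun t => U t ξ) → (∀ t, Nml (U t) M) → ∀ x ∈ M, IsSelfAdjoint x → ‖x‖ ≤ 1 →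
    ∀ (V : Finset H) (r : ℝ), 0 < r → ∃ K₀ τ₀ : ℝ, 0 ≤ K₀ ∧ 0 < τ₀ ∧ ∀ τ : ℝ, τ₀ ≤ τ →
      ∃ (n : ℕ) (lam : Fin (n + 1) → ℝ) (X : Matrix (Fin (n + 1)) (Fin (n + 1)) (Op H)),
        (∀ i, 0 < lam i) ∧ ∑ i, lam i = 1 ∧ (∀ i j, X i j ∈ M) ∧ star X = X ∧ MatB X (1 / 2) ∧
        (∀ t : ℝ, |t| ≤ 1 → MatB (twist U lam t X - X) (C / τ)) ∧
        (∀ ξ ∈ V, ‖(x - (2 / ((n : ℂ) + 1)) • ∑ i, ∑ j, X i j) ξ‖ ≤ r) ∧
        ∑ _i : Fin (n + 1), ∑ j, 1 / lam j ≤ K₀ * τ * ((n : ℝ) + 1) ^ 2 := by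
  refine ⟨2, by norm_num, fun H _ _ _ M U hU hUc hUM x hxM hxs hx1 V r hr => ?_⟩
  have hπ := Real.pi_pos
  have hU1 : ∀ s, ‖U s‖ ≤ 1 := fun s => by
    rcases subsingleton_or_nontrivial (Op H) with h | h
    · simp [Subsingleton.elim (U s) 0]
    · exact (CStarRing.norm_of_mem_unitary (hU.unit s)).le
  set a : ℝ → Op H := fun s => U s * x * U (-s) with ha_def
  have ha : SC a := by
    refine ⟨fun s => ?_, fun ξ => ?_, fun s => ?_⟩
    · calc _ ≤ ‖U s‖ * ‖x‖ * ‖U (-s)‖ := (norm_mul_le _ _).trans (by gcongr; exact norm_mul_le _ _)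
        _ ≤ 1 * 1 * 1 := by gcongr <;> exact hU1 _
        _ = 1 := by norm_num
    · exact continuous_app hU1 hUc (x.continuous.comp ((hUc ξ).comp continuous_neg))
    · simp only [ha_def, hU.neg, star_mul, star_star, hxs.star_eq, mul_assoc]
  have haM : ∀ s, a s ∈ M := fun s => by
    simp only [ha_def, hU.neg]; exact (hUM s x hxM).1
  have ha0 : a 0 = x := by simp [ha_def, hU.zero]
  have hsh : ∀ t s, U t * a s * U (-t) = a (t + s) := fun t s => by
    simp only [ha_def]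
    rw [neg_add_rev, hU.add, hU.add]
    simp only [mul_assoc]
  obtain ⟨ρ, hρ, hρV⟩ : ∃ ρ : ℝ, 0 < ρ ∧ ∀ ξ ∈ V, ∀ s, |s| ≤ ρ → ‖x ξ - a s ξ‖ ≤ r / 3 := by
    have h1 : ∀ᶠ s in 𝓝 (0 : ℝ), ∀ ξ ∈ V, dist (a s ξ) (a 0 ξ) < r / 3 :=
      (eventually_all_finset V).2 fun ξ _ =>
        Metric.tendsto_nhds.1 (ha.cont ξ).continuousAt _ (by positivity)
    obtain ⟨δ, hδ, h2⟩ := Metric.eventually_nhds_iff.1 h1
    refine ⟨δ / 2, by positivity, fun ξ hξ s hs => ?_⟩
    have := h2 (y := s) (by rw [Real.dist_eq, sub_zero]; linarith) ξ hξ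
    rw [ha0, dist_comm, dist_eq_norm] at this
    exact this.le
  set R : ℝ := ∑ ξ ∈ V, ‖ξ‖ with hR
  have hR0 : 0 ≤ R := Finset.sum_nonneg fun _ _ => norm_nonneg _
  have hRV : ∀ ξ ∈ V, ‖ξ‖ ≤ R := fun ξ hξ =>
    Finset.single_le_sum (f := fun ξ : H => ‖ξ‖) (fun _ _ => norm_nonneg _) hξ
  set L : ℝ := 3 * Real.pi * (R + 1) / (ρ * r) with hL
  have hL0 : 0 < L := by positivity
  refine ⟨(L + 1) * Real.exp (2 * Real.pi * L + 2 * Real.pi), 4 + 12 * ρ * R / r, by positivity,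
    by positivity, fun τ hτ => ?_⟩
  have hq : 0 ≤ 12 * ρ * R / r := by positivity
  have hτ4 : 4 ≤ τ := by linarith
  have hτ0 : 0 < τ := by linarith
  set h : ℝ := τ / 2 with hh_def
  have hh : 0 < h := by positivity
  set w : ℝ := 2 * Real.pi / τ with hw_def
  have hw0 : 0 < w := by positivity
  have hw : w * h = Real.pi := by rw [hw_def, hh_def]; field_simp
  set n : ℕ := ⌈L * τ⌉₊ with hn
  have hn1 : L * τ ≤ n := Nat.le_ceil _
  have hn2 : (n : ℝ) < L * τ + 1 := Nat.ceil_lt_add_one (by positivity)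
  set G : ℝ → ℂ := fun s => ((tent h s / (4 * h) : ℝ) : ℂ) with hG_def
  have ht := continuous_tent h
  have hG : Continuous G := by rw [hG_def]; fun_prop
  have hGe : ∀ i j : Fin (n + 1), Continuous fun s =>
      G s * ch ((((j : ℕ) : ℝ) - (i : ℕ)) * w * s) := fun i j => by fun_prop
  choose X hX using fun i j : Fin (n + 1) => exists_sym ha hh.le (hGe i j)
  refine ⟨n, wt n w, Matrix.of X, wt_pos n w, sum_wt n w, fun i j => (hX i j).mem ha (hGe i j) haM,
    ?_, ?_, fun t ht1 => ?_, fun ξ hξ => ?_, ?_⟩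
  · ext1 i j
    rw [Matrix.star_apply]
    refine (hX j i).star_eq ha (hGe j i) (hGe i j) (hX i j) fun s => ?_
    rw [map_mul, conj_ch, hG_def, Complex.conj_ofReal]
    congr 2
    ring
  · refine matB_of_sym ha hh hw (by norm_num) hG (fun s => ?_) hX
    rw [hG_def, Complex.norm_real, Real.norm_of_nonneg (by have := tent_nonneg h s; positivity)]
    calc _ ≤ 1 / (4 * h) := by gcongr; exact tent_le_one hh s
      _ = _ := by field_simp; norm_num
  · refine matB_of_sym (G := fun s => G (s - t) - G s) ha hh hw (by positivity) (by fun_prop)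
      (fun s => ?_) fun i j => ?_
    · simp only [hG_def]
      rw [← Complex.ofReal_sub, Complex.norm_real, ← sub_div, Real.norm_eq_abs, abs_div,
        abs_of_pos (by positivity : 0 < 4 * h)]
      calc _ ≤ (2 * |t| / h) / (4 * h) := by gcongr; exact abs_tent_sub_le hh s t
        _ ≤ (2 * 1 / h) / (4 * h) := by gcongr
        _ = _ := by rw [hh_def]; field_simp; norm_num
    · have hne : ∀ s, G s * ch ((((j : ℕ) : ℝ) - (i : ℕ)) * w * s) ≠ 0 → |s| < h / 2 :=
        fun s hs => by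
          refine lt_of_tent_ne hh fun h0 => hs ?_
          simp [hG_def, h0]
      have h1 := ((hX i j).shift ha (hGe i j) (hsh t) (fun s hs => by linarith [hne s hs])
        (fun s hs => by
          have h2 := hne _ hs
          have h3 : |s| ≤ |s - t| + |t| := by simpa using abs_add_le (s - t) t
          linarith)).smul
        (Complex.exp (-(Complex.I * (t * Real.log (wt n w j / wt n w i) : ℝ))))
      refine (Sym.sub ha (by fun_prop) (hGe i j) h1 (hX i j)).congr fun s => ?_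
      have e : Complex.exp (-(Complex.I * (t * Real.log (wt n w j / wt n w i) : ℝ))) =
          ch ((((j : ℕ) : ℝ) - (i : ℕ)) * w * t) := by
        rw [log_wt, ch]; congr 1; push_cast; ring
      have e' : ch ((((j : ℕ) : ℝ) - (i : ℕ)) * w * s) =
          ch ((((j : ℕ) : ℝ) - (i : ℕ)) * w * t) * ch ((((j : ℕ) : ℝ) - (i : ℕ)) * w * (s - t)) := by
        rw [← ch_add]; congr 1; ring
      rw [e, e']
      ring
  · have h1 := (Sym.sum ha Finset.univ (fun i => continuous_finsetSum _ fun j _ => hGe i j)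
      fun i => Sym.sum ha Finset.univ (hGe i) (hX i)).smul (2 / ((n : ℂ) + 1))
    have h2 := approx (n := n) ha hh hw hρ (by positivity) hx1 (hRV ξ hξ) (hρV ξ hξ)
      (h1.congr fun s => by
        simp only [← Finset.mul_sum]
        rw [Complex.ofReal_mul, Complex.ofReal_div, fej_eq, hG_def]
        have : (h : ℂ) ≠ 0 := by exact_mod_cast hh.ne'
        generalize ∑ i : Fin (n + 1), ∑ j : Fin (n + 1),
          ch ((((j : ℕ) : ℝ) - (i : ℕ)) * w * s) = S
        push_cast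
        field_simp
        ring)
    refine h2.trans ?_
    have h3 : 2 * ρ * R / h ≤ r / 3 := by
      have h4 : 12 * ρ * R / r ≤ τ := by linarith
      rw [div_le_iff₀ hr] at h4
      rw [div_le_iff₀ hh, hh_def]
      linarith
    have h4 : 2 * R * Real.pi ^ 2 / ((n + 1) * w * ρ) ≤ r / 3 := by
      have h5 : 2 * Real.pi * L ≤ (n + 1) * w := by
        rw [hw_def, ← mul_div_assoc ((n : ℝ) + 1), le_div_iff₀ hτ0]
        have := mul_le_mul_of_nonneg_left hn1 (by positivity : 0 ≤ 2 * Real.pi)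
        linarith
      calc _ ≤ 2 * (R + 1) * Real.pi ^ 2 / (2 * Real.pi * L * ρ) := by gcongr; linarith
        _ = _ := by rw [hL]; field_simp
    linarith
  · have h1 : (n : ℝ) + 1 ≤ (L + 1) * τ := by linarith
    have h2 : n * w ≤ 2 * Real.pi * L + 2 * Real.pi := by
      rw [hw_def, ← mul_div_assoc (n : ℝ), div_le_iff₀ hτ0]
      have h3 := mul_le_mul_of_nonneg_left hn2.le (by positivity : 0 ≤ 2 * Real.pi)
      have h4 := mul_le_mul_of_nonneg_left hτ4 (by positivity : 0 ≤ 2 * Real.pi)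
      linarith
    calc _ ≤ ∑ _i : Fin (n + 1), ∑ _j : Fin (n + 1), ((n : ℝ) + 1) * Real.exp (n * w) :=
          Finset.sum_le_sum fun _ _ => Finset.sum_le_sum fun j _ => inv_wt_le n hw0.le j
      _ = ((n : ℝ) + 1) * Real.exp (n * w) * ((n : ℝ) + 1) ^ 2 := by simp; ring
      _ ≤ (L + 1) * τ * Real.exp (2 * Real.pi * L + 2 * Real.pi) * ((n : ℝ) + 1) ^ 2 := by gcongr
      _ = _ := by ring

end Crest.Agent.R78
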