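import Crest.Agent.R78.Pair
import Crest.Agent.R78.Toep
import Crest.Agent.R78.MVcore

/-! # Row 78: local channels erase finitely many commutator functionals -/

set_option autoImplicit false

namespace Crest.Agent.R78

open scoped InnerProductSpace ComplexOrder BigOperators Topology
open Filter
open Crest.Agent.R124 (Op cm)
open Crest.OpAlg (LineCalculus)

universe u

variable {H : Type u} [NormedAddCommGroup H] [InnerProductSpace ℂ H] [CompleteSpace H]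

namespace MV1

omit [CompleteSpace H] in
lemma norm_sum_le {n : ℕ} {X : Matrix (Fin (n + 1)) (Fin (n + 1)) (Op H)} (h : MatB X (1 / 2)) :
    ‖(2 / ((n : ℂ) + 1)) • ∑ i, ∑ j, X i j‖ ≤ 1 := by
  refine ContinuousLinearMap.opNorm_le_bound _ zero_le_one fun ξ => ?_
  have h1 := h (fun _ => ξ)
  have h2 := R124.norm_sum_sq_le Finset.univ (fun i => ∑ j, X i j ξ)
  simp only [Finset.sum_const, Finset.card_univ, Fintype.card_fin, nsmul_eq_mul] at h1 h2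
  push_cast at h1 h2
  have hn : (0 : ℝ) < n + 1 := by positivity
  have h3 : ‖∑ i, ∑ j, X i j ξ‖ ≤ (n + 1) / 2 * ‖ξ‖ := by
    refine (pow_le_pow_iff_left₀ (norm_nonneg _) (by positivity) two_ne_zero).1 ?_
    calc _ ≤ _ := h2
      _ ≤ (n + 1) * ((1 / 2) ^ 2 * ((n + 1) * ‖ξ‖ ^ 2)) := by gcongr
      _ = _ := by ring
  have h4 : ‖(2 / ((n : ℂ) + 1))‖ = 2 / (n + 1) := by
    rw [norm_div, show ((n : ℂ) + 1) = ((n + 1 : ℝ) : ℂ) by push_cast; rfl, Complex.norm_real,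
      Real.norm_of_nonneg hn.le]
    simp
  rw [_root_.smul_apply, norm_smul, h4]
  simp only [_root_.sum_apply]
  calc _ ≤ 2 / (n + 1) * ((n + 1) / 2 * ‖ξ‖) := by gcongr
    _ = _ := by field_simp

omit [CompleteSpace H] in
lemma Read.smul {D : Type} [Fintype D] {lam : D → ℝ} {A : Matrix D D (Op H)} {x : Op H} {K : ℝ}
    (h : Read lam A x K) (c : ℂ) : Read lam A (c • x) (‖c‖ ^ 2 * K) := fun g ζ => by
  rw [R124.cm_smul, _root_.smul_apply, norm_smul, mul_pow, mul_assoc]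
  exact mul_le_mul_of_nonneg_left (h g ζ) (sq_nonneg _)

lemma arith {K K' c u g G z d x : ℝ} (hK : 0 ≤ K) (hc : 0 ≤ c) (hu : 1 ≤ u) (hG0 : 0 ≤ G)
    (hG : G ≤ g) (hx0 : 0 ≤ x) (hx : x ≤ 1) (hz : 0 ≤ z) (hd0 : 0 ≤ d) (hd : d ≤ c / u ^ 6 * z)
    (hK' : K' ≤ K * u ^ 6) :
    √(K' * (G ^ 2 / u ^ 8 + 2 * G * (2 * g / u ^ 10))) * z + 2 * G * x * (√(u ^ 8) * d) +
      2 * u ^ 8 * (2 * g / u ^ 10) * x * z ≤ (√(5 * K) + 2 * c + 4) * z / u * g := by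
  have hu0 : 0 < u := by linarith
  have hg : 0 ≤ g := hG0.trans hG
  have hu2 : u ≤ u ^ 2 := by nlinarith
  have h1 : √(K' * (G ^ 2 / u ^ 8 + 2 * G * (2 * g / u ^ 10))) ≤ √(5 * K) / u * g := by
    rw [Real.sqrt_le_left (by positivity), mul_pow, div_pow, Real.sq_sqrt (by positivity)]
    have e1 : u ^ 8 ≤ u ^ 10 := pow_le_pow_right₀ hu (by norm_num)
    calc _ ≤ K * u ^ 6 * (g ^ 2 / u ^ 8 + 2 * g * (2 * g / u ^ 8)) := by gcongr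
      _ = _ := by field_simp; ring
  have h2 : √(u ^ 8) = u ^ 4 := by
    rw [show u ^ 8 = (u ^ 4) ^ 2 by ring, Real.sqrt_sq (by positivity)]
  have h3 : 2 * G * x * (√(u ^ 8) * d) ≤ 2 * c * z / u * g := by
    rw [h2]
    calc _ ≤ 2 * g * 1 * (u ^ 4 * (c / u ^ 6 * z)) := by gcongr
      _ = 2 * c * z / u ^ 2 * g := by field_simp
      _ ≤ _ := by gcongr
  have h4 : 2 * u ^ 8 * (2 * g / u ^ 10) * x * z ≤ 4 * z / u * g := by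
    calc _ ≤ 2 * u ^ 8 * (2 * g / u ^ 10) * 1 * z := by gcongr
      _ = 4 * z / u ^ 2 * g := by field_simp; ring
      _ ≤ _ := by gcongr
  have h5 := mul_le_mul_of_nonneg_right h1 hz
  have e : (√(5 * K) + 2 * c + 4) * z / u * g =
      √(5 * K) / u * g * z + 2 * c * z / u * g + 4 * z / u * g := by ring
  linarith

/-- the commutator with a self-adjoint operator that is small on two vectors -/
lemma inner_cm_le (G : Op H) {d : Op H} (hd : IsSelfAdjoint d) (η ξ : H) :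
    ‖⟪η, cm G d ξ⟫_ℂ‖ ≤ ‖η‖ * (‖G‖ * ‖d ξ‖) + ‖d η‖ * (‖G‖ * ‖ξ‖) := by
  have e : ⟪η, cm G d ξ⟫_ℂ = ⟪η, G (d ξ)⟫_ℂ - ⟪d η, G ξ⟫_ℂ := by
    rw [← R124.inner_star_right d, hd.star_eq, ← inner_sub_right]; rfl
  rw [e]
  refine (norm_sub_le _ _).trans (add_le_add ?_ ?_) <;>
    exact (norm_inner_le_norm _ _).trans
      (mul_le_mul_of_nonneg_left (G.le_opNorm _) (norm_nonneg _))

lemma harm {M : VN H} {t t' : TP M} {n : ℕ} (hn : 1 ≤ n) (hΦ : ∀ g, t'.Φ g = ces t.Φ n g)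
    (hΨ : ∀ g, t'.Ψ g = ces t.Ψ n g) (g : Op H) :
    ‖t'.Φ (t'.Ψ g)‖ ≤ ‖g‖ ∧ ‖t.Φ (t'.Φ (t'.Ψ g)) - t'.Φ (t'.Ψ g)‖ ≤ 2 * ‖g‖ / n ∧
      ‖t.Ψ (t'.Φ (t'.Ψ g)) - t'.Φ (t'.Ψ g)‖ ≤ 2 * ‖g‖ / n := by
  refine ⟨(t'.norm_Φ_le _).trans (t'.norm_Ψ_le g), ?_, ?_⟩
  · rw [hΦ]
    refine (ces_harm (fun a b => chan_add a b) (fun c a => chan_smul c a) t.norm_Φ_le hn _).trans ?_
    gcongr; exact t'.norm_Ψ_le g
  · rw [t'.Φ_Ψ t', hΨ]
    refine (ces_harm (fun a b => chan_add a b) (fun c a => chan_smul c a) t.norm_Ψ_le hn _).trans ?_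
    gcongr; exact t'.norm_Φ_le g

lemma basic (S : MD H) {ι : Type} [Fintype ι] [Nonempty ι] (x : ι → Op H) (V : Finset H)
    (hx : ∀ i, x i ∈ S.M ∧ IsSelfAdjoint (x i) ∧ ‖x i‖ ≤ 1) {ε e : ℝ} (hε : 0 < ε) (he : 0 < e) :
    ∃ t : TP S.M, t.Dfc S.Ω e ∧ ∀ g : Op H, ∀ i, ∀ η ∈ V,
      ‖⟪η, cm (t.Φ (t.Ψ g)) (x i) S.Ω⟫_ℂ‖ ≤ ε * ‖g‖ ∧
      ‖⟪η, cm (t.Φ (t.Ψ g)) (jop S.J (x i)) S.Ω⟫_ℂ‖ ≤ ε * ‖g‖ := by
  classical
  obtain ⟨CT, hCT, hT⟩ := toeplitz.{u}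
  obtain ⟨CP, hCP, hP⟩ := exists_pair.{u}
  obtain ⟨R, hR0, hRΩ, hRV⟩ : ∃ R : ℝ, 0 < R ∧ ‖S.Ω‖ ≤ R ∧ ∀ η ∈ V, ‖η‖ ≤ R := by
    have h0 : 0 ≤ ∑ η ∈ V, ‖η‖ := Finset.sum_nonneg fun _ _ => norm_nonneg _
    refine ⟨1 + ‖S.Ω‖ + ∑ η ∈ V, ‖η‖, by positivity, by linarith, fun η hη => ?_⟩
    have := Finset.single_le_sum (f := fun ξ : H => ‖ξ‖) (fun _ _ => norm_nonneg _) hη
    linarith [norm_nonneg S.Ω]
  have hr : 0 < ε / (4 * R) := by positivity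
  choose K₀ τ₀ hK₀ hτ₀ hT using fun i => hT H S.M S.D.wave S.urep S.continuous_wave S.nml (x i)
    (hx i).1 (hx i).2.1 (hx i).2.2 (insert S.Ω (V ∪ V.image S.J)) _ hr
  set m : ℝ := ((Fintype.card ι : ℕ) : ℝ) with hm
  have hm0 : 0 < m := by rw [hm]; exact_mod_cast Fintype.card_pos
  set K : ℝ := 4 * m * ∑ i, K₀ i with hK
  have hK0 : 0 ≤ K := by
    have : 0 ≤ ∑ i, K₀ i := Finset.sum_nonneg fun i _ => hK₀ i
    positivity
  set A : ℝ := (√(5 * K) + 2 * (CP * CT) + 4) * R * R with hA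
  have hA0 : 0 ≤ A := by positivity
  have hτ : 0 ≤ ∑ i, τ₀ i := Finset.sum_nonneg fun i _ => (hτ₀ i).le
  obtain ⟨k, hk⟩ := exists_nat_ge (1 + ∑ i, τ₀ i + CP * CT / e + 2 * A / ε)
  have hq1 : 0 ≤ CP * CT / e := by positivity
  have hq2 : 0 ≤ 2 * A / ε := by positivity
  have hk1 : (1 : ℝ) ≤ k := by linarith
  have hk0 : (0 : ℝ) < k := by linarith
  have hk1' : 1 ≤ k := by exact_mod_cast hk1
  have hτk : ∀ i, τ₀ i ≤ (k : ℝ) ^ 6 := fun i => by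
    have h1 := Finset.single_le_sum (f := τ₀) (fun i _ => (hτ₀ i).le) (Finset.mem_univ i)
    have h2 : (k : ℝ) ≤ k ^ 6 := le_self_pow₀ hk1 (by norm_num)
    linarith
  choose n lam X hl0 hl1 hXM hXs hXB hXt hXa hXK using fun i => hT i _ (hτk i)
  choose t htΘ htd htA htB using fun i => hP H S (Fin (n i + 1)) (lam i) (X i) (CT / k ^ 6)
    (hl0 i) (hl1 i) (hXM i) (hXs i) (hXB i) (by positivity) (hXt i)
  have hw1 : ∑ _i : ι, 1 / m = 1 := by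
    rw [Finset.sum_const, Finset.card_univ, nsmul_eq_mul, ← hm]; field_simp
  obtain ⟨t', -, -, hΘ, hd, -, -, hRA, hRB⟩ :=
    TP.exists_mix (fun _ : ι => 1 / m) (fun _ => by positivity) hw1 t
  have hΘ' : IsSelfAdjoint t'.Θ := by
    rw [hΘ, IsSelfAdjoint, star_sum]
    refine Finset.sum_congr rfl fun i _ => ?_
    rw [star_smul, (htΘ i).star_eq, Complex.star_def, Complex.conj_ofReal]
  have hd' : t'.Dfc S.Ω (CP * CT / k ^ 6) := fun c hc => by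
    refine (pow_le_pow_iff_left₀ (t'.dfc_nonneg _) (by positivity) two_ne_zero).1 ?_
    rw [hd]
    calc _ ≤ ∑ _i : ι, 1 / m * (CP * CT / k ^ 6 * ‖c S.Ω‖) ^ 2 := by
          refine Finset.sum_le_sum fun i _ => ?_
          have h1 := htd i c hc
          rw [← mul_div_assoc] at h1
          have h2 := (t i).dfc_nonneg (c S.Ω)
          gcongr
      _ = _ := by rw [← Finset.sum_mul, hw1, one_mul]
  have hN : 1 ≤ k ^ 10 := Nat.one_le_pow _ _ hk1'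
  obtain ⟨t'', hΦ, hΨ, hd''⟩ := t'.exists_ces hΘ' hN
  refine ⟨t'', fun c hc => (hd'' _).trans ?_, fun g i η hη => ?_⟩
  · have h1 : √((k ^ 10 : ℕ) : ℝ) = k ^ 5 := by
      push_cast
      rw [show (k : ℝ) ^ 10 = (k ^ 5) ^ 2 by ring, Real.sqrt_sq (by positivity)]
    have h2 : CP * CT / k ≤ e := by
      rw [div_le_iff₀ hk0, mul_comm e, ← div_le_iff₀ he]; linarith
    rw [h1]
    calc _ ≤ (k : ℝ) ^ 5 * (CP * CT / k ^ 6 * ‖c S.Ω‖) := by gcongr; exact hd' c hc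
      _ = CP * CT / k * ‖c S.Ω‖ := by field_simp
      _ ≤ _ := by gcongr
  obtain ⟨hG, h1, h2⟩ := harm hN hΦ hΨ g
  set G := t''.Φ (t''.Ψ g)
  set a : ℂ := 2 / ((n i : ℂ) + 1) with ha
  set y : Op H := a • ∑ p, ∑ q, X i p q with hy
  have hyM : y ∈ S.M := smul_mem_vn _ (sum_mem fun p _ => sum_mem fun q _ => hXM i p q)
  have hy1 : ‖y‖ ≤ 1 := norm_sum_le (hXB i)
  have hac : starRingEnd ℂ a = a := by simp [ha, map_ofNat]
  have hys : IsSelfAdjoint y := by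
    rw [hy, IsSelfAdjoint, star_smul, Complex.star_def, hac, star_sum, Finset.sum_comm]
    congr 1
    refine Finset.sum_congr rfl fun p _ => ?_
    rw [star_sum]
    refine Finset.sum_congr rfl fun q _ => ?_
    conv_rhs => rw [← hXs i]
    rfl
  have hS0 : 0 ≤ ∑ _p : Fin (n i + 1), ∑ q, 1 / lam i q :=
    Finset.sum_nonneg fun _ _ => Finset.sum_nonneg fun q _ => (one_div_pos.2 (hl0 i q)).le
  set K' : ℝ := ‖a‖ ^ 2 * ((∑ _p : Fin (n i + 1), ∑ q, 1 / lam i q) / (1 / m)) with hK'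
  have hK'0 : 0 ≤ K' := by positivity
  have hK'K : K' ≤ K * k ^ 6 := by
    have hn : (0 : ℝ) < n i + 1 := by positivity
    have h4 : ‖a‖ = 2 / (n i + 1) := by
      rw [ha, norm_div, show ((n i : ℂ) + 1) = ((n i + 1 : ℝ) : ℂ) by push_cast; rfl,
        Complex.norm_real, Real.norm_of_nonneg hn.le]
      simp
    have h5 := Finset.single_le_sum (f := K₀) (fun i _ => hK₀ i) (Finset.mem_univ i)
    rw [hK', h4, hK]
    calc _ ≤ (2 / (n i + 1 : ℝ)) ^ 2 * (K₀ i * k ^ 6 * ((n i : ℝ) + 1) ^ 2 / (1 / m)) := by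
          gcongr; exact hXK i
      _ = 4 * m * K₀ i * k ^ 6 := by field_simp; ring
      _ ≤ _ := by gcongr
  have hRy : Read t'.lam t'.A y K' := Read.smul (hRA i _ _ hS0 (htA i)) a
  have hRy' : Read t'.lam t'.B (jop S.J y) K' := by
    rw [hy, jop_smul, hac]; exact Read.smul (hRB i _ _ hS0 (htB i)) a
  have hdΩ : t'.dfc S.Ω ≤ CP * CT / k ^ 6 * ‖S.Ω‖ :=
    hd' 1 ⟨one_mem _, one_mem _, IsStarProjection.one _⟩
  have hN8 : 1 ≤ k ^ 8 := Nat.one_le_pow _ _ hk1'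
  have fin : ∀ z d : Op H, ‖z‖ ≤ 1 → IsSelfAdjoint d → ‖d S.Ω‖ ≤ ε / (4 * R) →
      ‖d η‖ ≤ ε / (4 * R) →
      ‖cm G z S.Ω‖ ≤ √(K' * (‖G‖ ^ 2 / (k ^ 8 : ℕ) + 2 * ‖G‖ * (2 * ‖g‖ / (k ^ 10 : ℕ)))) * ‖S.Ω‖ +
        2 * ‖G‖ * ‖z‖ * (√((k ^ 8 : ℕ) : ℝ) * t'.dfc S.Ω) +
        2 * (k ^ 8 : ℕ) * (2 * ‖g‖ / (k ^ 10 : ℕ)) * ‖z‖ * ‖S.Ω‖ →
      ‖⟪η, cm G (d + z) S.Ω⟫_ℂ‖ ≤ ε * ‖g‖ := fun z d hz hds hd1 hd2 hc => by
    push_cast at hc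
    have h3 := hc.trans (arith hK0 (mul_nonneg hCP hCT) hk1 (norm_nonneg _) hG (norm_nonneg _) hz
      (norm_nonneg _) (t'.dfc_nonneg _) hdΩ hK'K)
    have h4 := inner_cm_le G hds η S.Ω
    have hη' := hRV η hη
    rw [R124.cm_add, _root_.add_apply, inner_add_right]
    have h5 : ‖⟪η, cm G d S.Ω⟫_ℂ‖ ≤ ε / 2 * ‖g‖ := by
      calc _ ≤ _ := h4
        _ ≤ R * (‖g‖ * (ε / (4 * R))) + ε / (4 * R) * (‖g‖ * R) := by gcongr
        _ = _ := by field_simp; ring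
    have h6 : ‖⟪η, cm G z S.Ω⟫_ℂ‖ ≤ ε / 2 * ‖g‖ := by
      have h7 : A / k ≤ ε / 2 := by
        rw [div_le_div_iff₀ hk0 two_pos, mul_comm ε, ← div_le_iff₀ hε, mul_comm A]; linarith
      calc _ ≤ ‖η‖ * ‖cm G z S.Ω‖ := norm_inner_le_norm _ _
        _ ≤ R * ((√(5 * K) + 2 * (CP * CT) + 4) * R / k * ‖g‖) := by
            refine mul_le_mul hη' (h3.trans ?_) (norm_nonneg _) hR0.le
            gcongr
        _ = A / k * ‖g‖ := by rw [hA]; ring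
        _ ≤ _ := by gcongr
    linarith [norm_add_le ⟪η, cm G d S.Ω⟫_ℂ ⟪η, cm G z S.Ω⟫_ℂ]
  have hds : IsSelfAdjoint (x i - y) := (hx i).2.1.sub hys
  have hΩ := hXa i S.Ω (Finset.mem_insert_self _ _)
  constructor
  · have := fin y (x i - y) hy1 hds hΩ
      (hXa i η (Finset.mem_insert_of_mem (Finset.mem_union_left _ hη)))
      (mv_core t' hΘ' hyM hK'0 hRy h1 h2 S.Ω hN8)
    rwa [sub_add_cancel] at this
  · have := fin (jop S.J y) (jop S.J (x i - y)) ((norm_jop_le _ _).trans hy1)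
      (by rw [IsSelfAdjoint, ← jop_star S.J_J, hds.star_eq])
      (by rw [jop_apply, S.J.norm_map, S.J_Ω]; exact hΩ)
      (by rw [jop_apply, S.J.norm_map]
          exact hXa i _ (Finset.mem_insert_of_mem (Finset.mem_union_right _
            (Finset.mem_image_of_mem _ hη))))
      (mv_core' t' hΘ' (S.J_mem y hyM) hK'0 hRy' h1 h2 S.Ω hN8)
    rwa [← jop_add, sub_add_cancel] at this

lemma split {M : VN H} {a : Op H} (ha : a ∈ M) {R : ℝ} (hR : 0 < R) (h : ‖a‖ ≤ R) :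
    ∃ b c : Op H, (b ∈ M ∧ IsSelfAdjoint b ∧ ‖b‖ ≤ 1) ∧ (c ∈ M ∧ IsSelfAdjoint c ∧ ‖c‖ ≤ 1) ∧
      a = (R : ℂ) • b + (R * Complex.I) • c := by
  have hR' : (R : ℂ) ≠ 0 := by exact_mod_cast hR.ne'
  have hn : ‖((2 * R : ℝ) : ℂ)⁻¹‖ = (2 * R)⁻¹ := by
    rw [norm_inv, Complex.norm_real, Real.norm_of_nonneg (by positivity)]
  have hb : ∀ z : Op H, ‖z‖ ≤ 2 * R → ‖((2 * R : ℝ) : ℂ)⁻¹ • z‖ ≤ 1 := fun z hz => by
    rw [norm_smul, hn, inv_mul_le_iff₀ (by positivity)]; linarith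
  refine ⟨((2 * R : ℝ) : ℂ)⁻¹ • (a + star a), ((2 * R : ℝ) : ℂ)⁻¹ • (Complex.I • (star a - a)),
    ⟨smul_mem_vn _ (add_mem ha (star_mem ha)), ?_, hb _ ?_⟩,
    ⟨smul_mem_vn _ (smul_mem_vn _ (sub_mem (star_mem ha) ha)), ?_, hb _ ?_⟩, ?_⟩
  · rw [IsSelfAdjoint, star_smul, star_add, star_star, add_comm, star_inv₀, Complex.star_def,
      Complex.conj_ofReal]
  · have := norm_add_le a (star a)
    rw [norm_star] at this; linarith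
  · rw [IsSelfAdjoint, star_smul, star_smul, star_sub, star_star, star_inv₀, Complex.star_def,
      Complex.conj_ofReal, Complex.conj_I, neg_smul, ← smul_neg, neg_sub]
  · have := norm_sub_le (star a) a
    rw [norm_star] at this
    rw [norm_smul, Complex.norm_I]; linarith
  · have e1 : (R : ℂ) * ((2 * R : ℝ) : ℂ)⁻¹ = 1 / 2 := by push_cast; field_simp
    have e2 : (R : ℂ) * Complex.I * (((2 * R : ℝ) : ℂ)⁻¹ * Complex.I) = -(1 / 2) := by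
      rw [mul_mul_mul_comm, e1, Complex.I_mul_I]; ring
    rw [smul_smul, smul_smul, smul_smul, mul_assoc _ _ Complex.I, e1, e2]
    module

end MV1

/-- basic case: self-adjoint contractions `x ∈ M`, vector `Ω`.  `toeplitz` with the vectors
`Ω, η, J η`, `τ = s³`, mix the pairs (`exists_mix`, uniform weights), Cesàro length `s⁵`
(`exists_ces`, `ces_harm`; `Φ` commutes with `ces Ψ`), martingale length `s⁴` (`mv_core`,
`mv_core'`); all errors are `O(s^{-1/2})`.  Note `⟪η, [G, d] Ω⟫ = ⟪η, G d Ω⟫ - ⟪d⋆ η, G Ω⟫`. -/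
theorem mv1_basic (S : MD H) (F : Finset (Op H)) (V : Finset H)
    (hF : ∀ x ∈ F, x ∈ S.M ∧ IsSelfAdjoint x ∧ ‖x‖ ≤ 1) {ε e : ℝ} (hε : 0 < ε) (he : 0 < e) :
    ∃ t : TP S.M, t.Dfc S.Ω e ∧ ∀ g : Op H, ∀ x ∈ F, ∀ η ∈ V,
      ‖⟪η, cm (t.Φ (t.Ψ g)) x S.Ω⟫_ℂ‖ ≤ ε * ‖g‖ ∧
      ‖⟪η, cm (t.Φ (t.Ψ g)) (jop S.J x) S.Ω⟫_ℂ‖ ≤ ε * ‖g‖ := by
  obtain ⟨t, ht, h⟩ := MV1.basic S (ι := Option (Fin F.card))
    (fun o => o.elim 0 fun i => (F.equivFin.symm i : Op H)) V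
    (fun o => by
      cases o with
      | none => exact ⟨zero_mem _, IsSelfAdjoint.zero _, by simp⟩
      | some i => exact hF _ (F.equivFin.symm i).2) hε he
  refine ⟨t, ht, fun g x hx η hη => ?_⟩
  simpa using h g (some (F.equivFin ⟨x, hx⟩)) η hη

/-- arbitrary elements of `M ∪ M'`, vector `Ω` -/
theorem MV1.mid (S : MD H) (F : Finset (Op H)) (V : Finset H)
    (hF : ∀ x ∈ F, x ∈ S.M ∨ x ∈ S.M.commutant) {ε e : ℝ} (hε : 0 < ε) (he : 0 < e) :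
    ∃ t : TP S.M, t.Dfc S.Ω e ∧ ∀ g : Op H, ∀ x ∈ F, ∀ η ∈ V,
      ‖⟪η, cm (t.Φ (t.Ψ g)) x S.Ω⟫_ℂ‖ ≤ ε * ‖g‖ := by
  classical
  obtain ⟨R, hR0, hR⟩ : ∃ R : ℝ, 0 < R ∧ ∀ x ∈ F, ‖x‖ ≤ R := by
    have h0 : 0 ≤ ∑ x ∈ F, ‖x‖ := Finset.sum_nonneg fun _ _ => norm_nonneg _
    refine ⟨1 + ∑ x ∈ F, ‖x‖, by positivity, fun x hx => ?_⟩
    have := Finset.single_le_sum (f := fun x : Op H => ‖x‖) (fun _ _ => norm_nonneg _) hx
    linarith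
  have h1 : ∀ x : F, ∃ b c : Op H, (b ∈ S.M ∧ IsSelfAdjoint b ∧ ‖b‖ ≤ 1) ∧
      (c ∈ S.M ∧ IsSelfAdjoint c ∧ ‖c‖ ≤ 1) ∧ ∃ α β : ℂ, ‖α‖ = R ∧ ‖β‖ = R ∧
      ((x : Op H) = α • b + β • c ∨ (x : Op H) = α • jop S.J b + β • jop S.J c) := fun x => by
    have hα : ‖(R : ℂ)‖ = R := by rw [Complex.norm_real, Real.norm_of_nonneg hR0.le]
    have hβ : ‖(R : ℂ) * Complex.I‖ = R := by rw [norm_mul, hα, Complex.norm_I, mul_one]
    rcases hF x x.2 with h | h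
    · obtain ⟨b, c, hb, hc, e⟩ := MV1.split h hR0 (hR x x.2)
      exact ⟨b, c, hb, hc, _, _, hα, hβ, Or.inl e⟩
    · obtain ⟨b, c, hb, hc, e⟩ := MV1.split (S.J_mem' x h) hR0 ((norm_jop_le _ _).trans (hR x x.2))
      refine ⟨b, c, hb, hc, starRingEnd ℂ R, starRingEnd ℂ (R * Complex.I),
        by rw [Complex.norm_conj, hα], by rw [Complex.norm_conj, hβ], Or.inr ?_⟩
      rw [← jop_smul, ← jop_smul, ← jop_add, ← e, jop_jop S.J_J]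
  choose b c hb hc h1 using h1
  obtain ⟨t, ht, h⟩ := mv1_basic S (Finset.univ.image b ∪ Finset.univ.image c) V
    (fun x hx => by
      rcases Finset.mem_union.1 hx with hx | hx <;> obtain ⟨i, -, rfl⟩ := Finset.mem_image.1 hx
      exacts [hb i, hc i]) (ε := ε / (2 * R)) (by positivity) he
  refine ⟨t, ht, fun g x hx η hη => ?_⟩
  obtain ⟨α, β, hα, hβ, e⟩ := h1 ⟨x, hx⟩
  have h2 := h g (b ⟨x, hx⟩) (Finset.mem_union_left _ (Finset.mem_image_of_mem _ (Finset.mem_univ _)))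
    η hη
  have h3 := h g (c ⟨x, hx⟩) (Finset.mem_union_right _ (Finset.mem_image_of_mem _ (Finset.mem_univ _)))
    η hη
  have key : ∀ p q : Op H, ‖⟪η, cm (t.Φ (t.Ψ g)) p S.Ω⟫_ℂ‖ ≤ ε / (2 * R) * ‖g‖ →
      ‖⟪η, cm (t.Φ (t.Ψ g)) q S.Ω⟫_ℂ‖ ≤ ε / (2 * R) * ‖g‖ →
      ‖⟪η, cm (t.Φ (t.Ψ g)) (α • p + β • q) S.Ω⟫_ℂ‖ ≤ ε * ‖g‖ := fun p q hp hq => by
    rw [R124.cm_add, R124.cm_smul, R124.cm_smul, _root_.add_apply,
      _root_.smul_apply, _root_.smul_apply, inner_add_right,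
      inner_smul_right, inner_smul_right]
    refine (norm_add_le _ _).trans ?_
    rw [norm_mul, norm_mul, hα, hβ]
    calc _ ≤ R * (ε / (2 * R) * ‖g‖) + R * (ε / (2 * R) * ‖g‖) := by gcongr
      _ = _ := by field_simp; ring
  rcases e with e | e <;> rw [show x = _ from e]
  exacts [key _ _ h2.1 h3.1, key _ _ h2.2 h3.2]

/-- approximate `ξ` by `y Ω` (`y` in the same algebra as `x`), `[G, x] y = [G, x y] - x [G, y]`,
split into self-adjoint parts, `M' = J M J` -/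
theorem mv1 (S : MD H) (F : Finset (Op H × H × H))
    (hF : ∀ p ∈ F, p.1 ∈ S.M ∨ p.1 ∈ S.M.commutant) {ε e : ℝ} (hε : 0 < ε) (he : 0 < e) :
    ∃ t : TP S.M, t.Dfc S.Ω e ∧ ∀ g : Op H, ∀ p ∈ F,
      ‖⟪p.2.2, cm (t.Φ (t.Ψ g)) p.1 p.2.1⟫_ℂ‖ ≤ ε * ‖g‖ := by
  classical
  have h1 : ∀ p : F, ∃ y : Op H, (p.1.1 * y ∈ S.M ∨ p.1.1 * y ∈ S.M.commutant) ∧
      (y ∈ S.M ∨ y ∈ S.M.commutant) ∧ ‖p.1.2.2‖ * (2 * ‖p.1.1‖ * ‖p.1.2.1 - y S.Ω‖) ≤ ε / 3 :=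
    fun p => by
    have hδ : 0 < ε / 3 / (‖p.1.2.2‖ * (2 * ‖p.1.1‖) + 1) := by positivity
    have key : ∀ y : Op H, dist p.1.2.1 (y S.Ω) < ε / 3 / (‖p.1.2.2‖ * (2 * ‖p.1.1‖) + 1) →
        ‖p.1.2.2‖ * (2 * ‖p.1.1‖ * ‖p.1.2.1 - y S.Ω‖) ≤ ε / 3 := fun y hy => by
      rw [dist_eq_norm, lt_div_iff₀ (by positivity)] at hy
      nlinarith [norm_nonneg (p.1.2.1 - y S.Ω)]
    rcases hF p p.2 with h | h
    · obtain ⟨_, ⟨y, hy, rfl⟩, hd⟩ := S.cyc.exists_dist_lt p.1.2.1 hδ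
      exact ⟨y, Or.inl (mul_mem h hy), Or.inl hy, key y hd⟩
    · obtain ⟨_, ⟨y, hy, rfl⟩, hd⟩ := S.cyc'.exists_dist_lt p.1.2.1 hδ
      exact ⟨y, Or.inr (mul_mem h hy), Or.inr hy, key y hd⟩
  choose y hy1 hy2 hy3 using h1
  obtain ⟨t, ht, h⟩ := MV1.mid S (Finset.univ.image (fun p : F => p.1.1 * y p) ∪ Finset.univ.image y)
    (F.image (fun p => p.2.2) ∪ F.image fun p : Op H × H × H => star p.1 p.2.2)
    (fun x hx => by
      rcases Finset.mem_union.1 hx with hx | hx <;> obtain ⟨i, -, rfl⟩ := Finset.mem_image.1 hx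
      exacts [hy1 i, hy2 i]) (ε := ε / 3) (by positivity) he
  refine ⟨t, ht, fun g p hp => ?_⟩
  have h2 := h g (p.1 * y ⟨p, hp⟩) (Finset.mem_union_left _
    (Finset.mem_image_of_mem (fun p : F => p.1.1 * y p) (Finset.mem_univ ⟨p, hp⟩)))
    p.2.2 (Finset.mem_union_left _ (Finset.mem_image_of_mem (fun p : Op H × H × H => p.2.2) hp))
  have h3 := h g (y ⟨p, hp⟩) (Finset.mem_union_right _
    (Finset.mem_image_of_mem _ (Finset.mem_univ _))) (star p.1 p.2.2)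
    (Finset.mem_union_right _ (Finset.mem_image_of_mem (fun p : Op H × H × H => star p.1 p.2.2) hp))
  have h4 := hy3 ⟨p, hp⟩
  have hG : ‖t.Φ (t.Ψ g)‖ ≤ ‖g‖ := (t.norm_Φ_le _).trans (t.norm_Ψ_le g)
  set G := t.Φ (t.Ψ g)
  set z := y ⟨p, hp⟩
  have e : ⟪p.2.2, cm G p.1 p.2.1⟫_ℂ = ⟪p.2.2, cm G p.1 (p.2.1 - z S.Ω)⟫_ℂ +
      (⟪p.2.2, cm G (p.1 * z) S.Ω⟫_ℂ - ⟪star p.1 p.2.2, cm G z S.Ω⟫_ℂ) := by
    rw [R124.inner_star_left, R124.cm_mul, map_sub, inner_sub_right, _root_.add_apply,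
      inner_add_right]
    simp only [mul_apply_eq_comp]
    ring
  have h5 : ‖⟪p.2.2, cm G p.1 (p.2.1 - z S.Ω)⟫_ℂ‖ ≤ ε / 3 * ‖g‖ := by
    calc _ ≤ ‖p.2.2‖ * ‖cm G p.1 (p.2.1 - z S.Ω)‖ := norm_inner_le_norm _ _
      _ ≤ ‖p.2.2‖ * (2 * ‖g‖ * ‖p.1‖ * ‖p.2.1 - z S.Ω‖) := by
          gcongr
          refine ((cm G p.1).le_opNorm _).trans ?_
          gcongr
          exact (R124.norm_cm_le _ _).trans (by gcongr)
      _ = ‖p.2.2‖ * (2 * ‖p.1‖ * ‖p.2.1 - z S.Ω‖) * ‖g‖ := by ring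
      _ ≤ _ := by gcongr
  rw [e]
  refine (norm_add_le _ _).trans ?_
  linarith [norm_sub_le ⟪p.2.2, cm G (p.1 * z) S.Ω⟫_ℂ ⟪star p.1 p.2.2, cm G z S.Ω⟫_ℂ]

end Crest.Agent.R78
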