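import Crest.Agent.R78.MV1

/-! # Row 78: iterated limits of local channels are central -/

set_option autoImplicit false

namespace Crest.Agent.R78

open scoped InnerProductSpace ComplexOrder BigOperators Topology
open Filter
open Crest.Agent.R124 (Op cm)
open Crest.OpAlg (LineCalculus)

universe u

variable {H : Type u} [NormedAddCommGroup H] [InnerProductSpace ℂ H] [CompleteSpace H]

namespace MV2

open Crest.Agent.R124 (inner_star_left)

lemma inner_cm (z x : Op H) (ξ η : H) :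
    ⟪η, cm z x ξ⟫_ℂ = ⟪η, z (x ξ)⟫_ℂ - ⟪star x η, z ξ⟫_ℂ := by
  rw [inner_star_left, ← inner_sub_right]; rfl

lemma exists_seq [TopologicalSpace.SeparableSpace H] (N : VN H) (ξ : ℕ → H) (hξ : DenseRange ξ) :
    ∃ x : ℕ → Op H, (∀ k, x k ∈ N) ∧ ∀ z : Op H,
      (∀ k n m, ⟪ξ m, cm z (x k) (ξ n)⟫_ℂ = 0) → ∀ y ∈ N, Commute z y := by
  have : SecondCountableTopology H := UniformSpace.secondCountable_of_separable H
  let ev : N → ℕ → H × H := fun x n => ((x : Op H) (ξ n), star (x : Op H) (ξ n))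
  have : Nonempty (Set.range ev) := ⟨⟨_, ⟨0, zero_mem N⟩, rfl⟩⟩
  obtain ⟨u, hu⟩ := TopologicalSpace.exists_dense_seq (Set.range ev)
  choose x hx using fun k => (u k).2
  refine ⟨fun k => x k, fun k => (x k).2, fun z hz y hy => ?_⟩
  have h1 : ∀ n m, ⟪ξ m, cm z y (ξ n)⟫_ℂ = 0 := fun n m => by
    let F : Set.range ev → ℂ := fun f => ⟪ξ m, z (f.1 n).1⟫_ℂ - ⟪(f.1 m).2, z (ξ n)⟫_ℂ
    have c : ∀ n, Continuous fun f : Set.range ev => f.1 n := fun n =>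
      (continuous_apply n).comp continuous_subtype_val
    have hF : Continuous F :=
      (continuous_const.inner (z.continuous.comp (c n).fst)).sub ((c m).snd.inner continuous_const)
    have h0 : F = fun _ => 0 := by
      refine hu.equalizer hF continuous_const (funext fun k => ?_)
      have := hz k n m
      rw [inner_cm] at this
      simp only [Function.comp, F, ← hx k]
      exact this
    rw [inner_cm]
    exact congrFun h0 ⟨_, ⟨y, hy⟩, rfl⟩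
  have h2 : ∀ n, cm z y (ξ n) = 0 := fun n =>
    Dense.eq_zero_of_inner_right hξ (𝕜 := ℂ) (by rintro _ ⟨m, rfl⟩; exact h1 n m)
  have h3 : cm z y = 0 := by
    ext1 v
    exact congrFun (hξ.equalizer (cm z y).continuous continuous_const (funext h2)) v
  exact sub_eq_zero.1 h3

end MV2

/-- a countable family of commutator functionals detects the centre: take sequences that are dense
in the unit balls of `M` and `M'` for `x ↦ (x ξ_n)_n ∈ (ℕ → H)` (second countable) -/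
theorem exists_tests [TopologicalSpace.SeparableSpace H] (M : VN H) :
    ∃ p : ℕ → Op H × H × H, (∀ k, (p k).1 ∈ M ∨ (p k).1 ∈ M.commutant) ∧
      ∀ z : Op H, (∀ k, ⟪(p k).2.2, cm z (p k).1 (p k).2.1⟫_ℂ = 0) → z ∈ M ∧ z ∈ M.commutant := by
  have : Nonempty H := ⟨0⟩
  obtain ⟨ξ, hξ⟩ := TopologicalSpace.exists_dense_seq H
  obtain ⟨x, hx, hx'⟩ := MV2.exists_seq M ξ hξ
  obtain ⟨y, hy, hy'⟩ := MV2.exists_seq M.commutant ξ hξ
  obtain ⟨σ, hσ⟩ := exists_surjective_nat (Bool × ℕ × ℕ × ℕ)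
  let q : Bool × ℕ × ℕ × ℕ → Op H × H × H := fun a =>
    (if a.1 then x a.2.1 else y a.2.1, ξ a.2.2.1, ξ a.2.2.2)
  refine ⟨fun k => q (σ k), fun k => ?_, fun z hz => ⟨?_, ?_⟩⟩
  · simp only [q]
    split_ifs
    exacts [Or.inl (hx _), Or.inr (hy _)]
  · refine mem_of_commute (hy' z fun k n m => ?_)
    obtain ⟨a, ha⟩ := hσ (false, k, n, m)
    simpa [q, ha] using hz a
  · refine mem_commutant_of fun w hw => (hx' z (fun k n m => ?_) w hw).symm
    obtain ⟨a, ha⟩ := hσ (true, k, n, m)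
    simpa [q, ha] using hz a

/-- finite sums of commutator functionals -/
def CF (M : VN H) (ω : Op H → ℂ) : Prop :=
  ∃ L : List (Op H × H × H), (∀ p ∈ L, p.1 ∈ M ∨ p.1 ∈ M.commutant) ∧
    ∀ g, ω g = (L.map fun p => ⟪p.2.2, cm g p.1 p.2.1⟫_ℂ).sum

namespace MV2

open Crest.Agent.R124 (inner_star_left)

variable {M : VN H}

lemma cf_zero : CF M fun _ => 0 := ⟨[], by simp, by simp⟩

lemma cf_add {ω ω' : Op H → ℂ} (h : CF M ω) (h' : CF M ω') : CF M fun g => ω g + ω' g := by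
  obtain ⟨L, hL, e⟩ := h
  obtain ⟨L', hL', e'⟩ := h'
  refine ⟨L ++ L', fun p hp => ?_, fun g => by simp [e, e']⟩
  rcases List.mem_append.1 hp with hp | hp
  exacts [hL p hp, hL' p hp]

lemma cf_basic {x : Op H} (hx : x ∈ M ∨ x ∈ M.commutant) (ξ η : H) :
    CF M fun g => ⟪η, cm g x ξ⟫_ℂ := ⟨[(x, ξ, η)], by simpa using hx, by simp⟩

lemma cf_sum {α : Type*} (s : Finset α) {ω : α → Op H → ℂ} (h : ∀ a ∈ s, CF M (ω a)) :
    CF M fun g => ∑ a ∈ s, ω a g := by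
  classical
  induction s using Finset.induction_on with
  | empty => simpa using cf_zero
  | insert a s ha ih =>
    simp only [Finset.sum_insert ha]
    exact cf_add (h a (Finset.mem_insert_self _ _))
      (ih fun b hb => h b (Finset.mem_insert_of_mem hb))

lemma cm_chan {D : Type} [Fintype D] {lam : D → ℝ} {A : Matrix D D (Op H)}
    (h1 : chan lam A 1 = 1) (g x : Op H) :
    cm (chan lam A g) x = cm g x + ∑ i, ∑ j, (lam j : ℂ) •
      (star (A i j) * cm g (A i j) * x - x * star (A i j) * cm g (A i j)) := by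
  have e : chan lam A g = g + ∑ i, ∑ j, (lam j : ℂ) • (star (A i j) * cm g (A i j)) := by
    have e0 : g = chan lam A 1 * g := by rw [h1, one_mul]
    conv_rhs => arg 1; rw [e0]
    simp only [chan, Finset.sum_mul, ← Finset.sum_add_distrib, smul_mul_assoc, ← smul_add]
    refine Finset.sum_congr rfl fun i _ => Finset.sum_congr rfl fun j _ => ?_
    congr 1
    simp only [cm]; noncomm_ring
  rw [e, R124.cm_add_left]
  congr 1
  simp only [cm, Finset.sum_mul, Finset.mul_sum, ← Finset.sum_sub_distrib, smul_mul_assoc,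
    mul_smul_comm, ← smul_sub, mul_assoc]

lemma cf_chan {D : Type} [Fintype D] {lam : D → ℝ} {A : Matrix D D (Op H)}
    (h1 : chan lam A 1 = 1) (hA : ∀ i j, A i j ∈ M ∨ A i j ∈ M.commutant) {ω : Op H → ℂ}
    (h : CF M ω) : CF M fun g => ω (chan lam A g) := by
  obtain ⟨L, hL, e⟩ := h
  simp only [e]
  clear e
  induction L with
  | nil => simpa using cf_zero
  | cons p L ih =>
    simp only [List.map_cons, List.sum_cons]
    refine cf_add ?_ (ih fun q hq => hL q (List.mem_cons_of_mem _ hq))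
    obtain ⟨x, ξ, η⟩ := p
    have := cf_add (cf_basic (hL _ List.mem_cons_self) ξ η)
      (cf_sum Finset.univ fun i _ => cf_sum Finset.univ fun j _ =>
        cf_add (cf_basic (hA i j) ((lam j : ℂ) • x ξ) (A i j η))
          (cf_basic (hA i j) (-(lam j : ℂ) • ξ) (A i j (star x η))))
    convert this using 2 with g
    rw [cm_chan h1, add_apply, inner_add_right]
    congr 1
    simp only [_root_.sum_apply, inner_sum]
    refine Finset.sum_congr rfl fun i _ => Finset.sum_congr rfl fun j _ => ?_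
    simp only [smul_apply, sub_apply, mul_apply_eq_comp, map_smul, inner_smul_right,
      inner_sub_right, R124.inner_star_right, ← inner_star_left x]
    ring

end MV2

/-- `⟪m η, g m ζ⟫ ≡ ⟪m⋆ m η, g ζ⟫` modulo commutator functionals -/
theorem CF.Φ {M : VN H} {ω : Op H → ℂ} (h : CF M ω) (t : TP M) : CF M fun g => ω (t.Φ g) := by
  exact MV2.cf_chan t.Φ_one (fun i j => Or.inl (t.A_mem i j)) h

theorem CF.Ψ {M : VN H} {ω : Op H → ℂ} (h : CF M ω) (t : TP M) : CF M fun g => ω (t.Ψ g) := by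
  exact MV2.cf_chan t.Ψ_one (fun i j => Or.inr (t.B_mem i j)) h

namespace MV2

lemma norm_list_le {α : Type*} (L : List α) (f : α → ℂ) {c : ℝ} (h : ∀ p ∈ L, ‖f p‖ ≤ c) :
    ‖(L.map f).sum‖ ≤ L.length * c := by
  induction L with
  | nil => simp
  | cons p L ih =>
    simp only [List.map_cons, List.sum_cons, List.length_cons, Nat.cast_add, Nat.cast_one]
    have h1 := h p List.mem_cons_self
    have h2 := ih fun q hq => h q (List.mem_cons_of_mem _ hq)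
    have h3 := norm_add_le (f p) (L.map f).sum
    linarith

lemma mv1_cf (S : MD H) (ω : ℕ → Op H → ℂ) (hω : ∀ l, CF S.M (ω l)) (k : ℕ) {ε e : ℝ}
    (hε : 0 < ε) (he : 0 < e) :
    ∃ r : TP S.M, r.Dfc S.Ω e ∧ ∀ l ≤ k, ∀ g, ‖ω l (r.Φ (r.Ψ g))‖ ≤ ε * ‖g‖ := by
  classical
  choose L hL eL using hω
  set N : ℝ := ∑ l ∈ Finset.range (k + 1), ((L l).length : ℝ) + 1 with hN
  have hN0 : 0 < N := by positivity
  obtain ⟨r, hr, hr'⟩ := mv1 S ((Finset.range (k + 1)).biUnion fun l => (L l).toFinset)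
    (fun p hp => by
      obtain ⟨l, -, hl⟩ := Finset.mem_biUnion.1 hp
      exact hL l p (List.mem_toFinset.1 hl)) (div_pos hε hN0) he
  refine ⟨r, hr, fun l hl g => ?_⟩
  have hl' : l ∈ Finset.range (k + 1) := Finset.mem_range.2 (Nat.lt_succ_of_le hl)
  rw [eL]
  refine (norm_list_le _ _ fun p hp =>
    hr' g p (Finset.mem_biUnion.2 ⟨l, hl', List.mem_toFinset.2 hp⟩)).trans ?_
  have h1 : ((L l).length : ℝ) ≤ N := by
    have := Finset.single_le_sum (f := fun l => ((L l).length : ℝ)) (fun _ _ => by positivity) hl'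
    linarith
  calc ((L l).length : ℝ) * (ε / N * ‖g‖) ≤ N * (ε / N * ‖g‖) := by gcongr
    _ = ε * ‖g‖ := by field_simp

lemma tendsto_cm {I : Type*} {l : Filter I} {T : I → Op H} {a : Op H} (h : WL l T a) (x : Op H)
    (ξ η : H) : Tendsto (fun i => ⟪η, cm (T i) x ξ⟫_ℂ) l (𝓝 ⟪η, cm a x ξ⟫_ℂ) := by
  simp only [inner_cm]
  exact (h _ _).sub (h _ _)

end MV2

/-- Choose `r k : TP` inductively (`mv1`, defect `e 2^{-k-1}`) killing `ω_l ∘ Φ_k ∘ Ψ_k`, `l ≤ k`,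
up to `1/(k+1)`, where `Φ_k = Φ^{(0)} ∘ ⋯ ∘ Φ^{(k-1)}`, `Ψ_k = Ψ^{(0)} ∘ ⋯ ∘ Ψ^{(k-1)}`
(`exists_comp` in both orders).  For `i ≥ j > l`: `|ω_l (Ψ_j Φ_i g)| ≤ ‖g‖ / j`. -/
theorem mv2 [TopologicalSpace.SeparableSpace H] (S : MD H) {e : ℝ} (he : 0 < e) :
    ∃ s t : ℕ → TP S.M, (∀ i, (s i).Dfc S.Ω e) ∧ (∀ j, (t j).Dfc S.Ω e) ∧
      ∀ 𝒰 : Ultrafilter ℕ, (𝒰 : Filter ℕ) ≤ atTop → ∀ g g₁ z : Op H,
        WL 𝒰 (fun i => (s i).Φ g) g₁ → WL 𝒰 (fun j => (t j).Ψ g₁) z →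
        z ∈ S.M ∧ z ∈ S.M.commutant := by
  obtain ⟨p, hp, hp'⟩ := exists_tests S.M
  let ω : ℕ → Op H → ℂ := fun l g => ⟪(p l).2.2, cm g (p l).1 (p l).2.1⟫_ℂ
  have hω : ∀ l, CF S.M (ω l) := fun l => MV2.cf_basic (hp l) _ _
  have step : ∀ (k : ℕ) (a : TP S.M × TP S.M), ∃ (b : TP S.M × TP S.M) (r : TP S.M),
      r.Dfc S.Ω (e / 2 ^ (k + 1)) ∧ (∀ g, b.1.Φ g = a.1.Φ (r.Φ g)) ∧
      (∀ g, b.2.Ψ g = a.2.Ψ (r.Ψ g)) ∧ (∀ ζ, b.1.dfc ζ ≤ a.1.dfc ζ + r.dfc ζ) ∧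
      (∀ ζ, b.2.dfc ζ ≤ a.2.dfc ζ + r.dfc ζ) ∧
      ∀ l ≤ k, ∀ g, ‖ω l (a.1.Φ (a.2.Ψ (r.Φ (r.Ψ g))))‖ ≤ 1 / ((k : ℝ) + 1) * ‖g‖ := by
    intro k a
    obtain ⟨r, hr, hr'⟩ := MV2.mv1_cf S (fun l g => ω l (a.1.Φ (a.2.Ψ g)))
      (fun l => ((hω l).Φ a.1).Ψ a.2) k (ε := 1 / ((k : ℝ) + 1)) (e := e / 2 ^ (k + 1))
      (by positivity) (by positivity)
    obtain ⟨b₁, h1, -, -, h2⟩ := TP.exists_comp a.1 r
    obtain ⟨b₂, -, h3, -, h4⟩ := TP.exists_comp r a.2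
    exact ⟨(b₁, b₂), r, hr, h1, h3, h2, fun ζ => (h4 ζ).trans (add_comm _ _).le, hr'⟩
  choose f r hr hΦ hΨ hd1 hd2 hsm using step
  obtain ⟨t₀, -, -, -, h0⟩ := TP.exists_id S.M
  let a : ℕ → TP S.M × TP S.M := fun k => Nat.rec (t₀, t₀) f k
  have ha : ∀ k, a (k + 1) = f k (a k) := fun k => rfl
  have hdfc : ∀ k, ∀ c, ZP S.M c → (a k).1.dfc (c S.Ω) ≤ (e - e / 2 ^ k) * ‖c S.Ω‖ ∧
      (a k).2.dfc (c S.Ω) ≤ (e - e / 2 ^ k) * ‖c S.Ω‖ := by
    intro k c hc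
    induction k with
    | zero => simp [a, h0]
    | succ k ih =>
      have h1 := hr k (a k) c hc
      have e1 : (e - e / 2 ^ (k + 1)) * ‖c S.Ω‖ =
          (e - e / 2 ^ k) * ‖c S.Ω‖ + e / 2 ^ (k + 1) * ‖c S.Ω‖ := by
        field_simp; ring
      rw [ha, e1]
      exact ⟨(hd1 k _ _).trans (add_le_add ih.1 h1), (hd2 k _ _).trans (add_le_add ih.2 h1)⟩
  have hle : ∀ (k : ℕ) (ζ : H), (e - e / 2 ^ k) * ‖ζ‖ ≤ e * ‖ζ‖ := fun k ζ =>
    mul_le_mul_of_nonneg_right (sub_le_self _ (by positivity)) (norm_nonneg _)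
  have htail : ∀ j i, j ≤ i → ∀ g, ∃ g', ‖g'‖ ≤ ‖g‖ ∧ (a i).1.Φ g = (a j).1.Φ g' := by
    intro j i hji
    induction hji with
    | refl => exact fun g => ⟨g, le_rfl, rfl⟩
    | step _ ih =>
      intro g
      obtain ⟨g', h1, h2⟩ := ih ((r _ (a _)).Φ g)
      exact ⟨g', h1.trans (TP.norm_Φ_le _ _), by rw [ha, hΦ, h2]⟩
  refine ⟨fun i => (a i).1, fun j => (a j).2, fun i c hc => (hdfc i c hc).1.trans (hle _ _),
    fun i c hc => (hdfc i c hc).2.trans (hle _ _), fun 𝒰 h𝒰 g g₁ z h1 h2 => hp' z fun l => ?_⟩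
  have key : ∀ k, l ≤ k → ‖ω l ((a (k + 1)).2.Ψ g₁)‖ ≤ 1 / ((k : ℝ) + 1) * ‖g‖ := by
    intro k hk
    have h3 : WL 𝒰 (fun i => (a (k + 1)).2.Ψ ((a i).1.Φ g)) ((a (k + 1)).2.Ψ g₁) := h1.chan
    refine le_of_tendsto (MV2.tendsto_cm h3 _ _ _).norm
      ((eventually_ge_atTop (k + 1)).filter_mono h𝒰 |>.mono fun i hi => ?_)
    obtain ⟨g', h4, h5⟩ := htail _ _ hi g
    have h6 := hsm k (a k) l hk g'
    rw [TP.Φ_Ψ (r k (a k)), TP.Φ_Ψ (a k).1, TP.Φ_Ψ (a k).1, ← hΦ, ← hΨ, ← ha, ← h5] at h6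
    exact h6.trans (by gcongr)
  have hlim : Tendsto (fun j : ℕ => 1 / (j : ℝ) * ‖g‖) 𝒰 (𝓝 0) := by
    simpa using (tendsto_one_div_atTop_nhds_zero_nat.mul_const ‖g‖).mono_left h𝒰
  refine norm_le_zero_iff.1 (le_of_tendsto_of_tendsto (MV2.tendsto_cm h2 _ _ _).norm hlim
    ((eventually_gt_atTop l).filter_mono h𝒰 |>.mono fun j hj => ?_))
  obtain ⟨k, rfl⟩ : ∃ k, j = k + 1 := ⟨j - 1, by omega⟩
  simpa using key k (by omega)

end Crest.Agent.R78
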