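import Crest.Agent.R78.LS

/-! # Row 78: the outer Newton iteration -/

set_option autoImplicit false

namespace Crest.Agent.R78

open scoped InnerProductSpace ComplexOrder BigOperators Topology
open Filter
open Crest.Agent.R124 (Op cm)
open Crest.OpAlg (LineCalculus)

universe u

variable {H : Type u} [NormedAddCommGroup H] [InnerProductSpace ℂ H] [CompleteSpace H]

namespace Newton

theorem norm_cm_le (a b : Op H) : ‖cm a b‖ ≤ 2 * ‖a‖ * ‖b‖ := by
  have h1 := norm_mul_le a b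
  have h2 := norm_mul_le b a
  refine (norm_sub_le _ _).trans ?_
  nlinarith

theorem norm_lin_sub (h k x p : Op H) : ‖lin h x p - lin k x p‖ ≤ 4 * ‖h - k‖ * ‖x‖ * ‖p‖ := by
  have e : lin h x p - lin k x p = cm x (cm (h - k) p) := by
    simp only [lin, cm]
    noncomm_ring
  rw [e]
  refine (norm_cm_le _ _).trans ?_
  have := mul_le_mul_of_nonneg_left (norm_cm_le (h - k) p) (norm_nonneg x)
  nlinarith

theorem mem_of_near {A : Set (Op H)} {N : VN H} (h : ∀ η : ℝ, 0 < η → Near A (N : Set (Op H)) η)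
    {x : Op H} (hx : x ∈ A) : x ∈ N := by
  refine (isClosed_vn N).closure_subset (Metric.mem_closure_iff.2 fun ε hε => ?_)
  have hx0 : 0 < ‖x‖ + 1 := by positivity
  obtain ⟨y, hy, hxy⟩ := h (ε / (‖x‖ + 1)) (by positivity) x hx
  refine ⟨y, hy, ?_⟩
  rw [dist_eq_norm]
  refine hxy.trans_lt ?_
  rw [div_mul_eq_mul_div, div_lt_iff₀ hx0]
  nlinarith

end Newton

open Newton in
/-- `ct_all`, `Solve.skew`, `exists_unitary_skew`, `norm_cm_conj_sub_lin`, `near_of_cm`,
`near_rev` -/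
theorem newton_step : ∃ C δ₀ : ℝ, 0 < C ∧ 0 < δ₀ ∧ ∀ (H : Type u) [NormedAddCommGroup H] [InnerProductSpace ℂ H] [CompleteSpace H] (M N : VN H) (δ : ℝ), 0 < δ → δ ≤ δ₀ →
    CL M N δ → ∃ v ∈ unitary (Op H), ‖v - 1‖ ≤ C * δ ∧ CL M (cj v N) (C * δ ^ 2) := by
  obtain ⟨C₁, δ₁, hC₁, hδ₁, h₁⟩ := ct_all.{u}
  obtain ⟨C₃, hC₃, h₃⟩ := near_of_cm.{u}
  set C₂ := C₁ + 28 * C₁ ^ 2 with hC₂
  have hC₂0 : 0 < C₂ := by positivity
  have hC₃0 : 0 < C₃ := by linarith
  refine ⟨2 * C₁ + 4 * (C₃ * C₂), min (min δ₁ (1 / (64 * C₁))) (min (1 / 16) (1 / (4 * (C₃ * C₂)))),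
    by positivity, by positivity, ?_⟩
  intro H _ _ _ M N δ hδ hδ0 hcl
  simp only [le_min_iff] at hδ0
  obtain ⟨⟨d1, d2⟩, d3, d4⟩ := hδ0
  rw [le_div_iff₀ (by positivity)] at d2 d4
  obtain ⟨h, hh, hs⟩ := h₁ H M N δ trivial hδ d1 hcl
  have hs' := hs.skew
  set k := (1 / 2 : ℂ) • (h - star h) with hk
  have hkn : ‖k‖ ≤ C₁ * δ := by
    rw [hk, norm_smul]
    have e1 := norm_sub_le h (star h)
    rw [norm_star] at e1
    have e2 : ‖(1 / 2 : ℂ)‖ = 1 / 2 := by simp
    rw [e2]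
    linarith
  have hks : ‖k + star k‖ ≤ 0 := by
    have : k + star k = 0 := by
      rw [hk, star_smul, star_sub, star_star]
      have e2 : star (1 / 2 : ℂ) = 1 / 2 := by simp
      rw [e2, ← smul_add]
      simp
    rw [this, norm_zero]
  obtain ⟨v, hv, hvk, -, -⟩ := exists_unitary_skew (by nlinarith) hkn hks
  have hCδ : 0 < C₁ * δ := by positivity
  have hv1 : ‖v - 1‖ ≤ 2 * (C₁ * δ) := by
    have e : v - 1 = (v - (1 + k)) + k := by abel
    rw [e]
    refine (norm_add_le _ _).trans ?_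
    nlinarith
  have hnear : Near (M : Set (Op H)) (cj v N : Set (Op H)) (C₃ * C₂ * δ ^ 2) := by
    intro x hx
    obtain ⟨y, hy, hxy⟩ := h₃ H (cj v N).commutant x (C₂ * δ ^ 2 * ‖x‖) (by positivity) (by
      intro p' hp'
      rw [cj_commutant hv, mem_cj hv] at hp'
      set p := star v * p' * v with hp
      have e1 : p' = v * p * star v := by
        rw [hp, ← mul_assoc, ← mul_assoc, Unitary.mul_star_self_of_mem hv, one_mul, mul_assoc,
          Unitary.mul_star_self_of_mem hv, mul_one]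
      have e2 : ‖p‖ = ‖p'‖ := by
        rw [hp, CStarRing.norm_mul_mem_unitary _ hv,
          CStarRing.norm_mem_unitary_mul _ (Unitary.star_mem hv)]
      have e3 := norm_cm_conj_sub_lin hv x p
      have e4 := norm_lin_sub (v - 1) k x p
      have e5 := hs' x hx p hp'
      have e6 : v - 1 - k = v - (1 + k) := by abel
      rw [e6] at e4
      rw [← e1] at e3
      rw [← e2]
      have e7 : cm x p' = (cm x p' - lin (v - 1) x p) + (lin (v - 1) x p - lin k x p) +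
          lin k x p := by abel
      have e8 : 0 ≤ ‖x‖ * ‖p‖ := by positivity
      have e9 : ‖v - 1‖ ^ 2 ≤ (2 * (C₁ * δ)) ^ 2 := pow_le_pow_left₀ (norm_nonneg _) hv1 2
      have f1 := mul_le_mul_of_nonneg_right e9 e8
      have f2 := mul_le_mul_of_nonneg_right hvk e8
      rw [e7]
      refine ((norm_add_le _ _).trans (add_le_add (norm_add_le _ _) le_rfl)).trans ?_
      rw [hC₂]
      nlinarith)
    rw [VonNeumannAlgebra.commutant_commutant] at hy
    exact ⟨y, hy, hxy.trans (le_of_eq (by ring))⟩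
  have hη : 0 < C₃ * C₂ * δ ^ 2 := by positivity
  have hη' : C₃ * C₂ * δ ^ 2 ≤ 1 / 4 := by
    have : 0 < C₃ * C₂ * δ := by positivity
    nlinarith
  have hrev := near_rev hnear (((cl_cj hv N).2).trans hcl.2 hδ.le) hη hη' (by
    have := norm_nonneg (v - 1)
    nlinarith)
  have hC : 0 ≤ 2 * C₁ * δ ^ 2 := by positivity
  refine ⟨v, hv, hv1.trans ?_, hnear.mono (by nlinarith), hrev.mono (by nlinarith)⟩
  have : 0 < C₃ * C₂ * δ := by positivity
  nlinarith

open Newton in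
theorem strong_kk : ∃ C δ₀ : ℝ, 0 < C ∧ 0 < δ₀ ∧ ∀ (H : Type u) [NormedAddCommGroup H] [InnerProductSpace ℂ H] [CompleteSpace H] (M N : VN H) (δ : ℝ), 0 < δ → δ ≤ δ₀ →
    CL M N δ → ∃ v ∈ unitary (Op H), ‖v - 1‖ ≤ C * δ ∧ cj v N = M := by
  obtain ⟨C, δ₀, hC, hδ₀, hst⟩ := newton_step.{u}
  refine ⟨2 * C, min δ₀ (1 / (2 * C)), by positivity, by positivity, ?_⟩
  intro H _ _ _ M N δ hδ hδ0 hcl
  rw [le_min_iff, le_div_iff₀ (by positivity)] at hδ0
  obtain ⟨d1, d2⟩ := hδ0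
  have hstep : ∀ (k : ℕ) (w : Op H), (w ∈ unitary (Op H) ∧ CL M (cj w N) (δ * (1 / 2) ^ k)) →
      ∃ w' : Op H, (w' ∈ unitary (Op H) ∧ CL M (cj w' N) (δ * (1 / 2) ^ (k + 1))) ∧
        ‖w' - w‖ ≤ C * δ * (1 / 2) ^ k := by
    rintro k w ⟨hw, hcw⟩
    have e0 : 0 < δ * (1 / 2 : ℝ) ^ k := by positivity
    have e1 : δ * (1 / 2 : ℝ) ^ k ≤ δ :=
      mul_le_of_le_one_right hδ.le (pow_le_one₀ (by norm_num) (by norm_num))
    obtain ⟨v, hv, hv1, hc⟩ := hst H M (cj w N) _ e0 (e1.trans d1) hcw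
    rw [cj_mul hv hw] at hc
    refine ⟨v * w, ⟨mul_mem hv hw, hc.mono ?_⟩, ?_⟩
    · rw [pow_succ (1 / 2 : ℝ), ← mul_assoc]
      generalize δ * (1 / 2 : ℝ) ^ k = t at *
      have : C * t ≤ C * δ := mul_le_mul_of_nonneg_left e1 hC.le
      nlinarith
    · have e : v * w - w = (v - 1) * w := by noncomm_ring
      rw [e, CStarRing.norm_mul_mem_unitary _ hw, mul_assoc]
      exact hv1
  choose! f hf hf' using hstep
  let v : ℕ → Op H := fun k => Nat.rec 1 (fun k w => f k w) k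
  have hv : ∀ k, v k ∈ unitary (Op H) ∧ CL M (cj (v k) N) (δ * (1 / 2) ^ k) := by
    intro k
    induction k with
    | zero => exact ⟨one_mem _, by simpa [v, cj_one] using hcl⟩
    | succ k ih => exact hf k _ ih
  obtain ⟨u, hu, hlim, hu1⟩ := exists_unitary_lim v (fun k => (hv k).1) rfl (c := C * δ)
    fun k => hf' k _ (hv k)
  refine ⟨u, hu, hu1.trans (le_of_eq (by ring)), ?_⟩
  have hall : ∀ η : ℝ, 0 < η → CL M (cj u N) η := by
    intro η hη
    have t1 : Tendsto (fun k => δ * (1 / 2 : ℝ) ^ k) atTop (𝓝 0) := by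
      simpa using (tendsto_pow_atTop_nhds_zero_of_lt_one (r := (1 / 2 : ℝ)) (by norm_num)
        (by norm_num)).const_mul δ
    have t2 : Tendsto (fun k => 2 * ‖v k - u‖) atTop (𝓝 0) := by
      simpa using (tendsto_iff_norm_sub_tendsto_zero.1 hlim).const_mul 2
    have t3 : Tendsto (fun k => δ * (1 / 2 : ℝ) ^ k + 2 * ‖v k - u‖ +
        δ * (1 / 2 : ℝ) ^ k * (2 * ‖v k - u‖)) atTop (𝓝 0) := by
      simpa using (t1.add t2).add (t1.mul t2)
    obtain ⟨k, hk⟩ := (t3.eventually (ge_mem_nhds hη)).exists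
    have hw : u * star (v k) ∈ unitary (Op H) := mul_mem hu (Unitary.star_mem (hv k).1)
    have c1 := cl_cj hw (cj (v k) N)
    rw [cj_mul hw (hv k).1, mul_assoc, Unitary.star_mul_self_of_mem (hv k).1, mul_one] at c1
    have e : ‖u * star (v k) - 1‖ = ‖v k - u‖ := by
      rw [← Unitary.mul_star_self_of_mem (hv k).1, ← sub_mul,
        CStarRing.norm_mul_mem_unitary _ (Unitary.star_mem (hv k).1), norm_sub_rev]
    rw [e] at c1
    exact ((hv k).2.trans c1 (by positivity) (by positivity)).mono hk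
  ext x
  exact ⟨fun hx => mem_of_near (fun η hη => (hall η hη).2) hx,
    fun hx => mem_of_near (fun η hη => (hall η hη).1) hx⟩

end Crest.Agent.R78
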