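import Crest.Agent.R78.Dist
import Crest.Agent.R78.Mean

/-! # Row 78: Kazhdan type averaging -/

set_option autoImplicit false

namespace Crest.Agent.R78

open scoped InnerProductSpace ComplexOrder BigOperators Topology
open Filter
open Crest.Agent.R124 (Op cm)
open Crest.OpAlg (LineCalculus)

universe u

variable {H : Type u} [NormedAddCommGroup H] [InnerProductSpace ℂ H] [CompleteSpace H]

namespace Norm

/-- products of a unitary of `N` and a unitary of `N'` -/
def InG (N : VN H) (x : Op H) : Prop := ∃ n p, UIn N n ∧ UIn N.commutant p ∧ n * p = x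

lemma InG.mul {N : VN H} {x y : Op H} (hx : InG N x) (hy : InG N y) : InG N (x * y) := by
  obtain ⟨n, p, hn, hp, rfl⟩ := hx
  obtain ⟨n', p', hn', hp', rfl⟩ := hy
  refine ⟨n * n', p * p', hn.mul hn', hp.mul hp', ?_⟩
  have := (commute_of_mem hn'.1 hp.1).eq
  calc n * n' * (p * p') = n * (n' * p) * p' := by simp only [mul_assoc]
    _ = n * (p * n') * p' := by rw [this]
    _ = _ := by simp only [mul_assoc]

lemma InG.star {N : VN H} {x : Op H} (hx : InG N x) : InG N (star x) := by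
  obtain ⟨n, p, hn, hp, rfl⟩ := hx
  refine ⟨_, _, hn.star, hp.star, ?_⟩
  rw [star_mul]
  exact (commute_of_mem hn.star.1 hp.star.1).eq

lemma InG.unit {N : VN H} {x : Op H} (hx : InG N x) : x ∈ unitary (Op H) := by
  obtain ⟨n, p, hn, hp, rfl⟩ := hx
  exact mul_mem hn.2 hp.2

lemma InG.nml {N : VN H} {x : Op H} (hx : InG N x) : Nml x N := by
  obtain ⟨n, p, hn, hp, rfl⟩ := hx
  exact hn.nml.mul hp.nml'

lemma uin_conj {N : VN H} {v a : Op H} (hv : v ∈ unitary (Op H)) (h : Nml v N) (ha : UIn N a) :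
    UIn N (v * a * star v) :=
  ⟨(h a ha.1).1, mul_mem (mul_mem hv ha.2) (Unitary.star_mem hv)⟩

lemma InG.conj {N : VN H} {x v : Op H} (hx : InG N x) (hv : v ∈ unitary (Op H)) (h : Nml v N) :
    InG N (v * x * Star.star v) := by
  obtain ⟨n, p, hn, hp, rfl⟩ := hx
  refine ⟨_, _, uin_conj hv h hn, uin_conj hv (h.commutant hv) hp, ?_⟩
  calc v * n * Star.star v * (v * p * Star.star v)
      = v * n * (Star.star v * v) * p * Star.star v := by simp only [mul_assoc]
    _ = _ := by rw [Unitary.star_mul_self_of_mem hv]; simp only [mul_assoc, one_mul]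

lemma nu_le {u : Op H} (hu : u ∈ unitary (Op H)) : ‖u‖ ≤ 1 := by
  have := CStarRing.norm_mem_unitary_mul (1 : Op H) hu
  rw [mul_one] at this
  rw [this]
  exact ContinuousLinearMap.norm_id_le

lemma nearG_mono {N : VN H} {w v : Op H} {η η' : ℝ} (h : NearG N w v η) (hη : η ≤ η') :
    NearG N w v η' := by
  obtain ⟨n, p, hn, hp, h⟩ := h
  exact ⟨n, p, hn, hp, h.trans hη⟩

lemma three_le {a b c a' b' c' : Op H} (ha : a ∈ unitary (Op H)) (hb : b ∈ unitary (Op H))
    (hb' : b' ∈ unitary (Op H)) (hc' : c' ∈ unitary (Op H)) :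
    ‖a * b * c - a' * b' * c'‖ ≤ ‖a - a'‖ + ‖b - b'‖ + ‖c - c'‖ := by
  have e : a * b * c - a' * b' * c' =
      (a - a') * (b' * c') + a * (b - b') * c' + a * b * (c - c') := by noncomm_ring
  rw [e]
  refine (norm_add₃_le).trans (le_of_eq ?_)
  rw [CStarRing.norm_mul_mem_unitary _ (mul_mem hb' hc'), CStarRing.norm_mul_mem_unitary _ hc',
    CStarRing.norm_mem_unitary_mul _ ha, CStarRing.norm_mem_unitary_mul _ (mul_mem ha hb)]

/-- the mean of unitaries close to `1` is close to a unitary -/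
lemma mean_unitary {μ : (ℝ → Op H) → Op H} (hμ : IsMean μ) {x : ℝ → Op H}
    (hx : ∀ g, x g ∈ unitary (Op H)) {ε : ℝ} (hε : ε ≤ 1 / 8) (h : ∀ g, ‖x g - 1‖ ≤ ε) :
    ‖μ x - 1‖ ≤ ε ∧ ∃ v ∈ unitary (Op H), ‖v - μ x‖ ≤ 6 * ε ^ 2 ∧
      ∀ N : VN H, (∀ g, x g ∈ N) → v ∈ N := by
  have h1 : ‖μ x - 1‖ ≤ ε := hμ.norm_sub_le h
  have hb : ∀ g, ‖x g‖ ≤ 1 := fun g => nu_le (hx g)
  have hb' : ∀ g, ‖star (x g)‖ ≤ 1 := fun g => by rw [norm_star]; exact hb g
  have h2 : ‖μ (fun g => x g + star (x g)) - (1 + 1)‖ ≤ ε ^ 2 := by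
    refine hμ.norm_sub_le fun g => ?_
    have e : x g + star (x g) - (1 + 1) = (x g - 1) + star (x g - 1) := by
      rw [star_sub, star_one]; abel
    rw [e]
    exact (norm_add_star_le (hx g)).trans (pow_le_pow_left₀ (norm_nonneg _) (h g) 2)
  rw [hμ.add x (fun g => star (x g)) 1 1 hb hb', hμ.star x 1 hb] at h2
  have e : μ x + star (μ x) - (1 + 1) = (μ x - 1) + star (μ x - 1) := by
    rw [star_sub, star_one]; abel
  rw [e] at h2
  obtain ⟨v, hv, h3, h4, -⟩ := exists_unitary_skew hε h1 h2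
  refine ⟨h1, v, hv, ?_, fun N hN => h4 N (sub_mem (hμ.mem hb hN) (one_mem N))⟩
  rw [add_sub_cancel] at h3
  linarith

lemma rem_le {x a b : Op H} (hx : x ∈ unitary (Op H)) {η : ℝ} (h0 : 0 ≤ η) (h1 : ‖x - 1‖ ≤ η)
    (ha : ‖a - 1‖ ≤ 51 * η) (hb : ‖b - 1‖ ≤ 51 * η) :
    ‖x * (a * b) - (x + a + b) - (-1 - 1)‖ ≤ 2703 * η ^ 2 := by
  have e : x * (a * b) - (x + a + b) - (-1 - 1) =
      (x - 1) * (a - 1) + (x - 1) * (b - 1) + x * ((a - 1) * (b - 1)) := by noncomm_ring
  rw [e]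
  refine (norm_add₃_le).trans ?_
  rw [CStarRing.norm_mem_unitary_mul _ hx]
  have k1 := (norm_mul_le (x - 1) (a - 1)).trans (mul_le_mul h1 ha (norm_nonneg _) h0)
  have k2 := (norm_mul_le (x - 1) (b - 1)).trans (mul_le_mul h1 hb (norm_nonneg _) h0)
  have k3 := (norm_mul_le (a - 1) (b - 1)).trans
    (mul_le_mul ha hb (norm_nonneg _) (by positivity))
  nlinarith

lemma final_le {u y m a b n p w z : Op H} (hu : u ∈ unitary (Op H)) (hn : n ∈ unitary (Op H))
    (hw : w ∈ unitary (Op H)) (hz : z ∈ unitary (Op H)) {η : ℝ} (h0 : 0 ≤ η) (hη : η ≤ 1 / 408)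
    (hy : ‖y - 1‖ ≤ η) (huy : ‖u - y‖ ≤ 6 * η ^ 2) (hzy : z * y = m * w)
    (hm : ‖m - (y + a + b) - (-1 - 1)‖ ≤ 2703 * η ^ 2)
    (ha : ‖a - 1‖ ≤ 51 * η) (hb : ‖b - 1‖ ≤ 51 * η)
    (hna : ‖n - a‖ ≤ 6 * (51 * η) ^ 2) (hpb : ‖p - b‖ ≤ 6 * (51 * η) ^ 2) :
    ‖star u * z * u - n * p * w‖ ≤ 100000 * η ^ 2 := by
  have hu' := Unitary.star_mem hu
  have e1 : star u * u = 1 := Unitary.star_mul_self_of_mem hu
  have e : star u * z * u - n * p * w =
      star u * z * (u - y) + (star u * (m - (y + a + b) - (-1 - 1)) - star u * (u - y) +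
        star (u - 1) * (a - 1) + star (u - 1) * (b - 1) -
        (n * (p - b) + (n - a) * (b - 1) + (n - a) + (a - 1) * (b - 1))) * w := by
    have e2 : star u * z * y = star u * m * w := by rw [mul_assoc, hzy, mul_assoc]
    rw [star_sub, star_one]
    have e3 : star u * z * (u - y) = star u * z * u - star u * m * w := by
      rw [mul_sub, e2]
    have e4 : star u * (u - y) = 1 - star u * y := by rw [mul_sub, e1]
    rw [e3, e4]
    noncomm_ring
  have hu1 : ‖u - 1‖ ≤ 2 * η := by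
    have := norm_add_le (u - y) (y - 1)
    rw [sub_add_sub_cancel] at this
    nlinarith
  have hu1' : ‖star (u - 1)‖ ≤ 2 * η := by rwa [norm_star]
  have k1 : ‖star u * z * (u - y)‖ ≤ 6 * η ^ 2 := by
    rwa [CStarRing.norm_mem_unitary_mul _ (mul_mem hu' hz)]
  have k2 : ‖star u * (m - (y + a + b) - (-1 - 1))‖ ≤ 2703 * η ^ 2 := by
    rwa [CStarRing.norm_mem_unitary_mul _ hu']
  have k3 : ‖star u * (u - y)‖ ≤ 6 * η ^ 2 := by
    rwa [CStarRing.norm_mem_unitary_mul _ hu']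
  have k4 := (norm_mul_le (star (u - 1)) (a - 1)).trans
    (mul_le_mul hu1' ha (norm_nonneg _) (by positivity))
  have k5 := (norm_mul_le (star (u - 1)) (b - 1)).trans
    (mul_le_mul hu1' hb (norm_nonneg _) (by positivity))
  have k6 : ‖n * (p - b)‖ ≤ 6 * (51 * η) ^ 2 := by
    rwa [CStarRing.norm_mem_unitary_mul _ hn]
  have k7 := (norm_mul_le (n - a) (b - 1)).trans
    (mul_le_mul hna (hb.trans (show 51 * η ≤ 1 by linarith)) (norm_nonneg _) (by positivity))
  have k8 := (norm_mul_le (a - 1) (b - 1)).trans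
    (mul_le_mul ha hb (norm_nonneg _) (by positivity))
  rw [e]
  refine (norm_add_le _ _).trans ?_
  rw [CStarRing.norm_mul_mem_unitary _ hw]
  have t1 := norm_sub_le (star u * (m - (y + a + b) - (-1 - 1)) - star u * (u - y) +
        star (u - 1) * (a - 1) + star (u - 1) * (b - 1))
        (n * (p - b) + (n - a) * (b - 1) + (n - a) + (a - 1) * (b - 1))
  have t2 := norm_add₃_le (a := star u * (m - (y + a + b) - (-1 - 1)) - star u * (u - y))
    (b := star (u - 1) * (a - 1)) (c := star (u - 1) * (b - 1))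
  have t3 := norm_sub_le (star u * (m - (y + a + b) - (-1 - 1))) (star u * (u - y))
  have t4 := norm_add_le (n * (p - b) + (n - a) * (b - 1) + (n - a)) ((a - 1) * (b - 1))
  have t5 := norm_add₃_le (a := n * (p - b)) (b := (n - a) * (b - 1)) (c := n - a)
  nlinarith [sq_nonneg η]

lemma urep_conj {U : ℝ → Op H} (hU : URep U) {v : Op H} (hv : v ∈ unitary (Op H)) :
    URep fun t => star v * U t * v := by
  refine ⟨fun g => mul_mem (mul_mem (Unitary.star_mem hv) (hU.unit g)) hv, fun g g' => ?_⟩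
  rw [hU.add]
  calc star v * (U g * U g') * v = star v * U g * (v * star v) * U g' * v := by
        rw [Unitary.mul_star_self_of_mem hv]; simp only [mul_assoc, one_mul]
    _ = _ := by simp only [mul_assoc]

end Norm

open Norm in
/-- `W g = n g p g V g`, `y = μ (U g W g⋆)`, `Z g = W (h+g) W g⋆ W h⋆ = a b ∈ U(N) U(N')` is
`3η`-close to `1`; `split_near_one`: `Z = (1 + α)(1 + β)`.
`U h y = μ (U (h+g) W (h+g)⋆ Z g) W h = (y + ᾱ + β̄) W h + O(η²)`.  `y - 1`, `ᾱ`, `β̄` are skew up to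
`O(η²)` (`norm_add_star_le`), so `exists_unitary_skew` gives `u = y + O(η²)`, `n'`, `p'` with
`u⋆ U h u = n' p' W h + O(η²)`. -/
theorem normalise_step : ∃ C η₀ : ℝ, 0 < C ∧ 0 < η₀ ∧ ∀ (H : Type u) [NormedAddCommGroup H] [InnerProductSpace ℂ H] [CompleteSpace H] (N : VN H) (U V : ℝ → Op H) (η : ℝ),
    URep U → URep V → (∀ t, Nml (V t) N) → 0 ≤ η → η ≤ η₀ → (∀ t, NearG N (U t) (V t) η) →
    ∃ u ∈ unitary (Op H), ‖u - 1‖ ≤ C * η ∧
      ∀ t, NearG N (star u * U t * u) (V t) (C * η ^ 2) := by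
  refine ⟨100000, 1 / 408, by norm_num, by norm_num, ?_⟩
  intro H _ _ _ N U V η hU hV hN h0 hη hnear
  obtain ⟨μ, hμ⟩ := exists_mean ℝ H
  have hq : ∀ t, ∃ q, InG N q ∧ ‖U t - q * V t‖ ≤ η := fun t => by
    obtain ⟨n, p, hn, hp, h⟩ := hnear t
    exact ⟨n * p, ⟨n, p, hn, hp, rfl⟩, h⟩
  choose q hqG hq using hq
  have hWu : ∀ g, q g * V g ∈ unitary (Op H) := fun g => mul_mem (hqG g).unit (hV.unit g)
  set W : ℝ → Op H := fun g => q g * V g with hW
  set x : ℝ → Op H := fun g => U g * star (W g) with hx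
  have hxu : ∀ g, x g ∈ unitary (Op H) := fun g => mul_mem (hU.unit g) (Unitary.star_mem (hWu g))
  have hx1 : ∀ g, ‖x g - 1‖ ≤ η := fun g => by
    have e : x g - 1 = (U g - W g) * star (W g) := by
      rw [sub_mul, Unitary.mul_star_self_of_mem (hWu g)]
    rw [e, CStarRing.norm_mul_mem_unitary _ (Unitary.star_mem (hWu g))]
    exact hq g
  obtain ⟨hy, u, hu, huy, -⟩ := mean_unitary hμ hxu (by linarith) hx1
  refine ⟨u, hu, ?_, fun h => ?_⟩
  · have := norm_add_le (u - μ x) (μ x - 1)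
    rw [sub_add_sub_cancel] at this
    nlinarith
  have hZ : ∀ g, ∃ a b, UIn N a ∧ UIn N.commutant b ∧
      a * b = W (h + g) * star (W g) * star (W h) ∧ ‖a - 1‖ ≤ 51 * η ∧ ‖b - 1‖ ≤ 51 * η := by
    intro g
    have e : W (h + g) * star (W g) * star (W h) =
        q (h + g) * (V h * star (q g) * star (V h)) * star (q h) := by
      simp only [hW, star_mul, hV.add]
      calc q (h + g) * (V h * V g) * (star (V g) * star (q g)) * (star (V h) * star (q h))
          = q (h + g) * V h * (V g * star (V g)) * star (q g) * (star (V h) * star (q h)) := by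
            simp only [mul_assoc]
        _ = _ := by
            rw [Unitary.mul_star_self_of_mem (hV.unit g)]; simp only [mul_assoc, one_mul]
    have hG : InG N (W (h + g) * star (W g) * star (W h)) := by
      rw [e]
      exact ((hqG _).mul ((hqG g).star.conj (hV.unit h) (hN h))).mul (hqG h).star
    obtain ⟨a, b, ha, hb, hab⟩ := hG
    have e1 : U (h + g) * star (U g) * star (U h) = 1 := by
      rw [hU.add, mul_assoc (U h), Unitary.mul_star_self_of_mem (hU.unit g), mul_one,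
        Unitary.mul_star_self_of_mem (hU.unit h)]
    have h3 : ‖a * b - 1‖ ≤ 3 * η := by
      rw [hab, ← e1]
      refine (three_le (hWu _) (Unitary.star_mem (hWu g)) (Unitary.star_mem (hU.unit g))
        (Unitary.star_mem (hU.unit h))).trans ?_
      rw [← star_sub, ← star_sub, norm_star, norm_star, norm_sub_rev (W (h + g)),
        norm_sub_rev (W g), norm_sub_rev (W h)]
      have := hq (h + g)
      have := hq g
      have := hq h
      linarith
    obtain ⟨a', b', ha', hb', hab', h4, h5⟩ := split_near_one ha hb h3 (by linarith)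
    exact ⟨a', b', ha', hb', hab'.trans hab, by linarith, by linarith⟩
  choose a b ha hb hab ha1 hb1 using hZ
  obtain ⟨hA, n', hn', hna, hnN⟩ := mean_unitary hμ (fun g => (ha g).2) (by linarith) ha1
  obtain ⟨hB, p', hp', hpb, hpN⟩ := mean_unitary hμ (fun g => (hb g).2) (by linarith) hb1
  have bx : ∀ g, ‖x g‖ ≤ 1 := fun g => nu_le (hxu g)
  have bm : ∀ g, ‖x (h + g) * (a g * b g)‖ ≤ 1 := fun g =>
    nu_le (mul_mem (hxu _) (mul_mem (ha g).2 (hb g).2))
  have ba : ∀ g, ‖a g‖ ≤ 1 := fun g => nu_le (ha g).2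
  have bb : ∀ g, ‖b g‖ ≤ 1 := fun g => nu_le (hb g).2
  have bxa : ∀ g, ‖x (h + g) + a g‖ ≤ 1 + 1 := fun g =>
    (norm_add_le _ _).trans (add_le_add (bx _) (ba g))
  have bxab : ∀ g, ‖x (h + g) + a g + b g‖ ≤ 1 + 1 + 1 := fun g =>
    (norm_add_le _ _).trans (add_le_add (bxa g) (bb g))
  have hzy : U h * μ x = μ (fun g => x (h + g) * (a g * b g)) * W h := by
    rw [← hμ.left x 1 bx, ← hμ.right _ 1 bm]
    congr 1
    funext g
    rw [hab g]
    simp only [hx]
    calc U h * (U g * star (W g)) = U (h + g) * (star (W (h + g)) * W (h + g)) * star (W g) *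
          (star (W h) * W h) := by
          rw [Unitary.star_mul_self_of_mem (hWu (h + g)), Unitary.star_mul_self_of_mem (hWu h),
            hU.add]
          simp only [mul_assoc, one_mul, mul_one]
      _ = _ := by simp only [mul_assoc]
  have hm : ‖μ (fun g => x (h + g) * (a g * b g)) - (μ x + μ a + μ b) - (-1 - 1)‖ ≤
      2703 * η ^ 2 := by
    have e : μ (fun g => x (h + g) + a g + b g) = μ x + μ a + μ b := by
      rw [hμ.add (fun g => x (h + g) + a g) b _ _ bxa bb,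
        hμ.add (fun g => x (h + g)) a _ _ (fun g => bx _) ba, hμ.shift x 1 bx]
    rw [← e, ← hμ.sub bm bxab]
    exact hμ.norm_sub_le fun g => rem_le (hxu _) h0 (hx1 _) (ha1 g) (hb1 g)
  have key := final_le hu hn' (hWu h) (hU.unit h) h0 hη hy huy hzy hm hA hB hna hpb
  have hG : InG N (n' * p' * q h) :=
    InG.mul ⟨n', p', ⟨hnN N fun g => (ha g).1, hn'⟩, ⟨hpN _ fun g => (hb g).1, hp'⟩, rfl⟩ (hqG h)
  obtain ⟨n, p, hn, hp, hnp⟩ := hG
  refine ⟨n, p, hn, hp, ?_⟩
  rw [hnp, mul_assoc (n' * p')]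
  exact key

open Norm in
/-- iterate (`exists_unitary_lim`, `nml_of_approx`, `nml_cj`) -/
theorem normalise : ∃ C η₀ : ℝ, 0 < C ∧ 0 < η₀ ∧ ∀ (H : Type u) [NormedAddCommGroup H] [InnerProductSpace ℂ H] [CompleteSpace H] (N : VN H) (U V : ℝ → Op H) (η : ℝ),
    URep U → URep V → (∀ t, Nml (V t) N) → 0 ≤ η → η ≤ η₀ → (∀ t, NearG N (U t) (V t) η) →
    ∃ u ∈ unitary (Op H), ‖u - 1‖ ≤ C * η ∧ ∀ t, Nml (U t) (cj u N) := by
  obtain ⟨C, η₀, hC, hη₀, hstep⟩ := normalise_step.{u}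
  refine ⟨2 * C, min η₀ (1 / (2 * C)), by positivity, lt_min hη₀ (by positivity), ?_⟩
  intro H _ _ _ N U V η hU hV hN h0 hη hnear
  have hη1 : η ≤ η₀ := hη.trans (min_le_left _ _)
  have hη2 : C * η ≤ 1 / 2 := by
    have := hη.trans (min_le_right _ _)
    rw [le_div_iff₀ (by positivity)] at this
    linarith
  let P : ℕ → Op H → Prop := fun k v =>
    v ∈ unitary (Op H) ∧ ∀ t, NearG N (star v * U t * v) (V t) (η * (1 / 2) ^ k)
  have step : ∀ (k : ℕ) (v : {v // P k v}), ∃ v' : {v // P (k + 1) v},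
      ‖v'.1 - v.1‖ ≤ C * η * (1 / 2) ^ k := by
    rintro k ⟨v, hv, hv'⟩
    have hk : ((1 : ℝ) / 2) ^ k ≤ 1 := pow_le_one₀ (by norm_num) (by norm_num)
    have hk0 : 0 ≤ η * (1 / 2) ^ k := by positivity
    have hk1 : η * (1 / 2) ^ k ≤ η := mul_le_of_le_one_right h0 hk
    obtain ⟨u, hu, h1, h2⟩ := hstep H N (fun t => star v * U t * v) V _ (urep_conj hU hv) hV hN
      hk0 (hk1.trans hη1) hv'
    refine ⟨⟨v * u, mul_mem hv hu, fun t => ?_⟩, ?_⟩
    · have e : star (v * u) * U t * (v * u) = star u * (star v * U t * v) * u := by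
        simp only [star_mul, mul_assoc]
      rw [e]
      refine nearG_mono (h2 t) ?_
      have : C * (η * (1 / 2) ^ k) ≤ 1 / 2 := (mul_le_mul_of_nonneg_left hk1 hC.le).trans hη2
      rw [pow_succ (1 / 2 : ℝ) k]
      nlinarith
    · have e : v * u - v = v * (u - 1) := by rw [mul_sub, mul_one]
      show ‖v * u - v‖ ≤ _
      rw [e, CStarRing.norm_mem_unitary_mul _ hv, mul_assoc]
      exact h1
  choose f hf using step
  let s : ∀ k, {v // P k v} := fun k =>
    Nat.rec (motive := fun k => {v // P k v}) ⟨1, one_mem _, fun t => by simpa using hnear t⟩ f k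
  obtain ⟨u, hu, hlim, h1⟩ := exists_unitary_lim (fun k => (s k).1) (fun k => (s k).2.1) rfl
    (c := C * η) (fun k => hf k (s k))
  refine ⟨u, hu, by linarith, fun t => nml_cj hu (nml_of_approx fun ε hε => ?_)⟩
  have l1 : Tendsto (fun k => ‖star u * U t * u - star (s k).1 * U t * (s k).1‖ + η * (1 / 2) ^ k)
      atTop (𝓝 (‖star u * U t * u - star u * U t * u‖ + η * 0)) :=
    ((tendsto_const_nhds.sub ((hlim.star.mul_const _).mul hlim)).norm).add
      ((tendsto_pow_atTop_nhds_zero_of_lt_one (by norm_num) (by norm_num)).const_mul η)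
  rw [sub_self, norm_zero, mul_zero, add_zero] at l1
  obtain ⟨k, hk⟩ := (l1.eventually (gt_mem_nhds hε)).exists
  obtain ⟨n, p, hn, hp, h⟩ := (s k).2.2 t
  refine ⟨n * p * V t, mul_mem (mul_mem hn.2 hp.2) (hV.unit t),
    (hn.nml.mul hp.nml').mul (hN t), ?_⟩
  have := norm_add_le (star u * U t * u - star (s k).1 * U t * (s k).1)
    (star (s k).1 * U t * (s k).1 - n * p * V t)
  rw [sub_add_sub_cancel] at this
  linarith

end Crest.Agent.R78
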