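import Crest.Agent.R78.Amp
import Crest.Agent.R78.MDL
import Crest.Agent.R78.TP
import Crest.Agent.R78.CfcA

/-! # Row 78: the thermal pair of a slowly moving matrix -/

set_option autoImplicit false

namespace Crest.Agent.R78

open scoped InnerProductSpace ComplexOrder BigOperators Topology
open Filter
open Crest.Agent.R124 (Op cm)
open Crest.OpAlg (LineCalculus)

universe u

variable {H : Type u} [NormedAddCommGroup H] [InnerProductSpace ℂ H] [CompleteSpace H]

namespace Pair

/-- `jop J` as a ring homomorphism -/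
noncomputable def jhom {J : H ≃ₗᵢ⋆[ℂ] H} (hJ : ∀ ξ, J (J ξ) = ξ) : Op H →+* Op H where
  toFun := jop J
  map_one' := jop_one hJ
  map_mul' := jop_mul hJ
  map_zero' := jop_zero J
  map_add' := jop_add J

lemma jmat_unitary {D : Type} [Fintype D] [DecidableEq D] {J : H ≃ₗᵢ⋆[ℂ] H}
    (hJ : ∀ ξ, J (J ξ) = ξ) {A : Matrix D D (Op H)} (hA : A ∈ unitary (Matrix D D (Op H))) :
    (Matrix.of fun i j => jop J (A i j)) ∈ unitary (Matrix D D (Op H)) := by
  have e : (Matrix.of fun i j => jop J (A i j)) = (jhom hJ).mapMatrix A := rfl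
  have e' : star ((jhom hJ).mapMatrix A) = (jhom hJ).mapMatrix (star A) := by
    ext1 i j
    exact (jop_star hJ (A j i)).symm
  rw [e, Unitary.mem_iff, e', ← map_mul, ← map_mul, hA.1, hA.2, map_one]
  exact ⟨rfl, rfl⟩

lemma twist_apply (S : MD H) {D : Type} (lam : D → ℝ) (A : Matrix D D (Op H)) (t : ℝ) (i j : D)
    {ζ : H} (hζ : ∀ t, S.D.wave t ζ = ζ) :
    (twist S.D.wave lam t A - A) i j ζ =
      Complex.exp (-(Complex.I * (t * Real.log (lam j / lam i) : ℝ))) • S.D.wave t (A i j ζ) -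
        A i j ζ := by
  simp only [Matrix.sub_apply, twist, sub_apply, smul_apply, mul_apply_eq_comp, hζ]

lemma twist_star_apply (S : MD H) {D : Type} (lam : D → ℝ) (A : Matrix D D (Op H)) (t : ℝ)
    (i j : D) {ζ : H} (hζ : ∀ t, S.D.wave t ζ = ζ) :
    star ((twist S.D.wave lam t A - A) i j) ζ =
      Complex.exp (Complex.I * (t * Real.log (lam j / lam i) : ℝ)) • S.D.wave t (star (A i j) ζ) -
        star (A i j) ζ := by
  simp only [Matrix.sub_apply, twist, star_sub, star_smul, star_mul, R84.star_wave, neg_neg,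
    sub_apply, smul_apply, mul_apply_eq_comp, hζ]
  congr 2
  rw [Complex.star_def, ← Complex.exp_conj]
  congr 1
  simp only [map_neg, map_mul, Complex.conj_I, Complex.conj_ofReal]
  ring

omit [CompleteSpace H] in
lemma read_aux {D : Type} [Fintype D] {lam : D → ℝ} (hl : ∀ i, 0 < lam i) (p q : D → D → H) :
    ‖∑ a, ∑ b, p a b‖ ^ 2 ≤ (∑ _i : D, ∑ j, 1 / lam j) *
      ((1 / 2) * ∑ a, ∑ b, lam b * ‖p a b + q a b‖ ^ 2 +
        (1 / 2) * ∑ a, ∑ b, lam b * ‖p a b - q a b‖ ^ 2) := by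
  have h1 : ‖∑ a, ∑ b, p a b‖ ≤ ∑ x : D × D, ‖p x.1 x.2‖ := by
    rw [← Fintype.sum_prod_type']
    exact norm_sum_le _ _
  have h2 : (∑ x : D × D, ‖p x.1 x.2‖) ^ 2 ≤
      (∑ x : D × D, 1 / lam x.2) * ∑ x : D × D, lam x.2 * ‖p x.1 x.2‖ ^ 2 := by
    refine Finset.sum_sq_le_sum_mul_sum_of_sq_le_mul _ (fun x _ => (one_div_pos.2 (hl _)).le)
      (fun x _ => mul_nonneg (hl _).le (sq_nonneg _)) fun x _ => le_of_eq ?_
    have := (hl x.2).ne'
    field_simp
  have h3 : ∑ x : D × D, lam x.2 * ‖p x.1 x.2‖ ^ 2 ≤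
      (1 / 2) * ∑ a, ∑ b, lam b * ‖p a b + q a b‖ ^ 2 +
        (1 / 2) * ∑ a, ∑ b, lam b * ‖p a b - q a b‖ ^ 2 := by
    rw [Fintype.sum_prod_type, Finset.mul_sum, Finset.mul_sum, ← Finset.sum_add_distrib]
    refine Finset.sum_le_sum fun a _ => ?_
    rw [Finset.mul_sum, Finset.mul_sum, ← Finset.sum_add_distrib]
    refine Finset.sum_le_sum fun b _ => ?_
    have h4 := parallelogram_law_with_norm ℂ (p a b) (q a b)
    have h5 := mul_nonneg (hl b).le (mul_self_nonneg ‖q a b‖)
    have h6 := congrArg (fun r => lam b * r) h4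
    nlinarith
  have h4 : (∑ x : D × D, 1 / lam x.2) = ∑ _i : D, ∑ j, 1 / lam j := by
    rw [Fintype.sum_prod_type]
  rw [← h4]
  refine (pow_le_pow_left₀ (norm_nonneg _) h1 2).trans (h2.trans ?_)
  exact mul_le_mul_of_nonneg_left h3 (Finset.sum_nonneg fun x _ => (one_div_pos.2 (hl _)).le)

lemma ofMat_unitary {D : Type} [Fintype D] [DecidableEq D] {A : Matrix D D (Op H)} :
    ofMat A ∈ unitary (Op (Amp D H)) ↔ A ∈ unitary (Matrix D D (Op H)) := by
  rw [Unitary.mem_iff, Unitary.mem_iff, ← ofMat_star, ← ofMat_mul, ← ofMat_mul, ← ofMat_one,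
    ofMat_injective.eq_iff, ofMat_injective.eq_iff]

/-- the twisted flow is implemented by a unitary -/
lemma exists_impl (S : MD H) {D : Type} [Fintype D] [DecidableEq D] {lam : D → ℝ}
    (hl : ∀ i, 0 < lam i) (t : ℝ) : ∃ v ∈ unitary (Op (Amp D H)), ∀ Z : Matrix D D (Op H),
      ofMat (twist S.D.wave lam t Z) = v * ofMat Z * star v := by
  set e : D → ℂ := fun i => Complex.exp (Complex.I * (t * Real.log (lam i) : ℝ)) with he
  have hs : ∀ i, star (e i) = Complex.exp (-(Complex.I * (t * Real.log (lam i) : ℝ))) := fun i => by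
    rw [he, Complex.star_def, ← Complex.exp_conj]
    congr 1
    simp only [map_mul, Complex.conj_I, Complex.conj_ofReal]
    ring
  have hee : ∀ i, star (e i) * e i = 1 := fun i => by
    rw [hs, he, ← Complex.exp_add]; simp
  set V : Matrix D D (Op H) := Matrix.diagonal fun i => e i • S.D.wave t with hV
  have hVs : star V = Matrix.diagonal fun i => star (e i) • S.D.wave (-t) := by
    rw [hV, Matrix.star_eq_conjTranspose, Matrix.diagonal_conjTranspose]
    congr 1
    funext i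
    simp only [Pi.star_apply, star_smul, R84.star_wave]
  refine ⟨ofMat V, ofMat_unitary.2 ?_, fun Z => ?_⟩
  · rw [Unitary.mem_iff, hVs, hV, Matrix.diagonal_mul_diagonal, Matrix.diagonal_mul_diagonal,
      ← Matrix.diagonal_one]
    constructor <;> congr 1 <;> funext i
    · rw [smul_mul_smul_comm, hee, R84.wave_neg_mul, one_smul]
    · rw [smul_mul_smul_comm, mul_comm, hee, R84.wave_mul_neg, one_smul]
  · rw [← ofMat_star, ← ofMat_mul, ← ofMat_mul]
    congr 1
    ext1 i j
    rw [hVs, hV, Matrix.mul_diagonal, Matrix.diagonal_mul, smul_mul_assoc, smul_mul_smul_comm,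
      hs, he, twist, ← Complex.exp_add, Real.log_div (hl j).ne' (hl i).ne']
    congr 2
    push_cast; ring

/-- `y = √(1 - x²)` -/
lemma exists_sqrt {x : Op H} (hx : IsSelfAdjoint x) (hn : ‖x‖ ≤ 1 / 2) :
    ∃ y : Op H, IsSelfAdjoint y ∧ Commute y x ∧ y * y = 1 - x * x ∧
      (∀ t, Commute t x → Commute t y) ∧
      ∀ v ∈ unitary (Op H), ‖v * y * star v - y‖ ≤ 2 * ‖v * x * star v - x‖ := by
  set y := cfc (fun r : ℝ => √(1 - r * r)) x with hy
  have hsp : ∀ r ∈ spectrum ℝ x, r * r ≤ 1 / 4 := fun r hr => by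
    have h1 := (IsometricContinuousFunctionalCalculus.norm_spectrum_le x hr hx).trans hn
    rw [Real.norm_eq_abs, abs_le] at h1
    nlinarith [h1.1, h1.2]
  have hyy : y * y = 1 - x * x := by
    rw [hy, ← cfc_mul _ _ x]
    have : cfc (fun r : ℝ => 1 - r * r) x = 1 - x * x := by
      rw [cfc_sub _ _ x, cfc_mul _ _ x, cfc_id' ℝ x, cfc_const_one ℝ x]
    rw [← this]
    exact cfc_congr fun r hr => Real.mul_self_sqrt (by linarith [hsp r hr])
  have hlow : (((1 / 2 : ℝ) : ℂ)) • (1 : Op H) ≤ y := by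
    have h1 : algebraMap ℝ (Op H) (1 / 2) ≤ y :=
      algebraMap_le_cfc _ _ x fun r hr => Real.le_sqrt_of_sq_le (by linarith [hsp r hr])
    rwa [Algebra.algebraMap_eq_smul_one, ← Complex.coe_smul] at h1
  refine ⟨y, cfc_predicate _ x, (Commute.refl x).cfc_real _,
    hyy, fun t ht => (ht.symm.cfc_real _).symm, fun v hv => ?_⟩
  have hlow' : (((1 / 2 : ℝ) : ℂ)) • (1 : Op H) ≤ v * y * star v := by
    have h1 := star_right_conjugate_le_conjugate hlow v
    rwa [mul_smul_comm, smul_mul_assoc, mul_one, hv.2] at h1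
  have h1 := sq_lip (by norm_num) hlow' hlow
  have hc : ∀ a : Op H, v * a * star v * (v * a * star v) = v * (a * a) * star v := fun a => by
    calc _ = v * a * (star v * v) * a * star v := by simp only [mul_assoc]
      _ = _ := by rw [hv.1, mul_one, mul_assoc v a a]
  set x' := v * x * star v with hx'
  have e : v * y * star v * (v * y * star v) - y * y = -((x' - x) * x' + x * (x' - x)) := by
    have : v * (y * y) * star v = 1 - x' * x' := by
      rw [hyy, hx', hc, mul_sub, sub_mul, mul_one, hv.2]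
    rw [hc, this, hyy]
    noncomm_ring
  have hx'n : ‖x'‖ ≤ 1 / 2 := by
    rw [hx', CStarRing.norm_mul_mem_unitary _ (Unitary.star_mem hv),
      CStarRing.norm_mem_unitary_mul _ hv]
    exact hn
  have h2 : ‖(x' - x) * x' + x * (x' - x)‖ ≤ ‖x' - x‖ := by
    have h3 := norm_add_le ((x' - x) * x') (x * (x' - x))
    have h4 := norm_mul_le (x' - x) x'
    have h5 := norm_mul_le x (x' - x)
    nlinarith [norm_nonneg (x' - x)]
  rw [e, norm_neg] at h1
  linarith

end Pair

/-- a unitary matrix that moves slowly under the twisted flow is paired with `J A⋆ J`: apply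
`md_J` to `A i j * c` with `s = log (lam j / lam i)`, multiply by `lam j`, sum, and use
`MatB.col`, `MatB.row`, `wave_central`, `J_central` -/
theorem exists_pair_one : ∃ C : ℝ, 0 ≤ C ∧ ∀ (H : Type u) [NormedAddCommGroup H] [InnerProductSpace ℂ H] [CompleteSpace H] (S : MD H) (D : Type) [Fintype D]
    [DecidableEq D] (lam : D → ℝ) (A : Matrix D D (Op H)) (κ : ℝ), (∀ i, 0 < lam i) →
    ∑ i, lam i = 1 → (∀ i j, A i j ∈ S.M) → A ∈ unitary (Matrix D D (Op H)) → 0 ≤ κ →
    (∀ t : ℝ, |t| ≤ 1 → MatB (twist S.D.wave lam t A - A) κ) →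
    ∃ t : TP S.M, t.Dfc S.Ω (C * κ) ∧
      t.Θ = ∑ i, ∑ j, ((√(lam i * lam j) : ℝ) : ℂ) • (jop S.J (A i j) * A i j) ∧
      (∀ g ζ, ∑ a, ∑ b, t.lam b * ‖cm g (t.A a b) ζ‖ ^ 2 =
        ∑ a, ∑ b, lam b * ‖cm g (A a b) ζ‖ ^ 2) ∧
      (∀ g ζ, ∑ a, ∑ b, t.lam b * ‖cm g (t.B a b) ζ‖ ^ 2 =
        ∑ a, ∑ b, lam b * ‖cm g (jop S.J (star A a b)) ζ‖ ^ 2) := by
  obtain ⟨C, hC0, hC⟩ := md_J.{u}
  refine ⟨√(2 * C), Real.sqrt_nonneg _, fun H _ _ _ S D _ _ lam A κ hl hl1 hAM hA hκ hT => ?_⟩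
  let t : TP S.M :=
    { D := D
      lam := lam
      pos := hl
      sum := hl1
      A := A
      B := Matrix.of fun i j => jop S.J (star A i j)
      A_mem := hAM
      B_mem := fun i j => S.J_mem _ (star_mem (hAM j i))
      A_unit := hA
      B_unit := Pair.jmat_unitary S.J_J (Unitary.star_mem hA) }
  refine ⟨t, fun c hc => ?_, ?_, fun _ _ => rfl, fun _ _ => rfl⟩
  · set ζ := c S.Ω with hζ
    have hw : ∀ t, S.D.wave t ζ = ζ := S.wave_central hc.1 hc.2.1
    have hJ : S.J ζ = ζ := S.J_central hc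
    set F : ℝ → D → D → ℝ := fun t i j =>
      ‖Complex.exp (-(Complex.I * (t * Real.log (lam j / lam i) : ℝ))) • S.D.wave t (A i j ζ) -
          A i j ζ‖ ^ 2 + Real.exp (-Real.log (lam j / lam i)) *
        ‖Complex.exp (Complex.I * (t * Real.log (lam j / lam i) : ℝ)) •
          S.D.wave t (star (A i j) ζ) - star (A i j) ζ‖ ^ 2 with hF
    have hc1 : ∀ (c : ℝ → ℂ) (ξ : H), Continuous c →
        Continuous fun t : ℝ => ‖c t • S.D.wave t ξ - ξ‖ ^ 2 := fun c ξ hc =>
      ((hc.smul (S.continuous_wave ξ)).sub continuous_const).norm.pow 2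
    have hFc : ∀ i j, Continuous fun t => F t i j := fun i j =>
      (hc1 _ _ (by fun_prop)).add (continuous_const.mul (hc1 _ _ (by fun_prop)))
    have hFc' : ∀ i j, Continuous fun t => lam j * F t i j := fun i j =>
      continuous_const.mul (hFc i j)
    have hFc2 : ∀ i, Continuous fun t => ∑ j, lam j * F t i j := fun i =>
      continuous_finsetSum _ fun j _ => hFc' i j
    have h1 : ∀ i j, ‖((√(lam j) : ℝ) : ℂ) • A i j ζ - ((√(lam i) : ℝ) : ℂ) • t.B j i ζ‖ ^ 2 ≤
        C * ∫ t in (0 : ℝ)..1, lam j * F t i j := fun i j => by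
      have h2 := hC H S (A i j * c) (mul_mem (hAM i j) hc.1) (Real.log (lam j / lam i))
      have h3 : star (A i j * c) S.Ω = star (A i j) ζ := by
        rw [star_mul, hc.2.2.isSelfAdjoint.star_eq,
          ← (commute_of_mem (star_mem (hAM i j)) hc.2.1).eq]
        rfl
      have h4 : (A i j * c) S.Ω = A i j ζ := rfl
      rw [h3, h4] at h2
      have h5 : t.B j i ζ = S.J (star (A i j) ζ) := by
        show S.J (star (A i j) (S.J ζ)) = _
        rw [hJ]
      have h6 : √(lam i) = √(lam j) * Real.exp (-(Real.log (lam j / lam i) / 2)) := by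
        have hi := hl i
        have hj := hl j
        rw [Real.sqrt_eq_iff_mul_self_eq hi.le (by positivity), mul_mul_mul_comm,
          Real.mul_self_sqrt hj.le, ← Real.exp_add, ← neg_add, add_halves, Real.exp_neg,
          Real.exp_log (by positivity)]
        field_simp
      rw [h5, h6, Complex.ofReal_mul, mul_smul, ← smul_sub, norm_smul, mul_pow, Complex.norm_real,
        Real.norm_of_nonneg (Real.sqrt_nonneg _), Real.sq_sqrt (hl j).le,
        intervalIntegral.integral_const_mul, mul_left_comm]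
      exact mul_le_mul_of_nonneg_left h2 (hl j).le
    have h2 : ∀ t ∈ Set.Icc (0 : ℝ) 1, ∑ i, ∑ j, lam j * F t i j ≤ 2 * κ ^ 2 * ‖ζ‖ ^ 2 :=
      fun t ht => by
      have hB := hT t (by rw [abs_of_nonneg ht.1]; exact ht.2)
      have e : ∀ i j, lam j * F t i j = lam j * ‖(twist S.D.wave lam t A - A) i j ζ‖ ^ 2 +
          lam i * ‖star ((twist S.D.wave lam t A - A) i j) ζ‖ ^ 2 := fun i j => by
        have hi := hl i
        have hj := hl j
        rw [Pair.twist_apply S lam A t i j hw, Pair.twist_star_apply S lam A t i j hw, hF]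
        simp only
        rw [Real.exp_neg, Real.exp_log (by positivity)]
        field_simp
      simp only [e, Finset.sum_add_distrib]
      have h3 : ∑ i, ∑ j, lam j * ‖(twist S.D.wave lam t A - A) i j ζ‖ ^ 2 ≤ κ ^ 2 * ‖ζ‖ ^ 2 := by
        rw [Finset.sum_comm, ← one_mul (κ ^ 2 * _), ← hl1, Finset.sum_mul]
        refine Finset.sum_le_sum fun j _ => ?_
        rw [← Finset.mul_sum]
        exact mul_le_mul_of_nonneg_left (hB.col j ζ) (hl j).le
      have h4 : ∑ i, ∑ j, lam i * ‖star ((twist S.D.wave lam t A - A) i j) ζ‖ ^ 2 ≤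
          κ ^ 2 * ‖ζ‖ ^ 2 := by
        rw [← one_mul (κ ^ 2 * _), ← hl1, Finset.sum_mul]
        refine Finset.sum_le_sum fun i _ => ?_
        rw [← Finset.mul_sum]
        exact mul_le_mul_of_nonneg_left (hB.row hκ i ζ) (hl i).le
      linarith
    have h3 : ∑ i, ∑ j, C * ∫ t in (0 : ℝ)..1, lam j * F t i j =
        C * ∫ t in (0 : ℝ)..1, ∑ i, ∑ j, lam j * F t i j := by
      rw [intervalIntegral.integral_finsetSum fun i _ => (hFc2 i).intervalIntegrable _ _,
        Finset.mul_sum]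
      refine Finset.sum_congr rfl fun i _ => ?_
      rw [intervalIntegral.integral_finsetSum fun j _ => (hFc' i j).intervalIntegrable _ _,
        Finset.mul_sum]
    have h4 : ∫ t in (0 : ℝ)..1, ∑ i, ∑ j, lam j * F t i j ≤ 2 * κ ^ 2 * ‖ζ‖ ^ 2 := by
      have := intervalIntegral.integral_mono_on (μ := MeasureTheory.volume) zero_le_one
        ((continuous_finsetSum _ fun i _ => hFc2 i).intervalIntegrable _ _)
        intervalIntegrable_const h2
      simpa using this
    refine Real.sqrt_le_iff.2 ⟨by positivity, ?_⟩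
    refine (Finset.sum_le_sum fun i _ => Finset.sum_le_sum fun j _ => h1 i j).trans ?_
    refine h3.le.trans ?_
    rw [mul_pow, mul_pow, Real.sq_sqrt (by positivity)]
    nlinarith [mul_le_mul_of_nonneg_left h4 hC0]
  · refine Finset.sum_congr rfl fun i _ => Finset.sum_congr rfl fun j _ => ?_
    show _ • (star (jop S.J (star (A i j))) * A i j) = _
    rw [← jop_star S.J_J, star_star]

/-- `Y = √(1 - X²)` (computed on `Amp D H` via `ofMat`; the twisted flow is conjugation by the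
unitary `dgf (i ↦ lam i ^ {i t} U t)`; `sq_lip`), `A± = X ± i Y`, mix with weights `½, ½` -/
theorem exists_pair : ∃ C : ℝ, 0 ≤ C ∧ ∀ (H : Type u) [NormedAddCommGroup H] [InnerProductSpace ℂ H] [CompleteSpace H] (S : MD H) (D : Type) [Fintype D]
    [DecidableEq D] (lam : D → ℝ) (X : Matrix D D (Op H)) (κ : ℝ), (∀ i, 0 < lam i) →
    ∑ i, lam i = 1 → (∀ i j, X i j ∈ S.M) → star X = X → MatB X (1 / 2) → 0 ≤ κ →
    (∀ t : ℝ, |t| ≤ 1 → MatB (twist S.D.wave lam t X - X) κ) →
    ∃ t : TP S.M, IsSelfAdjoint t.Θ ∧ t.Dfc S.Ω (C * κ) ∧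
      Read t.lam t.A (∑ i, ∑ j, X i j) (∑ _i : D, ∑ j, 1 / lam j) ∧
      Read t.lam t.B (jop S.J (∑ i, ∑ j, X i j)) (∑ _i : D, ∑ j, 1 / lam j) := by
  obtain ⟨C, hC0, hC⟩ := exists_pair_one.{u}
  refine ⟨C * 3, by positivity, fun H _ _ _ S D _ _ lam X κ hl hl1 hXM hX hXn hκ hT => ?_⟩
  have hx : IsSelfAdjoint (ofMat X) := by rw [IsSelfAdjoint, ← ofMat_star, hX]
  obtain ⟨y, hy, hyx, hyy, hyc, hyv⟩ := Pair.exists_sqrt hx ((matB_iff (by norm_num)).1 hXn)
  set Y : Matrix D D (Op H) := Matrix.of fun i j => ent y i j with hY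
  have hYy : ofMat Y = y := ofMat_ent y
  have hxM : ofMat X ∈ ampB D S.M := mem_ampB.2 fun i j => by rw [ent_ofMat]; exact hXM i j
  have hyM : y ∈ ampB D S.M :=
    mem_of_commute fun t ht => (hyc t (commute_of_mem hxM ht).symm).symm
  have hYM : ∀ i j, Y i j ∈ S.M := mem_ampB.1 hyM
  have hYs : star Y = Y := ofMat_injective (by rw [ofMat_star, hYy, hy.star_eq])
  have hYT : ∀ t : ℝ, |t| ≤ 1 → ‖ofMat (twist S.D.wave lam t Y - Y)‖ ≤ 2 * κ := fun t ht => by
    obtain ⟨v, hv, hvZ⟩ := Pair.exists_impl S hl t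
    have h1 := (matB_iff hκ).1 (hT t ht)
    rw [ofMat_sub, hvZ] at h1 ⊢
    rw [hYy]
    linarith [hyv v hv]
  have key : ∀ e : ℂ, e * e = -1 → star e = -e → ‖e‖ = 1 →
      ∃ t : TP S.M, t.Dfc S.Ω (C * (3 * κ)) ∧
      t.Θ = ∑ i, ∑ j, ((√(lam i * lam j) : ℝ) : ℂ) •
        (jop S.J ((X + e • Y) i j) * (X + e • Y) i j) ∧
      (∀ g ζ, ∑ a, ∑ b, t.lam b * ‖cm g (t.A a b) ζ‖ ^ 2 =
        ∑ a, ∑ b, lam b * ‖cm g ((X + e • Y) a b) ζ‖ ^ 2) ∧
      (∀ g ζ, ∑ a, ∑ b, t.lam b * ‖cm g (t.B a b) ζ‖ ^ 2 =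
        ∑ a, ∑ b, lam b * ‖cm g (jop S.J (star (X + e • Y) a b)) ζ‖ ^ 2) := fun e he he' hen => by
    refine hC H S D lam (X + e • Y) (3 * κ) hl hl1
      (fun i j => add_mem (hXM i j) (smul_mem_vn e (hYM i j))) ?_ (by positivity) fun t ht => ?_
    · rw [← Pair.ofMat_unitary, ofMat_add, ofMat_smul, hYy, Unitary.mem_iff, star_add, star_smul,
        hx.star_eq, hy.star_eq, he']
      simp only [add_mul, mul_add, smul_mul_assoc, mul_smul_comm, smul_add, smul_smul, hyx.eq, hyy,
        neg_mul, mul_neg, he, neg_neg, one_smul, neg_smul, smul_neg]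
      constructor <;> abel
    · have e1 : twist S.D.wave lam t (X + e • Y) - (X + e • Y) =
          (twist S.D.wave lam t X - X) + e • (twist S.D.wave lam t Y - Y) := by
        ext1 i j
        simp only [twist, Matrix.sub_apply, Matrix.add_apply, Matrix.smul_apply, mul_add, add_mul,
          smul_add, smul_sub, mul_smul_comm, smul_mul_assoc, smul_smul, mul_comm e]
        abel
      rw [matB_iff (by positivity), e1, ofMat_add, ofMat_smul]
      refine (norm_add_le _ _).trans ?_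
      rw [norm_smul, hen, one_mul]
      linarith [(matB_iff hκ).1 (hT t ht), hYT t ht]
  obtain ⟨t₁, d₁, Θ₁, A₁, B₁⟩ := key Complex.I Complex.I_mul_I (by simp) (by simp)
  obtain ⟨t₂, d₂, Θ₂, A₂, B₂⟩ := key (-Complex.I) (by simp) (by simp) (by simp)
  obtain ⟨t, -, -, hΘ, hd, hA, hB, -, -⟩ := TP.exists_mix (ι := Bool) (fun _ => 1 / 2)
    (fun _ => by norm_num) (by simp) (fun b => cond b t₁ t₂)
  simp only [Fintype.sum_bool, cond_true, cond_false] at hΘ hd hA hB
  have hst : ∀ e : ℂ, star e = -e → star (X + e • Y) = X + (-e) • Y := fun e he => by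
    rw [star_add, star_smul, hX, hYs, he]
  have hΘs : star t₁.Θ = t₂.Θ := by
    rw [Θ₁, Θ₂, star_sum, Finset.sum_comm]
    refine Finset.sum_congr rfl fun i _ => ?_
    rw [star_sum]
    refine Finset.sum_congr rfl fun j _ => ?_
    have h1 : star ((X + Complex.I • Y) i j) = (X + (-Complex.I) • Y) j i := by
      rw [← hst Complex.I (by simp)]; rfl
    have h2 : (X + (-Complex.I) • Y) j i ∈ S.M := add_mem (hXM j i) (smul_mem_vn _ (hYM j i))
    rw [star_smul, star_mul, ← jop_star S.J_J, h1, (commute_of_mem h2 (S.J_mem _ h2)).eq,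
      mul_comm (lam i), Complex.star_def, Complex.conj_ofReal]
  refine ⟨t, ?_, fun c hc => ?_, fun g ζ => ?_, fun g ζ => ?_⟩
  · rw [IsSelfAdjoint, hΘ, star_add, star_smul, star_smul, hΘs, ← hΘs, star_star, add_comm,
      Complex.star_def, Complex.conj_ofReal]
  · have h1 := pow_le_pow_left₀ (t₁.dfc_nonneg _) (d₁ c hc) 2
    have h2 := pow_le_pow_left₀ (t₂.dfc_nonneg _) (d₂ c hc) 2
    refine (pow_le_pow_iff_left₀ (t.dfc_nonneg _) (by positivity) two_ne_zero).1 ?_
    rw [hd, mul_assoc C 3 κ]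
    linarith
  · rw [hA, A₁, A₂]
    have := Pair.read_aux hl (fun a b => cm g (X a b) ζ) (fun a b => Complex.I • cm g (Y a b) ζ)
    simp only [R124.cm_sum, R124.cm_add, R124.cm_smul, Matrix.add_apply, Matrix.smul_apply,
      sum_apply, add_apply, smul_apply]
    simp only [neg_smul, ← sub_eq_add_neg]
    exact this
  · rw [hB, B₁, B₂, hst _ (by simp), hst _ (by simp)]
    have := Pair.read_aux hl (fun a b => cm g (jop S.J (X a b)) ζ)
      (fun a b => Complex.I • cm g (jop S.J (Y a b)) ζ)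
    simp only [jop_sum, jop_add, jop_smul, R124.cm_sum, R124.cm_add, R124.cm_smul,
      Matrix.add_apply, Matrix.smul_apply, sum_apply, add_apply, smul_apply]
    simp only [map_neg, Complex.conj_I, neg_neg, neg_smul, ← sub_eq_add_neg]
    exact this

end Crest.Agent.R78
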