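import Crest.Agent.R78.Basic

/-! # Row 78: Tomita–Takesaki III: linear Radon–Nikodym theorem -/

set_option autoImplicit false

namespace Crest.Agent.R78

open scoped InnerProductSpace ComplexOrder BigOperators Topology
open Filter
open Crest.Agent.R124 (Op cm)
open Crest.OpAlg (LineCalculus)

universe u

variable {H : Type u} [NormedAddCommGroup H] [InnerProductSpace ℂ H] [CompleteSpace H]

namespace RN

/-- a regularised sign of `h` -/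
lemma exists_sign {h : Op H} (hsa : IsSelfAdjoint h) {ε : ℝ} (hε : 0 < ε) :
    ∃ x : Op H, IsSelfAdjoint x ∧ ‖x‖ ≤ 1 ∧ (∀ y, Commute h y → Commute x y) ∧
      0 ≤ h * x + (ε : ℂ) • (1 : Op H) + h ∧ 0 ≤ h * x + (ε : ℂ) • (1 : Op H) - h := by
  obtain ⟨g, hg⟩ : ∃ g : ℝ → ℝ, g = fun t => t / (|t| + ε) := ⟨_, rfl⟩
  have hpos : ∀ t : ℝ, 0 < |t| + ε := fun t => by positivity
  have hgc : Continuous g := by
    rw [hg]
    exact continuous_id.div (by fun_prop) fun t => (hpos t).ne'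
  have hmul : h * cfc g h = cfc (fun t => t * g t) h := by
    rw [cfc_mul (fun t => t) g h, cfc_id' ℝ h]
  have hb : ∀ t : ℝ, |t| ≤ t * g t + ε := by
    intro t
    have h1 : t * g t = |t| ^ 2 / (|t| + ε) := by rw [hg, sq_abs]; ring
    rw [h1, ← sub_le_iff_le_add, le_div_iff₀ (hpos t)]
    nlinarith [sq_nonneg ε]
  have hE' : h * cfc g h + (ε : ℂ) • (1 : Op H) = cfc (fun t => t * g t + ε) h := by
    rw [cfc_add_const ε (fun t => t * g t) h, hmul, Algebra.algebraMap_eq_smul_one]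
    rfl
  refine ⟨cfc g h, IsSelfAdjoint.cfc, ?_, fun y hy => hy.cfc_real g, ?_, ?_⟩
  · refine norm_cfc_le zero_le_one fun t _ => ?_
    rw [hg, Real.norm_eq_abs, abs_div, abs_of_pos (hpos t), div_le_one (hpos t)]
    linarith
  · have : cfc (fun t => t * g t + ε) h + h = cfc (fun t => t * g t + ε + t) h := by
      rw [cfc_add h (fun t => t * g t + ε) (fun t => t), cfc_id' ℝ h]
    rw [hE', this]
    exact cfc_nonneg fun t _ => by linarith [hb t, neg_abs_le t]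
  · have : cfc (fun t => t * g t + ε) h - h = cfc (fun t => t * g t + ε - t) h := by
      rw [cfc_sub (fun t => t * g t + ε) (fun t => t) h, cfc_id' ℝ h]
    rw [hE', this]
    exact cfc_nonneg fun t _ => by linarith [hb t, le_abs_self t]

lemma pos_est {E h x' : Op H} (hs : IsSelfAdjoint x') (hA : 0 ≤ E + h) (hB : 0 ≤ E - h)
    (hEx : Commute E x') (hhx : Commute h x') (Ω : H) :
    (⟪Ω, h (x' Ω)⟫_ℂ).re ≤ ‖x'‖ * (⟪Ω, E Ω⟫_ℂ).re := by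
  obtain ⟨ρ, hρ⟩ : ∃ ρ : Op H, ρ = algebraMap ℝ (Op H) ‖x'‖ := ⟨_, rfl⟩
  have h1 : 0 ≤ ρ - x' := by rw [hρ]; exact sub_nonneg.2 hs.le_algebraMap_norm_self
  have h2 : 0 ≤ ρ + x' := by
    have := hs.neg_algebraMap_norm_le_self
    rwa [neg_le_iff_add_nonneg', ← hρ] at this
  have hρc : ∀ a : Op H, Commute a ρ := fun a => by rw [hρ]; exact (Algebra.commutes _ _).symm
  have h3 : 0 ≤ (E + h) * (ρ - x') :=
    Commute.mul_nonneg hA h1 ((hρc _).sub_right (hEx.add_left hhx))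
  have h4 : 0 ≤ (E - h) * (ρ + x') :=
    Commute.mul_nonneg hB h2 ((hρc _).add_right (hEx.sub_left hhx))
  have h5 : (E + h) * (ρ - x') + (E - h) * (ρ + x') = (E * ρ - h * x') + (E * ρ - h * x') := by
    noncomm_ring
  have h6 := ((ContinuousLinearMap.nonneg_iff_isPositive _).1
    (add_nonneg h3 h4)).re_inner_nonneg_right Ω
  rw [h5] at h6
  have hρΩ : (E * ρ) Ω = (‖x'‖ : ℂ) • E Ω := by
    rw [hρ, Algebra.algebraMap_eq_smul_one, mul_smul_comm, mul_one]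
    rfl
  have h7 : (E * ρ - h * x' + (E * ρ - h * x')) Ω =
      ((E * ρ) Ω - h (x' Ω)) + ((E * ρ) Ω - h (x' Ω)) := rfl
  rw [h7, hρΩ, inner_add_right, inner_sub_right, inner_smul_right, RCLike.re_to_complex,
    Complex.add_re, Complex.sub_re, Complex.re_ofReal_mul] at h6
  linarith

lemma im_zero {a : Op H} (ha : IsSelfAdjoint a) (Ω : H) : (⟪Ω, a Ω⟫_ℂ).im = 0 :=
  ha.isSymmetric.im_inner_self_apply Ω

lemma sa_inner {a : Op H} (ha : IsSelfAdjoint a) (ξ η : H) : ⟪ξ, a η⟫_ℂ = ⟪a ξ, η⟫_ℂ :=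
  (ha.isSymmetric ξ η).symm

/-- the key estimate on a single self-adjoint element -/
lemma key (M : VN H) (Ω : H) {x' : Op H} (hx' : x' ∈ M.commutant) (hs : IsSelfAdjoint x')
    {h : Op H} (hh : h ∈ M) (hsa : IsSelfAdjoint h) {ε : ℝ} (hε : 0 < ε) :
    ∃ x ∈ M, IsSelfAdjoint x ∧ ‖x‖ ≤ 1 ∧ (⟪h Ω, x Ω⟫_ℂ).im = 0 ∧
      (⟪h Ω, x' Ω⟫_ℂ).re ≤ ‖x'‖ * ((⟪h Ω, x Ω⟫_ℂ).re + ε * ‖Ω‖ ^ 2) := by
  obtain ⟨x, hxs, hxn, hxc, hA, hB⟩ := exists_sign hsa hε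
  have hxM : x ∈ M := mem_of_commute fun y hy => hxc y (commute_of_mem hh hy)
  have hhx : Commute h x' := commute_of_mem hh hx'
  have hEx : Commute (h * x + (ε : ℂ) • (1 : Op H)) x' :=
    (hhx.mul_left (hxc _ hhx)).add_left ((Commute.one_left x').smul_left _)
  refine ⟨x, hxM, hxs, hxn, ?_, ?_⟩
  · have hsa2 : IsSelfAdjoint (h * x) := by
      rw [IsSelfAdjoint, star_mul, hxs.star_eq, hsa.star_eq, (hxc h (Commute.refl h)).eq]
    rw [← sa_inner hsa]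
    exact im_zero hsa2 Ω
  · have h1 := pos_est hs hA hB hEx hhx Ω
    have h2 : (h * x + (ε : ℂ) • (1 : Op H)) Ω = h (x Ω) + (ε : ℂ) • Ω := rfl
    have h3 : (⟪Ω, Ω⟫_ℂ).re = ‖Ω‖ ^ 2 := inner_self_eq_norm_sq (𝕜 := ℂ) Ω
    rwa [h2, inner_add_right, inner_smul_right, sa_inner hsa, sa_inner hsa, Complex.add_re,
      Complex.re_ofReal_mul, h3] at h1

/-- the real subspace `M_sa Ω` -/
def S (M : VN H) (Ω : H) : Submodule ℝ H where
  carrier := {ξ | ∃ y ∈ M, IsSelfAdjoint y ∧ ξ = y Ω}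
  add_mem' := by
    rintro _ _ ⟨y, hy, hs, rfl⟩ ⟨z, hz, ht, rfl⟩
    exact ⟨y + z, add_mem hy hz, hs.add ht, rfl⟩
  zero_mem' := ⟨0, zero_mem _, IsSelfAdjoint.zero _, rfl⟩
  smul_mem' := by
    rintro c _ ⟨y, hy, hs, rfl⟩
    refine ⟨(c : ℂ) • y, smul_mem_vn _ hy, ?_, rfl⟩
    rw [IsSelfAdjoint, star_smul, hs.star_eq]
    simp

/-- the closed convex set of the separation argument -/
def C (M : VN H) (Ω : H) (l : ℂ) (r : ℝ) : Set H :=
  {ζ | ∃ x ∈ M, IsSelfAdjoint x ∧ ‖x‖ ≤ r ∧ ∀ y ∈ M, IsSelfAdjoint y →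
    (⟪y Ω, ζ⟫_ℂ).re = (l * ⟪y Ω, x Ω⟫_ℂ).re}

lemma convex_C (M : VN H) (Ω : H) (l : ℂ) (r : ℝ) : Convex ℝ (C M Ω l r) := by
  rintro ζ ⟨x, hx, hs, hr, h⟩ ζ' ⟨x', hx', hs', hr', h'⟩ a b ha hb hab
  refine ⟨(a : ℂ) • x + (b : ℂ) • x', add_mem (smul_mem_vn _ hx) (smul_mem_vn _ hx'), ?_, ?_,
    fun y hy hsy => ?_⟩
  · rw [IsSelfAdjoint, star_add, star_smul, star_smul, hs.star_eq, hs'.star_eq]
    simp
  · refine (norm_add_le _ _).trans ?_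
    rw [norm_smul, norm_smul, Complex.norm_real, Complex.norm_real, Real.norm_of_nonneg ha,
      Real.norm_of_nonneg hb]
    calc a * ‖x‖ + b * ‖x'‖ ≤ a * r + b * r := by gcongr
      _ = r := by rw [← add_mul, hab, one_mul]
  · have e1 : ⟪y Ω, a • ζ + b • ζ'⟫_ℂ = (a : ℂ) * ⟪y Ω, ζ⟫_ℂ + (b : ℂ) * ⟪y Ω, ζ'⟫_ℂ := by
      rw [inner_add_right, ← inner_smul_right, ← inner_smul_right]
      rfl
    have e2 : l * ⟪y Ω, ((a : ℂ) • x + (b : ℂ) • x') Ω⟫_ℂ =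
        (a : ℂ) * (l * ⟪y Ω, x Ω⟫_ℂ) + (b : ℂ) * (l * ⟪y Ω, x' Ω⟫_ℂ) := by
      rw [_root_.add_apply, _root_.smul_apply,
        _root_.smul_apply, inner_add_right, inner_smul_right, inner_smul_right]
      ring
    rw [e1, e2, Complex.add_re, Complex.add_re, Complex.re_ofReal_mul, Complex.re_ofReal_mul,
      Complex.re_ofReal_mul, Complex.re_ofReal_mul, h y hy hsy, h' y hy hsy]

lemma isClosed_C (M : VN H) (Ω : H) (l : ℂ) {r : ℝ} (hr : 0 ≤ r) : IsClosed (C M Ω l r) := by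
  refine isClosed_of_closure_subset fun ζ hζ => ?_
  obtain ⟨z, hz, hlim⟩ := mem_closure_iff_seq_limit.1 hζ
  choose x hx hs hn h using hz
  obtain ⟨x₀, hx₀, hw⟩ := exists_wl (hyperfilter ℕ) x hr (Eventually.of_forall hn)
  refine ⟨x₀, hw.mem (Eventually.of_forall hx), ?_, hx₀, fun y hy hsy => ?_⟩
  · exact (hw.star.congr' (Eventually.of_forall fun n => (hs n).star_eq)).unique hw
  · have h1 : Tendsto (fun n => (⟪y Ω, z n⟫_ℂ).re) (hyperfilter ℕ) (𝓝 (⟪y Ω, ζ⟫_ℂ).re) :=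
      ((Complex.continuous_re.tendsto _).comp
        (tendsto_const_nhds.inner hlim)).mono_left Nat.hyperfilter_le_atTop
    have h2 : Tendsto (fun n => (l * ⟪y Ω, x n Ω⟫_ℂ).re) (hyperfilter ℕ)
        (𝓝 (l * ⟪y Ω, x₀ Ω⟫_ℂ).re) :=
      (Complex.continuous_re.tendsto _).comp ((hw Ω (y Ω)).const_mul l)
    exact tendsto_nhds_unique h1 (h2.congr fun n => (h n y hy hsy).symm)

lemma mem_C (M : VN H) (Ω : H) {x' : Op H} (hx' : x' ∈ M.commutant) (hs : IsSelfAdjoint x')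
    {l : ℂ} (hl : 0 < l.re) : x' Ω ∈ C M Ω l (‖x'‖ / l.re) := by
  let _ : InnerProductSpace ℝ H := InnerProductSpace.complexToReal
  obtain ⟨r, hr⟩ : ∃ r : ℝ, r = ‖x'‖ / l.re := ⟨_, rfl⟩
  rw [← hr]
  have hr0 : 0 ≤ r := by rw [hr]; positivity
  have hre : ∀ a b : H, ⟪a, b⟫_ℝ = (⟪a, b⟫_ℂ).re := fun a b => real_inner_eq_re_inner ℂ a b
  have hne : (C M Ω l r).Nonempty :=
    ⟨0, 0, zero_mem _, IsSelfAdjoint.zero _, by simpa using hr0, fun y _ _ => by simp⟩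
  obtain ⟨v, hv, hmin⟩ := exists_norm_eq_iInf_of_complete_convex hne
    (isClosed_C M Ω l hr0).isComplete (convex_C M Ω l r) (x' Ω)
  have hvar := (norm_eq_iInf_iff_real_inner_le_zero (convex_C M Ω l r) hv).1 hmin
  obtain ⟨k, hk⟩ : ∃ k, k = x' Ω - v := ⟨_, rfl⟩
  rw [← hk] at hvar
  have hkS : k ∈ (S M Ω).topologicalClosure := by
    rw [← Submodule.orthogonal_orthogonal_eq_closure, Submodule.mem_orthogonal']
    have aux : ∀ z ∈ (S M Ω)ᗮ, ⟪k, z⟫_ℝ ≤ 0 := by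
      intro z hz
      have : v + z ∈ C M Ω l r := by
        obtain ⟨x, hx, hsx, hn, h⟩ := hv
        refine ⟨x, hx, hsx, hn, fun y hy hsy => ?_⟩
        have h0 := (Submodule.mem_orthogonal _ _).1 hz (y Ω) ⟨y, hy, hsy, rfl⟩
        rw [hre] at h0
        rw [inner_add_right, Complex.add_re, h0, add_zero, h y hy hsy]
      simpa using hvar _ this
    intro z hz
    have h1 := aux z hz
    have h2 := aux (-z) (neg_mem hz)
    rw [inner_neg_right] at h2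
    linarith
  have hest : ∀ ε : ℝ, 0 < ε →
      ‖k‖ ^ 2 ≤ ε * (‖x' Ω‖ + ‖l‖ * (r * ‖Ω‖) + ‖x'‖ * ‖Ω‖ ^ 2) := by
    intro ε hε
    obtain ⟨_, ⟨h, hh, hsh, rfl⟩, hd⟩ := Metric.mem_closure_iff.1 hkS ε hε
    rw [dist_eq_norm] at hd
    obtain ⟨x, hx, hsx, hn, him, hle⟩ := key M Ω hx' hs hh hsh hε
    obtain ⟨w, hw⟩ : ∃ w : H, w = l • ((r : ℂ) • x) Ω := ⟨_, rfl⟩
    have hwC : w ∈ C M Ω l r := by
      refine ⟨(r : ℂ) • x, smul_mem_vn _ hx, ?_, ?_, fun y _ _ => by rw [hw, inner_smul_right]⟩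
      · rw [IsSelfAdjoint, star_smul, hsx.star_eq]
        simp
      · rw [norm_smul, Complex.norm_real, Real.norm_of_nonneg hr0]
        exact mul_le_of_le_one_right hr0 hn
    have hwn : ‖w‖ ≤ ‖l‖ * (r * ‖Ω‖) := by
      rw [hw, norm_smul, _root_.smul_apply, norm_smul, Complex.norm_real,
        Real.norm_of_nonneg hr0]
      gcongr
      exact (x.le_opNorm Ω).trans (mul_le_of_le_one_left (norm_nonneg _) hn)
    have hhw : ⟪h Ω, w⟫_ℝ = ‖x'‖ * (⟪h Ω, x Ω⟫_ℂ).re := by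
      rw [hre, hw, inner_smul_right, _root_.smul_apply, inner_smul_right,
        Complex.mul_re, Complex.re_ofReal_mul, Complex.im_ofReal_mul, him, hr]
      field_simp
      ring
    have h1 := hvar w hwC
    have h2 : ‖k‖ ^ 2 = ⟪k, x' Ω - w⟫_ℝ + ⟪k, w - v⟫_ℝ := by
      rw [← inner_add_right, sub_add_sub_cancel, ← hk, real_inner_self_eq_norm_sq]
    have h3 : ⟪k, x' Ω - w⟫_ℝ = ⟪k - h Ω, x' Ω - w⟫_ℝ + (⟪h Ω, x' Ω⟫_ℝ - ⟪h Ω, w⟫_ℝ) := by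
      rw [← inner_sub_right, ← inner_add_left, sub_add_cancel]
    have h4 : ⟪k - h Ω, x' Ω - w⟫_ℝ ≤ ε * (‖x' Ω‖ + ‖l‖ * (r * ‖Ω‖)) := by
      refine (real_inner_le_norm _ _).trans ?_
      gcongr
      exact (norm_sub_le _ _).trans (by gcongr)
    rw [← hre] at hle
    nlinarith
  have hk0 : ‖k‖ ^ 2 ≤ 0 := by
    have ht : Tendsto (fun ε : ℝ => ε * (‖x' Ω‖ + ‖l‖ * (r * ‖Ω‖) + ‖x'‖ * ‖Ω‖ ^ 2)) (𝓝[>] 0)
        (𝓝 (0 * (‖x' Ω‖ + ‖l‖ * (r * ‖Ω‖) + ‖x'‖ * ‖Ω‖ ^ 2))) :=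
      (tendsto_id.mono_left nhdsWithin_le_nhds).mul_const _
    rw [zero_mul] at ht
    exact ge_of_tendsto ht (eventually_nhdsWithin_of_forall hest)
  have : k = 0 := by
    have := le_antisymm hk0 (sq_nonneg _)
    simpa using this
  rw [sub_eq_zero.1 (hk.symm.trans this)]
  exact hv

end RN

/-- RvD Lemma 4.3.  Scale to `Re l = 1`, `‖x'‖ ≤ 1`.  In the real Hilbert space `K = saSub M Ω`
with projection `P`, the set `C = {P (l • x Ω) | x = x⋆ ∈ M, ‖x‖ ≤ 1}` is convex and norm closed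
(weak ultralimits, `exists_wl`).  If `P (x' Ω) ∉ C`, separate strictly by a vector of `K`, which
may be taken of the form `h Ω`, `h = h⋆ ∈ M` (`C` is bounded).  But `⟪h Ω, x' Ω⟫ ≤ ⟪Ω, |h| Ω⟫`
(write `h = h⁺ - h⁻` and move square roots), while for `x = h (h² + ε)^{-1/2}` the number
`Re (l ⟪h Ω, x Ω⟫) = ⟪Ω, h² (h² + ε)^{-1/2} Ω⟫` tends to `⟪Ω, |h| Ω⟫`. -/
theorem linear_rn (M : VN H) (Ω : H) {x' : Op H} (hx' : x' ∈ M.commutant) (hs : IsSelfAdjoint x')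
    {l : ℂ} (hl : 0 < l.re) :
    ∃ x ∈ M, IsSelfAdjoint x ∧ ∀ y ∈ M, IsSelfAdjoint y →
      ⟪y Ω, x' Ω⟫_ℂ = (((l * ⟪y Ω, x Ω⟫_ℂ).re : ℝ) : ℂ) := by
  obtain ⟨x, hx, hsx, -, h⟩ := RN.mem_C M Ω hx' hs hl
  refine ⟨x, hx, hsx, fun y hy hsy => ?_⟩
  rw [← h y hy hsy]
  have hsa : IsSelfAdjoint (y * x') := by
    rw [IsSelfAdjoint, star_mul, hs.star_eq, hsy.star_eq, (commute_of_mem hy hx').eq]
  refine Complex.ext (Complex.ofReal_re _).symm ?_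
  rw [Complex.ofReal_im, ← RN.sa_inner hsy]
  exact RN.im_zero hsa Ω

end Crest.Agent.R78
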