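import Crest.Agent.R78.Basic

/-! # Row 78: Tomita–Takesaki I: the operators `R`, `T`, `J` of a standard subspace -/

set_option autoImplicit false

namespace Crest.Agent.R78

open scoped InnerProductSpace ComplexOrder BigOperators Topology
open Filter
open Crest.Agent.R124 (Op cm)
open Crest.OpAlg (LineCalculus)

universe u

variable {H : Type u} [NormedAddCommGroup H] [InnerProductSpace ℂ H] [CompleteSpace H]


namespace RvD1

omit [CompleteSpace H] in
lemma anti_real (A : H →SL[starRingEnd ℂ] H) (r : ℝ) (ξ : H) : A (r • ξ) = r • A ξ := by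
  rw [← Complex.coe_smul, map_smulₛₗ, Complex.conj_ofReal, Complex.coe_smul]

omit [CompleteSpace H] in
lemma anti_aeval (A : H →SL[starRingEnd ℂ] H) {a b : Op H} (h : ∀ ξ, A (a ξ) = b (A ξ))
    (q : Polynomial ℝ) (ξ : H) :
    A (Polynomial.aeval a q ξ) = Polynomial.aeval b q (A ξ) := by
  induction q using Polynomial.induction_on generalizing ξ with
  | C r =>
    simp only [Polynomial.aeval_C, Algebra.algebraMap_eq_smul_one,
      smul_apply, one_apply_eq_self, anti_real]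
  | add p q hp hq => simp only [map_add, add_apply, hp, hq]
  | monomial n r hn =>
    rw [pow_succ, ← mul_assoc, map_mul, map_mul (Polynomial.aeval b), Polynomial.aeval_X,
      Polynomial.aeval_X, mul_apply_eq_comp, mul_apply_eq_comp, hn, h]

lemma norm_cfc_sub_aeval {a : Op H} (ha : IsSelfAdjoint a) {g : ℝ → ℝ} (hg : Continuous g)
    (q : Polynomial ℝ) {ε : ℝ} (hε : 0 ≤ ε) (h : ∀ x ∈ spectrum ℝ a, |q.eval x - g x| ≤ ε) :
    ‖Polynomial.aeval a q - cfc g a‖ ≤ ε := by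
  rw [← cfc_polynomial q a, ← cfc_sub _ _ a]
  exact norm_cfc_le hε h

end RvD1

/-- a bounded conjugate-linear map intertwining `a` and `b` intertwines their real continuous
functional calculi (Weierstrass approximation with real polynomials) -/
theorem anti_cfc (A : H →SL[starRingEnd ℂ] H) {a b : Op H} (ha : IsSelfAdjoint a)
    (hb : IsSelfAdjoint b) (h : ∀ ξ, A (a ξ) = b (A ξ)) {g : ℝ → ℝ} (hg : Continuous g) (ξ : H) :
    A (cfc g a ξ) = cfc g b (A ξ) := by
  obtain ⟨M, hM⟩ := ((spectrum.isBounded (𝕜 := ℝ) a).union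
    (spectrum.isBounded (𝕜 := ℝ) b)).subset_closedBall 0
  rw [Real.closedBall_eq_Icc] at hM
  have key : ∀ ε : ℝ, 0 < ε →
      ‖A (cfc g a ξ) - cfc g b (A ξ)‖ ≤ ε * (‖A‖ * ‖ξ‖ + ‖A ξ‖) := fun ε hε => by
    obtain ⟨q, hq⟩ := exists_polynomial_near_of_continuousOn (0 - M) (0 + M) g
      hg.continuousOn ε hε
    have h1 := RvD1.norm_cfc_sub_aeval ha hg q hε.le fun x hx => (hq x (hM (Or.inl hx))).le
    have h2 := RvD1.norm_cfc_sub_aeval hb hg q hε.le fun x hx => (hq x (hM (Or.inr hx))).le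
    have e : A (cfc g a ξ) - cfc g b (A ξ) =
        (Polynomial.aeval b q - cfc g b) (A ξ) - A ((Polynomial.aeval a q - cfc g a) ξ) := by
      simp only [sub_apply, map_sub, RvD1.anti_aeval A h]
      abel
    rw [e]
    have h3 : ‖(Polynomial.aeval b q - cfc g b) (A ξ)‖ ≤ ε * ‖A ξ‖ :=
      (ContinuousLinearMap.le_opNorm _ _).trans (by gcongr)
    have h4 : ‖A ((Polynomial.aeval a q - cfc g a) ξ)‖ ≤ ‖A‖ * (ε * ‖ξ‖) :=
      (A.le_opNorm _).trans (by
        gcongr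
        exact (ContinuousLinearMap.le_opNorm _ _).trans (by gcongr))
    refine (norm_sub_le _ _).trans ?_
    nlinarith
  rw [← sub_eq_zero, ← norm_le_zero_iff]
  refine le_of_forall_pos_le_add fun ε hε => ?_
  have hC : 0 < ‖A‖ * ‖ξ‖ + ‖A ξ‖ + 1 := by positivity
  refine (key (ε / (‖A‖ * ‖ξ‖ + ‖A ξ‖ + 1)) (by positivity)).trans ?_
  rw [zero_add, div_mul_eq_mul_div, div_le_iff₀ hC]
  nlinarith

namespace RvD1

/-- the real orthogonal projection onto a closed real subspace -/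
lemma exists_proj (K : Submodule ℝ H) (hK : IsClosed (K : Set H)) :
    ∃ P : H →L[ℝ] H, (∀ ξ, P ξ ∈ K) ∧ ∀ ξ, ∀ k ∈ K, (⟪k, ξ - P ξ⟫_ℂ).re = 0 := by
  let _ : InnerProductSpace ℝ H := InnerProductSpace.complexToReal
  have : CompleteSpace K := hK.completeSpace_coe
  refine ⟨K.starProjection, fun ξ => K.starProjection_apply_mem ξ, fun ξ k hk => ?_⟩
  exact Submodule.inner_right_of_mem_orthogonal (𝕜 := ℝ) hk (K.sub_starProjection_mem_orthogonal ξ)

section
omit [CompleteSpace H]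

/-- real orthogonal projections -/
def RP (P : H →L[ℝ] H) : Prop := ∀ x y, (⟪P x, y - P y⟫_ℂ).re = 0

lemma re_comm (x y : H) : (⟪x, y⟫_ℂ).re = (⟪y, x⟫_ℂ).re := by
  rw [← inner_conj_symm, Complex.conj_re]

lemma re_self (x : H) : (⟪x, x⟫_ℂ).re = ‖x‖ ^ 2 := by
  simpa using inner_self_eq_norm_sq (𝕜 := ℂ) x

lemma RP.left {P : H →L[ℝ] H} (h : RP P) (x y : H) : (⟪P x, y⟫_ℂ).re = (⟪P x, P y⟫_ℂ).re := by
  have := h x y
  rwa [inner_sub_right, Complex.sub_re, sub_eq_zero] at this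

lemma RP.symm {P : H →L[ℝ] H} (h : RP P) (x y : H) : (⟪P x, y⟫_ℂ).re = (⟪x, P y⟫_ℂ).re := by
  rw [h.left, re_comm, ← h.left, re_comm]

lemma RP.idem {P : H →L[ℝ] H} (h : RP P) (x : H) : P (P x) = P x := by
  have := h (x - P x) (P x)
  rw [map_sub, re_self, sq_eq_zero_iff, norm_eq_zero, sub_eq_zero] at this
  exact this.symm

lemma RP.self {P : H →L[ℝ] H} (h : RP P) (x : H) : (⟪P x, x⟫_ℂ).re = ‖P x‖ ^ 2 := by
  rw [h.left, re_self]

lemma RP.self' {P : H →L[ℝ] H} (h : RP P) (x : H) : (⟪x - P x, x⟫_ℂ).re = ‖x - P x‖ ^ 2 := by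
  rw [← re_self, inner_sub_right, Complex.sub_re, re_comm _ (P x), h, sub_zero]

lemma I_I (x : H) : Complex.I • Complex.I • x = -x := by
  rw [smul_smul, Complex.I_mul_I, neg_one_smul]

/-- multiplication by `i` as a real linear map -/
noncomputable def mI : H →L[ℝ] H := (Complex.I • (1 : H →L[ℂ] H)).restrictScalars ℝ

lemma mI_apply (x : H) : mI x = Complex.I • x := rfl

/-- `Q = i P i⁻¹` -/
noncomputable def Qof (P : H →L[ℝ] H) : H →L[ℝ] H := -(mI ∘L P ∘L mI)

lemma Qof_apply (P : H →L[ℝ] H) (x : H) : Qof P x = -(Complex.I • P (Complex.I • x)) := rfl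

lemma RP.Q {P : H →L[ℝ] H} (h : RP P) : RP (Qof P) := fun x y => by
  have := h (Complex.I • x) (Complex.I • y)
  rw [← this, Qof_apply, Qof_apply, ← neg_smul, inner_smul_left, map_neg, Complex.conj_I, neg_neg,
    ← inner_smul_right, smul_sub, smul_neg, I_I, neg_neg]

lemma P_I (P : H →L[ℝ] H) (x : H) : P (Complex.I • x) = Complex.I • Qof P x := by
  rw [Qof_apply, smul_neg, I_I, neg_neg]

lemma Q_I (P : H →L[ℝ] H) (x : H) : Qof P (Complex.I • x) = Complex.I • P x := by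
  rw [Qof_apply, I_I, map_neg, smul_neg, neg_neg]

lemma smul_eq (c : ℂ) (x : H) : c • x = c.re • x + c.im • Complex.I • x := by
  conv_lhs => rw [← Complex.re_add_im c]
  rw [add_smul, mul_smul, Complex.coe_smul, Complex.coe_smul]

/-- `R = P + Q` -/
noncomputable def Rof (P : H →L[ℝ] H) : H →L[ℂ] H where
  toFun x := P x + Qof P x
  map_add' x y := by simp only [map_add]; abel
  map_smul' c x := by
    rw [RingHom.id_apply, smul_eq c x, smul_eq c (P x + _)]
    simp only [map_add, map_smul, P_I P, Q_I P, smul_add]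
    abel
  cont := by fun_prop

/-- `A = P - Q` -/
noncomputable def Aof (P : H →L[ℝ] H) : H →SL[starRingEnd ℂ] H where
  toFun x := P x - Qof P x
  map_add' x y := by simp only [map_add]; abel
  map_smul' c x := by
    rw [smul_eq c x, smul_eq _ (P x - _)]
    simp only [map_add, map_smul, P_I P, Q_I P, smul_sub, Complex.conj_re, Complex.conj_im,
      neg_smul]
    abel
  cont := by fun_prop

lemma Rof_apply (P : H →L[ℝ] H) (x : H) : Rof P x = P x + Qof P x := rfl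

lemma Aof_apply (P : H →L[ℝ] H) (x : H) : Aof P x = P x - Qof P x := rfl

lemma two_sub_apply (R : H →L[ℂ] H) (x : H) : (2 - R) x = x + x - R x := by
  rw [sub_apply, ← one_add_one_eq_two, add_apply, one_apply_eq_self]

lemma pos_of_re {S : H →L[ℂ] H} (h : ∀ x y, (⟪S x, y⟫_ℂ).re = (⟪x, S y⟫_ℂ).re)
    (h0 : ∀ x, 0 ≤ (⟪S x, x⟫_ℂ).re) : 0 ≤ S := by
  rw [ContinuousLinearMap.nonneg_iff_isPositive, ContinuousLinearMap.isPositive_iff_complex]
  refine fun x => ⟨?_, h0 x⟩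
  have h1 := h (Complex.I • x) x
  rw [map_smul, inner_smul_left, inner_smul_left, ← inner_conj_symm x] at h1
  simp only [Complex.conj_I, neg_mul, Complex.neg_re, Complex.mul_re, Complex.I_re, zero_mul,
    Complex.I_im, one_mul, zero_sub, neg_neg, Complex.conj_im] at h1
  apply Complex.ext
  · simp
  · simp only [RCLike.re_to_complex, Complex.coe_algebraMap, Complex.ofReal_im]
    linarith

variable {P : H →L[ℝ] H}

lemma R_symm (h : RP P) (x y : H) : (⟪Rof P x, y⟫_ℂ).re = (⟪x, Rof P y⟫_ℂ).re := by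
  rw [Rof_apply, Rof_apply, inner_add_left, inner_add_right, Complex.add_re, Complex.add_re,
    h.symm, h.Q.symm]

lemma A_symm (h : RP P) (x y : H) : (⟪Aof P x, y⟫_ℂ).re = (⟪x, Aof P y⟫_ℂ).re := by
  rw [Aof_apply, Aof_apply, inner_sub_left, inner_sub_right, Complex.sub_re, Complex.sub_re,
    h.symm, h.Q.symm]

lemma R_self (h : RP P) (x : H) : (⟪Rof P x, x⟫_ℂ).re = ‖P x‖ ^ 2 + ‖Qof P x‖ ^ 2 := by
  rw [Rof_apply, inner_add_left, Complex.add_re, h.self, h.Q.self]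

lemma R_self' (h : RP P) (x : H) :
    (⟪(2 - Rof P) x, x⟫_ℂ).re = ‖x - P x‖ ^ 2 + ‖x - Qof P x‖ ^ 2 := by
  rw [← h.self', ← h.Q.self', ← Complex.add_re, ← inner_add_left, two_sub_apply, Rof_apply]
  congr 2
  abel

lemma R_nonneg (h : RP P) : 0 ≤ Rof P :=
  pos_of_re (R_symm h) fun x => by rw [R_self h]; positivity

lemma R_nonneg' (h : RP P) : 0 ≤ 2 - Rof P :=
  pos_of_re (fun x y => by
    simp only [two_sub_apply, inner_sub_left, inner_sub_right, inner_add_left, inner_add_right,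
      Complex.sub_re, R_symm h]) fun x => by rw [R_self' h]; positivity

lemma A_A (h : RP P) (x : H) : Aof P (Aof P x) = Rof P ((2 - Rof P) x) := by
  simp only [two_sub_apply, Aof_apply, Rof_apply, map_add, map_sub, h.idem, h.Q.idem]
  abel

lemma A_R (h : RP P) (x : H) : Aof P (Rof P x) = (2 - Rof P) (Aof P x) := by
  simp only [two_sub_apply, Aof_apply, Rof_apply, map_add, map_sub, h.idem, h.Q.idem]
  abel

end

lemma denseRange_of_inj {T : Op H} (hT : IsSelfAdjoint T) (h : ∀ x, T x = 0 → x = 0) :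
    DenseRange T := by
  have h1 : (T.range)ᗮ = ⊥ := by
    rw [ContinuousLinearMap.orthogonal_range, hT.adjoint_eq, eq_bot_iff]
    exact fun x hx => h x hx
  have h2 := Submodule.dense_iff_topologicalClosure_eq_top.2
    (Submodule.topologicalClosure_eq_top_iff.2 h1)
  exact h2

lemma sqrt_facts {R : Op H} (h0 : 0 ≤ R) (h2 : 0 ≤ 2 - R) :
    cfc (fun r : ℝ => √(r * (2 - r))) R * cfc (fun r : ℝ => √(r * (2 - r))) R = R * (2 - R) ∧
      cfc (fun r : ℝ => √(r * (2 - r))) (2 - R) = cfc (fun r : ℝ => √(r * (2 - r))) R := by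
  have hR : IsSelfAdjoint R := h0.isSelfAdjoint
  have e : cfc (fun r : ℝ => 2 - r) R = 2 - R := by
    rw [cfc_sub _ _ R, cfc_const _ R, cfc_id' ℝ R, map_ofNat]
  constructor
  · have e2 : cfc (fun r : ℝ => r * (2 - r)) R = R * (2 - R) := by
      rw [cfc_mul _ _ R, e, cfc_id' ℝ R]
    rw [← cfc_mul _ _ R, ← e2]
    refine cfc_congr fun x hx => Real.mul_self_sqrt (mul_nonneg ?_ ?_)
    · exact spectrum_nonneg_of_nonneg h0 hx
    · refine spectrum_nonneg_of_nonneg h2 ?_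
      rw [← e, cfc_map_spectrum _ R]
      exact ⟨x, hx, rfl⟩
  · rw [← e, ← cfc_comp' (fun r : ℝ => √(r * (2 - r))) (fun r : ℝ => 2 - r) R]
    congr 1
    funext r
    congr 1
    ring

end RvD1

/-- Rieffel–van Daele.  `P` is the orthogonal projection onto `K` for the real inner product
`Re ⟪·,·⟫` (`InnerProductSpace.complexToReal`/`rclikeToReal`), `Q ξ = -i P (i ξ)`, `R = P + Q` is
complex linear, `A = P - Q` conjugate linear, `A² = R (2 - R) = T²`, `A R = (2 - R) A`, hence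
`A T = T A` (`anti_cfc`).  `‖A ξ‖ = ‖T ξ‖`, `T` is injective self-adjoint (dense range); `J` extends
`T ξ ↦ A ξ`; `J T = T J`, `J J T T = A A = T T`. -/
theorem exists_rvd (K : Submodule ℝ H) (hK : IsClosed (K : Set H))
    (h1 : ∀ ξ ∈ K, Complex.I • ξ ∈ K → ξ = 0)
    (h2 : ∀ η : H, (∀ k ∈ K, ⟪k, η⟫_ℂ = 0) → η = 0) :
    ∃ (P : H → H) (R T : Op H) (J : H ≃ₗᵢ⋆[ℂ] H), RvD K P R T J := by
  open RvD1 in
  obtain ⟨P, hm, ho⟩ := exists_proj K hK
  have hP : RP P := fun x y => ho y _ (hm x)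
  have hR0 := R_nonneg hP
  have hR2 := R_nonneg' hP
  have hRi : ∀ ξ, Rof P ξ = 0 → ξ = 0 := fun ξ hξ => by
    have h := R_self hP ξ
    rw [hξ, inner_zero_left, Complex.zero_re] at h
    have a1 : P ξ = 0 := by
      rw [← norm_eq_zero, ← sq_eq_zero_iff]; nlinarith [sq_nonneg ‖P ξ‖, sq_nonneg ‖Qof P ξ‖]
    have a2 : Qof P ξ = 0 := by
      rw [← norm_eq_zero, ← sq_eq_zero_iff]; nlinarith [sq_nonneg ‖P ξ‖, sq_nonneg ‖Qof P ξ‖]
    refine h2 ξ fun k hk => ?_
    have b1 := ho ξ k hk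
    have b2 := ho (Complex.I • ξ) k hk
    rw [a1, sub_zero] at b1
    rw [P_I, a2, smul_zero, sub_zero, inner_smul_right] at b2
    apply Complex.ext
    · exact b1
    · simpa using b2
  have hRi' : ∀ ξ, (2 - Rof P) ξ = 0 → ξ = 0 := fun ξ hξ => by
    have h := R_self' hP ξ
    rw [hξ, inner_zero_left, Complex.zero_re] at h
    have a1 : ξ = P ξ := by
      rw [← sub_eq_zero, ← norm_eq_zero, ← sq_eq_zero_iff]
      nlinarith [sq_nonneg ‖ξ - P ξ‖, sq_nonneg ‖ξ - Qof P ξ‖]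
    have a2 : ξ = Qof P ξ := by
      rw [← sub_eq_zero, ← norm_eq_zero, ← sq_eq_zero_iff]
      nlinarith [sq_nonneg ‖ξ - P ξ‖, sq_nonneg ‖ξ - Qof P ξ‖]
    refine h1 ξ (a1 ▸ hm ξ) ?_
    have := hm (Complex.I • ξ)
    rwa [P_I, ← a2] at this
  obtain ⟨hTT, hT2⟩ := sqrt_facts hR0 hR2
  have hAT := fun ξ => anti_cfc (Aof P) hR0.isSelfAdjoint hR2.isSelfAdjoint (A_R hP)
    (g := fun r : ℝ => √(r * (2 - r))) (by fun_prop) ξ
  rw [hT2] at hAT
  have hTR : Commute (cfc (fun r : ℝ => √(r * (2 - r))) (Rof P)) (Rof P) :=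
    (Commute.refl (Rof P)).cfc_real _
  have hTs : IsSelfAdjoint (cfc (fun r : ℝ => √(r * (2 - r))) (Rof P)) := cfc_predicate _ _
  obtain ⟨T, hT⟩ : ∃ T, T = cfc (fun r : ℝ => √(r * (2 - r))) (Rof P) := ⟨_, rfl⟩
  rw [← hT] at hTT hAT hTR hTs
  have hAA : ∀ ξ, Aof P (Aof P ξ) = T (T ξ) := fun ξ => by
    rw [A_A hP, ← mul_apply_eq_comp, ← hTT, mul_apply_eq_comp]
  have hn : ∀ ξ, ‖Aof P ξ‖ = ‖T ξ‖ := fun ξ => by
    rw [← sq_eq_sq₀ (norm_nonneg _) (norm_nonneg _), ← re_self, ← re_self, A_symm hP, hAA,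
      hTs.isSymmetric.apply_clm]
  have hTi : ∀ ξ, T ξ = 0 → ξ = 0 := fun ξ hξ => by
    refine hRi' _ (hRi _ ?_)
    rw [← A_A hP, hAA, hξ, map_zero]
  have hd : DenseRange T := denseRange_of_inj hTs hTi
  have hdd : DenseRange fun ξ => T (T ξ) := hd.comp hd T.continuous
  obtain ⟨J, hJ⟩ : ∃ J : H →SL[starRingEnd ℂ] H, ∀ ξ, J (T ξ) = Aof P ξ :=
    ⟨LinearMap.extendOfNorm (Aof P).toLinearMap T.toLinearMap, fun ξ =>
      LinearMap.extendOfNorm_eq (f := (Aof P).toLinearMap) (e := T.toLinearMap) hd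
        ⟨1, fun x => by simp [hn]⟩ ξ⟩
  have hJn : ∀ ξ, ‖J ξ‖ = ‖ξ‖ := fun ξ =>
    hd.induction_on ξ (isClosed_eq (by fun_prop) (by fun_prop)) fun x => by rw [hJ, hn]
  have hJT : ∀ ξ, J (T ξ) = T (J ξ) := fun ξ =>
    hd.induction_on ξ (isClosed_eq (by fun_prop) (by fun_prop)) fun x => by rw [hJ, hJ, hAT]
  have hJJ : ∀ ξ, J (J ξ) = ξ := fun ξ =>
    hdd.induction_on ξ (isClosed_eq (by fun_prop) (by fun_prop)) fun x => by
      rw [hJ, hAT, hJ, hAA]
  have hJR : ∀ ξ, J (Rof P ξ) = (2 - Rof P) (J ξ) := fun ξ =>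
    hd.induction_on ξ (isClosed_eq (by fun_prop) (by fun_prop)) fun x => by
      rw [← mul_apply_eq_comp, ← hTR.eq, mul_apply_eq_comp, hJ, hJ, A_R hP]
  refine ⟨P, Rof P, T,
    { toLinearMap := J.toLinearMap
      invFun := J
      left_inv := hJJ
      right_inv := hJJ
      norm_map' := hJn }, hm, ho, fun ξ => ?_, fun ξ => ?_, hR0, sub_nonneg.1 hR2, hRi, hRi', hT,
    hJJ, hJR, hJT⟩
  · rw [Rof_apply, Qof_apply, sub_eq_add_neg]
  · change J (T ξ) = _
    rw [hJ, Aof_apply, Qof_apply, sub_neg_eq_add]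

end Crest.Agent.R78
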