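import Crest.Agent.R78.RvD1

/-! # Row 78: Tomita–Takesaki II: the calculus of `log ((2 - R) / R)` -/

set_option autoImplicit false

namespace Crest.Agent.R78

open scoped InnerProductSpace ComplexOrder BigOperators Topology
open Filter
open Crest.Agent.R124 (Op cm)
open Crest.OpAlg (LineCalculus)

universe u

variable {H : Type u} [NormedAddCommGroup H] [InnerProductSpace ℂ H] [CompleteSpace H]

namespace RvD2

local notation "BC" => BoundedContinuousFunction ℝ ℂ

/-- complex valued functions of a real variable applied to `R` -/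
noncomputable def C (R : Op H) (F : ℝ → ℂ) : Op H := cfc (fun z : ℂ => F z.re) R

lemma contOn {F : ℝ → ℂ} (hF : Continuous F) (s : Set ℂ) :
    ContinuousOn (fun z : ℂ => F z.re) s :=
  (hF.comp Complex.continuous_re).continuousOn

lemma C_mul (R : Op H) {F G : ℝ → ℂ} (hF : Continuous F) (hG : Continuous G) :
    C R (fun r => F r * G r) = C R F * C R G :=
  cfc_mul _ _ R (contOn hF _) (contOn hG _)

lemma C_add (R : Op H) {F G : ℝ → ℂ} (hF : Continuous F) (hG : Continuous G) :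
    C R (fun r => F r + G r) = C R F + C R G :=
  cfc_add R _ _ (contOn hF _) (contOn hG _)

lemma C_sub (R : Op H) {F G : ℝ → ℂ} (hF : Continuous F) (hG : Continuous G) :
    C R (fun r => F r - G r) = C R F - C R G :=
  cfc_sub _ _ R (contOn hF _) (contOn hG _)

lemma C_smul (R : Op H) (c : ℂ) {F : ℝ → ℂ} (hF : Continuous F) :
    C R (fun r => c * F r) = c • C R F :=
  cfc_const_mul c _ R (contOn hF _)

lemma C_star (R : Op H) (F : ℝ → ℂ) : C R (fun r => star (F r)) = star (C R F) :=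
  cfc_star _ R

lemma C_comm (R : Op H) {F G : ℝ → ℂ} (hF : Continuous F) (hG : Continuous G) :
    C R F * C R G = C R G * C R F := by
  rw [← C_mul R hF hG, ← C_mul R hG hF]; simp only [mul_comm]

lemma C_real {R : Op H} (hR : IsSelfAdjoint R) (g : ℝ → ℝ) :
    C R (fun r => (g r : ℂ)) = cfc g R := (cfc_real_eq_complex g hR).symm

lemma C_split {R : Op H} (hR : IsSelfAdjoint R) {F : ℝ → ℂ} (hF : Continuous F) :
    C R F = cfc (fun r => (F r).re) R + Complex.I • cfc (fun r => (F r).im) R := by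
  rw [← C_real hR, ← C_real hR, ← C_smul R _ (by fun_prop), ← C_add R (by fun_prop) (by fun_prop)]
  congr 1; funext r
  rw [mul_comm]; exact (Complex.re_add_im (F r)).symm

lemma spec {R : Op H} (h0 : 0 ≤ R) (h2 : R ≤ 2) {z : ℂ} (hz : z ∈ spectrum ℂ R) :
    0 ≤ z.re ∧ z.re ≤ 2 := by
  have hR : IsSelfAdjoint R := IsSelfAdjoint.of_nonneg h0
  have hz' : z.re ∈ spectrum ℝ R := by
    rw [← hR.coe_mem_spectrum_complex, ← hR.mem_spectrum_eq_re hz]; exact hz
  refine ⟨spectrum_nonneg_of_nonneg h0 hz', ?_⟩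
  have h2' : R ≤ algebraMap ℝ (Op H) 2 := by rw [map_ofNat]; exact h2
  exact (le_algebraMap_iff_spectrum_le (R := ℝ) hR).1 h2' _ hz'

lemma C_congr {R : Op H} (h0 : 0 ≤ R) (h2 : R ≤ 2) {F G : ℝ → ℂ}
    (h : ∀ r, 0 ≤ r → r ≤ 2 → F r = G r) : C R F = C R G :=
  cfc_congr fun _ hz => h _ (spec h0 h2 hz).1 (spec h0 h2 hz).2

lemma norm_C_le {R : Op H} (h0 : 0 ≤ R) (h2 : R ≤ 2) {F : ℝ → ℂ} {c : ℝ} (hc : 0 ≤ c)
    (h : ∀ r, 0 ≤ r → r ≤ 2 → ‖F r‖ ≤ c) : ‖C R F‖ ≤ c :=
  norm_cfc_le hc fun _ hz => h _ (spec h0 h2 hz).1 (spec h0 h2 hz).2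

lemma normSq_eq (a : Op H) (ξ : H) : ‖a ξ‖ ^ 2 = (⟪ξ, (star a * a) ξ⟫_ℂ).re := by
  rw [mul_apply_eq_comp, ContinuousLinearMap.star_eq_adjoint,
    ContinuousLinearMap.adjoint_inner_right, ← inner_self_eq_norm_sq (𝕜 := ℂ)]
  rfl

lemma norm_C_apply_le (R : Op H) {F G : ℝ → ℂ} (hF : Continuous F) (hG : Continuous G)
    (h : ∀ r, ‖F r‖ ≤ ‖G r‖) (ξ : H) : ‖C R F ξ‖ ≤ ‖C R G ξ‖ := by
  set k : ℝ → ℂ := fun r => ((√(‖G r‖ ^ 2 - ‖F r‖ ^ 2) : ℝ) : ℂ) with hk
  have hkc : Continuous k := by rw [hk]; fun_prop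
  have e : star (C R G) * C R G = star (C R F) * C R F + star (C R k) * C R k := by
    rw [← C_star, ← C_star, ← C_star, ← C_mul R (by fun_prop) hG, ← C_mul R (by fun_prop) hF,
      ← C_mul R (by fun_prop) hkc, ← C_add R (by fun_prop) (by fun_prop)]
    congr 1; funext r
    have h1 : 0 ≤ ‖G r‖ ^ 2 - ‖F r‖ ^ 2 := by
      have := h r; have := norm_nonneg (F r); nlinarith
    simp only [Complex.star_def, Complex.conj_mul', hk, Complex.norm_real, Real.norm_eq_abs]
    rw [← Complex.ofReal_pow, ← Complex.ofReal_pow, ← Complex.ofReal_pow, sq_abs,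
      Real.sq_sqrt h1]
    push_cast; ring
  have e2 : ‖C R G ξ‖ ^ 2 = ‖C R F ξ‖ ^ 2 + ‖C R k ξ‖ ^ 2 := by
    rw [normSq_eq, normSq_eq, normSq_eq, e, add_apply, inner_add_right,
      Complex.add_re]
  have h3 : ‖C R F ξ‖ ^ 2 ≤ ‖C R G ξ‖ ^ 2 := by rw [e2]; nlinarith [sq_nonneg ‖C R k ξ‖]
  exact (pow_le_pow_iff_left₀ (norm_nonneg _) (norm_nonneg _) two_ne_zero).1 h3

/-- the weight `r (2 - r)` -/
noncomputable def w (r : ℝ) : ℂ := ((r * (2 - r) : ℝ) : ℂ)

lemma w_cont : Continuous w := by unfold w; fun_prop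

/-- the logarithm -/
noncomputable def lg (r : ℝ) : ℝ := Real.log ((2 - r) / r)

lemma lg_contAt {r : ℝ} (h0 : r ≠ 0) (h2 : r ≠ 2) : ContinuousAt lg r := by
  unfold lg
  refine ContinuousAt.log (ContinuousAt.div (by fun_prop) (by fun_prop) h0) ?_
  exact div_ne_zero (sub_ne_zero.2 h2.symm) h0

/-- `f♭` -/
noncomputable def flat (f : BC) (r : ℝ) : ℂ := f (lg r) * w r

lemma flat_cont (f : BC) : Continuous (flat f) := by
  refine continuous_iff_continuousAt.2 fun r => ?_
  by_cases h : r = 0 ∨ r = 2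
  · have hw : w r = 0 := by rcases h with h | h <;> simp [w, h]
    have : flat f r = 0 := by simp [flat, hw]
    rw [ContinuousAt, this]
    refine squeeze_zero_norm (a := fun s => ‖f‖ * ‖w s‖) (fun s => ?_) ?_
    · rw [flat, norm_mul]
      exact mul_le_mul_of_nonneg_right (f.norm_coe_le_norm _) (norm_nonneg _)
    · have h1 : Tendsto (fun s => ‖f‖ * ‖w s‖) (𝓝 r) (𝓝 (‖f‖ * ‖w r‖)) :=
        ((w_cont.norm.tendsto r).const_mul _)
      rwa [hw, norm_zero, mul_zero] at h1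
  · push Not at h
    exact (f.continuous.continuousAt.comp (lg_contAt h.1 h.2)).mul w_cont.continuousAt

lemma C_w {R : Op H} (hR : IsSelfAdjoint R) : C R w = R * (2 - R) := by
  have e : C R w = cfc (fun r : ℝ => r * (2 - r)) R := C_real hR _
  rw [e, cfc_mul _ _ R, cfc_sub _ _ R, cfc_id' ℝ R, cfc_const _ R, map_ofNat]

section main
variable {R : Op H} (h0 : 0 ≤ R) (h2 : R ≤ 2) (hi : ∀ ξ, R ξ = 0 → ξ = 0)
    (hi' : ∀ ξ, (2 - R) ξ = 0 → ξ = 0)

lemma W_star (R : Op H) : star (C R w) = C R w := by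
  rw [← C_star]; congr 1; funext r; simp [w]

include h0 hi hi' in
lemma W_inj (ξ : H) (h : C R w ξ = 0) : ξ = 0 := by
  rw [C_w (IsSelfAdjoint.of_nonneg h0)] at h
  exact hi' _ (hi _ h)

include h0 hi hi' in
lemma W_dense : DenseRange (C R w) := by
  have : (LinearMap.range (C R w : H →ₗ[ℂ] H)).topologicalClosure = ⊤ := by
    rw [Submodule.topologicalClosure_eq_top_iff, Submodule.eq_bot_iff]
    intro ξ hξ
    refine W_inj h0 hi hi' ξ ?_
    rw [← inner_self_eq_zero (𝕜 := ℂ)]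
    have h1 := (Submodule.mem_orthogonal _ _).1 hξ (C R w (C R w ξ)) ⟨_, rfl⟩
    rwa [← W_star R, ContinuousLinearMap.star_eq_adjoint, ContinuousLinearMap.adjoint_inner_left,
      ← ContinuousLinearMap.star_eq_adjoint, W_star] at h1
  rw [DenseRange, dense_iff_closure_eq]
  have h2 := congrArg (fun S : Submodule ℂ H => (S : Set H)) this
  simp only [Submodule.topologicalClosure_coe, LinearMap.coe_range, Submodule.top_coe] at h2
  exact h2

include h0 hi hi' in
lemma W_cancel {a b : Op H} (h : a * C R w = b * C R w) : a = b := by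
  ext1 ξ
  refine (W_dense h0 hi hi').induction_on (p := fun ξ => a ξ = b ξ) ξ
    (isClosed_eq a.continuous b.continuous) fun η => ?_
  exact congrArg (fun x : Op H => x η) h

lemma exists_ap (R : Op H) (f : BC) : ∃ G : Op H, ‖G‖ ≤ ‖f‖ ∧ G * C R w = C R (flat f) := by
  obtain ⟨G, hG, hG', -⟩ := R124.douglas (C R w : H →ₗ[ℂ] H) (C R (flat f) : H →ₗ[ℂ] H)
    (norm_nonneg f) (fun v => by
      have h1 := norm_C_apply_le R (flat_cont f) (G := fun r => (‖f‖ : ℂ) * w r)
        (continuous_const.mul w_cont) (fun r => by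
          rw [flat, norm_mul, norm_mul, Complex.norm_real, norm_norm]
          exact mul_le_mul_of_nonneg_right (f.norm_coe_le_norm _) (norm_nonneg _)) v
      rw [C_smul R _ w_cont, smul_apply, norm_smul, Complex.norm_real,
        norm_norm] at h1
      exact h1)
  exact ⟨G, hG, ContinuousLinearMap.ext hG'⟩

/-- the operator `f (log ((2 - R) / R))` -/
noncomputable def ap (R : Op H) (f : BC) : Op H := (exists_ap R f).choose

lemma norm_ap_le (R : Op H) (f : BC) : ‖ap R f‖ ≤ ‖f‖ := (exists_ap R f).choose_spec.1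

lemma ap_W (R : Op H) (f : BC) : ap R f * C R w = C R (flat f) := (exists_ap R f).choose_spec.2

include h0 hi hi' in
lemma ap_comm {t : Op H} (ht : Commute t R) (f : BC) : Commute t (ap R f) := by
  have hR : IsSelfAdjoint R := IsSelfAdjoint.of_nonneg h0
  have hC : ∀ F, t * C R F = C R F * t := fun F =>
    (hR.commute_cfc ht.symm _).symm.eq
  refine W_cancel h0 hi hi' ?_
  rw [mul_assoc, ap_W, hC, mul_assoc, hC, ← mul_assoc, ap_W]

include h0 hi hi' in
lemma ap_C (f : BC) (F : ℝ → ℂ) : C R F * ap R f = ap R f * C R F := by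
  have hR : IsSelfAdjoint R := IsSelfAdjoint.of_nonneg h0
  exact (ap_comm h0 hi hi' (hR.commute_cfc (Commute.refl R) _) f).eq

include h0 hi hi' in
lemma ap_add (f g : BC) : ap R (f + g) = ap R f + ap R g := by
  refine W_cancel h0 hi hi' ?_
  rw [add_mul, ap_W, ap_W, ap_W, ← C_add R (flat_cont f) (flat_cont g)]
  congr 1; funext r; simp [flat, add_mul]

include h0 hi hi' in
lemma ap_smul (c : ℂ) (f : BC) : ap R (c • f) = c • ap R f := by
  refine W_cancel h0 hi hi' ?_
  rw [smul_mul_assoc, ap_W, ap_W, ← C_smul R c (flat_cont f)]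
  congr 1; funext r; simp [flat, mul_assoc]

include h0 hi hi' in
lemma ap_one : ap R 1 = 1 := by
  refine W_cancel h0 hi hi' ?_
  rw [one_mul, ap_W]
  congr 1; funext r; simp [flat]

include h0 hi hi' in
lemma ap_mul (f g : BC) : ap R (f * g) = ap R f * ap R g := by
  refine W_cancel h0 hi hi' (W_cancel h0 hi hi' ?_)
  have e : ap R f * ap R g * C R w * C R w = (ap R f * C R w) * (ap R g * C R w) := by
    simp only [mul_assoc]
    rw [← mul_assoc (C R w) (ap R g), ap_C h0 hi hi', mul_assoc]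
  rw [e, ap_W, ap_W, ap_W, ← C_mul R (flat_cont _) w_cont, ← C_mul R (flat_cont _) (flat_cont _)]
  congr 1; funext r; simp only [flat, BoundedContinuousFunction.coe_mul, Pi.mul_apply]; ring

include h0 hi hi' in
lemma ap_star (f : BC) : ap R (star f) = star (ap R f) := by
  refine W_cancel h0 hi hi' ?_
  have e : star (ap R f) * C R w = star (C R w * ap R f) := by rw [star_mul, W_star]
  rw [e, ap_C h0 hi hi', ap_W, ap_W, ← C_star]
  congr 1; funext r; simp [flat, w]

/-- the calculus as a star homomorphism -/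
noncomputable def hom : BC →⋆ₐ[ℂ] Op H :=
  { AlgHom.ofLinearMap
      { toFun := ap R
        map_add' := ap_add h0 hi hi'
        map_smul' := ap_smul h0 hi hi' } (ap_one h0 hi hi') (ap_mul h0 hi hi') with
    map_star' := ap_star h0 hi hi' }

lemma hom_apply (f : BC) : hom h0 hi hi' f = ap R f := rfl

include h0 h2 hi hi' in
lemma window (x : H) (ε : ℝ) (hε : 0 < ε) :
    ∃ f : BC, HasCompactSupport (f : ℝ → ℂ) ∧ ‖ap R f x - x‖ < ε := by
  obtain ⟨y, hy⟩ := (W_dense h0 hi hi').exists_dist_lt x (ε := ε / 3) (by positivity)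
  rw [dist_eq_norm] at hy
  set δ : ℝ := ε / (3 * (‖y‖ + 1)) with hδ
  have hδ0 : 0 < δ := by positivity
  set S : Set ℝ := Set.Icc 0 2 ∩ {r | δ ≤ r * (2 - r)} with hS
  have hSc : IsCompact S :=
    isCompact_Icc.inter_right (isClosed_le continuous_const (by fun_prop))
  have hK : IsCompact (lg '' S) := by
    refine hSc.image_of_continuousOn fun r hr => (lg_contAt ?_ ?_).continuousWithinAt
    · rintro rfl
      have : δ ≤ 0 * (2 - 0) := hr.2
      linarith
    · rintro rfl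
      have : δ ≤ 2 * (2 - 2) := hr.2
      linarith
  obtain ⟨g, hg1, -, hgc, hg01⟩ := exists_continuous_one_zero_of_isCompact
    (s := lg '' S) (t := (∅ : Set ℝ)) hK isClosed_empty (by simp)
  have hb : ∀ u, ‖((g u : ℝ) : ℂ)‖ ≤ 1 := fun u => by
    rw [Complex.norm_real, Real.norm_eq_abs, abs_of_nonneg (hg01 u).1]; exact (hg01 u).2
  let β : BC := BoundedContinuousFunction.ofNormedAddCommGroup (fun u => ((g u : ℝ) : ℂ))
    (by fun_prop) 1 hb
  have hβ : ‖β‖ ≤ 1 := (BoundedContinuousFunction.norm_le zero_le_one).2 hb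
  refine ⟨β, hgc.comp_left (g := fun r : ℝ => (r : ℂ)) (by simp), ?_⟩
  have h1 : ‖C R (fun r => flat β r - w r)‖ ≤ δ := by
    refine norm_C_le h0 h2 hδ0.le fun r hr0 hr2 => ?_
    have e : flat β r - w r = (((g (lg r) - 1) * (r * (2 - r)) : ℝ) : ℂ) := by
      have : β (lg r) = ((g (lg r) : ℝ) : ℂ) := rfl
      rw [flat, this, w]; push_cast; ring
    rw [e, Complex.norm_real, Real.norm_eq_abs]
    by_cases hr : δ ≤ r * (2 - r)
    · have : g (lg r) = 1 := hg1 ⟨r, ⟨⟨hr0, hr2⟩, hr⟩, rfl⟩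
      rw [this]; simp [hδ0.le]
    · push Not at hr
      have h3 : 0 ≤ r * (2 - r) := mul_nonneg hr0 (by linarith)
      have h4 := hg01 (lg r)
      rw [abs_le]
      constructor <;> nlinarith [h4.1, h4.2]
  have h3 : ap R β x - x = ap R β (x - C R w y) + C R (fun r => flat β r - w r) y
      - (x - C R w y) := by
    rw [C_sub R (flat_cont β) w_cont, ← ap_W, map_sub, sub_apply,
      mul_apply_eq_comp]
    abel
  have h4 : ‖ap R β (x - C R w y)‖ ≤ ‖x - C R w y‖ := by
    refine ((ap R β).le_opNorm _).trans ?_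
    have := mul_le_mul_of_nonneg_right ((norm_ap_le R β).trans hβ) (norm_nonneg (x - C R w y))
    simpa using this
  have h5 : ‖C R (fun r => flat β r - w r) y‖ ≤ ε / 3 := by
    refine (ContinuousLinearMap.le_opNorm _ _).trans ?_
    refine (mul_le_mul_of_nonneg_right h1 (norm_nonneg y)).trans ?_
    rw [hδ, div_mul_eq_mul_div, div_le_div_iff₀ (by positivity) (by positivity)]
    nlinarith [norm_nonneg y]
  rw [h3]
  have h6 := norm_sub_le (ap R β (x - C R w y) + C R (fun r => flat β r - w r) y) (x - C R w y)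
  have h7 := norm_add_le (ap R β (x - C R w y)) (C R (fun r => flat β r - w r) y)
  linarith

include h0 h2 hi hi' in
lemma ap_cfc (g : ℝ → ℂ) (f : BC) (hg : Continuous g)
    (h : ∀ v, f v = g (2 / (1 + Real.exp v))) : ap R f = C R g := by
  refine W_cancel h0 hi hi' ?_
  rw [ap_W, ← C_mul R hg w_cont]
  refine C_congr h0 h2 fun r hr0 hr2 => ?_
  rcases hr0.eq_or_lt with rfl | hr0
  · simp [flat, w]
  rcases hr2.eq_or_lt with rfl | hr2
  · simp [flat, w]
  rw [flat, h, lg, Real.exp_log (div_pos (by linarith) hr0)]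
  congr 2
  field_simp
  ring

include h0 in
lemma cfc_fix {ξ : H} (hξ : R ξ = ξ) {g : ℝ → ℝ} (hg : Continuous g) :
    cfc g R ξ = (g 1 : ℂ) • ξ := by
  have hR : IsSelfAdjoint R := IsSelfAdjoint.of_nonneg h0
  let A₀ : H →ₛₗ[starRingEnd ℂ] H :=
    { toFun := fun η => ⟪η, ξ⟫_ℂ • ξ
      map_add' := fun a b => by rw [inner_add_left, add_smul]
      map_smul' := fun c a => by rw [inner_smul_left, mul_smul] }
  let A : H →SL[starRingEnd ℂ] H := A₀.mkContinuous (‖ξ‖ * ‖ξ‖) fun η => by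
    show ‖⟪η, ξ⟫_ℂ • ξ‖ ≤ _
    rw [norm_smul]
    have := norm_inner_le_norm (𝕜 := ℂ) η ξ
    nlinarith [norm_nonneg ξ, norm_nonneg η]
  have hA : ∀ η, A η = ⟪η, ξ⟫_ℂ • ξ := fun η => rfl
  have adj : ∀ a : Op H, IsSelfAdjoint a → ∀ η, ⟪a η, ξ⟫_ℂ = ⟪η, a ξ⟫_ℂ := fun a ha η => by
    conv_lhs => rw [← ha.star_eq, ContinuousLinearMap.star_eq_adjoint,
      ContinuousLinearMap.adjoint_inner_left]
  have key : ∀ η, ⟪η, cfc g R ξ⟫_ℂ • ξ = ⟪η, (g 1 : ℂ) • ξ⟫_ℂ • ξ := fun η => by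
    have h1 := anti_cfc A hR (IsSelfAdjoint.one (R := Op H)) (fun η => by
      rw [hA, hA, adj R hR, hξ]; rfl) hg η
    rw [hA, hA, adj _ (cfc_predicate g R), cfc_apply_one, Algebra.algebraMap_eq_smul_one] at h1
    rw [h1, inner_smul_right, mul_smul, smul_apply, Complex.coe_smul]
    rfl
  by_cases h : ξ = 0
  · simp [h]
  · exact ext_inner_left ℂ fun η => smul_left_injective ℂ h (key η)

include h0 in
lemma C_fix {ξ : H} (hξ : R ξ = ξ) {F : ℝ → ℂ} (hF : Continuous F) : C R F ξ = F 1 • ξ := by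
  have hR : IsSelfAdjoint R := IsSelfAdjoint.of_nonneg h0
  rw [C_split hR hF, add_apply, smul_apply, cfc_fix h0 hξ (by fun_prop),
    cfc_fix h0 hξ (by fun_prop), smul_smul, ← add_smul, mul_comm, Complex.re_add_im]

include h0 in
lemma ap_fix {ξ : H} (hξ : R ξ = ξ) (f : BC) : ap R f ξ = f 0 • ξ := by
  have h1 : C R w ξ = ξ := by
    rw [C_fix h0 hξ w_cont]; norm_num [w]
  have h2 : ap R f (C R w ξ) = C R (flat f) ξ := congrArg (fun x : Op H => x ξ) (ap_W R f)
  rw [h1, C_fix h0 hξ (flat_cont f)] at h2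
  rw [h2]; norm_num [flat, w, lg]

include h0 in
lemma J_cfc {J : H ≃ₗᵢ⋆[ℂ] H} (hJ : ∀ ξ, J (R ξ) = (2 - R) (J ξ)) {g : ℝ → ℝ}
    (hg : Continuous g) (ξ : H) : J (cfc g R ξ) = cfc (fun r => g (2 - r)) R (J ξ) := by
  have hR : IsSelfAdjoint R := IsSelfAdjoint.of_nonneg h0
  have e : cfc (fun r : ℝ => 2 - r) R = 2 - R := by
    rw [cfc_sub _ _ R, cfc_id' ℝ R, cfc_const _ R, map_ofNat]
  have hR' : IsSelfAdjoint (2 - R) := e ▸ cfc_predicate _ R
  have h1 := anti_cfc J.toLinearIsometry.toContinuousLinearMap hR hR' hJ hg ξ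
  rw [cfc_comp' g (fun r : ℝ => 2 - r) R, e]
  exact h1

include h0 in
lemma J_C {J : H ≃ₗᵢ⋆[ℂ] H} (hJ : ∀ ξ, J (R ξ) = (2 - R) (J ξ)) {F : ℝ → ℂ}
    (hF : Continuous F) (hF' : ∀ r, F (2 - r) = star (F r)) (ξ : H) :
    J (C R F ξ) = C R F (J ξ) := by
  have hR : IsSelfAdjoint R := IsSelfAdjoint.of_nonneg h0
  have e1 : (fun r => (F (2 - r)).re) = fun r => (F r).re := by
    funext r; rw [hF']; simp
  have e2 : (fun r => (F (2 - r)).im) = fun r => -(F r).im := by
    funext r; rw [hF']; simp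
  rw [C_split hR hF, add_apply, smul_apply, map_add, LinearIsometryEquiv.map_smulₛₗ,
    J_cfc h0 hJ (by fun_prop), J_cfc h0 hJ (by fun_prop), e1, e2, cfc_neg, add_apply, smul_apply]
  simp

include h0 hi hi' in
lemma ap_anti {J : H ≃ₗᵢ⋆[ℂ] H} (hJ : ∀ ξ, J (R ξ) = (2 - R) (J ξ)) (t : ℝ) (ξ : H) :
    J (ap R (LineCalculus.character t) ξ) = ap R (LineCalculus.character t) (J ξ) := by
  set f := LineCalculus.character t with hf
  have hw : ∀ r, w (2 - r) = star (w r) := fun r => by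
    simp only [w, Complex.star_def, Complex.conj_ofReal]; congr 1; ring
  have hl : ∀ r, lg (2 - r) = -lg r := fun r => by
    rw [lg, lg, ← Real.log_inv, inv_div]; congr 2; ring
  have hfl : ∀ r, flat f (2 - r) = star (flat f r) := fun r => by
    rw [flat, flat, hw, hl, star_mul', hf, R84.character_apply, R84.character_apply,
      Complex.star_def, ← Complex.exp_conj]
    congr 2
    simp
  refine (W_dense h0 hi hi').induction_on (p := fun ξ => J (ap R f ξ) = ap R f (J ξ)) ξ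
    (isClosed_eq (J.continuous.comp (ap R f).continuous) ((ap R f).continuous.comp J.continuous))
    fun η => ?_
  have h1 : ∀ η, ap R f (C R w η) = C R (flat f) η := fun η =>
    congrArg (fun x : Op H => x η) (ap_W R f)
  rw [h1, J_C h0 hJ w_cont hw, h1, J_C h0 hJ (flat_cont f) hfl]

end main

end RvD2

/-- For `f` bounded continuous on `ℝ` the function `f♭ r = f (log ((2 - r) / r)) r (2 - r)`
(`0` outside `(0, 2)`) is continuous, `‖f♭(R) ξ‖ ≤ ‖f‖ ‖R (2 - R) ξ‖`, and `R (2 - R)` has dense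
range: `apply f` is the bounded extension of `R (2 - R) ξ ↦ f♭(R) ξ` (`R124.douglas`), i.e. the
unique operator with `apply f * (R (2 - R)) = f♭(R)`.  For `anti` use `anti_cfc` on real and
imaginary parts (`cos` is even, `sin` is odd, `r ↦ 2 - r` changes the sign of the logarithm). -/
theorem exists_logCalc {R : Op H} (h0 : 0 ≤ R) (h2 : R ≤ 2) (hi : ∀ ξ, R ξ = 0 → ξ = 0)
    (hi' : ∀ ξ, (2 - R) ξ = 0 → ξ = 0) : ∃ D : LineCalculus H, IsLogCalc R D :=
  ⟨⟨RvD2.hom h0 hi hi', RvD2.window h0 h2 hi hi'⟩,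
    { cfc_eq := fun g f hg h => RvD2.ap_cfc h0 h2 hi hi' g f hg h
      comm := fun _ ht f => RvD2.ap_comm h0 hi hi' ht f
      fix := fun _ hξ f => RvD2.ap_fix h0 hξ f
      anti := fun _ hJ t ξ => RvD2.ap_anti h0 hi hi' hJ t ξ }⟩

end Crest.Agent.R78
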