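import Crest.Agent.R78.RvD2
import Crest.Agent.R78.Key
import Crest.Agent.R78.IntF

/-! # Row 78: Tomita–Takesaki theorem -/

set_option autoImplicit false

namespace Crest.Agent.R78

open scoped InnerProductSpace ComplexOrder BigOperators Topology
open Filter
open Crest.Agent.R124 (Op cm)
open Crest.OpAlg (LineCalculus)

universe u

variable {H : Type u} [NormedAddCommGroup H] [InnerProductSpace ℂ H] [CompleteSpace H]

namespace TT

lemma continuous_coef (D : LineCalculus H) (a : Op H) (ξ η : H) :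
    Continuous fun t : ℝ => ⟪η, (D.wave t * a * D.wave (-t)) ξ⟫_ℂ := by
  have h : (fun t : ℝ => ⟪η, (D.wave t * a * D.wave (-t)) ξ⟫_ℂ) =
      fun t : ℝ => ⟪D.wave (-t) η, a (D.wave (-t) ξ)⟫_ℂ := by
    funext t
    rw [← R84.inner_wave_right]; rfl
  rw [h]
  exact ((R84.continuous_wave D η).comp continuous_neg).inner
    (a.continuous.comp ((R84.continuous_wave D ξ).comp continuous_neg))

lemma norm_coef_le (D : LineCalculus H) (a : Op H) (ξ η : H) (t : ℝ) :
    ‖⟪η, (D.wave t * a * D.wave (-t)) ξ⟫_ℂ‖ ≤ ‖η‖ * (‖a‖ * ‖ξ‖) := by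
  refine (norm_inner_le_norm _ _).trans (mul_le_mul_of_nonneg_left ?_ (norm_nonneg _))
  show ‖D.wave t (a (D.wave (-t) ξ))‖ ≤ _
  rw [R84.norm_wave_apply]
  simpa only [R84.norm_wave_apply] using a.le_opNorm (D.wave (-t) ξ)

lemma integrable_coef (D : LineCalculus H) (a : Op H) (ξ η : H) {φ : ℝ} (hφ : |φ| < Real.pi) :
    MeasureTheory.Integrable fun t : ℝ =>
      (ker φ t : ℂ) * ⟪η, (D.wave t * a * D.wave (-t)) ξ⟫_ℂ :=
  (integrable_ker hφ).ofReal.mul_bdd (continuous_coef D a ξ η).aestronglyMeasurable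
    (Eventually.of_forall fun t => norm_coef_le D a ξ η t)

lemma flow_jop_mem {M : VN H} {Ω : H} {P : H → H} {R T : Op H} {J : H ≃ₗᵢ⋆[ℂ] H}
    {D : LineCalculus H} (h : RvD (saSub M Ω) P R T J) (hD : IsLogCalc R D)
    (hsep : ∀ x ∈ M, x Ω = 0 → x = 0) {x' : Op H} (hx' : x' ∈ M.commutant) (t : ℝ) :
    D.wave t * jop J x' * D.wave (-t) ∈ M := by
  refine mem_of_commute fun y hy => ?_
  refine ContinuousLinearMap.ext fun ξ => ext_inner_left ℂ fun η => ?_
  have key : ∀ s : ℝ, ⟪η, (D.wave s * jop J x' * D.wave (-s)) (y ξ)⟫_ℂ -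
      ⟪star y η, (D.wave s * jop J x' * D.wave (-s)) ξ⟫_ℂ = 0 := by
    refine sech_unique ((continuous_coef D _ _ _).sub (continuous_coef D _ _ _))
      (B := ‖η‖ * (‖jop J x'‖ * ‖y ξ‖) + ‖star y η‖ * (‖jop J x'‖ * ‖ξ‖))
      (fun s => (norm_sub_le _ _).trans
        (add_le_add (norm_coef_le D _ _ _ s) (norm_coef_le D _ _ _ s))) fun φ hφ => ?_
    have hl : 0 < (Complex.exp (Complex.I * (φ / 2))).re := by
      have e : Complex.I * (φ / 2) = ((φ / 2 : ℝ) : ℂ) * Complex.I := by push_cast; ring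
      rw [e, Complex.exp_ofReal_mul_I_re]
      have := abs_lt.1 hφ
      exact Real.cos_pos_of_mem_Ioo ⟨by linarith [this.1], by linarith [this.2]⟩
    obtain ⟨x, hx, hk⟩ := h.key hsep hx' hl
    have hc : starRingEnd ℂ (Complex.exp (Complex.I * (φ / 2))) =
        Complex.exp (-(Complex.I * (φ / 2))) := by
      rw [← Complex.exp_conj]; congr 1
      simp only [map_mul, map_div₀, Complex.conj_I, Complex.conj_ofReal, map_ofNat, neg_mul]
    rw [hc] at hk
    obtain ⟨c, hcf⟩ := int_formula hD h.R_nonneg h.R_le h.T_eq hφ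
    simp only [mul_sub]
    rw [MeasureTheory.integral_sub (integrable_coef D _ _ _ hφ) (integrable_coef D _ _ _ hφ),
      hcf _ x hk, hcf _ x hk, ContinuousLinearMap.star_eq_adjoint,
      ContinuousLinearMap.adjoint_inner_left]
    have e : x (y ξ) = y (x ξ) := by
      have := (commute_of_mem hx hy).eq
      exact congrArg (fun A : Op H => A ξ) this
    rw [e, sub_self]
  have := sub_eq_zero.1 (key t)
  rw [ContinuousLinearMap.star_eq_adjoint, ContinuousLinearMap.adjoint_inner_left] at this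
  exact this

end TT

/-- For `x', y' ∈ M'` the bounded continuous function
`t ↦ ⟪η, [U_t J x' J U_{-t}, y'] ξ⟫` is killed by all kernels `ker φ` (`RvD.key`, `int_formula`),
hence vanishes (`sech_unique`): `U_t J M' J U_{-t} ⊆ M`.  Then `RvD.jop_mem`. -/
theorem exists_md (M : VN H) (Ω : H) (hc : Cyc (M : Set (Op H)) Ω)
    (hsep : ∀ x ∈ M, x Ω = 0 → x = 0) : ∃ S : MD H, S.M = M ∧ S.Ω = Ω := by
  obtain ⟨P, R, T, J, h⟩ := exists_rvd (saSub M Ω) (Submodule.isClosed_topologicalClosure _)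
    (saSub_inter hsep) (saSub_total hc)
  obtain ⟨D, hD⟩ := exists_logCalc h.R_nonneg h.R_le h.R_inj h.R_inj'
  have hJ' : ∀ y ∈ M.commutant, jop J y ∈ M := fun y hy => by
    have := TT.flow_jop_mem h hD hsep hy 0
    rwa [neg_zero, R84.wave_zero, one_mul, mul_one] at this
  have hJ : ∀ x ∈ M, jop J x ∈ M.commutant := h.jop_mem hc hsep hJ'
  refine ⟨{ M := M, Ω := Ω, D := D, J := J, cyc := hc, sep := hsep, J_J := h.J_J, J_Ω := h.J_vac
            J_wave := hD.anti J h.J_R, wave_Ω := fun t => ?_, half := fun x hx => ?_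
            flow_mem := fun t x hx => ?_, J_mem := hJ, J_mem' := hJ' }, rfl, rfl⟩
  · have := hD.fix Ω h.R_vac (LineCalculus.character t)
    rw [R84.character_apply] at this
    simpa [LineCalculus.wave] using this
  · refine halfExp_of hD h.R_nonneg h.R_le h.T_eq h.T_inj ?_
    rw [← h.J_T, h.JT_mem (star_mem hx), star_star]
  · have := TT.flow_jop_mem h hD hsep (hJ x hx) t
    rwa [jop_jop h.J_J] at this

end Crest.Agent.R78
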