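import Crest.Agent.R78.CoreC
import Crest.Agent.R78.Centre
import Crest.Agent.R78.TT
import Crest.Agent.R78.Boot
import Crest.Agent.R78.Norm

/-! # Row 78: standard position -/

set_option autoImplicit false

namespace Crest.Agent.R78

open scoped InnerProductSpace ComplexOrder BigOperators Topology
open Filter
open Crest.Agent.R124 (Op cm)
open Crest.OpAlg (LineCalculus)

universe u

variable {H : Type u} [NormedAddCommGroup H] [InnerProductSpace ℂ H] [CompleteSpace H]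

/-- apply `centre` to `(M', N')`, `exists_md` to `M'` and `cj u₁ N'`, `boot`, `normalise`,
`ct_inv` for `(M, cj (u₂ u₁) N)`, `solve_trans` -/
theorem ct_std : CT.{u} HypStd := by
  obtain ⟨C₁, hC₁, h₁⟩ := cl_comm.{u}
  obtain ⟨C₂, d₂, hC₂, hd₂, h₂⟩ := centre.{u}
  obtain ⟨C₄, d₄, hC₄, hd₄, h₄⟩ := boot.{u}
  obtain ⟨C₅, d₅, hC₅, hd₅, h₅⟩ := normalise.{u}
  obtain ⟨C₇, d₇, hC₇, hd₇, h₇⟩ := ct_inv.{u}
  have hC₁' : 0 < C₁ := by linarith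
  set a : ℝ := C₂ * C₁ with ha
  have ha0 : 0 < a := by positivity
  set C₃ : ℝ := C₁ + 2 * a + C₁ * (2 * a) with hC₃
  have hC₃0 : 0 < C₃ := by positivity
  set b : ℝ := C₅ * (C₄ * C₃) + a with hb
  have hb0 : 0 < b := by positivity
  set C₆ : ℝ := 1 + 2 * b + 2 * b with hC₆
  have hC₆0 : 0 < C₆ := by positivity
  refine ⟨b + C₇ * C₆ + (C₇ * C₆ ^ 2 + 4 * b ^ 2 + 8 * (C₇ * C₆) * b),
    min 1 (min (d₂ / C₁) (min (d₄ / C₃) (min (d₅ / (C₄ * C₃)) (d₇ / C₆)))), by positivity,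
    by positivity, ?_⟩
  intro H _ _ _ M N δ hyp hδ hδ₀ hcl
  obtain ⟨hsep, Ω, hc1, hc2⟩ := hyp
  simp only [le_min_iff] at hδ₀
  obtain ⟨hδ1, hδ2, hδ4, hδ5, hδ7⟩ := hδ₀
  rw [le_div_iff₀ (by positivity), mul_comm] at hδ2 hδ4 hδ5 hδ7
  have hQ := h₁ H M N δ hδ.le hcl
  obtain ⟨u₁, hu₁, hu₁n, hu₁z, hu₁c⟩ :=
    h₂ H M.commutant N.commutant (C₁ * δ) (by positivity) hδ2 hQ
  have hu₁n' : ‖u₁ - 1‖ ≤ a * δ := by rw [ha, mul_assoc]; exact hu₁n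
  have hfix : ∀ t : Op H, Commute t u₁ → star u₁ * t * u₁ = t := by
    intro t ht
    rw [mul_assoc, ht.eq, ← mul_assoc, Unitary.star_mul_self_of_mem hu₁, one_mul]
  have hcQ : Cyc (M.commutant : Set (Op H)) Ω := hc2.mono Set.inter_subset_left
  have hcQ' : Cyc (M.commutant.commutant : Set (Op H)) Ω := by
    rw [VonNeumannAlgebra.commutant_commutant]; exact hc1.mono Set.inter_subset_left
  have hc₂ : Cyc (cj u₁ N.commutant : Set (Op H)) Ω := by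
    refine hc2.mono ?_
    rintro t ⟨ht, ht'⟩
    have : t ∈ cj u₁ N.commutant := by
      rw [mem_cj hu₁, hfix t (hu₁c t (Or.inl ht) (Or.inl ht'))]; exact ht'
    exact this
  have hc₂' : Cyc ((cj u₁ N.commutant).commutant : Set (Op H)) Ω := by
    refine hc1.mono ?_
    rintro t ⟨ht, ht'⟩
    have h1 : t ∈ M.commutant.commutant := by
      rw [VonNeumannAlgebra.commutant_commutant]; exact ht
    have h2 : t ∈ N.commutant.commutant := by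
      rw [VonNeumannAlgebra.commutant_commutant]; exact ht'
    have : t ∈ (cj u₁ N.commutant).commutant := by
      rw [cj_commutant hu₁, mem_cj hu₁, hfix t (hu₁c t (Or.inr h1) (Or.inr h2))]; exact h2
    exact this
  obtain ⟨S, hSM, hSΩ⟩ := exists_md M.commutant Ω hcQ hcQ'.sep
  obtain ⟨S', hSM', hSΩ'⟩ := exists_md (cj u₁ N.commutant) Ω hc₂ hc₂'.sep
  have hcl₂ : CL S.M S'.M (C₃ * δ) := by
    rw [hSM, hSM']
    refine (hQ.trans (cl_cj hu₁ N.commutant) (by positivity) (by positivity)).mono ?_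
    have h1 : C₁ * δ * (2 * ‖u₁ - 1‖) ≤ C₁ * δ * (2 * (a * 1)) := by
      gcongr
      exact hu₁n'.trans (by gcongr)
    rw [hC₃]; nlinarith
  have hb' := h₄ H S S' (C₃ * δ) (by rw [hSΩ, hSΩ']) (by positivity) hδ4 hcl₂
    (by rw [hSM, hSM']; exact hu₁z)
  obtain ⟨u₂, hu₂, hu₂n, hu₂N⟩ := h₅ H S'.M S.D.wave S'.D.wave (C₄ * (C₃ * δ)) S.urep S'.urep
    S'.nml (by positivity) (by rw [← mul_assoc]; exact hδ5) hb'
  have hu : u₂ * u₁ ∈ unitary (Op H) := mul_mem hu₂ hu₁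
  have hun : ‖u₂ * u₁ - 1‖ ≤ b * δ := by
    have e : u₂ * u₁ - 1 = (u₂ - 1) * u₁ + (u₁ - 1) := by noncomm_ring
    have h1 : ‖(u₂ - 1) * u₁‖ = ‖u₂ - 1‖ := CStarRing.norm_mul_mem_unitary _ hu₁
    calc ‖u₂ * u₁ - 1‖ ≤ ‖(u₂ - 1) * u₁‖ + ‖u₁ - 1‖ := by rw [e]; exact norm_add_le _ _
      _ ≤ C₅ * (C₄ * (C₃ * δ)) + a * δ := by rw [h1]; gcongr
      _ = b * δ := by rw [hb]; ring
  have hcl₃ : CL M (cj (u₂ * u₁) N) (C₆ * δ) := by
    refine (hcl.trans (cl_cj hu N) hδ.le (by positivity)).mono ?_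
    have h1 : δ * (2 * ‖u₂ * u₁ - 1‖) ≤ 1 * (2 * (b * δ)) := by gcongr
    rw [hC₆]; nlinarith
  obtain ⟨h, hh, hs⟩ := h₇ H M (cj (u₂ * u₁) N) (C₆ * δ) ⟨S, hSM, by
    intro t
    rw [cj_commutant hu, ← cj_mul hu₂ hu₁, ← hSM']
    exact hu₂N t⟩ (by positivity) hδ7 hcl₃
  rw [cj_commutant hu] at hs
  refine ⟨u₂ * u₁ - 1 + h, ?_, (solve_trans hu hs).mono ?_⟩
  · calc ‖u₂ * u₁ - 1 + h‖ ≤ b * δ + C₇ * (C₆ * δ) := (norm_add_le _ _).trans (add_le_add hun hh)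
      _ ≤ _ := by
        have : 0 ≤ (C₇ * C₆ ^ 2 + 4 * b ^ 2 + 8 * (C₇ * C₆) * b) * δ := by positivity
        nlinarith
  · calc C₇ * (C₆ * δ) ^ 2 + 4 * ‖u₂ * u₁ - 1‖ ^ 2 + 8 * ‖h‖ * ‖u₂ * u₁ - 1‖
        ≤ C₇ * (C₆ * δ) ^ 2 + 4 * (b * δ) ^ 2 + 8 * (C₇ * (C₆ * δ)) * (b * δ) := by gcongr
      _ ≤ _ := by
        have : 0 ≤ (b + C₇ * C₆) * δ ^ 2 := by positivity
        nlinarith

end Crest.Agent.R78
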