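import Crest.Agent.R78.TrJ
import Crest.Agent.R78.Dist
import Crest.Agent.R78.CfcA

/-! # Row 78: algebra of one Newton increment -/

set_option autoImplicit false
set_option linter.unusedSectionVars false
set_option linter.unusedSimpArgs false

namespace Crest.Agent.R78

open scoped InnerProductSpace ComplexOrder BigOperators Topology
open Filter
open Crest.Agent.R124 (Op cm)
open Crest.OpAlg (LineCalculus)

universe u

variable {H : Type u} [NormedAddCommGroup H] [InnerProductSpace ℂ H] [CompleteSpace H]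

namespace Step

section ring
variable {R : Type*} [Ring R]

theorem id3 {a a' n y p k : R} (haa : a' * a = 1) (hay : a * y = y * a) (ha'y : a' * y = y * a')
    (hnp : n * p = p * n) :
    p - y + ((a' * k * a + (a' * n - 1) + a' * k * a * (a' * n - 1)) * y -
        y * (a' * k * a + (a' * n - 1) + a' * k * a * (a' * n - 1))) -
      a' * (p - y + (k * y - y * k)) * a =
    a' * ((a - n) * (p - y) - (p - y) * (a - n)) +
      (a' * k * a * (a' * n - 1) * y - y * (a' * k * a * (a' * n - 1))) := by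
  linear_combination (norm := noncomm_ring) a' * k * hay + ha'y * (k * a) - haa * (p - y) +
    ha'y * n + a' * hnp

theorem id4 {b b' q x m k : R} (hbb : b' * b = 1) (hxb : x * b = b * x) (hxb' : x * b' = b' * x)
    (hmq : m * q = q * m) :
    x - m + (x * (b' * k * b + (b' * q - 1) + b' * k * b * (b' * q - 1)) -
        (b' * k * b + (b' * q - 1) + b' * k * b * (b' * q - 1)) * x) -
      b' * (x - m + (x * k - k * x)) * b =
    -(b' * ((q - b) * (x - m) - (x - m) * (q - b))) +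
      (x * (b' * k * b * (b' * q - 1)) - b' * k * b * (b' * q - 1) * x) := by
  linear_combination (norm := noncomm_ring) hxb' * (k * b) + b' * k * hxb - hbb * (x - m) +
    hxb' * q + b' * hmq

theorem id5 {x m y p h : R} (hxy : x * y = y * x) (hmp : m * p = p * m) :
    x * (p - y + (h * y - y * h)) - (p - y + (h * y - y * h)) * x -
      ((x - m + (x * h - h * x)) * y - y * (x - m + (x * h - h * x))) =
    (x - m) * (p - y) - (p - y) * (x - m) := by
  linear_combination (norm := noncomm_ring) h * hxy - hxy * h - hxy + hmp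

theorem form1 {a a' b' n q : R} (haa : a * a' = 1) (hab : b' * a' = a' * b')
    (hnq : n * q = q * n) :
    b' * a' * (n * q) - 1 =
      a' * (b' * q - 1) * a + (a' * n - 1) + a' * (b' * q - 1) * a * (a' * n - 1) := by
  linear_combination (norm := noncomm_ring) hab * (n * q) + a' * b' * hnq -
    a' * (b' * q - 1) * haa * n

theorem form2 {a' b b' n q : R} (hbb : b * b' = 1) :
    b' * a' * (n * q) - 1 =
      b' * (a' * n - 1) * b + (b' * q - 1) + b' * (a' * n - 1) * b * (b' * q - 1) := by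
  linear_combination (norm := noncomm_ring) -(b' * (a' * n - 1) * hbb * q)

theorem id6 {c c' s e α β : R} :
    c' * (1 + e) * (s * ((1 + α) * (1 + β))) - 1 - c' * e * c - α - β =
      (c' * s - 1) + c' * e * (s - c) + (c' * s - 1) * (α + β + α * β) +
        c' * e * s * (α + β + α * β) + α * β := by
  noncomm_ring

end ring

/-- average of a family -/
noncomputable def E {ι : Type} [Fintype ι] (μ : ι → ℝ) (f : ι → Op H) : Op H :=
  ∑ i, (μ i : ℂ) • f i

section E
variable {ι : Type} [Fintype ι] {μ : ι → ℝ}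

theorem E_add (f g : ι → Op H) : E μ (fun i => f i + g i) = E μ f + E μ g := by
  simp only [E, smul_add, Finset.sum_add_distrib]

theorem E_sub (f g : ι → Op H) : E μ (fun i => f i - g i) = E μ f - E μ g := by
  simp only [E, smul_sub, Finset.sum_sub_distrib]

theorem E_const (hμ : Prob μ) (c : Op H) : E μ (fun _ => c) = c := by
  unfold E
  rw [← Finset.sum_smul, ← Complex.ofReal_sum, hμ.2, Complex.ofReal_one, one_smul]

theorem E_left (c : Op H) (f : ι → Op H) : E μ (fun i => c * f i) = c * E μ f := by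
  simp only [E, Finset.mul_sum, mul_smul_comm]

theorem E_right (c : Op H) (f : ι → Op H) : E μ (fun i => f i * c) = E μ f * c := by
  simp only [E, Finset.sum_mul, smul_mul_assoc]

theorem E_star (f : ι → Op H) : E μ (fun i => star (f i)) = star (E μ f) := by
  simp only [E, star_sum, star_smul, Complex.star_def, Complex.conj_ofReal]

theorem E_comm {κ : Type} [Fintype κ] {ν : κ → ℝ} (f : ι → κ → Op H) :
    E μ (fun i => E ν (f i)) = E ν (fun k => E μ fun i => f i k) := by
  simp only [E, Finset.smul_sum]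
  rw [Finset.sum_comm]
  exact Finset.sum_congr rfl fun k _ => Finset.sum_congr rfl fun i _ => smul_comm _ _ _

theorem norm_E_le (hμ : Prob μ) {f : ι → Op H} {r : ℝ} (h : ∀ i, ‖f i‖ ≤ r) : ‖E μ f‖ ≤ r := by
  calc ‖E μ f‖ ≤ ∑ i, ‖(μ i : ℂ) • f i‖ := norm_sum_le _ _
    _ ≤ ∑ i, μ i * r := Finset.sum_le_sum fun i _ => by
        rw [norm_smul, Complex.norm_real, Real.norm_of_nonneg (hμ.1 i)]
        exact mul_le_mul_of_nonneg_left (h i) (hμ.1 i)
    _ = r := by rw [← Finset.sum_mul, hμ.2, one_mul]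

theorem E_mem {M : VN H} {f : ι → Op H} (h : ∀ i, f i ∈ M) : E μ f ∈ M :=
  sum_mem fun i _ => smul_mem_vn _ (h i)

theorem av_eq (a : ι → Op H) (g : Op H) : av μ a g = E μ fun i => star (a i) * g * a i := rfl

theorem incr_eq {κ : Type} [Fintype κ] {ν : κ → ℝ} (hμ : Prob μ) (hν : Prob ν) (a n : ι → Op H)
    (b q : κ → Op H) :
    incr μ a n ν b q = E μ fun i => E ν fun k => star (b k) * star (a i) * (n i * q k) - 1 := by
  simp only [E_sub, E_const hμ, E_const hν]
  unfold incr E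
  congr 1
  refine Finset.sum_congr rfl fun i _ => ?_
  rw [Finset.smul_sum]
  refine Finset.sum_congr rfl fun k _ => ?_
  rw [smul_smul, star_mul, Complex.ofReal_mul]

end E

section O
variable {M : VN H} {Ω : H} {J : H ≃ₗᵢ⋆[ℂ] H} {r s : Op H} {d g c c' : ℝ}

theorem uleft (hJ : TrJ M Ω J) {d g : ℝ} (h : Sm2 M Ω r d g) (hd : 0 ≤ d) (hg : 0 ≤ g) {x : Op H}
    (hx : UIn M x ∨ UIn M.commutant x) : Sm2 M Ω (x * r) d g := by
  have h1 : ‖x‖ ≤ 1 := hx.elim UIn.norm_le UIn.norm_le
  exact (h.left hJ hg (hx.imp And.left And.left)).mono (mul_le_of_le_one_left hd h1)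
    (mul_le_of_le_one_left hg h1)

theorem uright (hJ : TrJ M Ω J) {d g : ℝ} (h : Sm2 M Ω r d g) (hd : 0 ≤ d) (hg : 0 ≤ g) {x : Op H}
    (hx : UIn M x ∨ UIn M.commutant x) : Sm2 M Ω (r * x) d g := by
  have h1 : ‖x‖ ≤ 1 := hx.elim UIn.norm_le UIn.norm_le
  exact (h.right hJ hg (hx.imp And.left And.left)).mono (mul_le_of_le_one_left hd h1)
    (mul_le_of_le_one_left hg h1)

theorem mul2 (h : Sm2 M Ω r d g) (h' : Sm2 M Ω s d g) (hg : 0 ≤ g) :
    Sm2 M Ω (r * s) (d * d) (2 * (d * g)) :=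
  (h.mul h' hg hg).mono le_rfl (by linarith)

theorem cm2 (h : Sm2 M Ω r d g) (h' : Sm2 M Ω s d g) (hg : 0 ≤ g) :
    Sm2 M Ω (r * s - s * r) (2 * (d * d)) (4 * (d * g)) :=
  ((mul2 h h' hg).sub (mul2 h' h hg)).mono (by linarith) (by linarith)

theorem ka (hJ : TrJ M Ω J) (hd : 0 ≤ d) (hg : 0 ≤ g) {a n : Op H} (ha : UIn M a)
    (h : Sm2 M Ω (a - n) d g) : Sm2 M Ω (star a * n - 1) d g := by
  have := (uleft hJ h hd hg (Or.inl ha.star)).neg
  rwa [mul_sub, Unitary.star_mul_self_of_mem ha.2, neg_sub] at this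

theorem kb (hJ : TrJ M Ω J) (hd : 0 ≤ d) (hg : 0 ≤ g) {b q : Op H} (hb : UIn M.commutant b)
    (h : Sm2 M Ω (q - b) d g) : Sm2 M Ω (star b * q - 1) d g := by
  have := uleft hJ h hd hg (Or.inr hb.star)
  rwa [mul_sub, Unitary.star_mul_self_of_mem hb.2] at this

end O

theorem norm_ul {u : Op H} (hu : u ∈ unitary (Op H)) (x : Op H) : ‖u * x‖ = ‖x‖ :=
  CStarRing.norm_mem_unitary_mul x hu

theorem norm_ur {u : Op H} (hu : u ∈ unitary (Op H)) (x : Op H) : ‖x * u‖ = ‖x‖ :=
  CStarRing.norm_mul_mem_unitary x hu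

theorem norm_conj_sub {u n : Op H} (hu : u ∈ unitary (Op H)) (hn : n ∈ unitary (Op H)) :
    ‖star u * n * u - n‖ ≤ 2 * ‖u - 1‖ := by
  have e : star u * n * u - n = star u * n * (u - 1) + star (u - 1) * n := by
    rw [star_sub, star_one]; noncomm_ring
  rw [e]
  refine (norm_add_le _ _).trans ?_
  rw [norm_ul (mul_mem (Unitary.star_mem hu) hn), norm_ur hn, norm_star]
  linarith

theorem drift_one {u a n n' : Op H} (hu : u ∈ unitary (Op H)) (hn : n ∈ unitary (Op H))
    (hn' : n' ∈ unitary (Op H)) :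
    ‖star n' * (star u * n * u) - 1‖ ≤ 2 * ‖u - 1‖ + ‖a - n‖ + ‖a - n'‖ := by
  have e : star n' * (star u * n * u) - 1 =
      star n' * ((star u * n * u - n) - (a - n) + (a - n')) := by
    rw [← Unitary.star_mul_self_of_mem hn']; noncomm_ring
  rw [e, norm_ul (Unitary.star_mem hn')]
  have := norm_conj_sub hu hn
  have h1 := norm_add_le (star u * n * u - n - (a - n)) (a - n')
  have h2 := norm_sub_le (star u * n * u - n) (a - n)
  linarith

end Step

open Step

/-- `W = (a b)⋆ n q = (1 + a⋆ k_b a)(1 + k_a) = (1 + b⋆ k_a b)(1 + k_b)` with `k_a = a⋆ n - 1`,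
`k_b = b⋆ q - 1`.  Modulo products of two small operators (`Sm2.mul`):
`[a, p - y] = [a, p] = [a - n, p] ≡ [a - n, y]`, so `p - y + [W - 1, y] ≡ a⋆ (p - y + [k_b, y]) a`
and `x - m + [x, W - 1] ≡ b⋆ (x - m + [x, k_a]) b`; `(W - 1) + (W - 1)⋆ = -(W - 1)⋆ (W - 1)`;
the last item is the Jacobi identity plus `[x, p - y] - [x - m, y] = [x - m, p - y]`. -/
theorem step : ∃ C : ℝ, 1 ≤ C ∧ ∀ (H : Type u) [NormedAddCommGroup H] [InnerProductSpace ℂ H] [CompleteSpace H] (M N : VN H) (Ω : H) (J : H ≃ₗᵢ⋆[ℂ] H) (d g : ℝ)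
    (ι κ : Type) [Fintype ι] [Fintype κ] (μ : ι → ℝ) (a n : ι → Op H) (ν : κ → ℝ) (b q : κ → Op H),
    TrJ M Ω J → 0 ≤ d → d ≤ 1 → 0 ≤ g → Prob μ → Prob ν →
    (∀ i, UIn M (a i) ∧ UIn N (n i) ∧ Sm2 M Ω (a i - n i) d g) →
    (∀ k, UIn M.commutant (b k) ∧ UIn N.commutant (q k) ∧ Sm2 M Ω (q k - b k) d g) →
    Sm2 M Ω (incr μ a n ν b q) (C * d) (C * g) ∧
    Sm2 M Ω (incr μ a n ν b q + star (incr μ a n ν b q)) (C * d ^ 2) (C * d * g) ∧
    (∀ y p, UIn M.commutant y → UIn N.commutant p → Sm2 M Ω (p - y) d g →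
      ∃ T', Sm M Ω T' (C * g) ∧ Sm M Ω (p - y + cm (incr μ a n ν b q) y - av μ a T') (C * d * g)) ∧
    (∀ x m, UIn M x → UIn N m → Sm2 M Ω (x - m) d g →
      ∃ S', Sm M Ω S' (C * g) ∧ Sm M Ω (x - m + cm x (incr μ a n ν b q) - av ν b S') (C * d * g)) ∧
    (∀ x m y p, UIn M x → UIn N m → Sm2 M Ω (x - m) d g → UIn M.commutant y →
      UIn N.commutant p → Sm2 M Ω (p - y) d g →
      Sm M Ω (cm x (p - y + cm (incr μ a n ν b q) y) - cm (x - m + cm x (incr μ a n ν b q)) y)
        (C * d * g)) := by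
  refine ⟨32, by norm_num, ?_⟩
  intro H _ _ _ M N Ω J d g ι κ _ _ μ a n ν b q hJ hd hd1 hg hμ hν ha hb
  have hdd : d * d ≤ d := mul_le_of_le_one_left hd hd1
  have hdg : d * g ≤ g := mul_le_of_le_one_left hg hd1
  have hdd0 : 0 ≤ d * d := mul_nonneg hd hd
  have hdg0 : 0 ≤ d * g := mul_nonneg hd hg
  have hka : ∀ i, Sm2 M Ω (star (a i) * n i - 1) d g := fun i => ka hJ hd hg (ha i).1 (ha i).2.2
  have hkb : ∀ k, Sm2 M Ω (star (b k) * q k - 1) d g := fun k => kb hJ hd hg (hb k).1 (hb k).2.2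
  have f1 : ∀ i k, star (b k) * star (a i) * (n i * q k) - 1 = _ := fun i k =>
    form1 (Unitary.mul_star_self_of_mem (ha i).1.2)
      (commute_of_mem (ha i).1.star.1 (hb k).1.star.1).symm.eq
      (commute_of_mem (ha i).2.1.1 (hb k).2.1.1).eq
  have f2 : ∀ i k, star (b k) * star (a i) * (n i * q k) - 1 = _ := fun i k =>
    form2 (Unitary.mul_star_self_of_mem (hb k).1.2)
  have hc1 : ∀ i k, Sm2 M Ω (star (a i) * (star (b k) * q k - 1) * a i) d g := fun i k =>
    uright hJ (uleft hJ (hkb k) hd hg (Or.inl (ha i).1.star)) hd hg (Or.inl (ha i).1)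
  have hc2 : ∀ i k, Sm2 M Ω (star (b k) * (star (a i) * n i - 1) * b k) d g := fun i k =>
    uright hJ (uleft hJ (hka i) hd hg (Or.inr (hb k).1.star)) hd hg (Or.inr (hb k).1)
  have hW : ∀ i k, Sm2 M Ω (star (b k) * star (a i) * (n i * q k) - 1) (4 * d) (4 * g) := by
    intro i k
    rw [f1]
    exact (((hc1 i k).add (hka i)).add (mul2 (hc1 i k) (hka i) hg)).mono (by linarith) (by linarith)
  rw [incr_eq hμ hν]
  refine ⟨Sm2.sum hμ fun i => Sm2.sum hν fun k => (hW i k).mono (by linarith) (by linarith),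
    ?_, ?_, ?_, ?_⟩
  · rw [← E_star, ← E_add]
    refine Sm2.sum hμ fun i => ?_
    rw [← E_star, ← E_add]
    refine Sm2.sum hν fun k => ?_
    have hu : star (b k) * star (a i) * (n i * q k) ∈ unitary (Op H) :=
      mul_mem (mul_mem (hb k).1.star.2 (ha i).1.star.2) (mul_mem (ha i).2.1.2 (hb k).2.1.2)
    have h := (mul2 (hW i k).star (hW i k) (by linarith)).neg
    generalize star (b k) * star (a i) * (n i * q k) = W at hu h ⊢
    have e : W - 1 + star (W - 1) = -(star (W - 1) * (W - 1)) := by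
      have := Unitary.star_mul_self_of_mem hu
      rw [star_sub, star_one]
      linear_combination (norm := noncomm_ring) this
    rw [e]
    exact h.mono (by nlinarith) (by nlinarith)
  · intro y p hy hp hP
    refine ⟨E ν fun k => p - y + ((star (b k) * q k - 1) * y - y * (star (b k) * q k - 1)),
      Sm.sum hν fun k => ?_, ?_⟩
    · exact (hP.add ((uright hJ (hkb k) hd hg (Or.inr hy)).sub
        (uleft hJ (hkb k) hd hg (Or.inr hy)))).2.1.mono (by linarith)
    · have e : p - y + cm (E μ fun i => E ν fun k => star (b k) * star (a i) * (n i * q k) - 1) y -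
          av μ a (E ν fun k => p - y + ((star (b k) * q k - 1) * y - y * (star (b k) * q k - 1))) =
          E μ fun i => E ν fun k => p - y + ((star (b k) * star (a i) * (n i * q k) - 1) * y -
            y * (star (b k) * star (a i) * (n i * q k) - 1)) -
            star (a i) * (p - y + ((star (b k) * q k - 1) * y - y * (star (b k) * q k - 1))) * a i := by
        rw [av_eq, cm]
        generalize p - y = P
        simp only [E_sub (fun k => P + _), E_add (fun _ => P), E_const hμ, E_const hν,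
          E_sub (fun k => _ * y), E_left, E_right]
      rw [e]
      refine Sm.sum hμ fun i => Sm.sum hν fun k => ?_
      rw [f1, id3 (Unitary.star_mul_self_of_mem (ha i).1.2) (commute_of_mem (ha i).1.1 hy.1).eq
        (commute_of_mem (ha i).1.star.1 hy.1).eq (commute_of_mem (ha i).2.1.1 hp.1).eq]
      have h2 := mul2 (hc1 i k) (hka i) hg
      exact ((uleft hJ (cm2 (ha i).2.2 hP hg) (by linarith) (by linarith) (Or.inl (ha i).1.star)).add
        ((uright hJ h2 hdd0 (by linarith) (Or.inr hy)).sub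
          (uleft hJ h2 hdd0 (by linarith) (Or.inr hy)))).2.1.mono (by linarith)
  · intro x m hx hm hX
    refine ⟨E μ fun i => x - m + (x * (star (a i) * n i - 1) - (star (a i) * n i - 1) * x),
      Sm.sum hμ fun i => ?_, ?_⟩
    · exact (hX.add ((uleft hJ (hka i) hd hg (Or.inl hx)).sub
        (uright hJ (hka i) hd hg (Or.inl hx)))).2.1.mono (by linarith)
    · have e : x - m + cm x (E μ fun i => E ν fun k => star (b k) * star (a i) * (n i * q k) - 1) -
          av ν b (E μ fun i => x - m + (x * (star (a i) * n i - 1) - (star (a i) * n i - 1) * x)) =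
          E ν fun k => E μ fun i => x - m + (x * (star (b k) * star (a i) * (n i * q k) - 1) -
            (star (b k) * star (a i) * (n i * q k) - 1) * x) -
            star (b k) * (x - m + (x * (star (a i) * n i - 1) - (star (a i) * n i - 1) * x)) * b k := by
        rw [av_eq, cm, E_comm]
        generalize x - m = X
        simp only [E_sub (fun k => X + _), E_add (fun _ => X), E_const hμ, E_const hν,
          E_sub (fun k => x * _), E_left, E_right]
      rw [e]
      refine Sm.sum hν fun k => Sm.sum hμ fun i => ?_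
      rw [f2, id4 (Unitary.star_mul_self_of_mem (hb k).1.2) (commute_of_mem hx.1 (hb k).1.1).eq
        (commute_of_mem hx.1 (hb k).1.star.1).eq (commute_of_mem hm.1 (hb k).2.1.1).eq]
      have h2 := mul2 (hc2 i k) (hkb k) hg
      exact ((uleft hJ (cm2 (hb k).2.2 hX hg) (by linarith) (by linarith)
        (Or.inr (hb k).1.star)).neg.add
        ((uleft hJ h2 hdd0 (by linarith) (Or.inl hx)).sub
          (uright hJ h2 hdd0 (by linarith) (Or.inl hx)))).2.1.mono (by linarith)
  · intro x m y p hx hm hX hy hp hP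
    simp only [cm]
    rw [id5 (commute_of_mem hx.1 hy.1).eq (commute_of_mem hm.1 hp.1).eq]
    exact (cm2 hX hP hg).2.1.mono (by linarith)

/-- `W u = (a b)⋆ u n⁰ p⁰` with `n⁰ = u⋆ n u ∈ U(N₀)`, `p⁰ = u⋆ q u ∈ U(N₀')`.  Let `ñ ∈ U(N₀)`,
`p̃ ∈ U(N₀')` be `O(δ)`-close to `a`, `b` (`Near.unitary`, `cl_comm`); `n⁰ = ñ (1 + α)`,
`p⁰ = p̃ (1 + β)`, `W u = (a b)⋆ ñ p̃ + (a b)⋆ (u - 1) (a b) + α + β + O(L² ρ²)`. -/
theorem step_drift : ∃ C₀ C δ₀ : ℝ, 0 < C₀ ∧ 0 < C ∧ 0 < δ₀ ∧ ∀ (H : Type u) [NormedAddCommGroup H] [InnerProductSpace ℂ H] [CompleteSpace H] (M N₀ : VN H) (u : Op H)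
    (δ ρ L : ℝ) (ι κ : Type) [Fintype ι] [Fintype κ] (μ : ι → ℝ) (a n : ι → Op H) (ν : κ → ℝ)
    (b q : κ → Op H), u ∈ unitary (Op H) → 0 ≤ δ → δ ≤ ρ → δ ≤ δ₀ → 1 ≤ L → L * ρ ≤ 1 →
    CL M N₀ δ → ‖u - 1‖ ≤ ρ → Prob μ → Prob ν →
    (∀ i, UIn M (a i) ∧ UIn (cj u N₀) (n i) ∧ ‖a i - n i‖ ≤ L * ρ) →
    (∀ k, UIn M.commutant (b k) ∧ UIn (cj u N₀).commutant (q k) ∧ ‖q k - b k‖ ≤ L * ρ) →
    ∃ α ∈ N₀, ∃ β ∈ N₀.commutant, ‖α‖ ≤ C * L * ρ ∧ ‖β‖ ≤ C * L * ρ ∧
      ‖(1 + incr μ a n ν b q) * u - 1 - av μ a (av ν b (u - 1)) - α - β‖ ≤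
        C₀ * δ + C * L ^ 2 * ρ ^ 2 := by
  obtain ⟨C₁, hC₁, hcl⟩ := cl_comm.{u}
  set K : ℝ := 11 + 8 * C₁ with hK
  set C₀ : ℝ := 8 + 8 * C₁ with hC₀
  have hK0 : 0 < K := by linarith
  have hC0 : 0 < C₀ := by linarith
  refine ⟨C₀, K + (C₀ + C₀ * (2 * K + K ^ 2) + (2 * K + K ^ 2) + K ^ 2), 1 / (8 * C₁), hC0,
    by positivity, by positivity, ?_⟩
  intro H _ _ _ M N₀ u δ ρ L ι κ _ _ μ a n ν b q hu hδ hδρ hδ₀ hL hLρ hMN hu1 hμ hν ha hb
  have hρ : 0 ≤ ρ := hδ.trans hδρ
  have hδ1 : C₁ * δ ≤ 1 / 8 := by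
    rw [le_div_iff₀ (by positivity)] at hδ₀
    linarith
  have hδ2 : δ ≤ 1 / 8 := by nlinarith
  have hρL : ρ ≤ L * ρ := le_mul_of_one_le_left hρ hL
  choose n' hn' hn'a using fun i => Near.unitary hMN.1 hδ hδ2 (ha i).1
  choose p' hp' hp'b using fun k =>
    Near.unitary (hcl H M N₀ δ hδ hMN).1 (by positivity) hδ1 (hb k).1
  set α : ι → Op H := fun i => star (n' i) * (star u * n i * u) - 1 with hα
  set β : κ → Op H := fun k => star (p' k) * (star u * q k * u) - 1 with hβ
  have hαm : ∀ i, α i ∈ N₀ := fun i =>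
    sub_mem (mul_mem (hn' i).star.1 ((mem_cj hu).1 (ha i).2.1.1)) (one_mem _)
  have hβm : ∀ k, β k ∈ N₀.commutant := fun k => by
    have := (hb k).2.1.1
    rw [cj_commutant hu] at this
    exact sub_mem (mul_mem (hp' k).star.1 ((mem_cj hu).1 this)) (one_mem _)
  have hC₁δ : C₁ * δ ≤ C₁ * (L * ρ) := mul_le_mul_of_nonneg_left (hδρ.trans hρL) (by linarith)
  have hC₁L : 0 ≤ C₁ * (L * ρ) := by positivity
  have hαn : ∀ i, ‖α i‖ ≤ K * (L * ρ) := fun i => by
    have := drift_one (a := a i) hu (ha i).2.1.2 (hn' i).2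
    have h1 := (ha i).2.2
    have h2 := hn'a i
    rw [hK]; linarith
  have hβn : ∀ k, ‖β k‖ ≤ K * (L * ρ) := fun k => by
    have := drift_one (a := b k) hu (hb k).2.1.2 (hp' k).2
    have h1 := (hb k).2.2
    rw [norm_sub_rev] at h1
    have h2 := hp'b k
    rw [hK]; linarith
  have hLρ0 : 0 ≤ L * ρ := by positivity
  have hKle : K * (L * ρ) ≤
      (K + (C₀ + C₀ * (2 * K + K ^ 2) + (2 * K + K ^ 2) + K ^ 2)) * L * ρ := by
    rw [mul_assoc]
    exact mul_le_mul_of_nonneg_right (le_add_of_nonneg_right (by positivity)) hLρ0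
  refine ⟨E μ α, E_mem hαm, E ν β, E_mem hβm, (norm_E_le hμ hαn).trans hKle,
    (norm_E_le hν hβn).trans hKle, ?_⟩
  have e : (1 + incr μ a n ν b q) * u - 1 - av μ a (av ν b (u - 1)) - E μ α - E ν β =
      E μ fun i => E ν fun k => star (b k) * star (a i) * (n i * q k) * u - 1 -
        star (a i) * (star (b k) * (u - 1) * b k) * a i - α i - β k := by
    rw [incr_eq hμ hν, av_eq, av_eq]
    generalize u - 1 = e
    simp only [E_sub, E_const hμ, E_const hν, E_right _ (fun k => star (b k) * e * b k),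
      E_left (star (a _)), E_right u, E_right (a _), add_sub_cancel]
  rw [e]
  refine norm_E_le hμ fun i => norm_E_le hν fun k => ?_
  have hc : a i * b k ∈ unitary (Op H) := mul_mem (ha i).1.2 (hb k).1.2
  have hs : n' i * p' k ∈ unitary (Op H) := mul_mem (hn' i).2 (hp' k).2
  have e1 : star (b k) * star (a i) * (n i * q k) * u =
      star (a i * b k) * (1 + (u - 1)) * (n' i * p' k * ((1 + α i) * (1 + β k))) := by
    have h1 : n' i * (1 + α i) = star u * n i * u := by
      rw [hα]; simp only [add_sub_cancel]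
      rw [← mul_assoc, Unitary.mul_star_self_of_mem (hn' i).2, one_mul]
    have h2 : p' k * (1 + β k) = star u * q k * u := by
      rw [hβ]; simp only [add_sub_cancel]
      rw [← mul_assoc, Unitary.mul_star_self_of_mem (hp' k).2, one_mul]
    have h3 : (1 + α i) * p' k = p' k * (1 + α i) :=
      (commute_of_mem (add_mem (one_mem _) (hαm i)) (hp' k).1).eq
    have h4 : n' i * p' k * ((1 + α i) * (1 + β k)) = n' i * (1 + α i) * (p' k * (1 + β k)) := by
      linear_combination (norm := noncomm_ring) -(n' i * h3 * (1 + β k))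
    have h5 := Unitary.mul_star_self_of_mem hu
    rw [h4, h1, h2, star_mul, add_sub_cancel]
    linear_combination (norm := noncomm_ring)
      -(star (b k) * star (a i) * h5 * (n i * u * star u * q k * u)) -
        star (b k) * star (a i) * n i * h5 * (q k * u)
  have e2 : star (a i) * (star (b k) * (u - 1) * b k) * a i =
      star (a i * b k) * (u - 1) * (a i * b k) := by
    have h1 := (commute_of_mem (ha i).1.1 (hb k).1.1).eq
    have h2 := (commute_of_mem (ha i).1.star.1 (hb k).1.star.1).eq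
    rw [star_mul]
    linear_combination (norm := noncomm_ring) h2 * ((u - 1) * b k * a i) -
      star (b k) * star (a i) * (u - 1) * h1
  rw [e1, e2, id6]
  have hsc : ‖n' i * p' k - a i * b k‖ ≤ C₀ * δ := by
    have e3 : n' i * p' k - a i * b k = -((a i - n' i) * p' k) - a i * (b k - p' k) := by
      noncomm_ring
    rw [e3]
    refine (norm_sub_le _ _).trans ?_
    rw [norm_neg, norm_ur (hp' k).2, norm_ul (ha i).1.2]
    have h1 := hn'a i
    have h2 := hp'b k
    rw [hC₀]; linarith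
  have hV : ‖star (a i * b k) * (n' i * p' k) - 1‖ ≤ C₀ * δ := by
    rw [← Unitary.star_mul_self_of_mem hc, ← mul_sub, norm_ul (Unitary.star_mem hc)]
    exact hsc
  have hαβ : ‖α i * β k‖ ≤ K ^ 2 * (L * ρ) ^ 2 :=
    (norm_mul_le _ _).trans ((mul_le_mul (hαn i) (hβn k) (norm_nonneg _) (by positivity)).trans
      (le_of_eq (by ring)))
  have hsq : (L * ρ) ^ 2 ≤ L * ρ := by nlinarith
  have ht : ‖α i + β k + α i * β k‖ ≤ (2 * K + K ^ 2) * (L * ρ) := by
    have h1 := norm_add₃_le (a := α i) (b := β k) (c := α i * β k)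
    have h2 := hαn i
    have h3 := hβn k
    have h4 : K ^ 2 * (L * ρ) ^ 2 ≤ K ^ 2 * (L * ρ) := mul_le_mul_of_nonneg_left hsq (by positivity)
    linarith
  have hδL : δ ≤ L * ρ := hδρ.trans hρL
  have t1 : ‖star (a i * b k) * (u - 1) * (n' i * p' k - a i * b k)‖ ≤ C₀ * (L * ρ) ^ 2 := by
    rw [mul_assoc, norm_ul (Unitary.star_mem hc)]
    refine (norm_mul_le _ _).trans ?_
    calc _ ≤ (L * ρ) * (C₀ * (L * ρ)) := mul_le_mul (hu1.trans hρL)
          (hsc.trans (mul_le_mul_of_nonneg_left hδL hC0.le)) (norm_nonneg _) hLρ0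
      _ = _ := by ring
  have t2 : ‖(star (a i * b k) * (n' i * p' k) - 1) * (α i + β k + α i * β k)‖ ≤
      C₀ * (2 * K + K ^ 2) * (L * ρ) ^ 2 := by
    refine (norm_mul_le _ _).trans ?_
    calc _ ≤ (C₀ * (L * ρ)) * ((2 * K + K ^ 2) * (L * ρ)) := mul_le_mul
          (hV.trans (mul_le_mul_of_nonneg_left hδL hC0.le)) ht (norm_nonneg _) (by positivity)
      _ = _ := by ring
  have t3 : ‖star (a i * b k) * (u - 1) * (n' i * p' k) * (α i + β k + α i * β k)‖ ≤
      (2 * K + K ^ 2) * (L * ρ) ^ 2 := by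
    refine (norm_mul_le _ _).trans ?_
    rw [norm_ur hs, norm_ul (Unitary.star_mem hc)]
    calc _ ≤ (L * ρ) * ((2 * K + K ^ 2) * (L * ρ)) :=
          mul_le_mul (hu1.trans hρL) ht (norm_nonneg _) hLρ0
      _ = _ := by ring
  have t4 : 0 ≤ K * (L * ρ) ^ 2 := by positivity
  refine (norm_add_le _ _).trans ?_
  refine (add_le_add_left (norm_add_le _ _) _).trans ?_
  refine (add_le_add_left (add_le_add_left (norm_add₃_le) _) _).trans ?_
  have : (K + (C₀ + C₀ * (2 * K + K ^ 2) + (2 * K + K ^ 2) + K ^ 2)) * L ^ 2 * ρ ^ 2 =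
      K * (L * ρ) ^ 2 + C₀ * (L * ρ) ^ 2 + C₀ * (2 * K + K ^ 2) * (L * ρ) ^ 2 +
        (2 * K + K ^ 2) * (L * ρ) ^ 2 + K ^ 2 * (L * ρ) ^ 2 := by ring
  rw [this]
  linarith

end Crest.Agent.R78
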