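import Crest.Agent.R78.TrJA

/-! # Row 78: trace vectors and the seminorms `Sm`, `Sm2` -/

set_option autoImplicit false

namespace Crest.Agent.R78

open scoped InnerProductSpace ComplexOrder BigOperators Topology
open Filter
open Crest.Agent.R124 (Op cm)
open Crest.OpAlg (LineCalculus)

universe u

variable {H : Type u} [NormedAddCommGroup H] [InnerProductSpace ℂ H] [CompleteSpace H]

lemma TrJ.norm_sum_le {ι : Type} [Fintype ι] {μ : ι → ℝ} (hμ : Prob μ) {f : ι → Op H} {d : ℝ}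
    (h : ∀ i, ‖f i‖ ≤ d) : ‖∑ i, (μ i : ℂ) • f i‖ ≤ d := by
  refine (_root_.norm_sum_le _ _).trans ?_
  calc ∑ i, ‖(μ i : ℂ) • f i‖ ≤ ∑ i, μ i * d := by
        refine Finset.sum_le_sum fun i _ => ?_
        rw [norm_smul, Complex.norm_real, Real.norm_of_nonneg (hμ.1 i)]
        exact mul_le_mul_of_nonneg_left (h i) (hμ.1 i)
    _ = d := by rw [← Finset.sum_mul, hμ.2, one_mul]

section
variable {M : VN H} {Ω : H} {J : H ≃ₗᵢ⋆[ℂ] H}

variable {r s : Op H} {d d' g g' : ℝ}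

lemma Sm.vac (h : Sm M Ω r g) (hg : 0 ≤ g) : ‖r Ω‖ ≤ g := by
  have h1 := h 1 (one_mem _)
  have h2 : ‖(1 : Op H)‖ ≤ 1 := ContinuousLinearMap.norm_id_le
  exact h1.trans (mul_le_of_le_one_right hg h2)

/-- `y x Ω = x (J y⋆ J) Ω` -/
lemma Sm.app (hJ : TrJ M Ω J) (h : Sm M Ω r g) (hg : 0 ≤ g) {x y : Op H} (hx : x ∈ M)
    (hy : y ∈ M.commutant) : ‖r (y (x Ω))‖ ≤ g * (‖y‖ * ‖x‖) := by
  have h1 : y (x Ω) = (x * jop J (star y)) Ω := by
    rw [mul_apply_eq_comp, hJ.jop_vac' (star_mem hy), star_star]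
    exact (DFunLike.congr_fun (commute_of_mem hx hy).eq Ω).symm
  rw [h1]
  refine (h _ (mul_mem hx (hJ.mem' _ (star_mem hy)))).trans ?_
  gcongr
  refine (norm_mul_le _ _).trans ?_
  rw [mul_comm]
  gcongr
  exact (norm_jop_le J _).trans (norm_star y).le

lemma Sm.mono (h : Sm M Ω r g) (hg : g ≤ g') : Sm M Ω r g' := by
  exact fun x hx => (h x hx).trans (by gcongr)

lemma sm_zero (M : VN H) (Ω : H) (hg : 0 ≤ g) : Sm M Ω 0 g := by
  intro x _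
  rw [_root_.zero_apply, norm_zero]
  positivity

lemma Sm.add (h : Sm M Ω r g) (h' : Sm M Ω s g') : Sm M Ω (r + s) (g + g') := by
  intro x hx
  rw [_root_.add_apply, add_mul]
  exact (norm_add_le _ _).trans (add_le_add (h x hx) (h' x hx))

lemma Sm.neg (h : Sm M Ω r g) : Sm M Ω (-r) g := by
  intro x hx
  rw [_root_.neg_apply, norm_neg]
  exact h x hx

lemma Sm.sub (h : Sm M Ω r g) (h' : Sm M Ω s g') : Sm M Ω (r - s) (g + g') := by
  rw [sub_eq_add_neg]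
  exact h.add h'.neg

lemma Sm.smul (h : Sm M Ω r g) (c : ℂ) : Sm M Ω (c • r) (‖c‖ * g) := by
  intro x hx
  rw [_root_.smul_apply, norm_smul, mul_assoc]
  gcongr
  exact h x hx

lemma Sm.left (h : Sm M Ω r g) (a : Op H) : Sm M Ω (a * r) (‖a‖ * g) := by
  intro x hx
  rw [mul_apply_eq_comp, mul_assoc]
  refine (a.le_opNorm _).trans ?_
  gcongr
  exact h x hx

lemma Sm.right (h : Sm M Ω r g) (hg : 0 ≤ g) {x : Op H} (hx : x ∈ M) :
    Sm M Ω (r * x) (g * ‖x‖) := by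
  intro y hy
  rw [mul_apply_eq_comp, mul_assoc, ← mul_apply_eq_comp x y]
  refine (h _ (mul_mem hx hy)).trans ?_
  gcongr
  exact norm_mul_le _ _

lemma Sm.right' (hJ : TrJ M Ω J) (h : Sm M Ω r g) (hg : 0 ≤ g) {y : Op H}
    (hy : y ∈ M.commutant) : Sm M Ω (r * y) (g * ‖y‖) := by
  intro x hx
  rw [mul_apply_eq_comp, mul_assoc]
  exact h.app hJ hg hx hy

lemma Sm.sum {ι : Type} [Fintype ι] {μ : ι → ℝ} (hμ : Prob μ) {f : ι → Op H}
    (h : ∀ i, Sm M Ω (f i) g) : Sm M Ω (∑ i, (μ i : ℂ) • f i) g := by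
  intro x hx
  rw [_root_.sum_apply]
  refine (norm_sum_le _ _).trans ?_
  calc ∑ i, ‖((μ i : ℂ) • f i) (x Ω)‖ ≤ ∑ i, μ i * (g * ‖x‖) := by
        refine Finset.sum_le_sum fun i _ => ?_
        rw [_root_.smul_apply, norm_smul, Complex.norm_real, Real.norm_of_nonneg (hμ.1 i)]
        exact mul_le_mul_of_nonneg_left (h i x hx) (hμ.1 i)
    _ = g * ‖x‖ := by rw [← Finset.sum_mul, hμ.2, one_mul]

lemma Sm.av {ι : Type} [Fintype ι] {μ : ι → ℝ} (hμ : Prob μ) {a : ι → Op H}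
    (ha : ∀ i, UIn M (a i)) (h : Sm M Ω r g) (hg : 0 ≤ g) : Sm M Ω (av μ a r) g := by
  refine Sm.sum hμ fun i => ?_
  rw [mul_assoc]
  refine ((h.right hg (ha i).1).left _).mono ?_
  have h1 := (ha i).norm_le
  rw [norm_star]
  calc ‖a i‖ * (g * ‖a i‖) ≤ 1 * (g * 1) := by gcongr
    _ = g := by ring

lemma Sm.av' (hJ : TrJ M Ω J) {ι : Type} [Fintype ι] {μ : ι → ℝ} (hμ : Prob μ) {b : ι → Op H}
    (hb : ∀ i, UIn M.commutant (b i)) (h : Sm M Ω r g) (hg : 0 ≤ g) : Sm M Ω (R78.av μ b r) g := by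
  refine Sm.sum hμ fun i => ?_
  rw [mul_assoc]
  refine ((h.right' hJ hg (hb i).1).left _).mono ?_
  have h1 := (hb i).norm_le
  rw [norm_star]
  calc ‖b i‖ * (g * ‖b i‖) ≤ 1 * (g * 1) := by gcongr
    _ = g := by ring

lemma norm_av_le {ι : Type} [Fintype ι] {μ : ι → ℝ} (hμ : Prob μ) {a : ι → Op H}
    (ha : ∀ i, a i ∈ unitary (Op H)) (r : Op H) : ‖av μ a r‖ ≤ ‖r‖ := by
  refine TrJ.norm_sum_le hμ fun i => ?_
  rw [CStarRing.norm_mul_mem_unitary _ (ha i),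
    CStarRing.norm_mem_unitary_mul _ (Unitary.star_mem (ha i))]

lemma Sm2.mono (h : Sm2 M Ω r d g) (hd : d ≤ d') (hg : g ≤ g') : Sm2 M Ω r d' g' := by
  exact ⟨h.1.trans hd, h.2.1.mono hg, h.2.2.mono hg⟩

lemma Sm2.star (h : Sm2 M Ω r d g) : Sm2 M Ω (star r) d g := by
  exact ⟨(norm_star r).le.trans h.1, h.2.2, by rw [star_star]; exact h.2.1⟩

lemma Sm2.add (h : Sm2 M Ω r d g) (h' : Sm2 M Ω s d' g') : Sm2 M Ω (r + s) (d + d') (g + g') := by
  exact ⟨(norm_add_le _ _).trans (add_le_add h.1 h'.1), h.2.1.add h'.2.1,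
    by rw [star_add]; exact h.2.2.add h'.2.2⟩

lemma Sm2.neg (h : Sm2 M Ω r d g) : Sm2 M Ω (-r) d g := by
  exact ⟨(norm_neg r).le.trans h.1, h.2.1.neg, by rw [star_neg]; exact h.2.2.neg⟩

lemma Sm2.sub (h : Sm2 M Ω r d g) (h' : Sm2 M Ω s d' g') : Sm2 M Ω (r - s) (d + d') (g + g') := by
  rw [sub_eq_add_neg]
  exact h.add h'.neg

lemma Sm2.smul (h : Sm2 M Ω r d g) (c : ℂ) : Sm2 M Ω (c • r) (‖c‖ * d) (‖c‖ * g) := by
  refine ⟨?_, h.2.1.smul c, ?_⟩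
  · rw [norm_smul]
    gcongr
    exact h.1
  · rw [star_smul, ← norm_star c]
    exact h.2.2.smul _

/-- product of two small operators -/
lemma Sm2.mul (h : Sm2 M Ω r d g) (h' : Sm2 M Ω s d' g') (hg : 0 ≤ g) (hg' : 0 ≤ g') :
    Sm2 M Ω (r * s) (d * d') (d * g' + d' * g) := by
  have hd : 0 ≤ d := (norm_nonneg _).trans h.1
  have hd' : 0 ≤ d' := (norm_nonneg _).trans h'.1
  refine ⟨(norm_mul_le _ _).trans (mul_le_mul h.1 h'.1 (norm_nonneg _) hd),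
    (h'.2.1.left r).mono ?_, ?_⟩
  · have h1 := mul_le_mul_of_nonneg_right h.1 hg'
    have h2 := mul_nonneg hd' hg
    linarith
  · rw [star_mul]
    refine (h.2.2.left _).mono ?_
    rw [norm_star]
    have h1 := mul_le_mul_of_nonneg_right h'.1 hg
    have h2 := mul_nonneg hd hg'
    linarith

lemma Sm2.left (hJ : TrJ M Ω J) (h : Sm2 M Ω r d g) (hg : 0 ≤ g) {x : Op H}
    (hx : x ∈ M ∨ x ∈ M.commutant) : Sm2 M Ω (x * r) (‖x‖ * d) (‖x‖ * g) := by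
  refine ⟨(norm_mul_le _ _).trans (mul_le_mul_of_nonneg_left h.1 (norm_nonneg _)),
    h.2.1.left x, ?_⟩
  rw [star_mul, mul_comm ‖x‖, ← norm_star x]
  rcases hx with hx | hx
  · exact h.2.2.right hg (star_mem hx)
  · exact h.2.2.right' hJ hg (star_mem hx)

lemma Sm2.right (hJ : TrJ M Ω J) (h : Sm2 M Ω r d g) (hg : 0 ≤ g) {x : Op H}
    (hx : x ∈ M ∨ x ∈ M.commutant) : Sm2 M Ω (r * x) (‖x‖ * d) (‖x‖ * g) := by
  have h1 := (h.star.left hJ hg (hx.imp star_mem star_mem)).star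
  rwa [star_mul, star_star, star_star, norm_star] at h1

lemma Sm2.sum {ι : Type} [Fintype ι] {μ : ι → ℝ} (hμ : Prob μ) {f : ι → Op H}
    (h : ∀ i, Sm2 M Ω (f i) d g) : Sm2 M Ω (∑ i, (μ i : ℂ) • f i) d g := by
  refine ⟨TrJ.norm_sum_le hμ fun i => (h i).1, Sm.sum hμ fun i => (h i).2.1, ?_⟩
  rw [star_sum]
  simp only [star_smul, Complex.star_def, Complex.conj_ofReal]
  exact Sm.sum hμ fun i => (h i).2.2

lemma convex_sm2 (M : VN H) (Ω : H) (d g : ℝ) : Convex ℝ {r : Op H | Sm2 M Ω r d g} := by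
  intro r hr s hs a b ha hb hab
  have h1 := (Sm2.smul hr (a : ℂ)).add (Sm2.smul hs (b : ℂ))
  rw [Complex.norm_real, Complex.norm_real, Real.norm_of_nonneg ha, Real.norm_of_nonneg hb,
    ← add_mul, ← add_mul, hab, one_mul, one_mul] at h1
  exact h1

lemma WL.sm2 {I : Type*} {l : Filter I} [l.NeBot] {T : I → Op H} {a : Op H} (h : WL l T a)
    (hT : ∀ᶠ i in l, Sm2 M Ω (T i) d g) : Sm2 M Ω a d g := by
  refine ⟨h.norm_le (hT.mono fun i hi => hi.1), fun x hx => ?_, fun x hx => ?_⟩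
  · have := h.app_le (ξ := x Ω) (ζ := 0) (c := g * ‖x‖)
      (hT.mono fun i hi => by rw [sub_zero]; exact hi.2.1 x hx)
    rwa [sub_zero] at this
  · have := h.star.app_le (ξ := x Ω) (ζ := 0) (c := g * ‖x‖)
      (hT.mono fun i hi => by rw [sub_zero]; exact hi.2.2 x hx)
    rwa [sub_zero] at this

lemma Apx.mono {N : VN H} (h : Apx M N Ω d g) (hd : d ≤ d') (hg : g ≤ g') : Apx M N Ω d' g' := by
  refine ⟨fun p hp => ?_, fun b hb => ?_, fun a ha => ?_, fun x hx p hp => ?_⟩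
  · obtain ⟨y, hy, h1⟩ := h.toM' p hp
    exact ⟨y, hy, h1.mono (by gcongr) (by gcongr)⟩
  · obtain ⟨y, hy, h1⟩ := h.toP b hb
    exact ⟨y, hy, h1.mono hd hg⟩
  · obtain ⟨y, hy, h1⟩ := h.toN a ha
    exact ⟨y, hy, h1.mono hd hg⟩
  · exact (h.gam x hx p hp).mono (by gcongr) (by gcongr)

lemma Adm.mono {N₀ : VN H} {X Z u h G α β : Op H} {C₀ C C' δ ρ γ : ℝ}
    (ha : Adm M N₀ Ω J X Z u C₀ C δ ρ γ h G α β) (hC : C ≤ C') (hρ : 0 ≤ ρ) (hγ : 0 ≤ γ) :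
    Adm M N₀ Ω J X Z u C₀ C' δ ρ γ h G α β := by
  exact ⟨ha.small.mono (by gcongr) (by gcongr), ha.skew.mono (by gcongr) (by gcongr), ha.mod,
    ha.α_mem, ha.β_mem, ha.α_le.trans (by gcongr), ha.β_le.trans (by gcongr), ha.G_le,
    ha.drift.trans (by gcongr)⟩

end

end Crest.Agent.R78
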