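import Crest.Agent.R78.Mean
import Crest.Agent.R78.TrJ

/-! # Row 78: truncation and adjoint lemmas -/

set_option autoImplicit false

namespace Crest.Agent.R78

open scoped InnerProductSpace ComplexOrder BigOperators Topology
open Filter
open Crest.Agent.R124 (Op cm)
open Crest.OpAlg (LineCalculus)

universe u

variable {H : Type u} [NormedAddCommGroup H] [InnerProductSpace ℂ H] [CompleteSpace H]

namespace T1

omit [CompleteSpace H] in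
lemma re_self (x : H) : (⟪x, x⟫_ℂ).re = ‖x‖ ^ 2 := by
  simpa using inner_self_eq_norm_sq (𝕜 := ℂ) x

lemma re_star_mul (t : Op H) (ξ : H) : (⟪ξ, (star t * t) ξ⟫_ℂ).re = ‖t ξ‖ ^ 2 := by
  rw [mul_apply_eq_comp, R124.inner_star_right, re_self]

omit [CompleteSpace H] in
lemma WL_nonneg {I : Type*} {l : Filter I} [l.NeBot] {T : I → Op H} {a : Op H} (h : WL l T a)
    (hT : ∀ i, 0 ≤ T i) : 0 ≤ a := by
  have h1 : ∀ ξ, 0 ≤ ⟪ξ, a ξ⟫_ℂ := fun ξ =>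
    ge_of_tendsto' (h ξ ξ) fun i =>
      ((ContinuousLinearMap.nonneg_iff_isPositive _).1 (hT i)).inner_nonneg_right ξ
  rw [ContinuousLinearMap.nonneg_iff_isPositive, ContinuousLinearMap.isPositive_iff_complex]
  intro ξ
  obtain ⟨h2, h3⟩ := Complex.nonneg_iff.1 (h1 ξ)
  rw [← inner_conj_symm (a ξ) ξ]
  generalize ⟪ξ, a ξ⟫_ℂ = z at h2 h3
  refine ⟨Complex.ext (by simp) ?_, by simpa using h2⟩
  simp [← h3]

lemma sqrt_mem {Q : VN H} {f : Op H} (hf : f ∈ Q) : CFC.sqrt f ∈ Q :=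
  mem_of_commute fun _ hy => (commute_of_mem hf hy).cfcₙ_nnreal _

lemma norm_le_one {f : Op H} (h0 : 0 ≤ f) (h1 : f ≤ 1) : ‖f‖ ≤ 1 :=
  (CStarAlgebra.norm_le_one_iff_of_nonneg f h0).2 h1

lemma norm_sqrt_le {f : Op H} (h0 : 0 ≤ f) (h1 : f ≤ 1) : ‖CFC.sqrt f‖ ≤ 1 := by
  have hs : star (CFC.sqrt f) = CFC.sqrt f := (CFC.sqrt_nonneg f).isSelfAdjoint
  have h := norm_le_one h0 h1
  rw [← CFC.sqrt_mul_sqrt_self f h0] at h
  nth_rewrite 1 [← hs] at h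
  rw [CStarRing.norm_star_mul_self] at h
  nlinarith [norm_nonneg (CFC.sqrt f)]

/-- a weakly continuous functional attains its maximum on the positive part of the unit ball -/
lemma exists_max (Q : VN H) (Ω a : H) (c : ℝ) :
    ∃ f ∈ Q, 0 ≤ f ∧ f ≤ 1 ∧ ∀ f' ∈ Q, 0 ≤ f' → f' ≤ 1 →
      (⟪a, f' a⟫_ℂ).re - c * (⟪Ω, f' Ω⟫_ℂ).re ≤ (⟪a, f a⟫_ℂ).re - c * (⟪Ω, f Ω⟫_ℂ).re := by
  set ψ : Op H → ℝ := fun f => (⟪a, f a⟫_ℂ).re - c * (⟪Ω, f Ω⟫_ℂ).re with hψ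
  set S : Set (Op H) := {f | f ∈ Q ∧ 0 ≤ f ∧ f ≤ 1} with hS
  have hne : (ψ '' S).Nonempty := ⟨_, 0, ⟨zero_mem _, le_rfl, zero_le_one⟩, rfl⟩
  have hb : ∀ (ξ : H), ∀ f ∈ S, |(⟪ξ, f ξ⟫_ℂ).re| ≤ ‖ξ‖ * ‖ξ‖ := fun ξ f hf =>
    (Complex.abs_re_le_norm _).trans ((norm_inner_le_norm _ _).trans (by
      gcongr
      exact (f.le_opNorm ξ).trans (by
        simpa using mul_le_mul_of_nonneg_right (norm_le_one hf.2.1 hf.2.2) (norm_nonneg ξ))))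
  have hbd : BddAbove (ψ '' S) := by
    refine ⟨‖a‖ * ‖a‖ + |c| * (‖Ω‖ * ‖Ω‖), ?_⟩
    rintro _ ⟨f, hf, rfl⟩
    have h1 := (le_abs_self _).trans (hb a f hf)
    have h2 : |c * (⟪Ω, f Ω⟫_ℂ).re| ≤ |c| * (‖Ω‖ * ‖Ω‖) := by
      rw [abs_mul]; gcongr; exact hb Ω f hf
    have h3 := neg_abs_le (c * (⟪Ω, f Ω⟫_ℂ).re)
    simp only [hψ]
    linarith
  obtain ⟨u, -, hu, hmem⟩ := exists_seq_tendsto_sSup hne hbd
  choose T hT hTu using hmem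
  obtain ⟨f, -, hf⟩ := exists_wl (hyperfilter ℕ) T zero_le_one
    (Eventually.of_forall fun i => norm_le_one (hT i).2.1 (hT i).2.2)
  refine ⟨f, hf.mem (Eventually.of_forall fun i => (hT i).1), WL_nonneg hf fun i => (hT i).2.1,
    sub_nonneg.1 (WL_nonneg ((WL.const _ 1).sub hf) fun i => sub_nonneg.2 (hT i).2.2),
    fun f' h1 h2 h3 => ?_⟩
  have t1 : Tendsto (fun i => ψ (T i)) (hyperfilter ℕ) (𝓝 (ψ f)) :=
    ((Complex.continuous_re.tendsto _).comp (hf a a)).sub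
      (((Complex.continuous_re.tendsto _).comp (hf Ω Ω)).const_mul c)
  have t2 : Tendsto (fun i => ψ (T i)) (hyperfilter ℕ) (𝓝 (sSup (ψ '' S))) := by
    simp only [hTu]
    exact hu.mono_left (Nat.hyperfilter_le_atTop)
  change ψ f' ≤ ψ f
  rw [tendsto_nhds_unique t1 t2]
  exact le_csSup hbd ⟨f', ⟨h1, h2, h3⟩, rfl⟩

/-- Douglas' lemma inside the commutant -/
lemma douglas_comm (Q : VN H) (ξ η : H) {c : ℝ} (hc : 0 ≤ c)
    (h : ∀ y ∈ Q, ‖y η‖ ≤ c * ‖y ξ‖) :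
    ∃ d ∈ Q.commutant, ‖d‖ ≤ c ∧ ∀ y ∈ Q, d (y ξ) = y η := by
  let V : Submodule ℂ (Op H) := Q.toStarSubalgebra.toSubalgebra.toSubmodule
  let T : H → (V →ₗ[ℂ] H) := fun ζ =>
    (ContinuousLinearMap.apply ℂ H ζ).toLinearMap ∘ₗ V.subtype
  obtain ⟨d, hd, h1, h2⟩ := R124.douglas (T ξ) (T η) hc fun v => h v v.2
  have h1' : ∀ y ∈ Q, d (y ξ) = y η := fun y hy => h1 ⟨y, hy⟩
  refine ⟨d, mem_commutant_of fun x hx => ?_, hd, h1'⟩
  refine R124.VN.ext_of_orth (LinearMap.range (T ξ)) ?_ fun ζ hζ => ?_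
  · rintro _ ⟨v, rfl⟩
    change x (d (v.1 ξ)) = d (x (v.1 ξ))
    rw [h1' _ v.2]
    exact (h1' _ (mul_mem hx (show v.1 ∈ Q from v.2))).symm
  · have a1 : ∀ v : V, ⟪T ξ v, ζ⟫_ℂ = 0 := fun v =>
      Submodule.inner_right_of_mem_orthogonal (LinearMap.mem_range_self _ v) hζ
    have a2 : ∀ v : V, ⟪T ξ v, x ζ⟫_ℂ = 0 := fun v => by
      rw [← R124.inner_star_left]
      exact a1 ⟨star x * v.1, show _ ∈ Q from mul_mem (star_mem hx) (show v.1 ∈ Q from v.2)⟩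
    rw [mul_apply_eq_comp, mul_apply_eq_comp, h2 _ a1, h2 _ a2, map_zero]

lemma inner_cm_le' (Q : VN H) (Ω : H) {r : Op H} {g : ℝ} (hg : 0 ≤ g)
    (h1 : ∀ y ∈ Q, ‖cm r y Ω‖ ≤ g * ‖y‖) (h2 : ∀ y ∈ Q, ‖star (cm r y) Ω‖ ≤ g * ‖y‖)
    {y : Op H} (hy : y ∈ Q) (hs : IsSelfAdjoint y) (hn : ‖y‖ ≤ 1) :
    ‖⟪Ω, cm r y Ω⟫_ℂ‖ ≤ 2 * g * ‖y Ω‖ := by
  let v : unitary (Op H) := selfAdjoint.unitarySelfAddISMul ⟨y, hs⟩ hn
  have hv : (v : Op H) = y + Complex.I • CFC.sqrt (1 - y ^ 2) := rfl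
  have hv' : star (v : Op H) = y - Complex.I • CFC.sqrt (1 - y ^ 2) :=
    selfAdjoint.star_coe_unitarySelfAddISMul ⟨y, hs⟩ hn
  have hvQ : (v : Op H) ∈ Q := by
    rw [hv]
    exact add_mem hy (smul_mem_vn _ (sqrt_mem (sub_mem (one_mem _) (pow_mem hy 2))))
  let G : Subgroup (unitary (Op H)) :=
    { carrier := {u | (u : Op H) ∈ Q}
      mul_mem' := fun {u w} ha hb => (mul_mem (show (u : Op H) ∈ Q from ha)
        (show (w : Op H) ∈ Q from hb) : (u : Op H) * w ∈ Q)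
      one_mem' := one_mem Q
      inv_mem' := fun {u} ha => (star_mem (show (u : Op H) ∈ Q from ha) : star (u : Op H) ∈ Q) }
  let D : ℤ → Op H := fun n => ((v ^ n : unitary (Op H)) : Op H)
  have hD : URep D := ⟨fun n => (v ^ n).2, fun m n => by simp only [D, zpow_add]; rfl⟩
  have hDQ : ∀ n, D n ∈ Q := fun n => G.zpow_mem (show v ∈ G from hvQ) n
  have hDn : ∀ n, g * ‖D n‖ ≤ g := fun n => by
    simpa using mul_le_mul_of_nonneg_left (R124.norm_unitary_le (hD.unit n)) hg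
  have key : ∀ (n : ℤ) (t : Op H), ‖(D n * t * star (D n)) Ω - t Ω‖ = ‖cm t (star (D n)) Ω‖ :=
    fun n t => by
      have e : D n * t * star (D n) - t = D n * cm t (star (D n)) := by
        rw [cm, mul_sub, ← mul_assoc, ← mul_assoc, (Unitary.mem_iff.1 (hD.unit n)).2, one_mul]
      rw [← sub_apply, e, mul_apply_eq_comp, R124.norm_unitary_apply (hD.unit n)]
  obtain ⟨r', hc, hr⟩ := exists_avg hD r
  have b1 : ‖r' Ω - r Ω‖ ≤ g := hr _ (convex_app Ω (r Ω) g) (wclosed_app Ω (r Ω) g) fun n => by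
    change ‖_‖ ≤ g
    rw [key]
    exact (h1 _ (star_mem (hDQ n))).trans (by rw [norm_star]; exact hDn n)
  have b2 : ‖star r' Ω - star r Ω‖ ≤ g :=
    hr _ (convex_star_app Ω (star r Ω) g) (wclosed_star_app Ω (star r Ω) g) fun n => by
      change ‖_‖ ≤ g
      rw [star_mul, star_mul, star_star, ← mul_assoc, key]
      have := h2 _ (hDQ n)
      rw [R124.star_cm, neg_apply, norm_neg] at this
      exact this.trans (hDn n)
  have c1 : Commute r' (v : Op H) := by simpa [D] using hc 1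
  have c2 : Commute r' (star (v : Op H)) := by
    have := hc (-1)
    simp only [D, zpow_neg, zpow_one] at this
    exact this
  have c3 : Commute r' y := by
    have e : y = (1 / 2 : ℂ) • ((v : Op H) + star (v : Op H)) := by
      rw [hv', hv]; module
    rw [e]
    exact (c1.add_right c2).smul_right _
  have e : ⟪Ω, cm r y Ω⟫_ℂ =
      ⟪y Ω, r' Ω - r Ω⟫_ℂ - ⟪star r' Ω - star r Ω, y Ω⟫_ℂ := by
    have := congrArg (fun T : Op H => ⟪Ω, T Ω⟫_ℂ) c3.eq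
    simp only [mul_apply_eq_comp] at this
    simp only [cm, sub_apply, mul_apply_eq_comp, inner_sub_left, inner_sub_right,
      R124.inner_star_left, hs.isSymmetric.apply_clm, this, map_sub]
    ring
  rw [e]
  refine (norm_sub_le _ _).trans ?_
  have d1 : ‖⟪y Ω, r' Ω - r Ω⟫_ℂ‖ ≤ ‖y Ω‖ * g := (norm_inner_le_norm _ _).trans (by gcongr)
  have d2 : ‖⟪star r' Ω - star r Ω, y Ω⟫_ℂ‖ ≤ g * ‖y Ω‖ :=
    (norm_inner_le_norm _ _).trans (by gcongr)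
  linarith

end T1

/-- Let `f ∈ Q`, `0 ≤ f ≤ 1` maximise `ψ f = Re ⟪a, f a⟫ - 4 l² Re ⟪Ω, f Ω⟫` (weak ultralimit of a
maximising sequence), `s = √f`, `s' = √(1 - f)`.  `ψ f ≥ ψ 0 = 0` gives `2 l ‖s Ω‖ ≤ ‖s a‖ ≤ 2γ`.
`f + ε s' y⋆ y s'` is admissible, so `‖y s' a‖ ≤ 2 l ‖y s' Ω‖`; `R124.douglas` gives `d ∈ Q'`,
`d y s' Ω = y s' a`; `a - d Ω = f a - d f Ω`. -/
theorem trunc (Q : VN H) (Ω a : H) {l γ : ℝ} (hl : 0 ≤ l) (hγ : 0 ≤ γ)
    (h : ∀ y ∈ Q, ‖y a‖ ≤ l * ‖y Ω‖ + γ * ‖y‖) :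
    ∃ d ∈ Q.commutant, ‖d‖ ≤ 2 * l ∧ ‖a - d Ω‖ ≤ 4 * γ := by
  obtain ⟨f, hfQ, hf0, hf1, hmax⟩ := T1.exists_max Q Ω a (4 * l ^ 2)
  have hf1' : 0 ≤ 1 - f := sub_nonneg.2 hf1
  obtain ⟨s, hsQ, hs, hss, hsn⟩ : ∃ s ∈ Q, star s = s ∧ s * s = f ∧ ‖s‖ ≤ 1 :=
    ⟨_, T1.sqrt_mem hfQ, (CFC.sqrt_nonneg f).isSelfAdjoint, CFC.sqrt_mul_sqrt_self f hf0,
      T1.norm_sqrt_le hf0 hf1⟩
  obtain ⟨t, htQ, ht, htt⟩ : ∃ t ∈ Q, star t = t ∧ t * t = 1 - f :=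
    ⟨_, T1.sqrt_mem (sub_mem (one_mem _) hfQ), (CFC.sqrt_nonneg _).isSelfAdjoint,
      CFC.sqrt_mul_sqrt_self _ hf1'⟩
  have hre : ∀ ξ, (⟪ξ, f ξ⟫_ℂ).re = ‖s ξ‖ ^ 2 := fun ξ => by
    rw [← T1.re_star_mul, hs, hss]
  have a1 : 2 * l * ‖s Ω‖ ≤ ‖s a‖ := by
    have := hmax 0 (zero_mem _) le_rfl zero_le_one
    simp only [zero_apply, inner_zero_right, Complex.zero_re, mul_zero, sub_zero, hre] at this
    refine (pow_le_pow_iff_left₀ (by positivity) (norm_nonneg _) two_ne_zero).1 ?_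
    nlinarith
  have a2 : ‖s a‖ ≤ l * ‖s Ω‖ + γ := (h s hsQ).trans (by nlinarith)
  have a3 : ∀ y ∈ Q, ‖y (t a)‖ ≤ 2 * l * ‖y (t Ω)‖ := fun y hy => by
    set ε : ℝ := (‖y‖ ^ 2 + 1)⁻¹ with hε
    have hε0 : 0 < ε := by positivity
    have b0 : 0 ≤ star (y * t) * (y * t) := star_mul_self_nonneg _
    have b1 : star y * y ≤ algebraMap ℝ (Op H) (‖y‖ ^ 2) := CStarAlgebra.star_mul_le_algebraMap_norm_sq
    have b2 : star (y * t) * (y * t) ≤ (‖y‖ ^ 2) • (1 - f) := by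
      have := star_left_conjugate_le_conjugate b1 t
      rw [Algebra.algebraMap_eq_smul_one, mul_smul_comm, mul_one, smul_mul_assoc, ht, htt] at this
      rwa [star_mul, ht, mul_assoc, ← mul_assoc (star y), ← mul_assoc]
    have b3 : ε • (star (y * t) * (y * t)) ≤ 1 - f := by
      refine (smul_le_smul_of_nonneg_left b2 hε0.le).trans ?_
      rw [smul_smul]
      nth_rewrite 2 [← one_smul ℝ (1 - f)]
      refine smul_le_smul_of_nonneg_right ?_ hf1'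
      rw [hε, inv_mul_le_iff₀ (by positivity)]
      linarith
    have hQ : star (y * t) * (y * t) ∈ Q := mul_mem (star_mem (mul_mem hy htQ)) (mul_mem hy htQ)
    have := hmax (f + ε • (star (y * t) * (y * t)))
      (add_mem hfQ (by rw [← Complex.coe_smul]; exact smul_mem_vn _ hQ))
      (add_nonneg hf0 (smul_nonneg hε0.le b0)) (le_sub_iff_add_le'.1 b3)
    simp only [add_apply, smul_apply, inner_add_right, Complex.add_re, ← Complex.coe_smul,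
      inner_smul_right, Complex.re_ofReal_mul, T1.re_star_mul] at this
    simp only [mul_apply_eq_comp] at this
    refine (pow_le_pow_iff_left₀ (norm_nonneg _) (by positivity) two_ne_zero).1 ?_
    refine le_of_mul_le_mul_left ?_ hε0
    nlinarith
  obtain ⟨d, hdQ, hd, hdy⟩ := T1.douglas_comm Q (t Ω) (t a) (by positivity) a3
  refine ⟨d, hdQ, hd, ?_⟩
  have e1 := hdy t htQ
  rw [← mul_apply_eq_comp t t, ← mul_apply_eq_comp t t, htt, sub_apply, sub_apply,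
    one_apply_eq_self, one_apply_eq_self, map_sub, ← hss, mul_apply_eq_comp,
    mul_apply_eq_comp] at e1
  have e2 : a - d Ω = s (s a) - d (s (s Ω)) := by
    rw [sub_eq_sub_iff_sub_eq_sub, e1]
  have c1 : ∀ ξ, ‖s (s ξ)‖ ≤ ‖s ξ‖ := fun ξ =>
    (s.le_opNorm _).trans (by simpa using mul_le_mul_of_nonneg_right hsn (norm_nonneg (s ξ)))
  have c2 : ‖d (s (s Ω))‖ ≤ 2 * l * ‖s Ω‖ :=
    (d.le_opNorm _).trans (mul_le_mul hd (c1 Ω) (norm_nonneg _) (by positivity))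
  rw [e2]
  refine (norm_sub_le _ _).trans ?_
  have := c1 a
  linarith

/-- For `y = y⋆ ∈ Q`, `‖y‖ ≤ 1`, average `r` over the powers of `v = y + i √(1 - y²)`
(`exists_avg`, `G = ℤ`): `r̄` commutes with `y`, `‖(r - r̄) Ω‖, ‖(r - r̄)⋆ Ω‖ ≤ g`. -/
theorem inner_cm_le (Q : VN H) (Ω : H) {r : Op H} {g : ℝ} (hg : 0 ≤ g)
    (h1 : ∀ y ∈ Q, ‖cm r y Ω‖ ≤ g * ‖y‖) (h2 : ∀ y ∈ Q, ‖star (cm r y) Ω‖ ≤ g * ‖y‖)
    {y : Op H} (hy : y ∈ Q) (hs : IsSelfAdjoint y) : ‖⟪Ω, cm r y Ω⟫_ℂ‖ ≤ 2 * g * ‖y Ω‖ := by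
  set c : ℝ := (‖y‖ + 1)⁻¹ with hc
  have hc0 : 0 < c := by positivity
  have hn : ‖(c : ℂ) • y‖ ≤ 1 := by
    rw [norm_smul, Complex.norm_real, Real.norm_of_nonneg hc0.le, hc,
      inv_mul_le_iff₀ (by positivity)]
    linarith
  have hs' : IsSelfAdjoint ((c : ℂ) • y) := by
    rw [IsSelfAdjoint, star_smul, hs.star_eq, Complex.star_def, Complex.conj_ofReal]
  have := T1.inner_cm_le' Q Ω hg h1 h2 (smul_mem_vn (c : ℂ) hy) hs' hn
  rw [R124.cm_smul, smul_apply, smul_apply, inner_smul_right, norm_mul, norm_smul,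
    Complex.norm_real, Real.norm_of_nonneg hc0.le] at this
  refine le_of_mul_le_mul_left ?_ hc0
  linarith

/-- `⟪r⋆ Ω, y Ω⟫ = ⟪Ω, [r, y] Ω⟫ + ⟪y⋆ Ω, r Ω⟫` and density of `Q Ω` -/
theorem adj {Q : VN H} {Ω : H} (hQ : Tr Q Ω) {r : Op H} {g : ℝ} (hg : 0 ≤ g)
    (h1 : ∀ y ∈ Q, ‖cm r y Ω‖ ≤ g * ‖y‖) (h2 : ∀ y ∈ Q, ‖star (cm r y) Ω‖ ≤ g * ‖y‖) :
    ‖star r Ω‖ ≤ ‖r Ω‖ + 4 * g := by
  have key : ∀ x ∈ Q, ‖⟪star r Ω, x Ω⟫_ℂ‖ ≤ (‖r Ω‖ + 4 * g) * ‖x Ω‖ := fun x hx => by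
    have hx' := hQ.2 x hx
    have s1 : IsSelfAdjoint (x + star x) := IsSelfAdjoint.add_star_self x
    have s2 : IsSelfAdjoint (Complex.I • (star x - x)) := by
      rw [IsSelfAdjoint, star_smul, star_sub, star_star, Complex.star_def, Complex.conj_I,
        neg_smul, ← smul_neg, neg_sub]
    have a1 := inner_cm_le Q Ω hg h1 h2 (add_mem hx (star_mem hx)) s1
    have a2 := inner_cm_le Q Ω hg h1 h2 (smul_mem_vn _ (sub_mem (star_mem hx) hx)) s2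
    rw [R124.cm_smul, smul_apply, smul_apply, inner_smul_right, norm_mul, norm_smul,
      Complex.norm_I, one_mul, one_mul] at a2
    have b1 : ‖(x + star x) Ω‖ ≤ 2 * ‖x Ω‖ := by
      rw [add_apply]; exact (norm_add_le _ _).trans (by linarith)
    have b2 : ‖(star x - x) Ω‖ ≤ 2 * ‖x Ω‖ := by
      rw [sub_apply]; exact (norm_sub_le _ _).trans (by linarith)
    have e : (2 : ℂ) * ⟪star r Ω, x Ω⟫_ℂ = ⟪Ω, cm r (x + star x) Ω⟫_ℂ -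
        ⟪Ω, cm r (star x - x) Ω⟫_ℂ + 2 * ⟪star x Ω, r Ω⟫_ℂ := by
      simp only [cm, sub_apply, add_apply, mul_apply_eq_comp, map_add, map_sub, inner_add_right,
        inner_sub_right, R124.inner_star_left]
      ring
    have e' := congrArg norm e
    rw [norm_mul, Complex.norm_two] at e'
    have c1 : ‖(2 : ℂ) * ⟪star x Ω, r Ω⟫_ℂ‖ ≤ 2 * (‖x Ω‖ * ‖r Ω‖) := by
      rw [norm_mul, Complex.norm_two, ← hx']
      gcongr
      exact norm_inner_le_norm _ _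
    have c2 := norm_add_le (⟪Ω, cm r (x + star x) Ω⟫_ℂ - ⟪Ω, cm r (star x - x) Ω⟫_ℂ)
      (2 * ⟪star x Ω, r Ω⟫_ℂ)
    have c3 := norm_sub_le ⟪Ω, cm r (x + star x) Ω⟫_ℂ ⟪Ω, cm r (star x - x) Ω⟫_ℂ
    have d1 := mul_le_mul_of_nonneg_left b1 hg
    have d2 := mul_le_mul_of_nonneg_left b2 hg
    linarith
  have key' : ∀ ξ, ‖⟪star r Ω, ξ⟫_ℂ‖ ≤ (‖r Ω‖ + 4 * g) * ‖ξ‖ := fun ξ =>
    hQ.1.induction (P := fun ξ => ‖⟪star r Ω, ξ⟫_ℂ‖ ≤ (‖r Ω‖ + 4 * g) * ‖ξ‖)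
      (by rintro _ ⟨x, hx, rfl⟩; exact key x hx) (isClosed_le (by fun_prop) (by fun_prop)) ξ
  have h3 := key' (star r Ω)
  rw [inner_self_eq_norm_sq_to_K] at h3
  simp only [norm_pow, RCLike.norm_ofReal, abs_norm] at h3
  rcases (norm_nonneg (star r Ω)).eq_or_lt with h0 | h0
  · rw [← h0]; positivity
  · nlinarith

end Crest.Agent.R78
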