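import Crest.Agent.R78.Basic

/-! # Row 78: thermal pairs: API -/

set_option autoImplicit false
set_option linter.unusedSectionVars false

namespace Crest.Agent.R78

open scoped InnerProductSpace ComplexOrder BigOperators Topology
open Filter
open Crest.Agent.R124 (Op cm)
open Crest.OpAlg (LineCalculus)

universe u

variable {H : Type u} [NormedAddCommGroup H] [InnerProductSpace ℂ H] [CompleteSpace H]

section chan
variable {D : Type} [Fintype D] [DecidableEq D] {lam : D → ℝ} {A : Matrix D D (Op H)}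

lemma chan_add (g g' : Op H) : chan lam A (g + g') = chan lam A g + chan lam A g' := by
  simp only [chan, mul_add, add_mul, smul_add, Finset.sum_add_distrib]

lemma chan_sub (g g' : Op H) : chan lam A (g - g') = chan lam A g - chan lam A g' := by
  simp only [chan, mul_sub, sub_mul, smul_sub, Finset.sum_sub_distrib]

lemma chan_smul (c : ℂ) (g : Op H) : chan lam A (c • g) = c • chan lam A g := by
  simp only [chan, Finset.smul_sum, mul_smul_comm, smul_mul_assoc, smul_comm c]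

lemma chan_sum {α : Type*} (s : Finset α) (g : α → Op H) :
    chan lam A (∑ i ∈ s, g i) = ∑ i ∈ s, chan lam A (g i) := by
  classical
  induction s using Finset.induction_on with
  | empty => simp [chan]
  | insert a s ha ih => rw [Finset.sum_insert ha, Finset.sum_insert ha, chan_add, ih]

lemma chan_star (g : Op H) : chan lam A (star g) = star (chan lam A g) := by
  simp only [chan, star_sum, star_smul, star_mul, star_star, mul_assoc, Complex.star_def,
    Complex.conj_ofReal]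

lemma chan_mul_right {y : Op H} (hy : ∀ i j, Commute y (A i j)) (g : Op H) :
    chan lam A (g * y) = chan lam A g * y := by
  simp only [chan, Finset.sum_mul, smul_mul_assoc, mul_assoc, (hy _ _).eq]

lemma chan_mul_left {y : Op H} (hy : ∀ i j, Commute y (star (A i j))) (g : Op H) :
    chan lam A (y * g) = y * chan lam A g := by
  simp only [chan, Finset.mul_sum, mul_smul_comm, ← mul_assoc, (hy _ _).eq]

lemma inner_chan (g : Op H) (ζ η : H) :
    ⟪η, chan lam A g ζ⟫_ℂ = ∑ i, ∑ j, (lam j : ℂ) * ⟪A i j η, g (A i j ζ)⟫_ℂ := by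
  simp only [chan, sum_apply, inner_sum, smul_apply, inner_smul_right, mul_apply_eq_comp,
    R124.inner_star_right]

lemma WL.chan {I : Type*} {l : Filter I} {T : I → Op H} {a : Op H} (h : WL l T a) :
    WL l (fun i => chan lam A (T i)) (chan lam A a) := by
  intro ξ η
  simp only [inner_chan]
  exact tendsto_finsetSum _ fun i _ => tendsto_finsetSum _ fun j _ => (h _ _).const_mul _

lemma chan_mono (h0 : ∀ i, 0 ≤ lam i) {a b : Op H}
    (h : ∀ ζ, (⟪ζ, a ζ⟫_ℂ).re ≤ (⟪ζ, b ζ⟫_ℂ).re) (ζ : H) :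
    (⟪ζ, chan lam A a ζ⟫_ℂ).re ≤ (⟪ζ, chan lam A b ζ⟫_ℂ).re := by
  simp only [inner_chan, Complex.re_sum, Complex.re_ofReal_mul]
  exact Finset.sum_le_sum fun i _ => Finset.sum_le_sum fun j _ =>
    mul_le_mul_of_nonneg_left (h _) (h0 j)

namespace TPA

lemma re_inner_self (ξ : H) : (⟪ξ, ξ⟫_ℂ).re = ‖ξ‖ ^ 2 := by
  rw [inner_self_eq_norm_sq_to_K]; norm_cast

lemma col_op (hA : A ∈ unitary (Matrix D D (Op H))) (j : D) :
    ∑ i, star (A i j) * A i j = 1 := by
  have h0 : star A * A = 1 := Unitary.star_mul_self_of_mem hA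
  have h : (star A * A) j j = (1 : Matrix D D (Op H)) j j := by rw [h0]
  simpa [Matrix.mul_apply, Matrix.star_apply] using h

lemma col_one (hA : A ∈ unitary (Matrix D D (Op H))) (j : D) (ζ : H) :
    ∑ i, ‖A i j ζ‖ ^ 2 = ‖ζ‖ ^ 2 := by
  have h := congrArg (fun T : Op H => (⟪ζ, T ζ⟫_ℂ).re) (col_op hA j)
  simp only [sum_apply, inner_sum, Complex.re_sum, mul_apply_eq_comp, R124.inner_star_right,
    re_inner_self] at h
  rw [h]
  exact re_inner_self ζ

end TPA

lemma col_sum (h1 : ∑ i, lam i = 1) (hA : A ∈ unitary (Matrix D D (Op H))) (ζ : H) :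
    ∑ i, ∑ j, lam j * ‖A i j ζ‖ ^ 2 = ‖ζ‖ ^ 2 := by
  rw [Finset.sum_comm]
  simp only [← Finset.mul_sum, TPA.col_one hA]
  rw [← Finset.sum_mul, h1, one_mul]

lemma row_sum (h1 : ∑ i, lam i = 1) (hA : A ∈ unitary (Matrix D D (Op H))) (ζ : H) :
    ∑ i, ∑ j, lam i * ‖star (A i j) ζ‖ ^ 2 = ‖ζ‖ ^ 2 := by
  simp only [← Finset.mul_sum]
  have h : ∀ i, ∑ j, ‖star (A i j) ζ‖ ^ 2 = ‖ζ‖ ^ 2 := fun i =>
    TPA.col_one (Unitary.star_mem hA) i ζ
  simp only [h]
  rw [← Finset.sum_mul, h1, one_mul]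

lemma chan_one (h1 : ∑ i, lam i = 1) (hA : A ∈ unitary (Matrix D D (Op H))) :
    chan lam A 1 = 1 := by
  rw [chan, Finset.sum_comm]
  simp only [mul_one, ← Finset.smul_sum, TPA.col_op hA]
  rw [← Finset.sum_smul, ← Complex.ofReal_sum, h1, Complex.ofReal_one, one_smul]

lemma TPA.norm_inner_chan_le (h0 : ∀ i, 0 ≤ lam i) (h1 : ∑ i, lam i = 1)
    (hA : A ∈ unitary (Matrix D D (Op H))) (g : Op H) (ζ η : H) :
    ‖⟪η, chan lam A g ζ⟫_ℂ‖ ≤ ‖η‖ * √(∑ i, ∑ j, lam j * ‖g (A i j ζ)‖ ^ 2) := by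
  have e1 : ⟪η, chan lam A g ζ⟫_ℂ = ∑ p : D × D,
      ⟪((√(lam p.2) : ℝ) : ℂ) • A p.1 p.2 η, ((√(lam p.2) : ℝ) : ℂ) • g (A p.1 p.2 ζ)⟫_ℂ := by
    rw [Fintype.sum_prod_type, inner_chan]
    simp only [inner_smul_right, inner_smul_left, Complex.conj_ofReal]
    refine Finset.sum_congr rfl fun i _ => Finset.sum_congr rfl fun j _ => ?_
    rw [← mul_assoc, ← Complex.ofReal_mul, Real.mul_self_sqrt (h0 j)]
  have hn : ∀ (j : D) (v : H), ‖((√(lam j) : ℝ) : ℂ) • v‖ ^ 2 = lam j * ‖v‖ ^ 2 :=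
    fun j v => by
      rw [norm_smul, Complex.norm_real, Real.norm_of_nonneg (Real.sqrt_nonneg _), mul_pow,
        Real.sq_sqrt (h0 j)]
  rw [e1]
  refine (R124.norm_sum_inner_le _ _ _).trans (le_of_eq ?_)
  simp only [hn, Fintype.sum_prod_type]
  rw [col_sum h1 hA, Real.sqrt_sq (norm_nonneg _)]

lemma norm_chan_le (h0 : ∀ i, 0 ≤ lam i) (h1 : ∑ i, lam i = 1)
    (hA : A ∈ unitary (Matrix D D (Op H))) (g : Op H) : ‖chan lam A g‖ ≤ ‖g‖ := by
  refine R124.norm_le_of_inner _ (norm_nonneg g) fun ζ η => ?_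
  refine (TPA.norm_inner_chan_le h0 h1 hA g ζ η).trans ?_
  have h2 : ∑ i, ∑ j, lam j * ‖g (A i j ζ)‖ ^ 2 ≤ (‖g‖ * ‖ζ‖) ^ 2 := by
    rw [mul_pow, ← col_sum h1 hA ζ, Finset.mul_sum]
    refine Finset.sum_le_sum fun i _ => ?_
    rw [Finset.mul_sum]
    refine Finset.sum_le_sum fun j _ => ?_
    rw [mul_left_comm, ← mul_pow]
    have := h0 j
    gcongr
    exact g.le_opNorm _
  have h3 := Real.sqrt_le_sqrt h2
  rw [Real.sqrt_sq (by positivity)] at h3
  calc _ ≤ ‖η‖ * (‖g‖ * ‖ζ‖) := by gcongr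
    _ = _ := by ring

/-- Kadison–Schwarz -/
lemma chan_schwarz (h0 : ∀ i, 0 ≤ lam i) (h1 : ∑ i, lam i = 1)
    (hA : A ∈ unitary (Matrix D D (Op H))) (y : Op H) (ζ : H) :
    ‖chan lam A y ζ‖ ^ 2 ≤ (⟪ζ, chan lam A (star y * y) ζ⟫_ℂ).re := by
  have h2 := TPA.norm_inner_chan_le h0 h1 hA y ζ (chan lam A y ζ)
  have h3 : (⟪ζ, chan lam A (star y * y) ζ⟫_ℂ).re = ∑ i, ∑ j, lam j * ‖y (A i j ζ)‖ ^ 2 := by
    simp only [inner_chan, Complex.re_sum, Complex.re_ofReal_mul, mul_apply_eq_comp,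
      R124.inner_star_right, TPA.re_inner_self]
  rw [h3]
  have h4 : 0 ≤ ∑ i, ∑ j, lam j * ‖y (A i j ζ)‖ ^ 2 :=
    Finset.sum_nonneg fun i _ => Finset.sum_nonneg fun j _ => mul_nonneg (h0 j) (sq_nonneg _)
  rw [inner_self_eq_norm_sq_to_K, norm_pow, RCLike.norm_ofReal, abs_norm] at h2
  rw [← Real.sq_sqrt h4]
  rcases (norm_nonneg (chan lam A y ζ)).eq_or_lt with h5 | h5
  · rw [← h5]; simp
  · refine pow_le_pow_left₀ h5.le ?_ 2
    rw [sq] at h2
    exact le_of_mul_le_mul_left h2 h5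

/-- the energy identity -/
lemma chan_energy (h1 : ∑ i, lam i = 1) (hA : A ∈ unitary (Matrix D D (Op H))) (G : Op H) :
    ∑ i, ∑ j, (lam j : ℂ) • (star (cm G (A i j)) * cm G (A i j)) =
      chan lam A (star G * G) - star G * G - star (chan lam A G - G) * G -
        star G * (chan lam A G - G) := by
  have h2 := chan_one h1 hA
  have e : ∑ i, ∑ j, (lam j : ℂ) • (star (cm G (A i j)) * cm G (A i j)) =
      chan lam A (star G * G) - chan lam A (star G) * G - star G * chan lam A G +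
        star G * chan lam A 1 * G := by
    simp only [chan, Finset.sum_mul, Finset.mul_sum, ← Finset.sum_sub_distrib,
      ← Finset.sum_add_distrib, smul_mul_assoc, mul_smul_comm, ← smul_sub, ← smul_add]
    refine Finset.sum_congr rfl fun i _ => Finset.sum_congr rfl fun j _ => ?_
    congr 1
    simp only [cm, star_sub, star_mul]
    noncomm_ring
  rw [e, h2, chan_star, star_sub]
  noncomm_ring

lemma Read.mono (h0 : ∀ i, 0 ≤ lam i) {x : Op H} {K K' : ℝ} (h : Read lam A x K) (hK : K ≤ K') :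
    Read lam A x K' := by
  intro g ζ
  refine (h g ζ).trans (mul_le_mul_of_nonneg_right hK ?_)
  exact Finset.sum_nonneg fun i _ => Finset.sum_nonneg fun j _ => mul_nonneg (h0 j) (sq_nonneg _)

end chan

lemma ces_harm {Φ : Op H → Op H} (hadd : ∀ g g', Φ (g + g') = Φ g + Φ g')
    (hsmul : ∀ (c : ℂ) g, Φ (c • g) = c • Φ g) (hn : ∀ g, ‖Φ g‖ ≤ ‖g‖) {n : ℕ} (h : 1 ≤ n)
    (g : Op H) : ‖Φ (ces Φ n g) - ces Φ n g‖ ≤ 2 * ‖g‖ / n := by
  have h0 : Φ 0 = 0 := by simpa using hsmul 0 0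
  have hsum : ∀ m : ℕ, Φ (∑ k ∈ Finset.range m, Φ^[k] g) =
      ∑ k ∈ Finset.range m, Φ^[k + 1] g := fun m => by
    induction m with
    | zero => simpa using h0
    | succ m ih => rw [Finset.sum_range_succ, Finset.sum_range_succ, hadd, ih,
        Function.iterate_succ_apply']
  have hit : ∀ k : ℕ, ‖Φ^[k] g‖ ≤ ‖g‖ := fun k => by
    induction k with
    | zero => simp
    | succ k ih => rw [Function.iterate_succ_apply']; exact (hn _).trans ih
  have e : Φ (ces Φ n g) - ces Φ n g = (n : ℂ)⁻¹ • (Φ^[n] g - Φ^[0] g) := by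
    rw [ces, hsmul, hsum, ← smul_sub, ← Finset.sum_sub_distrib,
      Finset.sum_range_sub (fun k => Φ^[k] g)]
  have hn0 : (0 : ℝ) < n := by exact_mod_cast h
  rw [e, norm_smul, norm_inv, Complex.norm_natCast, mul_comm, ← div_eq_mul_inv]
  gcongr
  exact (norm_sub_le _ _).trans (by linarith [hit n, hit 0])

end Crest.Agent.R78
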