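import Crest.Agent.R78.Basic

/-! # Row 78: trace vectors and the seminorms `Sm`, `Sm2` -/

set_option autoImplicit false

namespace Crest.Agent.R78

open scoped InnerProductSpace ComplexOrder BigOperators Topology
open Filter
open Crest.Agent.R124 (Op cm)
open Crest.OpAlg (LineCalculus)

universe u

variable {H : Type u} [NormedAddCommGroup H] [InnerProductSpace ℂ H] [CompleteSpace H]

/-- `J` extends `a Ω ↦ a⋆ Ω`; `J a J b Ω = b a⋆ Ω`; for `y ∈ A'`: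
`⟪J y Ω, a Ω⟫ = ⟪a⋆ Ω, y Ω⟫ = ⟪y⋆ Ω, a Ω⟫` -/
theorem exists_J (A : StarSubalgebra ℂ (Op H)) {Ω : H} (hc : Cyc (A : Set (Op H)) Ω)
    (ht : ∀ a ∈ A, ‖star a Ω‖ = ‖a Ω‖) :
    ∃ J : H ≃ₗᵢ⋆[ℂ] H, (∀ ξ, J (J ξ) = ξ) ∧ (∀ a ∈ A, J (a Ω) = star a Ω) ∧
      (∀ a ∈ A, jop J a ∈ cmt (A : Set (Op H))) ∧
      ∀ y ∈ cmt (A : Set (Op H)), J (y Ω) = star y Ω := by
  let e : A →ₗ[ℂ] H :=
    { toFun := fun a => (a : Op H) Ω
      map_add' := fun a b => rfl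
      map_smul' := fun c a => rfl }
  let f : A →ₛₗ[starRingEnd ℂ] H :=
    { toFun := fun a => star (a : Op H) Ω
      map_add' := fun a b => by
        show star ((a : Op H) + b) Ω = _
        rw [star_add]; rfl
      map_smul' := fun c a => by
        show star (c • (a : Op H)) Ω = _
        rw [star_smul]; rfl }
  have hd : DenseRange e := by
    refine Dense.mono ?_ hc
    rintro _ ⟨a, ha, rfl⟩
    exact ⟨⟨a, ha⟩, rfl⟩
  obtain ⟨J, hJ⟩ : ∃ J : H →SL[starRingEnd ℂ] H, ∀ a ∈ A, J (a Ω) = star a Ω :=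
    ⟨LinearMap.extendOfNorm f e, fun a ha =>
      LinearMap.extendOfNorm_eq (f := f) (e := e) hd
        ⟨1, fun x => by rw [one_mul]; exact (ht x x.2).le⟩ ⟨a, ha⟩⟩
  have hJn : ∀ ξ, ‖J ξ‖ = ‖ξ‖ := fun ξ =>
    hd.induction_on ξ (isClosed_eq (by fun_prop) (by fun_prop)) fun x => by
      show ‖J ((x : Op H) Ω)‖ = ‖(x : Op H) Ω‖
      rw [hJ _ x.2, ht _ x.2]
  have hJJ : ∀ ξ, J (J ξ) = ξ := fun ξ =>
    hd.induction_on ξ (isClosed_eq (by fun_prop) (by fun_prop)) fun x => by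
      show J (J ((x : Op H) Ω)) = (x : Op H) Ω
      rw [hJ _ x.2, hJ _ (star_mem x.2), star_star]
  let J' : H ≃ₗᵢ⋆[ℂ] H :=
    { toLinearMap := J.toLinearMap
      invFun := J
      left_inv := hJJ
      right_inv := hJJ
      norm_map' := hJn }
  have hJ' : ∀ a ∈ A, J' (a Ω) = star a Ω := hJ
  have hj : ∀ a ∈ A, ∀ b ∈ A, jop J' a (b Ω) = b (star a Ω) := fun a ha b hb => by
    have h1 := hJ' _ (mul_mem ha (star_mem hb))
    rw [star_mul, star_star] at h1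
    rw [jop_apply, hJ' b hb]
    exact h1
  have hcm : ∀ a ∈ A, ∀ s ∈ A, s * jop J' a = jop J' a * s := fun a ha s hs => by
    ext1 ξ
    refine hd.induction_on (p := fun ξ => (s * jop J' a) ξ = (jop J' a * s) ξ) ξ
      (isClosed_eq (by fun_prop) (by fun_prop)) fun x => ?_
    show s (jop J' a ((x : Op H) Ω)) = jop J' a ((s * x) Ω)
    rw [hj a ha _ x.2, hj a ha _ (mul_mem hs x.2)]
    rfl
  refine ⟨J', hJJ, hJ', fun a ha => mem_cmt.2 fun s hs => ⟨hcm a ha s hs, hcm a ha _ (star_mem hs)⟩,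
    fun y hy => ?_⟩
  have key : ∀ ξ, ⟪J' (y Ω), ξ⟫_ℂ = ⟪star y Ω, ξ⟫_ℂ := fun ξ => by
    refine hd.induction_on (p := fun ξ => ⟪J' (y Ω), ξ⟫_ℂ = ⟪star y Ω, ξ⟫_ℂ) ξ
      (isClosed_eq (by fun_prop) (by fun_prop)) fun x => ?_
    show ⟪J' (y Ω), (x : Op H) Ω⟫_ℂ = ⟪star y Ω, (x : Op H) Ω⟫_ℂ
    have h1 : (x : Op H) Ω = J' (star (x : Op H) Ω) := by rw [hJ' _ (star_mem x.2), star_star]
    have h2 : (x : Op H) (y Ω) = y ((x : Op H) Ω) :=
      congrArg (fun z : Op H => z Ω) (mem_cmt.1 hy x x.2).1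
    conv_lhs => rw [h1, inner_J]
    rw [ContinuousLinearMap.star_eq_adjoint, ContinuousLinearMap.star_eq_adjoint,
      ContinuousLinearMap.adjoint_inner_left, ContinuousLinearMap.adjoint_inner_left, h2]
  exact ext_inner_right ℂ key

theorem tr_cmt (A : StarSubalgebra ℂ (Op H)) {Ω : H} (hc : Cyc (A : Set (Op H)) Ω)
    (ht : ∀ a ∈ A, ‖star a Ω‖ = ‖a Ω‖) : Tr (cmt (A : Set (Op H))) Ω := by
  obtain ⟨J, -, h1, h2, h3⟩ := exists_J A hc ht
  have h0 : J Ω = Ω := by simpa using h1 1 (one_mem A)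
  refine ⟨Dense.mono ?_ hc, fun y hy => by rw [← h3 y hy, J.norm_map]⟩
  rintro _ ⟨a, ha, rfl⟩
  refine ⟨jop J (star a), h2 _ (star_mem ha), ?_⟩
  show J (star a (J Ω)) = a Ω
  rw [h0, h1 _ (star_mem ha), star_star]

theorem exists_trJ {M : VN H} {Ω : H} (h : Tr M Ω) : ∃ J, TrJ M Ω J := by
  obtain ⟨J, h0, h1, h2, h3⟩ := exists_J M.toStarSubalgebra h.1 h.2
  have h' : Tr M.commutant Ω := tr_cmt M.toStarSubalgebra h.1 h.2
  obtain ⟨J', -, h1', h2', -⟩ := exists_J M.commutant.toStarSubalgebra h'.1 h'.2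
  have e : J' = J := by
    ext1 ξ
    refine h'.1.induction (P := fun ξ => J' ξ = J ξ) ?_
      (isClosed_eq J'.continuous J.continuous) ξ
    rintro _ ⟨y, hy, rfl⟩
    exact (h1' y hy).trans (h3 y hy).symm
  subst e
  refine ⟨J', h, h0, h1, h3, h2, fun y hy => ?_⟩
  have h4 : jop J' y ∈ M.commutant.commutant := h2' y hy
  rwa [VonNeumannAlgebra.commutant_commutant] at h4

section
variable {M : VN H} {Ω : H} {J : H ≃ₗᵢ⋆[ℂ] H}

theorem TrJ.swap (h : TrJ M Ω J) : TrJ M.commutant Ω J := by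
  refine ⟨tr_cmt M.toStarSubalgebra h.tr.1 h.tr.2, h.J_J, h.app', ?_, ?_, ?_⟩
  · rw [VonNeumannAlgebra.commutant_commutant]; exact h.app
  · rw [VonNeumannAlgebra.commutant_commutant]; exact h.mem'
  · rw [VonNeumannAlgebra.commutant_commutant]; exact h.mem

lemma TrJ.J_vac (h : TrJ M Ω J) : J Ω = Ω := by
  simpa using h.app 1 (one_mem M)

lemma TrJ.jop_vac (h : TrJ M Ω J) {x : Op H} (hx : x ∈ M) : jop J x Ω = star x Ω := by
  rw [jop_apply, h.J_vac, h.app x hx]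

lemma TrJ.jop_vac' (h : TrJ M Ω J) {y : Op H} (hy : y ∈ M.commutant) : jop J y Ω = star y Ω := by
  rw [jop_apply, h.J_vac, h.app' y hy]

lemma TrJ.uin (h : TrJ M Ω J) {x : Op H} (hx : UIn M x) : UIn M.commutant (jop J x) := by
  exact ⟨h.mem x hx.1, jop_unitary h.J_J hx.2⟩

lemma TrJ.uin' (h : TrJ M Ω J) {y : Op H} (hy : UIn M.commutant y) : UIn M (jop J y) := by
  exact ⟨h.mem' y hy.1, jop_unitary h.J_J hy.2⟩

end

end Crest.Agent.R78
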